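import Vale.Agent.P046.Basic

open Finset

namespace Vale.Agent.P046

variable {α : Type} [DecidableEq α] {TT TT' : Finset (Finset α)}

theorem tr_mem_nbhd {S : Finset α} {v : α} :
    v ∈ nbhd TT S ↔ v ∈ S ∨ ∃ T ∈ TT, v ∈ T ∧ ∃ w ∈ T, w ∈ S := by
  simp only [nbhd, mem_union, mem_biUnion, mem_filter, Finset.Nonempty, mem_inter, id]
  constructor
  · rintro (h | ⟨T, ⟨h1, w, h2, h3⟩, h4⟩)
    · exact Or.inl h
    · exact Or.inr ⟨T, h1, h4, w, h2, h3⟩
  · rintro (h | ⟨T, h1, h4, w, h2, h3⟩)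
    · exact Or.inl h
    · exact Or.inr ⟨T, ⟨h1, w, h2, h3⟩, h4⟩

theorem subset_nbhd (TT : Finset (Finset α)) (S : Finset α) : S ⊆ nbhd TT S :=
  subset_union_left

theorem subset_nbhd_of_meet {T S : Finset α} (hT : T ∈ TT) (h : (T ∩ S).Nonempty) :
    T ⊆ nbhd TT S := by
  obtain ⟨w, hw⟩ := h
  exact fun v hv => tr_mem_nbhd.2 (Or.inr ⟨T, hT, hv, w, (mem_inter.1 hw).1, (mem_inter.1 hw).2⟩)

theorem ball_zero (TT : Finset (Finset α)) (S : Finset α) : ball TT 0 S = S := rfl

theorem ball_succ (TT : Finset (Finset α)) (i : ℕ) (S : Finset α) :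
    ball TT (i + 1) S = nbhd TT (ball TT i S) := Function.iterate_succ_apply' _ _ _

theorem tr_nbhd_mono (TT : Finset (Finset α)) {S S' : Finset α} (h : S ⊆ S') :
    nbhd TT S ⊆ nbhd TT S' := fun v hv => by
  rcases tr_mem_nbhd.1 hv with h1 | ⟨T, h1, h2, w, h3, h4⟩
  · exact tr_mem_nbhd.2 (Or.inl (h h1))
  · exact tr_mem_nbhd.2 (Or.inr ⟨T, h1, h2, w, h3, h h4⟩)

theorem ball_mono_set (TT : Finset (Finset α)) (i : ℕ) {S S' : Finset α} (h : S ⊆ S') :
    ball TT i S ⊆ ball TT i S' := by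
  induction i with
  | zero => exact h
  | succ i ih => rw [ball_succ, ball_succ]; exact tr_nbhd_mono TT ih

theorem ball_mono (TT : Finset (Finset α)) {i j : ℕ} (h : i ≤ j) (S : Finset α) :
    ball TT i S ⊆ ball TT j S := by
  induction j, h using Nat.le_induction with
  | base => exact Subset.refl _
  | succ j _ ih => rw [ball_succ]; exact ih.trans (subset_nbhd _ _)

theorem ball_add (TT : Finset (Finset α)) (i j : ℕ) (S : Finset α) :
    ball TT (i + j) S = ball TT i (ball TT j S) := Function.iterate_add_apply _ _ _ _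

theorem mem_ball_iff (TT : Finset (Finset α)) (i : ℕ) (S : Finset α) (v : α) :
    v ∈ ball TT i S ↔ ∃ x ∈ S, v ∈ ball TT i {x} := by
  refine ⟨fun h => ?_, fun ⟨x, hx, h⟩ => ball_mono_set TT i (singleton_subset_iff.2 hx) h⟩
  induction i generalizing v with
  | zero => exact ⟨v, h, mem_singleton_self v⟩
  | succ i ih =>
    rw [ball_succ] at h
    rcases tr_mem_nbhd.1 h with h1 | ⟨T, h1, h2, w, h3, h4⟩
    · obtain ⟨x, hx, h5⟩ := ih v h1
      exact ⟨x, hx, ball_mono TT (Nat.le_succ i) _ h5⟩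
    · obtain ⟨x, hx, h5⟩ := ih w h4
      refine ⟨x, hx, ?_⟩
      rw [ball_succ]
      exact tr_mem_nbhd.2 (Or.inr ⟨T, h1, h2, w, h3, h5⟩)

theorem ball_symm {i : ℕ} {v x : α} (h : v ∈ ball TT i {x}) : x ∈ ball TT i {v} := by
  induction i generalizing v with
  | zero =>
    rw [ball_zero, mem_singleton] at h ⊢
    exact h.symm
  | succ i ih =>
    rw [ball_succ] at h
    rcases tr_mem_nbhd.1 h with h1 | ⟨T, h1, h2, w, h3, h4⟩
    · exact ball_mono TT (Nat.le_succ i) _ (ih h1)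
    · rw [ball_add]
      refine ball_mono_set TT i (singleton_subset_iff.2 ?_) (ih h4)
      rw [ball_succ, ball_zero]
      exact tr_mem_nbhd.2 (Or.inr ⟨T, h1, h3, v, h2, mem_singleton_self v⟩)

theorem ball_subset {A S : Finset α} (hA : ∀ T ∈ TT, T ⊆ A) (hS : S ⊆ A) (i : ℕ) :
    ball TT i S ⊆ A := by
  induction i with
  | zero => exact hS
  | succ i ih =>
    rw [ball_succ]
    intro v hv
    rcases tr_mem_nbhd.1 hv with h1 | ⟨T, h1, h2, -⟩
    · exact ih h1
    · exact hA T h1 h2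

theorem tr_card_nbhd_le (hl : LinHG TT) {Δ : ℕ} (hΔ : ∀ x, (thru TT x).card ≤ Δ)
    (S : Finset α) : (nbhd TT S).card ≤ (1 + 2 * Δ) * S.card := by
  have h1 : nbhd TT S ⊆ S ∪ S.biUnion fun v => (thru TT v).biUnion fun T => T.erase v := by
    intro v hv
    by_cases hS : v ∈ S
    · exact mem_union_left _ hS
    rcases tr_mem_nbhd.1 hv with h1 | ⟨T, h1, h2, w, h3, h4⟩
    · exact absurd h1 hS
    · exact mem_union_right _ (mem_biUnion.2 ⟨w, h4, mem_biUnion.2 ⟨T, mem_thru.2 ⟨h1, h3⟩,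
        mem_erase.2 ⟨fun e => hS (e ▸ h4), h2⟩⟩⟩)
  have h2 : ∀ v ∈ S, ((thru TT v).biUnion fun T => T.erase v).card ≤ 2 * Δ := fun v _ => by
    refine (card_biUnion_le_card_mul _ _ 2 fun T hT => ?_).trans ?_
    · exact (card_erase_two (hl.card3 T (mem_thru.1 hT).1) (mem_thru.1 hT).2).le
    · have := hΔ v
      omega
  have h3 := card_biUnion_le_card_mul _ _ _ h2
  have h4 := (card_le_card h1).trans (card_union_le _ _)
  nlinarith

theorem card_ball_le (hl : LinHG TT) {Δ : ℕ} (hΔ : ∀ x, (thru TT x).card ≤ Δ) (i : ℕ)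
    (S : Finset α) : (ball TT i S).card ≤ (1 + 2 * Δ) ^ i * S.card := by
  induction i with
  | zero => simp [ball_zero]
  | succ i ih =>
    rw [ball_succ, pow_succ', mul_assoc]
    exact (tr_card_nbhd_le hl hΔ _).trans (Nat.mul_le_mul_left _ ih)

theorem tr_mem_trees {x : α} {k : ℕ} {F : Finset (Finset α)} :
    F ∈ trees TT x (k + 1) ↔
      ∃ F0 ∈ trees TT x k, ∃ T ∈ TT, (T ∩ vset x F0).card = 1 ∧ insert T F0 = F := by
  simp only [trees, mem_biUnion, mem_image, mem_filter, and_assoc]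

theorem tr_mem_unic {x : α} {k : ℕ} {U : Finset α} :
    U ∈ unic TT x k ↔
      ∃ F ∈ trees TT x k, ∃ T ∈ TT, T ∉ F ∧ (T ∩ vset x F).card = 2 ∧ vset x F ∪ T = U := by
  simp only [unic, mem_biUnion, mem_image, mem_filter, and_assoc]

theorem vset_insert (x : α) (F : Finset (Finset α)) (T : Finset α) :
    vset x (insert T F) = vset x F ∪ T := by
  rw [vset, vset, biUnion_insert, insert_union, union_comm]
  rfl

theorem trees_spec (hl : LinHG TT) {x : α} {k : ℕ} {F : Finset (Finset α)}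
    (h : F ∈ trees TT x k) :
    F ⊆ TT ∧ (vset x F).card = 2 * k + 1 ∧ vset x F ⊆ ball TT k {x} := by
  induction k generalizing F with
  | zero =>
    have : F = ∅ := by simpa [trees] using h
    subst this
    simp [vset, ball_zero]
  | succ k ih =>
    obtain ⟨F0, h0, T, hT, h1, rfl⟩ := tr_mem_trees.1 h
    obtain ⟨h2, h3, h4⟩ := ih h0
    refine ⟨insert_subset hT h2, ?_, ?_⟩
    · have := card_union_add_card_inter (vset x F0) T
      rw [inter_comm, h1, h3, hl.card3 T hT] at this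
      rw [vset_insert]
      omega
    · rw [vset_insert, ball_succ]
      refine union_subset (h4.trans (subset_nbhd _ _)) (subset_nbhd_of_meet hT ?_)
      exact (card_pos.1 (by omega)).mono (inter_subset_inter (Subset.refl T) h4)

theorem insert_mem_trees {x : α} {k : ℕ} {F : Finset (Finset α)} (h : F ∈ trees TT x k)
    {T : Finset α} (hT : T ∈ TT) (h1 : (T ∩ vset x F).card = 1) :
    insert T F ∈ trees TT x (k + 1) := tr_mem_trees.2 ⟨F, h, T, hT, h1, rfl⟩

theorem trees_mono (h : TT' ⊆ TT) (x : α) (k : ℕ) : trees TT' x k ⊆ trees TT x k := by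
  induction k with
  | zero => exact Subset.refl _
  | succ k ih =>
    intro F hF
    obtain ⟨F0, h0, T, hT, h1, rfl⟩ := tr_mem_trees.1 hF
    exact insert_mem_trees (ih h0) (h hT) h1

theorem card_trees_le (hl : LinHG TT) {D : ℕ} (hD : ∀ x, (thru TT x).card ≤ D) (x : α) (k : ℕ) :
    (trees TT x k).card ≤ ((2 * k + 1) * D) ^ k := by
  induction k with
  | zero => simp [trees]
  | succ k ih =>
    have h1 : ∀ F ∈ trees TT x k, ((TT.filter fun T => (T ∩ vset x F).card = 1).image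
        fun T => insert T F).card ≤ (2 * k + 1) * D := fun F hF => by
      refine card_image_le.trans ?_
      refine (card_le_card (monotone_filter_right _ fun T _ h => card_pos.1 (by omega))).trans
        ((card_meet_le TT (vset x F)).trans ?_)
      have := sum_le_card_nsmul (vset x F) (fun v => (thru TT v).card) D fun v _ => hD v
      rwa [(trees_spec hl hF).2.1, smul_eq_mul] at this
    refine (card_biUnion_le_card_mul _ _ _ h1).trans ?_
    have h2 : (2 * k + 1) * D ≤ (2 * (k + 1) + 1) * D := Nat.mul_le_mul_right _ (by omega)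
    rw [pow_succ]
    exact Nat.mul_le_mul (ih.trans (Nat.pow_le_pow_left h2 k)) h2

theorem unic_spec (hl : LinHG TT) {x : α} {k : ℕ} {U : Finset α} (h : U ∈ unic TT x k) :
    U.card = 2 * k + 2 ∧ U ⊆ ball TT (k + 1) {x} := by
  obtain ⟨F, hF, T, hT, -, h1, rfl⟩ := tr_mem_unic.1 h
  obtain ⟨-, h3, h4⟩ := trees_spec hl hF
  constructor
  · have := card_union_add_card_inter (vset x F) T
    rw [inter_comm, h1, h3, hl.card3 T hT] at this
    omega
  · rw [ball_succ]
    refine union_subset (h4.trans (subset_nbhd _ _)) (subset_nbhd_of_meet hT ?_)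
    exact (card_pos.1 (by omega)).mono (inter_subset_inter (Subset.refl T) h4)

theorem unic_mono (h : TT' ⊆ TT) (x : α) (k : ℕ) : unic TT' x k ⊆ unic TT x k := by
  intro U hU
  obtain ⟨F, hF, T, hT, h1⟩ := tr_mem_unic.1 hU
  exact tr_mem_unic.2 ⟨F, trees_mono h x k hF, T, h hT, h1⟩

theorem card_unic_le (hl : LinHG TT) {D : ℕ} (hD : ∀ x, (thru TT x).card ≤ D) (x : α) (k : ℕ) :
    (unic TT x k).card ≤ ((2 * k + 1) * D) ^ k * (2 * k + 1) ^ 2 := by
  have h1 : ∀ F ∈ trees TT x k, ((TT.filter fun T => T ∉ F ∧ (T ∩ vset x F).card = 2).image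
      fun T => vset x F ∪ T).card ≤ (2 * k + 1) ^ 2 := fun F hF => by
    refine card_image_le.trans ?_
    have h2 : (TT.filter fun T => T ∉ F ∧ (T ∩ vset x F).card = 2).card ≤
        (powersetCard 2 (vset x F)).card := by
      refine card_le_card_of_injOn (fun T => T ∩ vset x F) (fun T hT => ?_) fun T hT T' hT' e => ?_
      · exact mem_coe.2 (mem_powersetCard.2 ⟨inter_subset_right, (mem_filter.1 hT).2.2⟩)
      · by_contra hne
        have h3 := hl.lin T (mem_filter.1 hT).1 T' (mem_filter.1 hT').1 hne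
        have h4 : T ∩ vset x F ⊆ T ∩ T' := subset_inter inter_subset_left (by
          have e' : T ∩ vset x F = T' ∩ vset x F := e
          rw [e']; exact inter_subset_left)
        have h5 := card_le_card h4
        rw [(mem_filter.1 hT).2.2] at h5
        omega
    rw [card_powersetCard, (trees_spec hl hF).2.1] at h2
    exact h2.trans (Nat.choose_le_pow _ _)
  exact (card_biUnion_le_card_mul _ _ _ h1).trans
    (Nat.mul_le_mul_right _ (card_trees_le hl hD x k))

/-- Near a good vertex a new hyperedge meets a small tree in at most one point. -/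
theorem goodV_meet (hl : LinHG TT) {K : ℕ} {x : α} (hg : goodV TT K x) :
    ∀ k < K, ∀ F ∈ trees TT x k, ∀ T ∈ TT, T ∉ F → (T ∩ vset x F).card ≤ 1 := by
  intro k
  induction k with
  | zero =>
    intro _ F hF T _ _
    exact (card_le_card inter_subset_right).trans (trees_spec hl hF).2.1.le
  | succ k ih =>
    intro hk F hF T hT hTF
    have h2 : (T ∩ vset x F).card ≠ 2 := fun e => by
      have : vset x F ∪ T ∈ unic TT x (k + 1) := tr_mem_unic.2 ⟨F, hF, T, hT, hTF, e, rfl⟩
      rw [hg (k + 1) hk] at this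
      exact notMem_empty _ this
    obtain ⟨F0, h0, T0, hT0, -, rfl⟩ := tr_mem_trees.1 hF
    rw [mem_insert, not_or] at hTF
    have h3 := ih (by omega) F0 h0 T hT hTF.2
    have h4 := hl.lin T hT T0 hT0 hTF.1
    have h5 := card_union_le (T ∩ vset x F0) (T ∩ T0)
    rw [← inter_union_distrib_left, ← vset_insert] at h5
    omega

theorem tr_ind_nonneg (S A : Finset α) : 0 ≤ ind S A := by
  unfold ind; split_ifs <;> norm_num

theorem HG.nbad_le (H : HG α) {A : Finset α} (hA : A ⊆ H.A0) (Δ K : ℕ) (J : α → ℝ) :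
    (H.nbad A Δ K : ℝ) ≤ (1 + 2 * (Δ : ℝ)) ^ K * (3 * ∑ v ∈ A, psi (J v))
      + ∑ k ∈ range K, ∑ x ∈ H.A0, ∑ U ∈ unic H.TT x k,
          Real.exp (2 * k + 2) * (ind U A * Real.exp (-∑ v ∈ U, J v)) := by
  classical
  have hl : LinHG (H.clean A Δ) := (H.tri_lin A).mono (H.clean_subset A Δ)
  have hs : ∀ T ∈ H.clean A Δ, T ⊆ A := fun T hT => H.tri_sub A T (H.clean_subset A Δ hT)
  have hs' : H.clean A Δ ⊆ H.TT := (H.clean_subset A Δ).trans (H.tri_subset A)
  set JB := A.filter fun v => 1 ≤ J v with hJB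
  set Bl := ball (H.clean A Δ) K JB with hBl
  set Bad := A.filter fun x => ¬ goodV (H.clean A Δ) K x with hBad
  have h1 : (JB.card : ℝ) ≤ 3 * ∑ v ∈ A, psi (J v) := by
    rw [card_eq_sum_ones, Nat.cast_sum, mul_sum]
    refine le_trans (sum_le_sum fun v hv => ?_) (sum_le_sum_of_subset_of_nonneg
      (filter_subset (fun v => 1 ≤ J v) A) fun v _ _ => by linarith [psi_nonneg (J v)])
    have h2 := (mem_filter.1 hv).2
    refine le_trans ?_ (min_le_psi (J v))
    rw [Nat.cast_one]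
    exact le_min (by nlinarith) (h2.trans (le_abs_self _))
  have h2 : (Bl.card : ℝ) ≤ (1 + 2 * (Δ : ℝ)) ^ K * (3 * ∑ v ∈ A, psi (J v)) := by
    have h3 : (Bl.card : ℝ) ≤ (1 + 2 * (Δ : ℝ)) ^ K * JB.card := by
      exact_mod_cast card_ball_le hl (H.clean_deg_le A Δ) K JB
    exact h3.trans (mul_le_mul_of_nonneg_left h1 (by positivity))
  have h0 : ∀ (k : ℕ) (U : Finset α),
      0 ≤ Real.exp (2 * k + 2) * (ind U A * Real.exp (-∑ v ∈ U, J v)) := fun k U =>
    mul_nonneg (Real.exp_pos _).le (mul_nonneg (tr_ind_nonneg _ _) (Real.exp_pos _).le)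
  have h3 : ∀ x ∈ Bad \ Bl, (1 : ℝ) ≤ ∑ k ∈ range K, ∑ U ∈ unic H.TT x k,
      Real.exp (2 * k + 2) * (ind U A * Real.exp (-∑ v ∈ U, J v)) := fun x hx => by
    obtain ⟨hx1, hx2⟩ := mem_sdiff.1 hx
    obtain ⟨hxA, hxg⟩ := mem_filter.1 hx1
    simp only [goodV, not_forall] at hxg
    obtain ⟨k, hk, hne⟩ := hxg
    obtain ⟨U, hU⟩ := nonempty_iff_ne_empty.2 hne
    obtain ⟨hc, hb⟩ := unic_spec hl hU
    have hUA : U ⊆ A := hb.trans (ball_subset hs (singleton_subset_iff.2 hxA) _)
    have hJ : ∀ v ∈ U, J v ≤ 1 := fun v hv => by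
      by_contra hv1
      exact hx2 ((mem_ball_iff _ _ _ _).2 ⟨v, mem_filter.2 ⟨hUA hv, (not_le.1 hv1).le⟩,
        ball_mono _ hk _ (ball_symm (hb hv))⟩)
    have hsum : ∑ v ∈ U, J v ≤ 2 * k + 2 := by
      have := sum_le_card_nsmul U J 1 hJ
      rw [hc, nsmul_eq_mul] at this
      push_cast at this
      linarith
    refine le_trans ?_ (single_le_sum (f := fun k : ℕ => ∑ U ∈ unic H.TT x k,
      Real.exp (2 * k + 2) * (ind U A * Real.exp (-∑ v ∈ U, J v)))
      (fun k _ => sum_nonneg fun U _ => h0 k U) (mem_range.2 hk))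
    refine le_trans ?_ (single_le_sum (fun U _ => h0 k U) (unic_mono hs' x k hU))
    rw [ind, if_pos hUA, one_mul, ← Real.exp_add]
    exact Real.one_le_exp (by linarith)
  have h4 : ((Bad \ Bl).card : ℝ) ≤ ∑ x ∈ H.A0, ∑ k ∈ range K, ∑ U ∈ unic H.TT x k,
      Real.exp (2 * k + 2) * (ind U A * Real.exp (-∑ v ∈ U, J v)) := by
    rw [card_eq_sum_ones, Nat.cast_sum, Nat.cast_one]
    exact (sum_le_sum h3).trans (sum_le_sum_of_subset_of_nonneg
      (sdiff_subset.trans ((filter_subset _ _).trans hA))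
      fun x _ _ => sum_nonneg fun k _ => sum_nonneg fun U _ => h0 k U)
  have h5 : (Bad.card : ℝ) ≤ (Bad \ Bl).card + Bl.card := by
    exact_mod_cast card_le_card_sdiff_add_card
  rw [sum_comm]
  have h6 : (H.nbad A Δ K : ℝ) = Bad.card := rfl
  linarith

end Vale.Agent.P046
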