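import Vale.Agent.P046.Run
import Vale.Agent.P046.Trees

open Finset

namespace Vale.Agent.P046

theorem bad_jump_ind {α : Type} [DecidableEq α] (H : HG α) (U A : Finset α) :
    ∑ T ∈ H.tri A, (ind U (A \ T) - ind U A)
      = -(ind U A * (((H.tri A).filter (fun T => (T ∩ U).Nonempty)).card : ℝ)) := by
  by_cases h : U ⊆ A
  · have h1 : ∀ T ∈ H.tri A, ind U (A \ T) - ind U A
        = -(if (T ∩ U).Nonempty then (1 : ℝ) else 0) := by
      intro T _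
      unfold ind
      rw [if_pos h]
      by_cases h2 : (T ∩ U).Nonempty
      · rw [if_pos h2, if_neg]
        · ring
        · intro h3
          obtain ⟨w, hw⟩ := h2
          exact (mem_sdiff.1 (h3 (mem_inter.1 hw).2)).2 (mem_inter.1 hw).1
      · rw [if_neg h2, if_pos]
        · ring
        · intro w hw
          exact mem_sdiff.2 ⟨h hw, fun h3 => h2 ⟨w, mem_inter.2 ⟨h3, hw⟩⟩⟩
    rw [Finset.sum_congr rfl h1, Finset.sum_neg_distrib, Finset.sum_boole]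
    unfold ind
    rw [if_pos h, one_mul]
  · have h1 : ∀ T ∈ H.tri A, ind U (A \ T) - ind U A = 0 := by
      intro T _
      unfold ind
      rw [if_neg h, if_neg (fun h3 => h (h3.trans sdiff_subset))]
      ring
    rw [Finset.sum_congr rfl h1]
    unfold ind
    rw [if_neg h]
    simp

/-- The exponent used in the supersolution. -/
noncomputable def badF {α : Type} [DecidableEq α] (H : HG α) (M2 β n τ : ℝ) : ℝ :=
  β * (2 * τ - Real.log (1 + M2 * H.aa τ)) - n ^ 2 * H.aa τ / 2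

theorem badF_hasDerivAt {α : Type} [DecidableEq α] [Fintype α] (H : HG α) {M2 : ℝ}
    (hM2 : 0 ≤ M2) (β n τ : ℝ) :
    HasDerivAt (badF H M2 β n) (2 * β * H.chi M2 τ - n ^ 2 * H.aa τ) τ := by
  have ha := H.aa_nonneg τ
  have hp : 0 < 1 + M2 * H.aa τ := by positivity
  have h1 : HasDerivAt (fun τ => 1 + M2 * H.aa τ) (M2 * (2 * H.aa τ)) τ :=
    ((H.hasDerivAt_aa τ).const_mul M2).const_add 1
  have h2 := h1.log hp.ne'
  have h3 : HasDerivAt (fun τ : ℝ => 2 * τ) 2 τ := by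
    simpa using (hasDerivAt_id τ).const_mul 2
  have h4 := ((h3.sub h2).const_mul β).sub (((H.hasDerivAt_aa τ).const_mul (n ^ 2)).div_const 2)
  refine HasDerivAt.congr_deriv h4 ?_
  unfold HG.chi
  field_simp
  ring

theorem badF_contDiff {α : Type} [DecidableEq α] [Fintype α] (H : HG α) {M2 : ℝ}
    (hM2 : 0 ≤ M2) (β n : ℝ) : ContDiff ℝ 1 (badF H M2 β n) := by
  unfold badF
  refine (contDiff_const.mul ((contDiff_const.mul contDiff_id).sub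
    ((contDiff_const.add (contDiff_const.mul H.contDiff_aa)).log fun τ => ?_))).sub
    ((contDiff_const.mul H.contDiff_aa).div_const 2)
  have ha := H.aa_nonneg τ
  positivity

theorem bad_contDiff_snd {α : Type} [Fintype α] (v : α) :
    ContDiff ℝ 1 (fun p : ℝ × ((α → ℝ) × (α → ℝ)) => p.2.2 v) :=
  (contDiff_apply ℝ ℝ v).comp (contDiff_snd.comp contDiff_snd)

theorem bad_hasDerivAt_snd {α : Type} (r w : (α → ℝ) × (α → ℝ)) (v : α) :
    HasDerivAt (fun h : ℝ => (r + h • w).2 v) (w.2 v) 0 := by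
  simpa using ((hasDerivAt_id (0:ℝ)).mul_const (w.2 v)).const_add (r.2 v)

theorem bad_cts_Z {α : Type} [DecidableEq α] [Fintype α] (U : Finset α) :
    Cts (fun (σ : Finset α × Finset α) (r : (α → ℝ) × (α → ℝ)) =>
      ind U σ.1 * Real.exp (-∑ v ∈ U, r.2 v)) := by
  intro s
  fun_prop

theorem bad_sm_J {α : Type} [Fintype α] :
    Sm (fun (_ : ℝ) (σ : Finset α × Finset α) (r : (α → ℝ) × (α → ℝ)) =>
      ∑ v ∈ σ.1, psi (r.2 v)) := fun _ =>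
  ContDiff.sum fun v _ => psi_contDiff.comp (bad_contDiff_snd v)

theorem Z_bound {α : Type} [DecidableEq α] [Fintype α] {H : HG α} {H' : Finset (Finset α)}
    {δ M2 τ1 : ℝ} (hD : 1 ≤ H.D) (hδ1 : δ ≤ 1) (hM2 : 0 ≤ M2) (hτ : 0 ≤ τ1)
    (X : H.XE H' δ M2 H.A0 0 τ1 (0, 0)) (U : Finset α) :
    X.E τ1 (fun σ r => ind U σ.1 * Real.exp (-∑ v ∈ U, r.2 v)) ≤
      ((1 + M2 * H.aa τ1) / Real.exp (2 * τ1)) ^ ((1 - δ) * U.card / 2 : ℝ)
        * Real.exp ((U.card : ℝ) ^ 2 * H.aa τ1 / 2) := by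
  set β : ℝ := (1 - δ) * U.card / 2 with hβ
  set n : ℝ := (U.card : ℝ) with hn
  have hβ0 : 0 ≤ β := by
    have : 0 ≤ 1 - δ := by linarith
    positivity
  have hsm0 : Sm (fun (_ : ℝ) (σ : Finset α × Finset α) (r : (α → ℝ) × (α → ℝ)) =>
      ind U σ.1 * Real.exp (-∑ v ∈ U, r.2 v)) := fun _ =>
    contDiff_const.mul (ContDiff.sum fun v _ => bad_contDiff_snd v).neg.exp
  have hsm : Sm (fun (τ : ℝ) (σ : Finset α × Finset α) (r : (α → ℝ) × (α → ℝ)) =>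
      Real.exp (badF H M2 β n τ) * (ind U σ.1 * Real.exp (-∑ v ∈ U, r.2 v))) :=
    Sm.tmul (badF_contDiff H hM2 β n).exp hsm0
  have key := X.le_of_super hsm le_rfl hτ le_rfl (fun τ _ s r _ => by
    rw [Sys.gen_tmul _ (badF_hasDerivAt H hM2 β n τ).exp hsm0]
    have hg : (H.sys H' δ M2).gen (fun (_ : ℝ) (σ : Finset α × Finset α)
        (r : (α → ℝ) × (α → ℝ)) => ind U σ.1 * Real.exp (-∑ v ∈ U, r.2 v)) τ s r
        = ind U s.1 * Real.exp (-∑ v ∈ U, r.2 v) *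
          (-(∑ v ∈ U, H.chi M2 τ * max (1 - δ - H.u (H.aa τ) s.1 v) 0)
            - H.aa τ * (((H.tri s.1).filter (fun T => (T ∩ U).Nonempty)).card : ℝ)) := by
      unfold Sys.gen
      rw [H.sys_sum_fst H' δ M2 (fun B => ind U B * Real.exp (-∑ v ∈ U, r.2 v)) s]
      have h1 : HasDerivAt (fun h : ℝ => ∑ v ∈ U, (r + h • (H.sys H' δ M2).drift τ s).2 v)
          (∑ v ∈ U, ((H.sys H' δ M2).drift τ s).2 v) 0 :=
        HasDerivAt.fun_sum fun v _ => bad_hasDerivAt_snd r _ v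
      have h2 := (h1.neg.exp).const_mul (ind U s.1)
      have h3 : deriv (fun h : ℝ => ind U s.1 *
          Real.exp (-∑ v ∈ U, (r + h • (H.sys H' δ M2).drift τ s).2 v)) 0 = _ := h2.deriv
      rw [h3]
      simp only [← sub_mul, ← Finset.sum_mul]
      rw [bad_jump_ind]
      simp only [HG.sys, Pi.neg_apply, zero_smul, add_zero]
      ring
    rw [hg]
    have hZ : 0 ≤ Real.exp (badF H M2 β n τ) * (ind U s.1 * Real.exp (-∑ v ∈ U, r.2 v)) :=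
      mul_nonneg (Real.exp_pos _).le (mul_nonneg (tr_ind_nonneg _ _) (Real.exp_pos _).le)
    have hh := mul_le_mul_of_nonneg_left ((H.tri_lin s.1).hazard U) (H.aa_nonneg τ)
    have hu : H.aa τ * ∑ v ∈ U, ((thru (H.tri s.1) v).card : ℝ) = ∑ v ∈ U, H.u (H.aa τ) s.1 v := by
      rw [Finset.mul_sum]; rfl
    have hc0 := H.chi_pos hM2 τ
    have hc1 := H.chi_le_one hM2 τ
    have hv : ∑ v ∈ U, ((1 - δ) * H.chi M2 τ
        - H.chi M2 τ * max (1 - δ - H.u (H.aa τ) s.1 v) 0 - H.u (H.aa τ) s.1 v) ≤ 0 := by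
      refine Finset.sum_nonpos fun v _ => ?_
      have h1 := H.u_nonneg (H.aa_nonneg τ) s.1 v
      have h2 := mul_le_mul_of_nonneg_left (le_max_left (1 - δ - H.u (H.aa τ) s.1 v) 0) hc0.le
      nlinarith
    rw [Finset.sum_sub_distrib, Finset.sum_sub_distrib, Finset.sum_const, nsmul_eq_mul] at hv
    have hneg : (2 * β * H.chi M2 τ - n ^ 2 * H.aa τ) +
        (-(∑ v ∈ U, H.chi M2 τ * max (1 - δ - H.u (H.aa τ) s.1 v) 0)
            - H.aa τ * (((H.tri s.1).filter (fun T => (T ∩ U).Nonempty)).card : ℝ)) ≤ 0 := by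
      rw [mul_sub, hu] at hh
      rw [hβ]
      nlinarith
    have := mul_nonpos_of_nonneg_of_nonpos hZ hneg
    nlinarith)
  rw [X.init _ (hsm.cts 0), X.smul τ1 ⟨hτ, le_rfl⟩ _ _ (bad_cts_Z U)] at key
  have h0 : Real.exp (badF H M2 β n 0) * (ind U (H.A0, H.A0).1 *
      Real.exp (-∑ v ∈ U, ((0, 0) : (α → ℝ) × (α → ℝ)).2 v)) ≤ 1 := by
    have h1 : Real.exp (badF H M2 β n 0) ≤ 1 := by
      rw [Real.exp_le_one_iff]
      unfold badF
      have ha := H.aa_nonneg 0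
      have h2 : 0 ≤ Real.log (1 + M2 * H.aa 0) := Real.log_nonneg (by nlinarith)
      have h3 : 0 ≤ n ^ 2 * H.aa 0 / 2 := by positivity
      nlinarith
    have h2 : ind U H.A0 ≤ 1 := by unfold ind; split_ifs <;> norm_num
    simp only [Pi.zero_apply, Finset.sum_const_zero, neg_zero, Real.exp_zero, mul_one]
    exact mul_le_one₀ h1 (tr_ind_nonneg _ _) h2
  have h1 := key.trans h0
  have ha := H.aa_nonneg τ1
  have hp : 0 < 1 + M2 * H.aa τ1 := by positivity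
  have h2 : ((1 + M2 * H.aa τ1) / Real.exp (2 * τ1)) ^ β * Real.exp (n ^ 2 * H.aa τ1 / 2)
      = Real.exp (-badF H M2 β n τ1) := by
    rw [Real.rpow_def_of_pos (by positivity), ← Real.exp_add, Real.log_div hp.ne' (by positivity),
      Real.log_exp]
    unfold badF
    congr 1
    ring
  rw [h2, Real.exp_neg, ← one_div, le_div_iff₀ (Real.exp_pos _), mul_comm]
  exact h1

theorem bad_chi_le {α : Type} [DecidableEq α] [Fintype α] (H : HG α) (hD : 1 ≤ H.D) {M2 : ℝ}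
    (hM2 : 0 < M2) (τ : ℝ) :
    H.chi M2 τ ≤ 1 / (Real.sqrt (Real.sqrt M2) * H.gam τ ^ 2) := by
  have hg := H.gam_pos hD τ
  have hs : 0 < Real.sqrt (Real.sqrt M2) := Real.sqrt_pos.2 (Real.sqrt_pos.2 hM2)
  set s := Real.sqrt (Real.sqrt M2) * H.gam τ ^ 2 with hs'
  have hs0 : 0 < s := by positivity
  have h4 : s ^ 4 = M2 * H.aa τ := by
    rw [← H.gam_pow hD τ, hs', mul_pow]
    have h1 : Real.sqrt (Real.sqrt M2) ^ 4 = M2 := by
      rw [show (4 : ℕ) = 2 * 2 from rfl, pow_mul, Real.sq_sqrt (Real.sqrt_nonneg _),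
        Real.sq_sqrt hM2.le]
    rw [h1]; ring
  unfold HG.chi
  rw [← h4]
  apply one_div_le_one_div_of_le hs0
  nlinarith [sq_nonneg (s ^ 2 - 1 / 2), sq_nonneg (s - 1 / 2)]

theorem bad_gen_J {φ φ' c : ℝ → ℝ} {C : ℝ} (hφ : PhiOK φ φ' c C) {α : Type} [DecidableEq α]
    [Fintype α] (H : HG α) (H' : Finset (Finset α)) {δ M2 : ℝ} (hδ : 0 < δ) (hδ1 : δ ≤ 1)
    (hM2 : 0 ≤ M2) (τ : ℝ) (s : Finset α × Finset α) (r : (α → ℝ) × (α → ℝ)) :
    (H.sys H' δ M2).gen (fun (_ : ℝ) (σ : Finset α × Finset α) (r : (α → ℝ) × (α → ℝ)) =>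
      ∑ v ∈ σ.1, psi (r.2 v)) τ s r
      ≤ H.chi M2 τ * (16 * C / δ ^ 4) * (∑ e ∈ s.1, φ (r.1 e) + H.M4 (H.aa τ) s.1 r.1) := by
  unfold Sys.gen
  rw [H.sys_sum_fst H' δ M2 (fun B => ∑ v ∈ B, psi (r.2 v)) s]
  have h1 : HasDerivAt (fun h : ℝ => ∑ v ∈ s.1, psi ((r + h • (H.sys H' δ M2).drift τ s).2 v))
      (∑ v ∈ s.1, r.2 v / Real.sqrt (1 + r.2 v ^ 2) * ((H.sys H' δ M2).drift τ s).2 v) 0 := by
    refine HasDerivAt.fun_sum fun v _ => ?_
    have h2 : HasDerivAt psi (r.2 v / Real.sqrt (1 + r.2 v ^ 2))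
        ((r + (0 : ℝ) • (H.sys H' δ M2).drift τ s).2 v) := by
      simpa using psi_hasDerivAt (r.2 v)
    exact h2.comp (0 : ℝ) (bad_hasDerivAt_snd r _ v)
  rw [h1.deriv]
  have h2 : (H.sys H' δ M2).rate τ * ∑ T ∈ H.tri s.1,
      (∑ v ∈ s.1 \ T, psi (r.2 v) - ∑ v ∈ s.1, psi (r.2 v)) ≤ 0 := by
    refine mul_nonpos_of_nonneg_of_nonpos (H.aa_nonneg τ) (Finset.sum_nonpos fun T _ => ?_)
    exact sub_nonpos.2 (Finset.sum_le_sum_of_subset_of_nonneg sdiff_subset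
      fun v _ _ => psi_nonneg _)
  have hc0 := H.chi_pos hM2 τ
  have hC := hφ.C1
  have h3 : ∑ v ∈ s.1, r.2 v / Real.sqrt (1 + r.2 v ^ 2) * ((H.sys H' δ M2).drift τ s).2 v
      ≤ H.chi M2 τ * (16 * C / δ ^ 4) * (∑ e ∈ s.1, φ (r.1 e) + H.M4 (H.aa τ) s.1 r.1) := by
    unfold HG.M4
    rw [← Finset.sum_add_distrib, Finset.mul_sum]
    refine Finset.sum_le_sum fun v _ => ?_
    have h4 : ((H.sys H' δ M2).drift τ s).2 v
        = H.chi M2 τ * max (1 - δ - H.u (H.aa τ) s.1 v) 0 := rfl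
    rw [h4]
    have h5 := (le_abs_self _).trans (psi_deriv_abs_le (r.2 v))
    have h6 : 0 ≤ H.chi M2 τ * max (1 - δ - H.u (H.aa τ) s.1 v) 0 :=
      mul_nonneg hc0.le (le_max_right _ _)
    have h7 : max (1 - δ - H.u (H.aa τ) s.1 v) 0
        ≤ 16 * C / δ ^ 4 * (φ (r.1 v) + H.mm (H.aa τ) s.1 r.1 v ^ 4) := by
      have hu := H.u_nonneg (H.aa_nonneg τ) s.1 v
      rcases le_total (1 - δ - H.u (H.aa τ) s.1 v) 0 with h | h
      · rw [max_eq_right h]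
        have := hφ.nonneg (r.1 v)
        positivity
      · rw [max_eq_left h]
        have h8 : δ ≤ |H.mm (H.aa τ) s.1 r.1 v + r.1 v| := by
          unfold HG.mm
          refine le_trans ?_ (neg_le_abs _)
          linarith
        have := hφ.one_le_of_dev hδ hδ1 h8
        linarith
    have h8 := mul_le_mul_of_nonneg_left h7 hc0.le
    have h9 := mul_le_mul_of_nonneg_right h5 h6
    rw [mul_assoc]
    linarith
  linarith

theorem J_bound {φ φ' c : ℝ → ℝ} {C : ℝ} (hφ : PhiOK φ φ' c C) {κ : Fin 4 → ℝ} {K γ0 : ℝ}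
    (hV : VOK φ κ K γ0) :
    ∃ K3 : ℝ, 0 < K3 ∧ ∀ {α : Type} [DecidableEq α] [Fintype α] (H : HG α)
      (H' : Finset (Finset α)) (δ M2 τ1 γ2 : ℝ), 1 ≤ H.D → H.D ≤ H.A0.card → 0 < δ → δ ≤ 1 →
      0 < M2 → 0 ≤ τ1 → 0 < γ2 → γ2 ≤ γ0 → H.gam τ1 ≤ γ2 →
      ∀ X : H.XE H' δ M2 H.A0 0 τ1 (0, 0),
        X.E τ1 (fun σ r => ∑ v ∈ σ.1, psi (r.2 v))
          ≤ K3 / (δ ^ 4 * Real.sqrt (Real.sqrt M2)) / H.nrm τ1 := by
  set K0 : ℝ := Real.exp (12 * K) * (8 * κ 1 + 50 * κ 3 + 1) with hK0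
  have hC := hφ.C1
  have hK0p : 0 < K0 := by
    have h1 := hV.kap 1
    have h3 := hV.kap 3
    positivity
  refine ⟨64 * C * K0, by positivity, ?_⟩
  intro α _ _ H H' δ M2 τ1 γ2 hD hN hδ hδ1 hM2 hτ hγ hγ0 hg X
  have hs : 0 < Real.sqrt (Real.sqrt M2) := Real.sqrt_pos.2 (Real.sqrt_pos.2 hM2)
  set L : ℝ := 64 * C * K0 / (δ ^ 4 * Real.sqrt (Real.sqrt M2)) with hL
  have hL0 : 0 < L := by positivity
  have hB : ∀ τ, HasDerivAt (fun τ => L * (H.gam τ ^ 6 / H.nrm τ))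
      (L * (H.gam τ ^ 6 / H.nrm τ / 2)) τ := by
    intro τ
    have hn := H.nrm_pos hD hN τ
    have h1 := (((H.hasDerivAt_gam τ).pow 6).div (H.hasDerivAt_nrm τ) hn.ne').const_mul L
    refine HasDerivAt.congr_deriv h1 ?_
    simp only [Pi.pow_apply]
    field_simp
    ring
  have key := X.le_of_gen (bad_sm_J (α := α)) le_rfl hτ le_rfl (fun τ _ => hB τ)
    (fun τ hτ' => by
      have hcts := (H.smF_VV hφ hD κ (β := 1) zero_le_one hγ).cts τ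
      have hgτ : H.gam τ ≤ γ2 := (H.gam_mono hτ'.2.le).trans hg
      have hg1 : H.gam τ ≤ 1 := hgτ.trans (hγ0.trans hV.g0le)
      have hg0 := H.gam_pos hD τ
      have hc := H.cc_pos hD hN τ
      have hn := H.nrm_pos hD hN τ
      have hchi := H.chi_pos hM2.le τ
      refine ⟨fun σ r => (H.chi M2 τ * (32 * C / δ ^ 4) / H.cc τ) * H.VV φ κ 1 γ2 τ σ.1 r.1,
        hcts.cmul _, fun s r _ => ?_, ?_⟩
      · refine (bad_gen_J hφ H H' hδ hδ1 hM2.le τ s r).trans ?_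
        obtain ⟨h1, -, -, h4, -⟩ := H.VV_lower hφ hV.kap hD hN (β := 1) zero_le_one hgτ s.1 r.1
        have h5 : H.cc τ * H.M4 (H.aa τ) s.1 r.1 ≤ H.cc τ / H.gam τ ^ 7 * H.M4 (H.aa τ) s.1 r.1 := by
          refine mul_le_mul_of_nonneg_right ?_ (H.M4_nonneg _ _ _)
          rw [le_div_iff₀ (by positivity)]
          have : H.gam τ ^ 7 ≤ 1 := pow_le_one₀ hg0.le hg1
          nlinarith
        have h6 : ∑ e ∈ s.1, φ (r.1 e) + H.M4 (H.aa τ) s.1 r.1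
            ≤ 2 * H.VV φ κ 1 γ2 τ s.1 r.1 / H.cc τ := by
          rw [le_div_iff₀ hc]; nlinarith
        have h7 := mul_le_mul_of_nonneg_left h6
          (show 0 ≤ H.chi M2 τ * (16 * C / δ ^ 4) by positivity)
        refine h7.trans (le_of_eq ?_)
        ring
      · rw [X.smul τ ⟨hτ'.1, hτ'.2.le⟩ _ _ hcts]
        have h1 : X.E τ (fun σ r => H.VV φ κ 1 γ2 τ σ.1 r.1) ≤ K0 :=
          run_one hφ hV hD hN X hγ hγ0 ⟨hτ'.1, hτ'.2.le⟩ hgτ
        refine (mul_le_mul_of_nonneg_left h1 (by positivity)).trans ?_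
        have h2 := bad_chi_le H hD hM2 τ
        have h3 : H.cc τ = H.nrm τ / H.gam τ ^ 8 := by
          rw [H.gam_pow hD τ, ← H.cc_mul_aa hD τ]
          have := H.aa_pos hD τ
          field_simp
        have h4 : H.chi M2 τ * (32 * C / δ ^ 4) / H.cc τ * K0
            ≤ 1 / (Real.sqrt (Real.sqrt M2) * H.gam τ ^ 2) * (32 * C / δ ^ 4) / H.cc τ * K0 := by
          gcongr
        refine h4.trans (le_of_eq ?_)
        rw [h3, hL]
        field_simp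
        ring)
  rw [X.init _ ((bad_sm_J (α := α)).cts 0)] at key
  have h0 : ∑ v ∈ (H.A0, H.A0).1, psi (((0, 0) : (α → ℝ) × (α → ℝ)).2 v) = 0 := by
    simp [psi]
  rw [h0] at key
  have hn := H.nrm_pos hD hN τ1
  have h1 : 0 ≤ L * (H.gam 0 ^ 6 / H.nrm 0) := by
    have := H.nrm_pos hD hN 0
    positivity
  have h2 : L * (H.gam τ1 ^ 6 / H.nrm τ1) ≤ L / H.nrm τ1 := by
    have hg1 : H.gam τ1 ^ 6 ≤ 1 := pow_le_one₀ (H.gam_pos hD τ1).le (hg.trans (hγ0.trans hV.g0le))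
    rw [← mul_one_div L]
    gcongr
  linarith

theorem bad_rpow_le {Q D ε : ℝ} (hQ : 0 < Q) (hε : 0 < ε) (hD : 0 < D) (h : Q ^ 3 / ε ^ 4 ≤ D) :
    (Q / D) ^ (3 / 4 : ℝ) ≤ ε / Real.sqrt D := by
  have hs : 0 < Real.sqrt D := Real.sqrt_pos.2 hD
  refine le_of_pow_le_pow_left₀ (n := 4) (by norm_num) (by positivity) ?_
  rw [← Real.rpow_natCast, ← Real.rpow_mul (by positivity)]
  have h1 : (3 / 4 : ℝ) * ((4 : ℕ) : ℝ) = ((3 : ℕ) : ℝ) := by norm_num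
  have h2 : Real.sqrt D ^ 4 = D ^ 2 := by
    rw [show (4 : ℕ) = 2 * 2 from rfl, pow_mul, Real.sq_sqrt hD.le]
  rw [h1, Real.rpow_natCast, div_pow, div_pow, h2, div_le_div_iff₀ (by positivity) (by positivity)]
  rw [div_le_iff₀ (by positivity)] at h
  have := mul_le_mul_of_nonneg_right h (show 0 ≤ D ^ 2 by positivity)
  nlinarith

/-- The constant in the cycle count. -/
noncomputable def badC (Q : ℝ) (Kd : ℕ) : ℝ :=
  ∑ k ∈ range Kd, (2 * (k : ℝ) + 1) ^ k * (2 * (k : ℝ) + 1) ^ 2 * Q ^ k *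
    (Real.exp (2 * k + 2) * Real.exp ((2 * (k : ℝ) + 2) ^ 2 / 2))

theorem bad_cyc {α : Type} [DecidableEq α] [Fintype α] {H : HG α} {H' : Finset (Finset α)}
    {δ M M2 τ1 : ℝ} {Kd : ℕ} (hD : 1 ≤ H.D) (hδ : δ = 1 / (4 * ((Kd : ℝ) + 1))) (hM2 : 0 ≤ M2)
    (hM : 1 ≤ M) (hτ : 0 ≤ τ1) (ha : H.aa τ1 = 1 / M) (hQ : M + M2 ≤ H.D)
    (X : H.XE H' δ M2 H.A0 0 τ1 (0, 0)) :
    ∑ k ∈ range Kd, ∑ x ∈ H.A0, ∑ U ∈ unic H.TT x k, Real.exp (2 * k + 2) *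
      X.E τ1 (fun σ r => ind U σ.1 * Real.exp (-∑ v ∈ U, r.2 v))
      ≤ H.NN * badC (M + M2) Kd * ((M + M2) / H.D) ^ (3 / 4 : ℝ) := by
  have hD0 : (0 : ℝ) < H.D := by exact_mod_cast hD
  have hM0 : 0 < M := by linarith
  have hQ0 : 0 < M + M2 := by linarith
  have hb0 : 0 < (M + M2) / H.D := by positivity
  have hb1 : (M + M2) / H.D ≤ 1 := by rw [div_le_one hD0]; exact hQ
  have hK0 : (0 : ℝ) ≤ Kd := by positivity
  have hδ1 : δ ≤ 1 := by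
    rw [hδ, div_le_one (by positivity)]; linarith
  have hbase : (1 + M2 * H.aa τ1) / Real.exp (2 * τ1) = (M + M2) / H.D := by
    have h1 : Real.exp (2 * τ1) = H.D / M := by
      have h2 := ha
      unfold HG.aa at h2
      field_simp at h2 ⊢
      linarith
    rw [ha, h1]
    field_simp
  unfold badC
  rw [Finset.mul_sum, Finset.sum_mul]
  refine Finset.sum_le_sum fun k hk => ?_
  have hk' : (k : ℝ) + 1 ≤ Kd := by exact_mod_cast mem_range.1 hk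
  set W : ℝ := Real.exp (2 * k + 2) * ((((M + M2) / H.D) ^ k * ((M + M2) / H.D) ^ (3 / 4 : ℝ)) *
    Real.exp ((2 * (k : ℝ) + 2) ^ 2 / 2)) with hW
  have hW0 : 0 ≤ W := by positivity
  have h1 : ∀ x ∈ H.A0, ∑ U ∈ unic H.TT x k, Real.exp (2 * k + 2) *
      X.E τ1 (fun σ r => ind U σ.1 * Real.exp (-∑ v ∈ U, r.2 v))
      ≤ (((2 * (k : ℝ) + 1) * H.D) ^ k * (2 * (k : ℝ) + 1) ^ 2) * W := by
    intro x _
    have h2 : ∀ U ∈ unic H.TT x k, Real.exp (2 * k + 2) *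
        X.E τ1 (fun σ r => ind U σ.1 * Real.exp (-∑ v ∈ U, r.2 v)) ≤ W := by
      intro U hU
      refine mul_le_mul_of_nonneg_left ((Z_bound hD hδ1 hM2 hτ X U).trans ?_) (Real.exp_pos _).le
      have hc : (U.card : ℝ) = 2 * k + 2 := by exact_mod_cast (unic_spec H.lin0 hU).1
      rw [hbase, hc, ha]
      refine mul_le_mul ?_ (Real.exp_le_exp.2 ?_) (Real.exp_pos _).le (by positivity)
      · rw [← Real.rpow_natCast, ← Real.rpow_add hb0]
        refine Real.rpow_le_rpow_of_exponent_ge hb0 hb1 ?_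
        have h3 : δ * (k + 1) ≤ 1 / 4 := by
          rw [hδ, div_mul_eq_mul_div, div_le_iff₀ (by positivity)]
          linarith
        linarith
      · have h3 : 1 / M ≤ 1 := by rw [div_le_one hM0]; exact hM
        have h4 : 0 ≤ (2 * (k : ℝ) + 2) ^ 2 := by positivity
        nlinarith
    refine (Finset.sum_le_card_nsmul _ _ _ h2).trans ?_
    rw [nsmul_eq_mul]
    refine mul_le_mul_of_nonneg_right ?_ hW0
    exact_mod_cast card_unic_le H.lin0 H.card_thru_TT_le x k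
  refine (Finset.sum_le_card_nsmul _ _ _ h1).trans (le_of_eq ?_)
  rw [nsmul_eq_mul, hW, mul_pow, div_pow]
  unfold HG.NN
  field_simp

theorem bad_exp {φ φ' c : ℝ → ℝ} {C : ℝ} (hφ : PhiOK φ φ' c C) {κ : Fin 4 → ℝ} {K γ0 : ℝ}
    (hV : VOK φ κ K γ0) {M η : ℝ} (hM : 1 ≤ M) (hη : 0 < η) (Δ Kd : ℕ) :
    ∃ δ M2 : ℝ, 0 ≤ M2 ∧ ∃ D0 : ℕ, ∀ {α : Type} [DecidableEq α] [Fintype α] (H : HG α)
      (H' : Finset (Finset α)) (τ1 γ2 : ℝ), D0 ≤ H.D → H.D ≤ H.A0.card → 0 ≤ τ1 →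
      H.aa τ1 = 1 / M → 0 < γ2 → γ2 ≤ γ0 → H.gam τ1 ≤ γ2 →
      ∀ X : H.XE H' δ M2 H.A0 0 τ1 (0, 0),
        X.E τ1 (fun σ _ => (H.nbad σ.1 Δ Kd : ℝ)) ≤ η * (H.NN / Real.sqrt H.D) := by
  obtain ⟨K3, hK3, hJ⟩ := J_bound hφ hV
  set δ : ℝ := 1 / (4 * ((Kd : ℝ) + 1)) with hδ
  have hδ0 : 0 < δ := by positivity
  have hK0 : (0 : ℝ) ≤ Kd := by positivity
  have hδ1 : δ ≤ 1 := by
    rw [hδ, div_le_one (by positivity)]; linarith
  have hM0 : 0 < M := by linarith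
  have hsM : 0 < Real.sqrt M := Real.sqrt_pos.2 hM0
  set L : ℝ := (1 + 2 * (Δ : ℝ)) ^ Kd * 6 * K3 * Real.sqrt M / (δ ^ 4 * η) with hL
  have hL0 : 0 < L := by positivity
  set M2 : ℝ := L ^ 4 with hM2
  have hM20 : 0 < M2 := by positivity
  have hsq : Real.sqrt (Real.sqrt M2) = L := by
    rw [hM2, show L ^ 4 = (L ^ 2) ^ 2 by ring, Real.sqrt_sq (by positivity), Real.sqrt_sq hL0.le]
  have hQ0 : 0 < M + M2 := by linarith
  have hC0 : 0 ≤ badC (M + M2) Kd := Finset.sum_nonneg fun k _ => by positivity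
  set ε : ℝ := η / (2 * (badC (M + M2) Kd + 1)) with hε
  have hε0 : 0 < ε := by positivity
  refine ⟨δ, M2, hM20.le, ⌈M + M2⌉₊ + ⌈(M + M2) ^ 3 / ε ^ 4⌉₊ + 1, ?_⟩
  intro α _ _ H H' τ1 γ2 hD0 hN hτ ha hγ hγ0 hg X
  have hD : 1 ≤ H.D := by omega
  have hDp : (0 : ℝ) < H.D := by exact_mod_cast hD
  have hD1 : M + M2 ≤ H.D := Nat.ceil_le.1 (by omega)
  have hD2 : (M + M2) ^ 3 / ε ^ 4 ≤ H.D := Nat.ceil_le.1 (by omega)
  have hτI : τ1 ∈ Set.Icc 0 τ1 := ⟨hτ, le_rfl⟩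
  have hcJ : Cts (fun (σ : Finset α × Finset α) (r : (α → ℝ) × (α → ℝ)) =>
      ∑ v ∈ σ.1, psi (r.2 v)) := (bad_sm_J (α := α)).cts 0
  have hcU : ∀ (k : ℕ) (U : Finset α), Cts (fun (σ : Finset α × Finset α)
      (r : (α → ℝ) × (α → ℝ)) =>
      Real.exp (2 * k + 2) * (ind U σ.1 * Real.exp (-∑ v ∈ U, r.2 v))) :=
    fun k U => (bad_cts_Z U).cmul _
  have hcx : ∀ (k : ℕ) (x : α), Cts (fun (σ : Finset α × Finset α)
      (r : (α → ℝ) × (α → ℝ)) => ∑ U ∈ unic H.TT x k,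
      Real.exp (2 * k + 2) * (ind U σ.1 * Real.exp (-∑ v ∈ U, r.2 v))) :=
    fun k x => Cts.sum _ fun U _ => hcU k U
  have hck : ∀ (k : ℕ), Cts (fun (σ : Finset α × Finset α)
      (r : (α → ℝ) × (α → ℝ)) => ∑ x ∈ H.A0, ∑ U ∈ unic H.TT x k,
      Real.exp (2 * k + 2) * (ind U σ.1 * Real.exp (-∑ v ∈ U, r.2 v))) :=
    fun k => Cts.sum _ fun x _ => hcx k x
  have hc1 := (hcJ.cmul 3).cmul ((1 + 2 * (Δ : ℝ)) ^ Kd)
  have hc2 := Cts.sum (range Kd) fun k _ => hck k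
  have h1 := X.mono τ1 hτI (fun σ _ => (H.nbad σ.1 Δ Kd : ℝ)) _ (Cts.of_state _) (hc1.add hc2)
    (fun s r hs => H.nbad_le hs.1 Δ Kd r.2)
  rw [X.add τ1 hτI _ _ hc1 hc2, X.smul τ1 hτI _ _ (hcJ.cmul 3), X.smul τ1 hτI _ _ hcJ,
    X.sum hτI _ fun k _ => hck k] at h1
  have h2 : ∑ k ∈ range Kd, X.E τ1 (fun σ r => ∑ x ∈ H.A0, ∑ U ∈ unic H.TT x k,
      Real.exp (2 * k + 2) * (ind U σ.1 * Real.exp (-∑ v ∈ U, r.2 v)))
      = ∑ k ∈ range Kd, ∑ x ∈ H.A0, ∑ U ∈ unic H.TT x k, Real.exp (2 * k + 2) *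
      X.E τ1 (fun σ r => ind U σ.1 * Real.exp (-∑ v ∈ U, r.2 v)) := by
    refine Finset.sum_congr rfl fun k _ => ?_
    rw [X.sum hτI _ fun x _ => hcx k x]
    refine Finset.sum_congr rfl fun x _ => ?_
    rw [X.sum hτI _ fun U _ => hcU k U]
    exact Finset.sum_congr rfl fun U _ => X.smul τ1 hτI _ _ (bad_cts_Z U)
  rw [h2] at h1
  have h3 := bad_cyc hD hδ hM20.le hM hτ ha hD1 X
  have h4 := hJ H H' δ M2 τ1 γ2 hD hN hδ0 hδ1 hM20 hτ hγ hγ0 hg X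
  have hNN := H.NN_pos hD hN
  have hsD : 0 < Real.sqrt H.D := Real.sqrt_pos.2 hDp
  have hn : H.nrm τ1 = Real.sqrt H.D / Real.sqrt M / H.NN := by
    unfold HG.nrm
    congr 1
    rw [← Real.sqrt_div hDp.le]
    refine (Real.sqrt_eq_iff_mul_self_eq (by positivity) (Real.exp_pos _).le).2 ?_ |>.symm
    rw [← Real.exp_add, ← two_mul]
    have h5 := ha
    unfold HG.aa at h5
    field_simp at h5 ⊢
    linarith
  rw [hsq, hn] at h4
  have h5 : (1 + 2 * (Δ : ℝ)) ^ Kd * (3 * (K3 / (δ ^ 4 * L) / (Real.sqrt H.D / Real.sqrt M / H.NN)))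
      = η / 2 * (H.NN / Real.sqrt H.D) := by
    rw [hL]
    field_simp
    ring
  have h6 : (1 + 2 * (Δ : ℝ)) ^ Kd * (3 * X.E τ1 (fun σ r => ∑ v ∈ σ.1, psi (r.2 v)))
      ≤ η / 2 * (H.NN / Real.sqrt H.D) := by
    rw [← h5]
    gcongr
  have h7 := bad_rpow_le hQ0 hε0 hDp hD2
  have h8 : H.NN * badC (M + M2) Kd * ((M + M2) / H.D) ^ (3 / 4 : ℝ)
      ≤ η / 2 * (H.NN / Real.sqrt H.D) := by
    have h9 : H.NN * badC (M + M2) Kd * ((M + M2) / H.D) ^ (3 / 4 : ℝ)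
        ≤ H.NN * (badC (M + M2) Kd + 1) * (ε / Real.sqrt H.D) := by
      gcongr
      linarith
    refine h9.trans (le_of_eq ?_)
    rw [hε]
    field_simp
  linarith

end Vale.Agent.P046
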