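import Vale.Agent.P046.ExApi

open Finset

set_option linter.unusedSectionVars false

namespace Vale.Agent.P046

/-! ### Elementary real facts -/

theorem pow_le_exp4 (j : ℕ) {x : ℝ} (hx : 0 ≤ x) :
    x ^ j ≤ (4 ^ j * (j.factorial : ℝ)) * Real.exp (x / 4) := by
  have h := Real.pow_div_factorial_le_exp (x / 4) (by positivity) j
  have hj : (0 : ℝ) < j.factorial := by exact_mod_cast j.factorial_pos
  rw [div_le_iff₀ hj, div_pow, div_le_iff₀ (by positivity)] at h
  nlinarith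

theorem psi_nonneg (x : ℝ) : 0 ≤ psi x := by
  unfold psi
  have : 1 ≤ Real.sqrt (1 + x ^ 2) := Real.one_le_sqrt.2 (by nlinarith)
  linarith

theorem psi_le_abs (x : ℝ) : psi x ≤ |x| := by
  unfold psi
  have : Real.sqrt (1 + x ^ 2) ≤ 1 + |x| := by
    apply Real.sqrt_le_iff.2 ⟨by positivity, ?_⟩
    nlinarith [abs_nonneg x, sq_abs x]
  linarith

theorem psi_le_sq (x : ℝ) : psi x ≤ x ^ 2 / 2 := by
  unfold psi
  have : Real.sqrt (1 + x ^ 2) ≤ 1 + x ^ 2 / 2 := by
    apply Real.sqrt_le_iff.2 ⟨by positivity, ?_⟩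
    nlinarith [sq_nonneg (x ^ 2)]
  linarith

theorem min_le_psi (x : ℝ) : min (x ^ 2) |x| ≤ 3 * psi x := by
  unfold psi
  rcases le_total |x| 1 with h | h
  · have h2 : x ^ 2 ≤ 1 := by nlinarith [sq_abs x, abs_nonneg x]
    have : 1 + x ^ 2 / 3 ≤ Real.sqrt (1 + x ^ 2) := by
      apply Real.le_sqrt_of_sq_le
      nlinarith [sq_nonneg x]
    exact (min_le_left _ _).trans (by linarith)
  · have : 1 + |x| / 3 ≤ Real.sqrt (1 + x ^ 2) := by
      apply Real.le_sqrt_of_sq_le
      nlinarith [sq_abs x]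
    exact (min_le_right _ _).trans (by linarith)

theorem psi_hasDerivAt (x : ℝ) : HasDerivAt psi (x / Real.sqrt (1 + x ^ 2)) x := by
  have h1 : HasDerivAt (fun x : ℝ => 1 + x ^ 2) (2 * x) x := by
    simpa using (hasDerivAt_pow 2 x).const_add 1
  have h2 := (h1.sqrt (by positivity)).sub_const 1
  have e : x / Real.sqrt (1 + x ^ 2) = 2 * x / (2 * Real.sqrt (1 + x ^ 2)) := by
    rw [mul_div_mul_left _ _ (two_ne_zero)]
  rw [e]
  exact h2

theorem psi_deriv_abs_le (x : ℝ) : |x / Real.sqrt (1 + x ^ 2)| ≤ 1 := by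
  have h : 0 < Real.sqrt (1 + x ^ 2) := Real.sqrt_pos.2 (by positivity)
  rw [abs_div, abs_of_pos h, div_le_one h]
  apply Real.le_sqrt_of_sq_le
  nlinarith [sq_abs x]

theorem psi_contDiff : ContDiff ℝ 1 psi := by
  unfold psi
  exact ((contDiff_const.add (contDiff_id.pow 2)).sqrt (fun x => by positivity)).sub contDiff_const

namespace PhiOK
variable {φ φ' c : ℝ → ℝ} {C : ℝ}

theorem contDiff (h : PhiOK φ φ' c C) : ContDiff ℝ 1 φ := by
  rw [contDiff_one_iff_deriv]
  refine ⟨fun x => (h.der x).differentiableAt, ?_⟩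
  have : deriv φ = φ' := funext fun x => (h.der x).deriv
  rw [this]; exact h.cts

theorem continuous (h : PhiOK φ φ' c C) : Continuous φ := h.contDiff.continuous

theorem zero (h : PhiOK φ φ' c C) : φ 0 = 0 :=
  le_antisymm (by simpa using h.le_sq 0) (h.nonneg 0)

theorem abs_le (h : PhiOK φ φ' c C) {g : ℝ} (hg : 0 < g) (x : ℝ) :
    |x| ≤ g + C * (1 / g + 1) * φ x := by
  have h1 := h.ge_min x
  have h0 := h.nonneg x
  have hC := h.C1
  have hCφ : 0 ≤ C * φ x := by positivity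
  have e : C * (1 / g + 1) * φ x = C * φ x / g + C * φ x := by field_simp
  rw [e]
  have h3 : 0 ≤ C * φ x / g := by positivity
  rcases min_le_iff.1 h1 with h2 | h2
  · by_cases hx : |x| ≤ g
    · linarith
    · push Not at hx
      have : |x| ≤ C * φ x / g := by
        rw [le_div_iff₀ hg]; nlinarith [sq_abs x, abs_nonneg x]
      linarith
  · linarith

/-- An indicator bound: a deviation `|d| ≥ δ` with `d = m + r` is paid by `φ r` or `m ^ 4`. -/
theorem one_le_of_dev (h : PhiOK φ φ' c C) {δ : ℝ} (hδ : 0 < δ) (hδ1 : δ ≤ 1) {m r : ℝ}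
    (hd : δ ≤ |m + r|) : 1 ≤ 16 * C / δ ^ 4 * (φ r + m ^ 4) := by
  have h1 := h.ge_min r
  have h0 := h.nonneg r
  have hC := h.C1
  rw [div_mul_eq_mul_div, le_div_iff₀ (by positivity), one_mul]
  have hm4 : 0 ≤ m ^ 4 := by positivity
  have hδ2 : δ ^ 2 ≤ 1 := by nlinarith
  have hδ4 : δ ^ 4 ≤ δ ^ 2 := by nlinarith [sq_nonneg δ, mul_nonneg (sq_nonneg δ) (sub_nonneg.2 hδ2)]
  by_cases hm : δ / 2 ≤ |m|
  · have : (δ / 2) ^ 4 ≤ |m| ^ 4 := pow_le_pow_left₀ (by positivity) hm 4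
    have e : |m| ^ 4 = m ^ 4 := by
      rw [show (4 : ℕ) = 2 * 2 from rfl, pow_mul, pow_mul, sq_abs]
    rw [e] at this
    nlinarith [mul_nonneg (sub_nonneg.2 hC) hm4, mul_nonneg (by linarith : (0:ℝ) ≤ C) h0]
  · push Not at hm
    have hr : δ / 2 ≤ |r| := by
      have := abs_add_le m r
      linarith
    have : δ ^ 2 / 4 ≤ C * φ r := by
      rcases min_le_iff.1 h1 with h2 | h2
      · nlinarith [sq_abs r, abs_nonneg r]
      · nlinarith
    nlinarith [mul_nonneg (by linarith : (0:ℝ) ≤ C) hm4]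

end PhiOK

/-! ### Linear families -/

section lin
variable {α : Type} [DecidableEq α]

theorem mem_thru {TT : Finset (Finset α)} {e : α} {T : Finset α} :
    T ∈ thru TT e ↔ T ∈ TT ∧ e ∈ T := by simp [thru]

theorem LinHG.mono {TT TT' : Finset (Finset α)} (h : LinHG TT) (hs : TT' ⊆ TT) : LinHG TT' :=
  ⟨fun T hT => h.card3 T (hs hT), fun T hT T' hT' => h.lin T (hs hT) T' (hs hT')⟩

/-- Two members sharing two distinct points coincide. -/
theorem LinHG.eq_of_two {TT : Finset (Finset α)} (h : LinHG TT) {T T' : Finset α} (hT : T ∈ TT)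
    (hT' : T' ∈ TT) {x y : α} (hxy : x ≠ y) (hx : x ∈ T) (hy : y ∈ T) (hx' : x ∈ T')
    (hy' : y ∈ T') : T = T' := by
  by_contra hne
  have h1 := h.lin T hT T' hT' hne
  have : ({x, y} : Finset α) ⊆ T ∩ T' := by
    intro z hz
    simp only [mem_insert, mem_singleton] at hz
    rcases hz with rfl | rfl <;> simp [*]
  have h2 := card_le_card this
  rw [card_pair hxy] at h2
  omega

/-- Swap a sum over incident pairs. -/
theorem sum_inc_swap (TT : Finset (Finset α)) (A : Finset α) (hA : ∀ T ∈ TT, T ⊆ A)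
    (F : Finset α → α → ℝ) :
    ∑ T ∈ TT, ∑ e ∈ T, F T e = ∑ e ∈ A, ∑ T ∈ thru TT e, F T e := by
  apply Finset.sum_comm'
  intro T e
  simp only [mem_thru]
  constructor
  · rintro ⟨h1, h2⟩; exact ⟨⟨h1, h2⟩, hA T h1 h2⟩
  · rintro ⟨⟨h1, h2⟩, _⟩; exact ⟨h1, h2⟩

theorem sum_inc_card (TT : Finset (Finset α)) (A : Finset α) (hA : ∀ T ∈ TT, T ⊆ A)
    (g : α → ℝ) : ∑ T ∈ TT, ∑ e ∈ T, g e = ∑ e ∈ A, ((thru TT e).card : ℝ) * g e := by
  rw [sum_inc_swap TT A hA]
  simp

/-- Inside a 3-set every point is the partner of two other points. -/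
theorem sum_erase_swap {T : Finset α} (hT : T.card = 3) (g : α → ℝ) :
    ∑ e ∈ T, ∑ f ∈ T.erase e, g f = 2 * ∑ f ∈ T, g f := by
  have : ∀ e ∈ T, ∑ f ∈ T.erase e, g f = ∑ f ∈ T, g f - g e := fun e he => by
    rw [← Finset.add_sum_erase T g he]; ring
  rw [Finset.sum_congr rfl this, Finset.sum_sub_distrib]
  simp [hT]; ring

theorem card_erase_two {T : Finset α} (hT : T.card = 3) {e : α} (he : e ∈ T) :
    (T.erase e).card = 2 := by rw [card_erase_of_mem he, hT]

/-- The members meeting `S` are at most the sum of the degrees. -/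
theorem card_meet_le (TT : Finset (Finset α)) (S : Finset α) :
    (TT.filter (fun T => (T ∩ S).Nonempty)).card ≤ ∑ v ∈ S, (thru TT v).card := by
  refine le_trans (card_le_card ?_) (card_biUnion_le (s := S) (t := fun v => thru TT v))
  intro T hT
  simp only [mem_filter] at hT
  obtain ⟨v, hv⟩ := hT.2
  simp only [mem_inter] at hv
  exact mem_biUnion.2 ⟨v, hv.2, mem_thru.2 ⟨hT.1, hv.1⟩⟩

/-- Hazard bound: the members meeting `S` are at least the degree sum minus `|S|²`. -/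
theorem LinHG.hazard {TT : Finset (Finset α)} (h : LinHG TT) (S : Finset α) :
    ∑ v ∈ S, ((thru TT v).card : ℝ) - (S.card : ℝ) ^ 2
      ≤ ((TT.filter (fun T => (T ∩ S).Nonempty)).card : ℝ) := by
  induction S using Finset.induction_on with
  | empty => simp
  | insert v S hv ih =>
    rw [Finset.sum_insert hv, card_insert_of_notMem hv]
    set B := TT.filter (fun T => (T ∩ S).Nonempty) with hB
    have hu : TT.filter (fun T => (T ∩ insert v S).Nonempty) = thru TT v ∪ B := by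
      ext T
      simp only [mem_filter, mem_union, mem_thru, hB, Finset.Nonempty, mem_inter, mem_insert]
      constructor
      · rintro ⟨h1, x, hx, rfl | hx2⟩
        · exact Or.inl ⟨h1, hx⟩
        · exact Or.inr ⟨h1, x, hx, hx2⟩
      · rintro (⟨h1, h2⟩ | ⟨h1, x, hx, hx2⟩)
        · exact ⟨h1, v, h2, Or.inl rfl⟩
        · exact ⟨h1, x, hx, Or.inr hx2⟩
    have hi : (thru TT v ∩ B).card ≤ S.card := by
      have hsub : thru TT v ∩ B ⊆ S.biUnion (fun w => TT.filter (fun T => v ∈ T ∧ w ∈ T)) := by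
        intro T hT
        simp only [mem_inter, mem_thru, hB, mem_filter, Finset.Nonempty] at hT
        obtain ⟨⟨h1, h2⟩, -, w, hw1, hw2⟩ := hT
        exact mem_biUnion.2 ⟨w, hw2, mem_filter.2 ⟨h1, h2, hw1⟩⟩
      refine (card_le_card hsub).trans (card_biUnion_le.trans ?_)
      have : ∀ w ∈ S, (TT.filter (fun T => v ∈ T ∧ w ∈ T)).card ≤ 1 := by
        intro w hw
        apply card_le_one.2
        intro T hT T' hT'
        simp only [mem_filter] at hT hT'
        exact h.eq_of_two hT.1 hT'.1 (fun e : v = w => hv (e ▸ hw)) hT.2.1 hT.2.2 hT'.2.1 hT'.2.2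
      simpa using Finset.sum_le_card_nsmul S _ 1 this
    have hc := card_union_add_card_inter (thru TT v) B
    rw [hu]
    have h1 : ((thru TT v ∪ B).card : ℝ) + ((thru TT v ∩ B).card : ℝ)
        = ((thru TT v).card : ℝ) + (B.card : ℝ) := by exact_mod_cast hc
    have h2 : ((thru TT v ∩ B).card : ℝ) ≤ S.card := by exact_mod_cast hi
    push_cast
    nlinarith [(Nat.cast_nonneg S.card : (0:ℝ) ≤ S.card)]

end lin

namespace HG
variable {α : Type} [DecidableEq α] (H : HG α)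

theorem lin0 : LinHG H.TT := ⟨H.card3, H.lin⟩

theorem mem_tri {A T : Finset α} : T ∈ H.tri A ↔ T ∈ H.TT ∧ T ⊆ A := by simp [tri]

theorem tri_subset (A : Finset α) : H.tri A ⊆ H.TT := filter_subset _ _

theorem tri_lin (A : Finset α) : LinHG (H.tri A) := H.lin0.mono (H.tri_subset A)

theorem tri_sub (A : Finset α) : ∀ T ∈ H.tri A, T ⊆ A := fun _ h => (H.mem_tri.1 h).2

theorem tri_card3 {A T : Finset α} (h : T ∈ H.tri A) : T.card = 3 := H.card3 T (H.mem_tri.1 h).1

theorem tri_mono {A B : Finset α} (h : A ⊆ B) : H.tri A ⊆ H.tri B := fun T hT =>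
  H.mem_tri.2 ⟨(H.mem_tri.1 hT).1, (H.mem_tri.1 hT).2.trans h⟩

theorem tri_A0 : H.tri H.A0 = H.TT := by
  ext T; rw [mem_tri]; exact ⟨fun h => h.1, fun h => ⟨h, H.sub T h⟩⟩

theorem clean_subset (A : Finset α) (Δ : ℕ) : H.clean A Δ ⊆ H.tri A := filter_subset _ _

theorem card_thru_TT_le (e : α) : (thru H.TT e).card ≤ H.D := by
  by_cases he : e ∈ H.A0
  · exact (H.reg e he).le
  · have : thru H.TT e = ∅ := by
      apply Finset.eq_empty_of_forall_notMem
      intro T hT
      exact he (H.sub T (mem_thru.1 hT).1 (mem_thru.1 hT).2)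
    simp [this]

theorem deg_mono {A B : Finset α} (h : A ⊆ B) (e : α) : H.deg A e ≤ H.deg B e :=
  card_le_card (filter_subset_filter _ (H.tri_mono h))

theorem deg_le_D (A : Finset α) (e : α) : H.deg A e ≤ H.D :=
  (card_le_card (filter_subset_filter _ (H.tri_subset A))).trans (H.card_thru_TT_le e)

theorem deg_A0 {e : α} (he : e ∈ H.A0) : H.deg H.A0 e = H.D := by
  unfold deg; rw [tri_A0]; exact H.reg e he

theorem deg_of_notMem {A : Finset α} {e : α} (he : e ∉ A) : H.deg A e = 0 := by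
  unfold deg
  rw [card_eq_zero]
  apply Finset.eq_empty_of_forall_notMem
  intro T hT
  exact he (H.tri_sub A T (mem_thru.1 hT).1 (mem_thru.1 hT).2)

theorem gdeg_eq_deg {A : Finset α} {e : α} (he : e ∈ A) : H.gdeg A e = H.deg A e := by
  unfold gdeg deg thru tri
  congr 1
  ext T
  simp only [mem_filter]
  constructor
  · rintro ⟨h1, h2, h3⟩
    refine ⟨⟨h1, fun x hx => ?_⟩, h2⟩
    by_cases hxe : x = e
    · exact hxe ▸ he
    · exact h3 (mem_erase.2 ⟨hxe, hx⟩)
  · rintro ⟨⟨h1, h2⟩, h3⟩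
    exact ⟨h1, h3, (erase_subset _ _).trans h2⟩

theorem clean_deg_le (A : Finset α) (Δ : ℕ) (x : α) : (thru (H.clean A Δ) x).card ≤ Δ := by
  by_cases h : thru (H.clean A Δ) x = ∅
  · simp [h]
  · obtain ⟨T, hT⟩ := Finset.nonempty_iff_ne_empty.2 h
    have h1 := (mem_filter.1 (mem_thru.1 hT).1).2 x (mem_thru.1 hT).2
    exact (card_le_card (filter_subset_filter _ (H.clean_subset A Δ))).trans h1

theorem u_nonneg {a : ℝ} (ha : 0 ≤ a) (A : Finset α) (e : α) : 0 ≤ H.u a A e := by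
  unfold u; positivity

theorem sum_tri (A : Finset α) (F : Finset α → α → ℝ) :
    ∑ T ∈ H.tri A, ∑ e ∈ T, F T e = ∑ e ∈ A, ∑ T ∈ thru (H.tri A) e, F T e :=
  sum_inc_swap _ A (H.tri_sub A) F

/-- `a * Σ_T Σ_{e ∈ T} g e = Σ_e u_e g e`. -/
theorem sum_tri_u (a : ℝ) (A : Finset α) (g : α → ℝ) :
    a * ∑ T ∈ H.tri A, ∑ e ∈ T, g e = ∑ e ∈ A, H.u a A e * g e := by
  rw [sum_inc_card _ A (H.tri_sub A), Finset.mul_sum]
  exact Finset.sum_congr rfl fun e _ => by unfold u deg; ring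

/-- `Σ_e nb g e = 2 Σ_f u_f g f`. -/
theorem sum_nb (a : ℝ) (A : Finset α) (g : α → ℝ) :
    ∑ e ∈ A, H.nb a A g e = 2 * ∑ f ∈ A, H.u a A f * g f := by
  unfold nb
  rw [← Finset.mul_sum, ← H.sum_tri A (fun T e => ∑ f ∈ T.erase e, g f), ← H.sum_tri_u,
    Finset.sum_congr rfl (fun T hT => sum_erase_swap (H.tri_card3 hT) g), ← Finset.mul_sum]
  ring

theorem nb_const (a : ℝ) (A : Finset α) (c : ℝ) (e : α) :
    H.nb a A (fun _ => c) e = 2 * c * H.u a A e := by
  unfold nb u deg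
  rw [Finset.sum_congr rfl (g := fun _ => 2 * c) (fun T hT => by
    rw [Finset.sum_const, card_erase_two (H.tri_card3 (mem_thru.1 hT).1) (mem_thru.1 hT).2]
    simp)]
  simp; ring

theorem nb_add (a : ℝ) (A : Finset α) (g g' : α → ℝ) (e : α) :
    H.nb a A (fun f => g f + g' f) e = H.nb a A g e + H.nb a A g' e := by
  unfold nb; simp only [Finset.sum_add_distrib]; ring

theorem nb_sub (a : ℝ) (A : Finset α) (g g' : α → ℝ) (e : α) :
    H.nb a A (fun f => g f - g' f) e = H.nb a A g e - H.nb a A g' e := by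
  unfold nb; simp only [Finset.sum_sub_distrib]; ring

theorem sum_card_tri (A : Finset α) : ∑ e ∈ A, (H.deg A e : ℝ) = 3 * ((H.tri A).card : ℝ) := by
  have h := sum_inc_card _ A (H.tri_sub A) (fun _ => (1 : ℝ))
  rw [Finset.sum_congr rfl (g := fun _ => (3 : ℝ)) (fun T hT => by simp [H.tri_card3 hT])] at h
  simp only [mul_one, Finset.sum_const, nsmul_eq_mul] at h
  unfold deg; linarith

/-- Number of hyperedges through `e` destroyed by removing `T'`. -/
def kk (A T' : Finset α) (e : α) : ℕ :=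
  ((thru (H.tri A) e).filter (fun T => (T ∩ T').Nonempty)).card

theorem thru_sdiff (A T' : Finset α) (e : α) :
    thru (H.tri (A \ T')) e = (thru (H.tri A) e).filter (fun T => ¬ (T ∩ T').Nonempty) := by
  ext T
  simp only [mem_thru, mem_tri, mem_filter, Finset.not_nonempty_iff_eq_empty, subset_sdiff,
    disjoint_iff_inter_eq_empty]
  tauto

theorem deg_sdiff (A T' : Finset α) (e : α) :
    (H.deg (A \ T') e : ℝ) = H.deg A e - H.kk A T' e := by
  unfold deg kk
  rw [thru_sdiff]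
  have := Finset.card_filter_add_card_filter_not (s := thru (H.tri A) e)
    (fun T => (T ∩ T').Nonempty)
  have h2 : (((thru (H.tri A) e).filter (fun T => (T ∩ T').Nonempty)).card : ℝ)
    + (((thru (H.tri A) e).filter (fun T => ¬ (T ∩ T').Nonempty)).card : ℝ)
      = (thru (H.tri A) e).card := by exact_mod_cast this
  linarith

theorem kk_le_deg (A T' : Finset α) (e : α) : H.kk A T' e ≤ H.deg A e := card_filter_le _ _

/-- At most one hyperedge through two given points. -/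
theorem card_two_le (A : Finset α) {x y : α} (hxy : x ≠ y) :
    ((thru (H.tri A) x).filter (fun T => y ∈ T)).card ≤ 1 := by
  apply card_le_one.2
  intro T hT T' hT'
  simp only [mem_filter, mem_thru] at hT hT'
  exact (H.tri_lin A).eq_of_two hT.1.1 hT'.1.1 hxy hT.1.2 hT.2 hT'.1.2 hT'.2

/-- `kk` is at most the number of points of `T'` adjacent to `e`. -/
theorem kk_le_adj (A : Finset α) {T' : Finset α} {e : α} (he : e ∉ T') :
    H.kk A T' e ≤ (T'.filter (fun x => H.adj A x e)).card := by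
  unfold kk
  have hsub : (thru (H.tri A) e).filter (fun T => (T ∩ T').Nonempty) ⊆
      (T'.filter (fun x => H.adj A x e)).biUnion
        (fun x => (thru (H.tri A) e).filter (fun T => x ∈ T)) := by
    intro T hT
    simp only [mem_filter, mem_thru, Finset.Nonempty, mem_inter] at hT
    obtain ⟨⟨h1, h2⟩, x, hx1, hx2⟩ := hT
    refine mem_biUnion.2 ⟨x, mem_filter.2 ⟨hx2, fun h => he (h ▸ hx2), T, h1, hx1, h2⟩, ?_⟩
    exact mem_filter.2 ⟨mem_thru.2 ⟨h1, h2⟩, hx1⟩
  refine (card_le_card hsub).trans (card_biUnion_le.trans ?_)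
  have : ∀ x ∈ T'.filter (fun x => H.adj A x e),
      ((thru (H.tri A) e).filter (fun T => x ∈ T)).card ≤ 1 := fun x hx =>
    H.card_two_le A (fun h => he (h ▸ (mem_filter.1 hx).1))
  simpa using Finset.sum_le_card_nsmul _ _ 1 this

theorem kk_le_three {A T' : Finset α} (hT' : T' ∈ H.tri A) {e : α} (he : e ∉ T') :
    H.kk A T' e ≤ 3 :=
  (H.kk_le_adj A he).trans ((card_filter_le _ _).trans (H.tri_card3 hT').le)

/-- For `T ∋ e`, the hyperedges avoiding `e` and meeting `T`. -/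
theorem card_meet_avoid {A T : Finset α} (hT : T ∈ H.tri A) {e : α} (he : e ∈ T) :
    ((((H.tri A).filter (fun T' => e ∉ T')).filter (fun T' => (T ∩ T').Nonempty)).card : ℝ)
      = ∑ f ∈ T.erase e, ((H.deg A f : ℝ) - 1) := by
  have hb : ((H.tri A).filter (fun T' => e ∉ T')).filter (fun T' => (T ∩ T').Nonempty)
      = (T.erase e).biUnion (fun f => (thru (H.tri A) f).erase T) := by
    ext T'
    simp only [mem_filter, mem_biUnion, mem_erase, mem_thru, Finset.Nonempty, mem_inter]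
    constructor
    · rintro ⟨⟨h1, h2⟩, f, hf1, hf2⟩
      exact ⟨f, ⟨fun h => h2 (h ▸ hf2), hf1⟩, fun h => h2 (h ▸ he), h1, hf2⟩
    · rintro ⟨f, ⟨hfe, hfT⟩, hne, h1, hf2⟩
      refine ⟨⟨h1, fun h => hne ?_⟩, f, hfT, hf2⟩
      exact (H.tri_lin A).eq_of_two h1 hT hfe hf2 h hfT he
  rw [hb, card_biUnion]
  · push_cast
    refine Finset.sum_congr rfl fun f hf => ?_
    have hm : T ∈ thru (H.tri A) f := mem_thru.2 ⟨hT, (mem_erase.1 hf).2⟩
    rw [card_erase_of_mem hm, Nat.cast_sub (card_pos.2 ⟨T, hm⟩)]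
    simp [deg]
  · intro f hf f' hf' hne
    rw [Function.onFun, Finset.disjoint_left]
    intro T' h1 h2
    simp only [mem_erase, mem_thru] at h1 h2
    simp only [coe_erase, Set.mem_sdiff, mem_coe] at hf hf'
    exact h1.1 ((H.tri_lin A).eq_of_two h1.2.1 hT hne h1.2.2 h2.2.2 hf.1 hf'.1)

/-- Weighted form: summing a weight of the destroyed hyperedge over all removals. -/
theorem sum_destroy (A : Finset α) (e : α) (w : Finset α → ℝ) :
    ∑ T' ∈ (H.tri A).filter (fun T' => e ∉ T'),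
        ∑ T ∈ (thru (H.tri A) e).filter (fun T => (T ∩ T').Nonempty), w T
      = ∑ T ∈ thru (H.tri A) e, (∑ f ∈ T.erase e, ((H.deg A f : ℝ) - 1)) * w T := by
  rw [Finset.sum_comm' (t' := thru (H.tri A) e)
    (s' := fun T => ((H.tri A).filter (fun T' => e ∉ T')).filter (fun T' => (T ∩ T').Nonempty))]
  · refine Finset.sum_congr rfl fun T hT => ?_
    rw [Finset.sum_const, nsmul_eq_mul, H.card_meet_avoid (mem_thru.1 hT).1 (mem_thru.1 hT).2]
  · intro T' T
    simp only [mem_filter]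
    tauto

theorem sum_kk (A : Finset α) (e : α) :
    ∑ T' ∈ (H.tri A).filter (fun T' => e ∉ T'), (H.kk A T' e : ℝ)
      = ∑ T ∈ thru (H.tri A) e, ∑ f ∈ T.erase e, ((H.deg A f : ℝ) - 1) := by
  have := H.sum_destroy A e (fun _ => 1)
  simpa [kk] using this

/-- `a² Σ kk = nb u - 2 a u`. -/
theorem sum_kk_u (a : ℝ) (A : Finset α) (e : α) :
    a ^ 2 * ∑ T' ∈ (H.tri A).filter (fun T' => e ∉ T'), (H.kk A T' e : ℝ)
      = H.nb a A (H.u a A) e - 2 * a * H.u a A e := by
  rw [sum_kk, ← H.nb_const a A a e, ← nb_sub]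
  unfold nb u
  rw [pow_two, mul_assoc, Finset.mul_sum]
  congr 1
  refine Finset.sum_congr rfl fun T _ => ?_
  rw [Finset.mul_sum]
  exact Finset.sum_congr rfl fun f _ => by ring

/-- Jump part of the generator for an additive functional. -/
theorem jump_sum (A : Finset α) (G : Finset α → α → ℝ) :
    ∑ T' ∈ H.tri A, (∑ e ∈ A \ T', G (A \ T') e - ∑ e ∈ A, G A e)
      = ∑ e ∈ A, (-((H.deg A e : ℝ) * G A e)
        + ∑ T' ∈ (H.tri A).filter (fun T' => e ∉ T'), (G (A \ T') e - G A e)) := by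
  have h1 : ∀ T' ∈ H.tri A, ∑ e ∈ A \ T', G (A \ T') e - ∑ e ∈ A, G A e
      = ∑ e ∈ A, (if e ∈ T' then -G A e else G (A \ T') e - G A e) := by
    intro T' _
    have : ∑ e ∈ A \ T', G (A \ T') e = ∑ e ∈ A, (if e ∈ T' then 0 else G (A \ T') e) := by
      rw [Finset.sum_ite, Finset.sum_const_zero, zero_add, ← Finset.sdiff_eq_filter]
    rw [this, ← Finset.sum_sub_distrib]
    exact Finset.sum_congr rfl fun e _ => by split_ifs <;> ring
  rw [Finset.sum_congr rfl h1, Finset.sum_comm]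
  refine Finset.sum_congr rfl fun e _ => ?_
  rw [Finset.sum_ite]
  congr 1
  simp [deg, thru]

theorem adj_symm {A : Finset α} {x f : α} (h : H.adj A x f) : H.adj A f x :=
  ⟨h.1.symm, h.2.imp fun _ hT => ⟨hT.1, hT.2.2, hT.2.1⟩⟩

theorem adj_mem {A : Finset α} {x f : α} (h : H.adj A x f) : x ∈ A ∧ f ∈ A := by
  obtain ⟨_, T, hT, h1, h2⟩ := h
  exact ⟨H.tri_sub A T hT h1, H.tri_sub A T hT h2⟩

theorem adj_mono {A B : Finset α} (hAB : A ⊆ B) {x f : α} (h : H.adj A x f) : H.adj B x f :=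
  ⟨h.1, h.2.imp fun _ hT => ⟨H.tri_mono hAB hT.1, hT.2⟩⟩

/-- A sum over incident partners is a sum over neighbours. -/
theorem sum_thru_erase (A : Finset α) (e : α) (g : α → ℝ) :
    ∑ T ∈ thru (H.tri A) e, ∑ f ∈ T.erase e, g f = ∑ f ∈ A.filter (fun f => H.adj A e f), g f := by
  rw [← Finset.sum_biUnion]
  · refine Finset.sum_congr ?_ fun _ _ => rfl
    ext f
    rw [mem_filter]
    simp only [mem_biUnion, mem_thru, mem_erase, adj]
    constructor
    · rintro ⟨T, ⟨h1, h2⟩, h3, h4⟩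
      exact ⟨H.tri_sub A T h1 h4, Ne.symm h3, T, h1, h2, h4⟩
    · rintro ⟨_, h3, T, h1, h2, h4⟩
      exact ⟨T, ⟨h1, h2⟩, Ne.symm h3, h4⟩
  · intro T hT T' hT' hne
    rw [Function.onFun, Finset.disjoint_left]
    intro f h1 h2
    simp only [mem_coe, mem_thru] at hT hT'
    simp only [mem_erase] at h1 h2
    exact hne ((H.tri_lin A).eq_of_two hT.1 hT'.1 h1.1 h1.2 hT.2 h2.2 hT'.2)

theorem card_nbr (A : Finset α) (e : α) :
    ((A.filter (fun f => H.adj A e f)).card : ℝ) = 2 * H.deg A e := by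
  have h := H.sum_thru_erase A e (fun _ => 1)
  have h2 := H.nb_const 1 A 1 e
  unfold nb u at h2
  simp only [Finset.sum_const, nsmul_eq_mul, mul_one, one_mul] at h h2
  linarith

theorem tr_eq {T : Finset α} (hT : T ∈ H.TT) {x f : α} (hxf : x ≠ f) (hx : x ∈ T) (hf : f ∈ T) :
    H.tr x f = T := by
  have h : ∃ T ∈ H.TT, x ∈ T ∧ f ∈ T := ⟨T, hT, hx, hf⟩
  unfold tr
  rw [dif_pos h]
  exact H.lin0.eq_of_two h.choose_spec.1 hT hxf h.choose_spec.2.1 h.choose_spec.2.2 hx hf

theorem tr_of_adj {A : Finset α} {x f : α} (h : H.adj A x f) :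
    H.tr x f ∈ H.tri A ∧ x ∈ H.tr x f ∧ f ∈ H.tr x f := by
  obtain ⟨hne, T, hT, h1, h2⟩ := h
  rw [H.tr_eq (H.tri_subset A hT) hne h1 h2]
  exact ⟨hT, h1, h2⟩

end HG

end Vale.Agent.P046
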