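import Vale.Agent.P046.Basic

open Finset

set_option linter.unusedSectionVars false

namespace Vale.Agent.P046

variable {α : Type} [DecidableEq α] {TT : Finset (Finset α)} {A1 : Finset α} {t : ℝ}
  {p : Finset α → ℝ → ℝ}

/-- Signed factorisation error of one hyperedge. -/
noncomputable def errT (TT : Finset (Finset α)) (p : Finset α → ℝ → ℝ) (T : Finset α)
    (s : ℝ) : ℝ :=
  ∑ x ∈ T, ∑ T' ∈ (thru TT x).erase T, (p T s * p T' s / p {x} s - p (T ∪ T') s)

theorem sum_abs_errT_le (hA : ∀ T ∈ TT, T ⊆ A1) (p : Finset α → ℝ → ℝ) (s : ℝ) :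
    ∑ T ∈ TT, |errT TT p T s| ≤ errF TT A1 p s := by
  unfold errF
  rw [← sum_inc_swap TT A1 hA (fun T x => ∑ T' ∈ (thru TT x).erase T,
    |p T s * p T' s / p {x} s - p (T ∪ T') s|)]
  refine Finset.sum_le_sum fun T _ => ?_
  unfold errT
  exact (Finset.abs_sum_le_sum_abs _ _).trans
    (Finset.sum_le_sum fun x _ => Finset.abs_sum_le_sum_abs _ _)

theorem errF_nonneg (TT : Finset (Finset α)) (A1 : Finset α) (p : Finset α → ℝ → ℝ) (s : ℝ) :
    0 ≤ errF TT A1 p s :=
  Finset.sum_nonneg fun _ _ => Finset.sum_nonneg fun _ _ => Finset.sum_nonneg fun _ _ =>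
    abs_nonneg _

namespace Fwd

theorem der_single (h : Fwd TT A1 t p) (e : α) {s : ℝ} (hs : s ∈ Set.Ico 0 t) :
    HasDerivWithinAt (p {e}) (-WW TT p e s) (Set.Ici s) s := by
  have := h.der {e} s hs
  have e1 : TT.filter (fun T => (T ∩ {e}).Nonempty) = thru TT e := by
    ext T; simp [mem_thru, Finset.Nonempty]
  rw [e1] at this
  refine this.congr_deriv ?_
  unfold WW
  congr 1
  refine Finset.sum_congr rfl fun T hT => ?_
  rw [Finset.union_eq_right.2 (singleton_subset_iff.2 (mem_thru.1 hT).2)]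

theorem le_single (h : Fwd TT A1 t p) {T : Finset α} {e : α} (he : e ∈ T) {s : ℝ}
    (hs : s ∈ Set.Icc 0 t) : p T s ≤ p {e} s :=
  h.anti {e} T (singleton_subset_iff.2 he) s hs

theorem WW_nonneg (h : Fwd TT A1 t p) (e : α) {s : ℝ} (hs : s ∈ Set.Icc 0 t) :
    0 ≤ WW TT p e s := Finset.sum_nonneg fun T _ => h.nonneg T s hs

theorem WW_le (h : Fwd TT A1 t p) (e : α) {s : ℝ} (hs : s ∈ Set.Icc 0 t) :
    WW TT p e s ≤ ((thru TT e).card : ℝ) * p {e} s := by
  unfold WW
  have := Finset.sum_le_card_nsmul (thru TT e) (fun T => p T s) (p {e} s)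
    (fun T hT => h.le_single (mem_thru.1 hT).2 hs)
  simpa using this

theorem cont_WW (h : Fwd TT A1 t p) (e : α) : ContinuousOn (WW TT p e) (Set.Icc 0 t) :=
  continuousOn_finsetSum _ fun T _ => h.cont T

theorem single_ge (h : Fwd TT A1 t p) {e : α} (he : e ∈ A1) {s : ℝ} (hs : s ∈ Set.Icc 0 t) :
    Real.exp (-(((thru TT e).card : ℝ) * s)) ≤ p {e} s := by
  set c : ℝ := ((thru TT e).card : ℝ) with hc
  have hE : ∀ x : ℝ, HasDerivAt (fun x => Real.exp (c * x)) (Real.exp (c * x) * c) x := fun x => by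
    simpa using ((hasDerivAt_id x).const_mul c).exp
  have key := image_le_of_deriv_right_le_deriv_boundary (a := 0) (b := t)
    (f := fun x => -(p {e} x * Real.exp (c * x)))
    (f' := fun x => -(-WW TT p e x * Real.exp (c * x) + p {e} x * (Real.exp (c * x) * c)))
    (B := fun _ => -1) (B' := fun _ => 0)
    (((h.cont {e}).mul (by fun_prop)).neg)
    (fun x hx => ((h.der_single e hx).mul (hE x).hasDerivWithinAt).neg)
    (by simp [h.init {e} (singleton_subset_iff.2 he)]) continuousOn_const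
    (fun x _ => (hasDerivAt_const x _).hasDerivWithinAt)
    (fun x hx => by
      have := h.WW_le e (Set.Ico_subset_Icc_self hx)
      have h2 := Real.exp_pos (c * x)
      nlinarith)
  have h1 := key hs
  have h2 := Real.exp_pos (c * s)
  rw [Real.exp_neg, inv_le_iff_one_le_mul₀ h2]
  linarith

theorem single_pos (h : Fwd TT A1 t p) {e : α} (he : e ∈ A1) {s : ℝ} (hs : s ∈ Set.Icc 0 t) :
    0 < p {e} s := lt_of_lt_of_le (Real.exp_pos _) (h.single_ge he hs)

theorem empty_eq (h : Fwd TT A1 t p) {s : ℝ} (hs : s ∈ Set.Icc 0 t) : p ∅ s = 1 := by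
  refine le_antisymm (h.le_one ∅ s hs) ?_
  have key := image_le_of_deriv_right_le_deriv_boundary (a := 0) (b := t)
    (f := fun x => -(p ∅ x)) (f' := fun _ => 0) (B := fun _ => -1) (B' := fun _ => 0)
    ((h.cont ∅).neg) (fun x hx => (h.der ∅ x hx).neg.congr_deriv (by simp))
    (by simp [h.init ∅ (empty_subset _)]) continuousOn_const
    (fun x _ => (hasDerivAt_const x _).hasDerivWithinAt) (fun _ _ => le_rfl)
  have h1 := key hs
  linarith

/-- The evolution of one hyperedge. -/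
theorem der_tri0 (h : Fwd TT A1 t p) (hl : LinHG TT) {T : Finset α} (hT : T ∈ TT) {s : ℝ}
    (hs : s ∈ Set.Ico 0 t) :
    HasDerivWithinAt (p T)
      (-(p T s + ∑ x ∈ T, ∑ T' ∈ (thru TT x).erase T, p (T ∪ T') s)) (Set.Ici s) s := by
  refine (h.der T s hs).congr_deriv ?_
  congr 1
  have hne : T.Nonempty := card_pos.1 (by rw [hl.card3 T hT]; norm_num)
  have hm : T ∈ TT.filter (fun T' => (T' ∩ T).Nonempty) := by simp [hT, hne]
  rw [← Finset.add_sum_erase _ _ hm, Finset.union_self]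
  congr 1
  rw [← Finset.sum_biUnion]
  · refine Finset.sum_congr ?_ fun _ _ => rfl
    ext T'
    simp only [mem_erase, mem_filter, mem_biUnion, mem_thru, Finset.Nonempty, mem_inter]
    constructor
    · rintro ⟨h1, h2, x, hx1, hx2⟩; exact ⟨x, hx2, h1, h2, hx1⟩
    · rintro ⟨x, hx2, h1, h2, hx1⟩; exact ⟨h1, h2, x, hx1, hx2⟩
  · intro x hx y hy hxy
    rw [Function.onFun, Finset.disjoint_left]
    intro T' h1 h2
    simp only [mem_erase, mem_thru] at h1 h2
    exact h1.1 (hl.eq_of_two h1.2.1 hT hxy h1.2.2 h2.2.2 hx hy)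

/-- The belief propagation form of the evolution of one hyperedge. -/
theorem der_tri (h : Fwd TT A1 t p) (hl : LinHG TT) {T : Finset α} (hT : T ∈ TT) {s : ℝ}
    (hs : s ∈ Set.Ico 0 t) :
    HasDerivWithinAt (p T)
      (-(p T s * (1 + ∑ x ∈ T, (WW TT p x s - p T s) / p {x} s)) + errT TT p T s)
      (Set.Ici s) s := by
  refine (h.der_tri0 hl hT hs).congr_deriv ?_
  unfold errT
  have : ∀ x ∈ T, ∑ T' ∈ (thru TT x).erase T, (p T s * p T' s / p {x} s - p (T ∪ T') s)
      = p T s * ((WW TT p x s - p T s) / p {x} s)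
        - ∑ T' ∈ (thru TT x).erase T, p (T ∪ T') s := by
    intro x hx
    have hm : T ∈ thru TT x := mem_thru.2 ⟨hT, hx⟩
    rw [Finset.sum_sub_distrib]
    congr 1
    unfold WW
    rw [← Finset.add_sum_erase _ _ hm, add_sub_cancel_left, Finset.sum_div, Finset.mul_sum]
    exact Finset.sum_congr rfl fun _ _ => by ring
  rw [Finset.sum_congr rfl this, Finset.sum_sub_distrib, ← Finset.mul_sum]
  ring

end Fwd

end Vale.Agent.P046
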