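import Vale.Agent.P046.FwdEx
import Vale.Agent.P046.FwdBasic

open Finset

namespace Vale.Agent.P046

namespace CoupleAux

variable {α : Type} [DecidableEq α] (H : HG α)

/-- The degree, kept only above the level `L`. -/
noncomputable def hi (A : Finset α) (L : ℝ) (x : α) : ℝ :=
  if L < (H.deg A x : ℝ) then (H.deg A x : ℝ) else 0

theorem hi_nonneg (A : Finset α) (L : ℝ) (x : α) : 0 ≤ hi H A L x := by
  unfold hi; split_ifs <;> positivity

theorem sum_inc (A : Finset α) (g : α → ℝ) :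
    ∑ T ∈ H.tri A, ∑ x ∈ T, g x = ∑ x ∈ A, (H.deg A x : ℝ) * g x :=
  sum_inc_card _ A (H.tri_sub A) g

theorem sum_deg_hi (A : Finset α) (L : ℝ) :
    ∑ x ∈ A, (H.deg A x : ℝ) * hi H A L x = H.tail2 A L := by
  rw [HG.tail2, Finset.sum_filter]
  refine Finset.sum_congr rfl fun x _ => ?_
  unfold hi
  split_ifs <;> ring

theorem hi_le (A : Finset α) (L : ℝ) (x : α) : hi H A L x ≤ (H.deg A x : ℝ) * hi H A L x := by
  unfold hi
  split_ifs
  · exact_mod_cast Nat.le_mul_self _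
  · simp

theorem mul_hi_le (A : Finset α) (L : ℝ) (x : α) :
    L * hi H A L x ≤ (H.deg A x : ℝ) * hi H A L x := by
  unfold hi
  split_ifs with h
  · exact mul_le_mul_of_nonneg_right h.le (by positivity)
  · simp

theorem deg_mul_le (A : Finset α) {L : ℝ} (hL : 0 ≤ L) (x : α) {y : ℝ} (h0 : 0 ≤ y) (h1 : y ≤ 1) :
    (H.deg A x : ℝ) * y ≤ L * y + hi H A L x := by
  have hd : (0 : ℝ) ≤ H.deg A x := by positivity
  unfold hi
  split_ifs with h
  · nlinarith [mul_nonneg hL h0]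
  · nlinarith [mul_le_mul_of_nonneg_right (not_lt.1 h) h0]

theorem exists_bad {A T : Finset α} {Δ : ℕ} (hT : T ∈ H.tri A) (h : T ∉ H.clean A Δ) :
    ∃ z ∈ T, (Δ : ℝ) < H.deg A z := by
  by_contra hc
  push Not at hc
  exact h (Finset.mem_filter.2 ⟨hT, fun x hx => by exact_mod_cast hc x hx⟩)

theorem deg_le_sum {A T : Finset α} {Δ : ℕ} (hT : T ∈ H.tri A) (h : T ∉ H.clean A Δ) {x : α}
    (hx : x ∈ T) : (H.deg A x : ℝ) ≤ ∑ z ∈ T, hi H A Δ z := by
  obtain ⟨z, hz, hb⟩ := exists_bad H hT h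
  have key : ∀ v ∈ T, (Δ : ℝ) < H.deg A v → (H.deg A v : ℝ) ≤ ∑ z ∈ T, hi H A Δ z :=
    fun v hv hb => by
      have := Finset.single_le_sum (f := hi H A Δ) (fun z _ => hi_nonneg H A Δ z) hv
      rwa [hi, if_pos hb] at this
  by_cases hx' : (Δ : ℝ) < H.deg A x
  · exact key x hx hx'
  · exact ((not_lt.1 hx').trans hb.le).trans (key z hz hb)

theorem card_bad_le (A : Finset α) (Δ : ℕ) :
    ∑ T ∈ H.tri A, (if T ∈ H.clean A Δ then (0 : ℝ) else 1) ≤ H.tail2 A Δ := by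
  have h1 : ∀ T ∈ H.tri A, (if T ∈ H.clean A Δ then (0 : ℝ) else 1) ≤
      ∑ x ∈ T, (if (Δ : ℝ) < H.deg A x then (1 : ℝ) else 0) := by
    intro T hT
    have h0 : ∀ x ∈ T, 0 ≤ (if (Δ : ℝ) < H.deg A x then (1 : ℝ) else 0) := fun x _ => by
      split_ifs <;> norm_num
    split_ifs with h
    · exact Finset.sum_nonneg h0
    · obtain ⟨z, hz, hb⟩ := exists_bad H hT h
      have := Finset.single_le_sum h0 hz
      rwa [if_pos hb] at this
  refine (Finset.sum_le_sum h1).trans ?_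
  rw [sum_inc, ← sum_deg_hi]
  refine Finset.sum_le_sum fun x _ => le_trans (le_of_eq ?_) (hi_le H A Δ x)
  unfold hi
  split_ifs <;> simp

theorem dis_nonneg (v : α) (σ : Finset α × Finset α) : 0 ≤ dis v σ := by
  unfold dis; split_ifs <;> norm_num

theorem dis_le_one (v : α) (σ : Finset α × Finset α) : dis v σ ≤ 1 := by
  unfold dis; split_ifs <;> norm_num

theorem jump (H' : Finset (Finset α)) (δ M2 : ℝ) {A1 T : Finset α} (hT : T ∈ H.TT)
    {σ : Finset α × Finset α} (hσ : HG.InvS A1 σ) :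
    ∑ v ∈ A1, dis v ((H.sys H' δ M2).mv T σ) - ∑ v ∈ A1, dis v σ ≤
      if T ⊆ A1 then 3 * (∑ x ∈ T, dis x σ + if T ∈ H' then 0 else 1) else 0 := by
  by_cases hA : T ⊆ A1
  swap
  · have h1 : ¬ T ⊆ σ.1 := fun h => hA (h.trans hσ.1)
    have h2 : ¬ T ⊆ σ.2 := fun h => hA (h.trans hσ.2)
    simp [HG.sys, h1, h2, hA]
  rw [if_pos hA, ← Finset.sum_sub_distrib]
  have hs : 0 ≤ ∑ x ∈ T, dis x σ := Finset.sum_nonneg fun x _ => dis_nonneg x σ
  have out : ∀ v, v ∉ T → dis v ((H.sys H' δ M2).mv T σ) = dis v σ := fun v hv => by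
    simp only [HG.sys, dis]
    by_cases a : T ⊆ σ.1 <;> by_cases b : T ⊆ σ.2 ∧ T ∈ H' <;> simp [a, b, hv]
  have fin : ∀ c : ℝ, (∀ v ∈ T, dis v ((H.sys H' δ M2).mv T σ) - dis v σ ≤ c) →
      ∑ v ∈ A1, (dis v ((H.sys H' δ M2).mv T σ) - dis v σ) ≤ 3 * c := fun c hc => by
    rw [← Finset.sum_subset hA fun v _ hv => by rw [out v hv, sub_self]]
    have := Finset.sum_le_card_nsmul T _ c hc
    rwa [H.card3 T hT, nsmul_eq_mul] at this
  refine fin _ fun v hv => ?_
  have a1 := dis_le_one v ((H.sys H' δ M2).mv T σ)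
  have a2 := dis_nonneg v σ
  by_cases hc : T ∈ H'
  · rw [if_pos hc]
    by_cases hall : ∀ x ∈ T, (x ∈ σ.1 ↔ x ∈ σ.2)
    · have e : dis v ((H.sys H' δ M2).mv T σ) = 0 := by
        have h12 : T ⊆ σ.1 ↔ T ⊆ σ.2 :=
          ⟨fun h x hx => (hall x hx).1 (h hx), fun h x hx => (hall x hx).2 (h hx)⟩
        simp only [HG.sys, dis]
        by_cases a : T ⊆ σ.2 <;> simp [h12, a, hc, hv, hall v hv]
      linarith
    · obtain ⟨x, hx⟩ := not_forall.1 hall
      obtain ⟨hx, hd⟩ := Classical.not_imp.1 hx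
      have e : dis x σ = 1 := if_neg hd
      have := Finset.single_le_sum (f := fun x => dis x σ) (fun x _ => dis_nonneg x σ) hx
      linarith
  · rw [if_neg hc]
    linarith

theorem jump_sum (δ M2 : ℝ) {A1 : Finset α} (Δ : ℕ) {σ : Finset α × Finset α}
    (hσ : HG.InvS A1 σ) {L : ℝ} (hL : 0 ≤ L) :
    ∑ T ∈ (H.sys (H.clean A1 Δ) δ M2).moves,
      (∑ v ∈ A1, dis v ((H.sys (H.clean A1 Δ) δ M2).mv T σ) - ∑ v ∈ A1, dis v σ) ≤
      3 * (L * ∑ v ∈ A1, dis v σ + H.tail2 A1 L + H.tail2 A1 Δ) := by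
  refine (Finset.sum_le_sum fun T hT => jump H _ δ M2 hT hσ).trans ?_
  rw [← Finset.sum_filter, ← Finset.mul_sum, Finset.sum_add_distrib]
  have h1 : ∑ T ∈ H.tri A1, ∑ x ∈ T, dis x σ ≤ L * ∑ v ∈ A1, dis v σ + H.tail2 A1 L := by
    rw [sum_inc, Finset.mul_sum, ← sum_deg_hi, ← Finset.sum_add_distrib]
    exact Finset.sum_le_sum fun x _ =>
      (deg_mul_le H A1 hL x (dis_nonneg x σ) (dis_le_one x σ)).trans
        (add_le_add le_rfl (hi_le H A1 L x))
  exact mul_le_mul_of_nonneg_left (add_le_add h1 (card_bad_le H A1 Δ)) (by norm_num)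

theorem lip_half {w w' b u u' c : ℝ} (hb : 0 < b) (hbc : b ≤ c) (h0 : 0 ≤ w) (h1 : w ≤ b)
    (h2 : 0 ≤ w') (h3 : w' ≤ b) (h4 : 0 ≤ u) (h5 : u ≤ c) :
    |w * w' / b - u * u' / c| ≤ |w - u| + |w' - u'| + (c - b) := by
  have hc : 0 < c := hb.trans_le hbc
  have e : w * w' / b - u * u' / c =
      (w - u) * (w' / c) + (w' - u') * (u / c) + (c - b) * (w / b * (w' / c)) := by
    field_simp; ring
  have a1 : w' / c ≤ 1 := (div_le_one hc).2 (h3.trans hbc)
  have a2 : u / c ≤ 1 := (div_le_one hc).2 h5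
  have a3 : w / b ≤ 1 := (div_le_one hb).2 h1
  have b1 : 0 ≤ w' / c := by positivity
  have b2 : 0 ≤ u / c := by positivity
  have b3 : 0 ≤ w / b := by positivity
  have key : ∀ x y : ℝ, 0 ≤ y → y ≤ 1 → |x * y| ≤ |x| := fun x y y0 y1 => by
    rw [abs_mul, abs_of_nonneg y0]
    exact mul_le_of_le_one_right (abs_nonneg x) y1
  rw [e]
  refine (abs_add_three _ _ _).trans (add_le_add (add_le_add (key _ _ b1 a1) (key _ _ b2 a2)) ?_)
  exact (key _ _ (mul_nonneg b3 b1) (mul_le_one₀ a3 b1 a1)).trans_eq (abs_of_nonneg (by linarith))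

theorem lip {w w' b u u' c : ℝ} (hb : 0 < b) (hc : 0 < c) (h0 : 0 ≤ w) (h1 : w ≤ b)
    (h2 : 0 ≤ w') (h3 : w' ≤ b) (h4 : 0 ≤ u) (h5 : u ≤ c) (h6 : 0 ≤ u') (h7 : u' ≤ c) :
    |w * w' / b - u * u' / c| ≤ |w - u| + |w' - u'| + |b - c| := by
  rcases le_total b c with h | h
  · have := lip_half (u' := u') hb h h0 h1 h2 h3 h4 h5
    linarith [neg_abs_le (b - c)]
  · have := lip_half (u' := w') hc h h4 h5 h6 h7 h0 h1
    rw [abs_sub_comm, abs_sub_comm u, abs_sub_comm u'] at this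
    linarith [le_abs_self (b - c)]

theorem pair_sum (S : Finset (Finset α)) {g : Finset α → ℝ} (hg : ∀ T, 0 ≤ g T) :
    ∑ T ∈ S, ∑ T' ∈ S.erase T, (g T + g T') ≤ 2 * ∑ T ∈ S, (S.card : ℝ) * g T := by
  have h1 : ∀ T ∈ S, ∑ T' ∈ S.erase T, (g T + g T') ≤ ∑ T' ∈ S, (g T + g T') := fun T _ =>
    Finset.sum_le_sum_of_subset_of_nonneg (erase_subset _ _) fun _ _ _ => add_nonneg (hg _) (hg _)
  refine (Finset.sum_le_sum h1).trans (le_of_eq ?_)
  simp only [Finset.sum_add_distrib, Finset.sum_const, nsmul_eq_mul, ← Finset.mul_sum]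
  ring

theorem clean_sum (S C : Finset (Finset α)) (F : Finset α → Finset α → ℝ) :
    ∑ T ∈ S, ∑ T' ∈ S.erase T, (if T ∈ C ∧ T' ∈ C then F T T' else 0) =
      ∑ T ∈ S.filter (· ∈ C), ∑ T' ∈ (S.filter (· ∈ C)).erase T, F T T' := by
  rw [Finset.sum_filter]
  refine Finset.sum_congr rfl fun T _ => ?_
  by_cases h : T ∈ C
  · simp only [h, true_and, if_true]
    rw [← Finset.filter_erase, Finset.sum_filter]
  · simp [h]

end CoupleAux

open CoupleAux in
theorem couple_le {α : Type} [DecidableEq α] [Fintype α] {H : HG α} {δ M2 : ℝ} {A1 : Finset α}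
    {r1 : (α → ℝ) × (α → ℝ)} {Δ : ℕ} {M τ1 t : ℝ} (hM : 0 < M) (h1 : H.aa τ1 = 1 / M)
    (ht : 0 ≤ t) (X : H.XE (H.clean A1 Δ) δ M2 A1 τ1 (tau M τ1 t) r1) {s : ℝ}
    (hs : s ∈ Set.Icc 0 t) :
    ∑ v ∈ A1, X.E (tau M τ1 s) (fun σ _ => dis v σ) ≤
      768 * M ^ 2 * t * Real.exp (-(Δ * Real.exp (-(48 * M * t))) / (16 * M))
        * H.UU (1 / M) A1 := by
  have _ := ht
  have hb := tau_mem hM τ1 hs
  set L : ℝ → ℝ := fun τ => Δ * Real.exp (-(24 * (M * H.aa τ - 1))) with hL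
  set c : ℝ → ℝ := fun τ => Real.exp (L τ / (16 * M)) with hc
  set K : ℝ := 768 * M ^ 2 * Real.exp (-(Δ * Real.exp (-(48 * M * t))) / (16 * M))
    * H.UU (1 / M) A1 with hK
  have hU := H.UU_nonneg (1 / M) A1
  have hK0 : 0 ≤ K := by positivity
  have hL0 : ∀ τ, 0 ≤ L τ := fun τ => by positivity
  have hcs : ContDiff ℝ 1 c :=
    ((contDiff_const.mul (contDiff_const.mul
      ((contDiff_const.mul H.contDiff_aa).sub contDiff_const)).neg.exp).div_const _).exp
  have hcd : ∀ τ, HasDerivAt c (-(3 * H.aa τ * L τ * c τ)) τ := fun τ => by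
    have := (((((((H.hasDerivAt_aa τ).const_mul M).sub_const 1).const_mul 24).neg.exp).const_mul
      (Δ : ℝ)).div_const (16 * M)).exp
    refine HasDerivAt.congr_deriv this ?_
    simp only [hc, hL, Pi.neg_apply]
    field_simp
    ring
  have hΞ : Sm (fun (_ : ℝ) (σ : Finset α × Finset α) (_ : (α → ℝ) × (α → ℝ)) =>
      ∑ v ∈ A1, dis v σ) := Sm.of_state _
  have key := X.le_of_gen (Sm.tmul hcs hΞ) le_rfl hb.1 hb.2 (B := fun τ => K / 2 * H.aa τ)
    (B' := fun τ => K * H.aa τ)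
    (fun τ _ => ((H.hasDerivAt_aa τ).const_mul (K / 2)).congr_deriv (by ring))
    (fun τ hτ => by
      refine ⟨fun _ _ => K * H.aa τ, Cts.const _, fun σ r hσ => ?_,
        (X.const τ ⟨hτ.1, hτ.2.le.trans hb.2⟩ _).le⟩
      have ha := H.aa_nonneg τ
      have hlo : 1 ≤ M * H.aa τ := by
        have := H.aa_mono hτ.1
        rw [h1, div_le_iff₀ hM] at this
        linarith
      have hhi : M * H.aa τ ≤ 1 + 2 * M * t := by
        have := H.aa_mono (hτ.2.le.trans hb.2)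
        rw [aa_tau hM h1 ht, le_div_iff₀ hM] at this
        linarith
      have hΔ : (0 : ℝ) ≤ Δ := by positivity
      have e1 : L τ ≤ Δ :=
        mul_le_of_le_one_right hΔ (Real.exp_le_one_iff.2 (by linarith))
      have e2 : Δ * Real.exp (-(48 * M * t)) ≤ L τ :=
        mul_le_mul_of_nonneg_left (Real.exp_le_exp.2 (by linarith)) hΔ
      have e3 := jump_sum H δ M2 Δ hσ (hL0 τ)
      have e4 := H.tail2_anti A1 e1
      have e5 := H.tail2_le A1 hM (L τ)
      have e6 : c τ * Real.exp (-L τ / (8 * M)) ≤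
          Real.exp (-(Δ * Real.exp (-(48 * M * t))) / (16 * M)) := by
        simp only [hc]
        rw [← Real.exp_add]
        refine Real.exp_le_exp.2 ?_
        have : L τ / (16 * M) + -L τ / (8 * M) = -L τ / (16 * M) := by field_simp; ring
        rw [this]
        exact div_le_div_of_nonneg_right (by linarith) (by positivity)
      have hc0 : 0 ≤ c τ := (Real.exp_pos _).le
      have e7 : c τ * (6 * H.tail2 A1 (L τ)) ≤ K := by
        have a := mul_le_mul_of_nonneg_left e5 hc0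
        have b := mul_le_mul_of_nonneg_left e6
          (by positivity : 0 ≤ 768 * M ^ 2 * H.UU (1 / M) A1)
        rw [hK]
        linarith
      rw [Sys.gen_tmul _ (hcd τ) hΞ, Sys.gen_state]
      have e8 := mul_le_mul_of_nonneg_left e3 (mul_nonneg hc0 ha)
      have e9 := mul_le_mul_of_nonneg_left e4 (mul_nonneg hc0 ha)
      have e10 := mul_le_mul_of_nonneg_left e7 ha
      have e11 : (H.sys (H.clean A1 Δ) δ M2).rate τ = H.aa τ := rfl
      rw [e11]
      linarith)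
  rw [X.init _ ((Sm.tmul hcs hΞ).cts τ1), X.smul _ hb _ _ (Cts.of_state _),
    X.sum hb A1 fun v _ => Cts.of_state (dis v), aa_tau hM h1 hs.1, h1] at key
  have h0 : 0 ≤ ∑ v ∈ A1, X.E (tau M τ1 s) (fun σ _ => dis v σ) :=
    Finset.sum_nonneg fun v _ => X.nonneg hb (Cts.of_state _) fun σ _ _ => dis_nonneg v σ
  have h2 : 1 ≤ c (tau M τ1 s) := Real.one_le_exp (div_nonneg (hL0 _) (by positivity))
  have h3 : K / 2 * ((1 + 2 * M * s) / M) - K / 2 * (1 / M) = K * s := by field_simp; ring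
  have h4 : ∑ v ∈ A1, dis v (A1, A1) = 0 := by simp [dis]
  have h5 := mul_le_mul_of_nonneg_left hs.2 hK0
  have h6 := le_mul_of_one_le_left h0 h2
  rw [h4] at key
  calc _ ≤ K * t := by linarith
    _ = _ := by rw [hK]; ring

open CoupleAux in
/-- Transfer of the factorisation error from the clean copy. -/
theorem errF_transfer {α : Type} [DecidableEq α] (H : HG α) (A1 : Finset α) (Δ : ℕ)
    {p p' : Finset α → ℝ → ℝ} {t s : ℝ} (h : Fwd (H.tri A1) A1 t p)
    (h' : Fwd (H.clean A1 Δ) A1 t p') (hs : s ∈ Set.Icc 0 t) (y : α → ℝ)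
    (hy0 : ∀ v, 0 ≤ y v) (hy1 : ∀ v, y v ≤ 1)
    (hy : ∀ S, |p S s - p' S s| ≤ ∑ v ∈ S, y v) {L : ℝ} (hL : 0 ≤ L) :
    errF (H.tri A1) A1 p s ≤ errF (H.clean A1 Δ) A1 p' s + 18 * L ^ 2 * ∑ v ∈ A1, y v
      + 36 * H.tail2 A1 L + 6 * H.tail2 A1 Δ := by
  set C := H.clean A1 Δ with hC
  set g : Finset α → ℝ := fun T => 3 * ∑ v ∈ T, y v + if T ∈ C then 0 else 1 with hg
  have hY : ∀ T : Finset α, 0 ≤ ∑ v ∈ T, y v := fun T => Finset.sum_nonneg fun v _ => hy0 v
  have hg0 : ∀ T, 0 ≤ g T := fun T => by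
    have := hY T
    simp only [hg]
    split_ifs <;> linarith
  have term : ∀ x ∈ A1, ∀ T T' : Finset α, x ∈ T → x ∈ T' →
      |p T s * p T' s / p {x} s - p (T ∪ T') s| ≤
        (if T ∈ C ∧ T' ∈ C then |p' T s * p' T' s / p' {x} s - p' (T ∪ T') s| else 0)
          + (g T + g T') := by
    intro x hx T T' hT hT'
    have a1 := hY T
    have a2 := hY T'
    have b0 := h.single_pos hx hs
    by_cases hc : T ∈ C ∧ T' ∈ C
    · have l := lip b0 (h'.single_pos hx hs) (h.nonneg T s hs) (h.le_single hT hs)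
        (h.nonneg T' s hs) (h.le_single hT' hs) (h'.nonneg T s hs) (h'.le_single hT hs)
        (h'.nonneg T' s hs) (h'.le_single hT' hs)
      have y1 := hy T
      have y2 := hy T'
      have y3 := hy {x}
      have y4 := hy (T ∪ T')
      have y5 : ∑ v ∈ T ∪ T', y v ≤ ∑ v ∈ T, y v + ∑ v ∈ T', y v := by
        rw [← Finset.sum_union_inter]
        linarith [hY (T ∩ T')]
      have y6 := Finset.single_le_sum (f := y) (fun v _ => hy0 v) hT
      rw [Finset.sum_singleton] at y3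
      simp only [hg, hc.1, hc.2, and_self, if_true]
      rw [abs_le] at l y4 ⊢
      have z1 := le_abs_self (p' T s * p' T' s / p' {x} s - p' (T ∪ T') s)
      have z2 := neg_abs_le (p' T s * p' T' s / p' {x} s - p' (T ∪ T') s)
      constructor <;> linarith [l.1, l.2, y4.1, y4.2]
    · have c1 : p T s * p T' s / p {x} s ≤ 1 := by
        rw [div_le_one b0]
        exact (mul_le_of_le_one_right (h.nonneg T s hs) (h.le_one T' s hs)).trans
          (h.le_single hT hs)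
      have c2 : 0 ≤ p T s * p T' s / p {x} s :=
        div_nonneg (mul_nonneg (h.nonneg T s hs) (h.nonneg T' s hs)) b0.le
      have c3 := h.nonneg (T ∪ T') s hs
      have c4 := h.le_one (T ∪ T') s hs
      have c5 : |p T s * p T' s / p {x} s - p (T ∪ T') s| ≤ 1 := by
        rw [abs_le]; constructor <;> linarith
      rw [if_neg hc]
      simp only [hg]
      split_ifs with d1 d2
      · exact absurd ⟨d1, d2⟩ hc
      all_goals linarith
  have hthru : ∀ x, (thru (H.tri A1) x).filter (· ∈ C) = thru C x := fun x => by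
    ext T
    simp only [mem_filter, mem_thru]
    exact ⟨fun a => ⟨a.2, a.1.2⟩, fun a => ⟨⟨H.clean_subset A1 Δ a.1, a.2⟩, a.1⟩⟩
  have s1 : errF (H.tri A1) A1 p s ≤ errF C A1 p' s +
      2 * ∑ T ∈ H.tri A1, ∑ x ∈ T, (H.deg A1 x : ℝ) * g T := by
    rw [H.sum_tri A1 fun T x => (H.deg A1 x : ℝ) * g T, errF, errF, Finset.mul_sum,
      ← Finset.sum_add_distrib]
    refine Finset.sum_le_sum fun x hx => ?_
    refine (Finset.sum_le_sum fun T hT => Finset.sum_le_sum fun T' hT' =>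
      term x hx T T' (mem_thru.1 hT).2 (mem_thru.1 (mem_of_mem_erase hT')).2).trans ?_
    rw [← hthru, ← clean_sum]
    simp only [Finset.sum_add_distrib (f := fun T' => if _ ∈ C ∧ T' ∈ C then _ else _)]
    rw [Finset.sum_add_distrib]
    exact add_le_add le_rfl (pair_sum _ hg0)
  have s2 : ∀ T ∈ H.tri A1, ∑ x ∈ T, (H.deg A1 x : ℝ) * g T ≤
      9 * L * ∑ v ∈ T, y v + 9 * ∑ x ∈ T, hi H A1 L x + 3 * ∑ x ∈ T, hi H A1 Δ x := by
    intro T hT
    have h3 := H.tri_card3 hT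
    have hh : 0 ≤ ∑ x ∈ T, hi H A1 Δ x := Finset.sum_nonneg fun x _ => hi_nonneg H A1 Δ x
    have t1 : ∀ x ∈ T, (H.deg A1 x : ℝ) * g T ≤
        3 * L * ∑ v ∈ T, y v + 9 * hi H A1 L x + ∑ x ∈ T, hi H A1 Δ x := by
      intro x hx
      have u1 : (H.deg A1 x : ℝ) * ∑ v ∈ T, y v ≤ L * ∑ v ∈ T, y v + 3 * hi H A1 L x := by
        have := Finset.sum_le_sum fun v (_ : v ∈ T) => deg_mul_le H A1 hL x (hy0 v) (hy1 v)
        rw [Finset.sum_add_distrib, Finset.sum_const, h3, nsmul_eq_mul, ← Finset.mul_sum,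
          ← Finset.mul_sum] at this
        exact_mod_cast this
      simp only [hg]
      split_ifs with d
      · linarith
      · linarith [deg_le_sum H hT d hx]
    have := Finset.sum_le_sum t1
    rw [Finset.sum_add_distrib, Finset.sum_add_distrib, Finset.sum_const, Finset.sum_const, h3,
      nsmul_eq_mul, nsmul_eq_mul, ← Finset.mul_sum] at this
    push_cast at this
    linarith
  have s3 := Finset.sum_le_sum s2
  rw [Finset.sum_add_distrib, Finset.sum_add_distrib, ← Finset.mul_sum, ← Finset.mul_sum,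
    ← Finset.mul_sum, sum_inc H A1 y, sum_inc H A1 (hi H A1 L), sum_inc H A1 (hi H A1 Δ),
    sum_deg_hi, sum_deg_hi] at s3
  have s4 : L * ∑ x ∈ A1, (H.deg A1 x : ℝ) * y x ≤ L ^ 2 * ∑ v ∈ A1, y v + H.tail2 A1 L := by
    rw [← sum_deg_hi, Finset.mul_sum, Finset.mul_sum, ← Finset.sum_add_distrib]
    refine Finset.sum_le_sum fun x _ => ?_
    have a := mul_le_mul_of_nonneg_left (deg_mul_le H A1 hL x (hy0 x) (hy1 x)) hL
    have b := mul_hi_le H A1 L x
    linarith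
  linarith

end Vale.Agent.P046
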