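import Vale.Agent.P046.Ref

open Finset

set_option linter.unusedSectionVars false

namespace Vale.Agent.P046

/-- The constants of the master functional. -/
structure VOK (φ : ℝ → ℝ) (κ : Fin 4 → ℝ) (K γ0 : ℝ) : Prop where
  kap : ∀ i, 1 ≤ κ i
  Kpos : 0 < K
  g0pos : 0 < γ0
  g0le : γ0 ≤ 1
  super : ∀ {α : Type} [DecidableEq α] [Fintype α] (H : HG α), 1 ≤ H.D → H.D ≤ H.A0.card →
    ∀ β γ2 τ : ℝ, 0 ≤ β → 0 < γ2 → γ2 ≤ γ0 → H.gam τ ≤ γ2 → ∀ A ⊆ H.A0, ∀ r : α → ℝ,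
      H.genT (H.VV φ κ β γ2) τ A r ≤ K * (H.gg β τ + H.gam τ / γ2) * H.VV φ κ β γ2 τ A r ∧
      H.genT (fun τ A _ => H.Vabs γ2 τ A) τ A r ≤ K * (H.gam τ / γ2) * H.VV φ κ β γ2 τ A r

/-- Logarithmic time as a function of real time. -/
noncomputable def tau (M τ1 s : ℝ) : ℝ := τ1 + Real.log (1 + 2 * M * s) / 2

/-- Expectation functionals of the joint system started at `(A1, A1)`. -/
abbrev HG.XE {α : Type} [DecidableEq α] [Fintype α] (H : HG α) (H' : Finset (Finset α))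
    (δ M2 : ℝ) (A1 : Finset α) (t0 t1 : ℝ) (r1 : (α → ℝ) × (α → ℝ)) : Type :=
  Ex (H.sys H' δ M2) (HG.InvS A1) t0 t1 (A1, A1) r1

section
variable {α : Type} [DecidableEq α] [Fintype α] {H : HG α} {H' : Finset (Finset α)}
  {δ M2 : ℝ} {A1 : Finset α} {t0 t1 : ℝ} {r1 : (α → ℝ) × (α → ℝ)}

/-- Survival probabilities of the first component. -/
noncomputable def pE (X : H.XE H' δ M2 A1 t0 t1 r1) (S : Finset α) (τ : ℝ) : ℝ :=
  X.E τ (fun σ _ => ind S σ.1)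

/-- Survival probabilities of the second component. -/
noncomputable def pE' (X : H.XE H' δ M2 A1 t0 t1 r1) (S : Finset α) (τ : ℝ) : ℝ :=
  X.E τ (fun σ _ => ind S σ.2)

/-- Expectation of the master functional. -/
noncomputable def EV (X : H.XE H' δ M2 A1 t0 t1 r1) (φ : ℝ → ℝ) (κ : Fin 4 → ℝ)
    (β γ2 τ : ℝ) : ℝ :=
  X.E τ (fun σ r => H.VV φ κ β γ2 τ σ.1 r.1)

/-- Disagreement indicator. -/
noncomputable def dis (v : α) (σ : Finset α × Finset α) : ℝ := if (v ∈ σ.1 ↔ v ∈ σ.2) then 0 else 1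

end

namespace HG
variable {α : Type} [DecidableEq α] [Fintype α] (H : HG α)

theorem UU_nonneg (a : ℝ) (A : Finset α) : 0 ≤ H.UU a A :=
  Finset.sum_nonneg fun _ _ => (Real.exp_pos _).le

theorem card_le_UU {a : ℝ} (ha : 0 ≤ a) (A : Finset α) : (A.card : ℝ) ≤ H.UU a A := by
  unfold UU
  have : ∀ e ∈ A, (1 : ℝ) ≤ Real.exp (H.u a A e / 4) := fun e _ =>
    Real.one_le_exp (by have := H.u_nonneg ha A e; positivity)
  simpa using Finset.sum_le_sum this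

theorem sum_u_pow_le {a : ℝ} (ha : 0 ≤ a) (A : Finset α) (j : ℕ) :
    ∑ e ∈ A, H.u a A e ^ j ≤ (4 ^ j * (j.factorial : ℝ)) * H.UU a A := by
  unfold UU
  rw [Finset.mul_sum]
  exact Finset.sum_le_sum fun e _ => pow_le_exp4 j (H.u_nonneg ha A e)

theorem M4_nonneg (a : ℝ) (A : Finset α) (r : α → ℝ) : 0 ≤ H.M4 a A r :=
  Finset.sum_nonneg fun _ _ => by positivity

theorem M1_nonneg {a : ℝ} (ha : 0 ≤ a) (A : Finset α) (r : α → ℝ) : 0 ≤ H.M1 a A r :=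
  Finset.sum_nonneg fun e _ => mul_nonneg (H.u_nonneg ha A e) (by positivity)

theorem Ups_nonneg (a : ℝ) (A : Finset α) (r : α → ℝ) : 0 ≤ H.Ups a A r :=
  Finset.sum_nonneg fun _ _ => by positivity

theorem om_nonneg (a : ℝ) (A : Finset α) : 0 ≤ H.om a A := by unfold om; positivity

theorem Zq_nonneg {a : ℝ} (ha : 0 ≤ a) (A : Finset α) : 0 ≤ H.Zq a A :=
  mul_nonneg (by positivity) (Finset.sum_nonneg fun _ _ => H.u_nonneg ha A _)

theorem X4_nonneg (a : ℝ) (A : Finset α) : 0 ≤ H.X4 a A :=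
  Finset.sum_nonneg fun _ _ => by positivity

theorem abs_le_Vabs (γ2 τ : ℝ) (A : Finset α) :
    |H.nrm τ * (A.card : ℝ) - 1| ≤ H.Vabs γ2 τ A :=
  Real.abs_le_sqrt (by nlinarith [sq_nonneg γ2])

theorem le_Vabs {γ2 : ℝ} (τ : ℝ) (A : Finset α) : γ2 ≤ H.Vabs γ2 τ A :=
  Real.le_sqrt_of_sq_le (by nlinarith [sq_nonneg (H.nrm τ * (A.card : ℝ) - 1)])

theorem tail2_nonneg (A : Finset α) (L : ℝ) : 0 ≤ H.tail2 A L :=
  Finset.sum_nonneg fun _ _ => by positivity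

theorem tail2_anti (A : Finset α) {L L' : ℝ} (h : L ≤ L') : H.tail2 A L' ≤ H.tail2 A L := by
  unfold tail2
  refine Finset.sum_le_sum_of_subset_of_nonneg (fun e he => ?_) fun _ _ _ => by positivity
  simp only [mem_filter] at he ⊢
  exact ⟨he.1, lt_of_le_of_lt h he.2⟩

theorem tail2_le (A : Finset α) {M : ℝ} (hM : 0 < M) (L : ℝ) :
    H.tail2 A L ≤ 128 * M ^ 2 * Real.exp (-L / (8 * M)) * H.UU (1 / M) A := by
  unfold tail2 UU
  rw [Finset.mul_sum]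
  refine le_trans (Finset.sum_le_sum fun e he => ?_)
    (Finset.sum_le_sum_of_subset_of_nonneg (filter_subset _ A) fun _ _ _ => by positivity)
  have hL := (mem_filter.1 he).2
  set Y : ℝ := (H.deg A e : ℝ) with hY
  have hY0 : 0 ≤ Y := by positivity
  have hu : H.u (1 / M) A e = Y / M := by unfold u; rw [← hY]; ring
  rw [hu, mul_assoc, ← Real.exp_add]
  have h1 : Y / M / 8 ≤ -L / (8 * M) + Y / M / 4 := by
    have : -L / (8 * M) + Y / M / 4 - Y / M / 8 = (Y - L) / (8 * M) := by field_simp; ring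
    have h2 : 0 ≤ (Y - L) / (8 * M) := div_nonneg (by linarith) (by positivity)
    linarith
  have h2 := Real.quadratic_le_exp_of_nonneg (x := Y / M / 8) (by positivity)
  have h3 : Y ^ 2 = 128 * M ^ 2 * ((Y / M / 8) ^ 2 / 2) := by field_simp; ring
  rw [h3]
  have h4 : (Y / M / 8) ^ 2 / 2 ≤ Real.exp (-L / (8 * M) + Y / M / 4) := by
    have := Real.exp_le_exp.2 h1
    have h5 : 0 ≤ Y / M / 8 := by positivity
    linarith
  exact mul_le_mul_of_nonneg_left h4 (by positivity)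

/-- Every component of the master functional is bounded by it. -/
theorem VV_lower {φ φ' c : ℝ → ℝ} {C : ℝ} (hφ : PhiOK φ φ' c C) {κ : Fin 4 → ℝ}
    (hκ : ∀ i, 1 ≤ κ i) (hD : 1 ≤ H.D) (hN : H.D ≤ H.A0.card) {β γ2 τ : ℝ} (hβ : 0 ≤ β)
    (hγ : H.gam τ ≤ γ2) (A : Finset α) (r : α → ℝ) :
    H.cc τ * ∑ e ∈ A, φ (r e) ≤ H.VV φ κ β γ2 τ A r ∧
    κ 0 * (H.cc τ / H.gg β τ) * H.Ups (H.aa τ) A r
      + κ 1 * (H.cc τ / H.gg β τ) * H.om (H.aa τ) A ≤ H.VV φ κ β γ2 τ A r ∧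
    H.cc τ / H.gg β τ * H.Ups (H.aa τ) A r ≤ H.VV φ κ β γ2 τ A r ∧
    H.cc τ / H.gam τ ^ 7 * H.M4 (H.aa τ) A r ≤ H.VV φ κ β γ2 τ A r ∧
    H.gam τ * H.nrm τ * H.UU (H.aa τ) A ≤ H.VV φ κ β γ2 τ A r ∧
    γ2 * (H.nrm τ * (A.card : ℝ)) ≤ H.VV φ κ β γ2 τ A r ∧
    H.Vabs γ2 τ A ≤ H.VV φ κ β γ2 τ A r ∧
    H.nrm τ * (A.card : ℝ) ≤ 1 + H.VV φ κ β γ2 τ A r ∧
    γ2 ≤ H.VV φ κ β γ2 τ A r ∧ 0 ≤ H.VV φ κ β γ2 τ A r := by
  have hc := H.cc_pos hD hN τ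
  have hg := H.gam_pos hD τ
  have hgg := H.gg_pos hD hβ τ
  have hn := H.nrm_pos hD hN τ
  have a0 : 0 ≤ H.cc τ * ∑ e ∈ A, φ (r e) :=
    mul_nonneg hc.le (Finset.sum_nonneg fun _ _ => hφ.nonneg _)
  have a1 : 0 ≤ H.cc τ / H.gg β τ * H.Ups (H.aa τ) A r :=
    mul_nonneg (by positivity) (H.Ups_nonneg _ _ _)
  have a2 : 0 ≤ H.cc τ / H.gg β τ * H.om (H.aa τ) A :=
    mul_nonneg (by positivity) (H.om_nonneg _ _)
  have a3 : 0 ≤ H.cc τ / H.gam τ ^ 7 * H.M4 (H.aa τ) A r :=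
    mul_nonneg (by positivity) (H.M4_nonneg _ _ _)
  have a4 : 0 ≤ H.gam τ * H.nrm τ * H.UU (H.aa τ) A :=
    mul_nonneg (by positivity) (H.UU_nonneg _ _)
  have a5 : 0 ≤ H.nrm τ * (A.card : ℝ) := by positivity
  have a6 := H.le_Vabs (γ2 := γ2) τ A
  have a7 := (le_abs_self _).trans (H.abs_le_Vabs γ2 τ A)
  have b1 := mul_le_mul_of_nonneg_right (hκ 0) a1
  have b2 := mul_le_mul_of_nonneg_right (hκ 1) a2
  have b3 := mul_le_mul_of_nonneg_right (hκ 2) a3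
  have b4 := mul_le_mul_of_nonneg_right (hκ 3) a4
  have hγ2 : 0 < γ2 := lt_of_lt_of_le hg hγ
  have b5 : γ2 * (H.nrm τ * (A.card : ℝ))
      ≤ 24 * κ 3 * (2 * γ2 - H.gam τ) * (H.nrm τ * (A.card : ℝ)) := by
    apply mul_le_mul_of_nonneg_right _ a5
    nlinarith [hκ 3]
  have b6 : 0 ≤ γ2 * (H.nrm τ * (A.card : ℝ)) := by positivity
  unfold VV
  simp only [mul_assoc] at *
  refine ⟨?_, ?_, ?_, ?_, ?_, ?_, ?_, ?_, ?_, ?_⟩ <;> linarith

end HG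

end Vale.Agent.P046
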