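import Vale.Agent.P046.ExApi

open Finset

namespace Vale.Agent.P046

variable {S R M : Type} [Fintype S] [NormedAddCommGroup R] [NormedSpace ℝ R] [ProperSpace R]

namespace Dyn

open Filter Topology

/-- One lazy Euler step. -/
noncomputable def st (P : Sys S R M) (t h : ℝ) : (S → R → ℝ) →ₗ[ℝ] (S → R → ℝ) where
  toFun f s r := f s (r + h • P.drift t s) + h * P.rate t *
    ∑ T ∈ P.moves, (f (P.mv T s) (r + h • P.drift t s) - f s (r + h • P.drift t s))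
  map_add' f g := by
    funext s r
    simp only [Pi.add_apply, sum_sub_distrib, sum_add_distrib]
    ring
  map_smul' c f := by
    funext s r
    simp only [Pi.smul_apply, smul_eq_mul, RingHom.id_apply, ← mul_sub, ← mul_sum]
    ring

/-- The Euler chain. -/
noncomputable def ch (P : Sys S R M) (t0 h : ℝ) (s0 : S) (r0 : R) :
    ℕ → (S → R → ℝ) →ₗ[ℝ] ℝ
  | 0 => (LinearMap.proj r0 : (R → ℝ) →ₗ[ℝ] ℝ) ∘ₗ LinearMap.proj s0
  | k + 1 => ch P t0 h s0 r0 k ∘ₗ st P (t0 + k * h) h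

/-- Bounds on the coefficients. -/
structure OK (P : Sys S R M) (Inv : S → Prop) (t0 t1 : ℝ) (s0 : S) (A W : ℝ) : Prop where
  pos : ∀ t, 0 ≤ P.rate t
  hA : ∀ t ∈ Set.Icc t0 t1, P.rate t * P.moves.card ≤ A
  hW : ∀ t ∈ Set.Icc t0 t1, ∀ s, ‖P.drift t s‖ ≤ W
  A0 : 0 ≤ A
  W0 : 0 ≤ W
  h0 : Inv s0
  inv : ∀ T ∈ P.moves, ∀ s, Inv s → Inv (P.mv T s)

variable {P : Sys S R M} {Inv : S → Prop} {t0 t1 h A W : ℝ} {s0 : S} {r0 : R}

omit [Fintype S] [ProperSpace R]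

theorem st_apply (t h : ℝ) (f : S → R → ℝ) (s : S) (r : R) : st P t h f s r =
    f s (r + h • P.drift t s) + h * P.rate t *
      ∑ T ∈ P.moves, (f (P.mv T s) (r + h • P.drift t s) - f s (r + h • P.drift t s)) := rfl

theorem ch_succ (k : ℕ) (f : S → R → ℝ) :
    ch P t0 h s0 r0 (k + 1) f = ch P t0 h s0 r0 k (st P (t0 + k * h) h f) := rfl

theorem ch_const (k : ℕ) (c : ℝ) : ch P t0 h s0 r0 k (fun _ _ => c) = c := by
  induction k with
  | zero => rfl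
  | succ k ih =>
    rw [ch_succ]
    refine Eq.trans (congrArg _ ?_) ih
    funext s r
    simp [st_apply]

theorem tk_mem (hh : 0 ≤ h) {k : ℕ} (hk : ((k + 1 : ℕ) : ℝ) * h ≤ t1 - t0) :
    t0 + k * h ∈ Set.Icc t0 t1 ∧ (k : ℝ) * h ≤ t1 - t0 := by
  have : 0 ≤ (k : ℝ) * h := by positivity
  push_cast at hk
  exact ⟨⟨by linarith, by linarith⟩, by linarith⟩

theorem shift_le (H : OK P Inv t0 t1 s0 A W) (hh : 0 ≤ h) {t : ℝ} (ht : t ∈ Set.Icc t0 t1) (s : S)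
    {r r' : R} {k : ℕ} (hr : ‖r - r'‖ ≤ k * h * W) :
    ‖r + h • P.drift t s - r'‖ ≤ ((k + 1 : ℕ) : ℝ) * h * W := by
  rw [add_sub_right_comm]
  refine (norm_add_le _ _).trans ?_
  rw [norm_smul, Real.norm_of_nonneg hh]
  have := mul_le_mul_of_nonneg_left (H.hW t ht s) hh
  push_cast
  linarith

theorem ch_nonneg (H : OK P Inv t0 t1 s0 A W) (hh : 0 ≤ h) (hA : h * A ≤ 1) (k : ℕ) :
    ∀ f : S → R → ℝ, (k : ℝ) * h ≤ t1 - t0 →
      (∀ s r, Inv s → ‖r - r0‖ ≤ k * h * W → 0 ≤ f s r) → 0 ≤ ch P t0 h s0 r0 k f := by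
  induction k with
  | zero => exact fun f _ hf => hf s0 r0 H.h0 (by simp)
  | succ k ih =>
    intro f hk hf
    obtain ⟨ht, hk'⟩ := tk_mem hh hk
    refine ih _ hk' fun s r hs hr => ?_
    have h1 := shift_le H hh ht s hr
    have h2 := hf s _ hs h1
    have h3 : 0 ≤ ∑ T ∈ P.moves, f (P.mv T s) (r + h • P.drift (t0 + k * h) s) :=
      sum_nonneg fun T hT => hf _ _ (H.inv T hT s hs) h1
    have h4 := mul_le_mul_of_nonneg_left (H.hA _ ht) hh
    have h5 := mul_nonneg (mul_nonneg hh (H.pos (t0 + k * h))) h3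
    rw [st_apply, sum_sub_distrib, sum_const, nsmul_eq_mul]
    nlinarith

theorem ch_abs (H : OK P Inv t0 t1 s0 A W) (hh : 0 ≤ h) (hA : h * A ≤ 1) {k : ℕ}
    (hk : (k : ℝ) * h ≤ t1 - t0) {f : S → R → ℝ} {B : ℝ}
    (hf : ∀ s r, Inv s → ‖r - r0‖ ≤ k * h * W → |f s r| ≤ B) : |ch P t0 h s0 r0 k f| ≤ B := by
  have h1 := ch_nonneg (r0 := r0) H hh hA k ((fun _ _ => B) - f) hk fun s r hs hr =>
    sub_nonneg.mpr (abs_le.mp (hf s r hs hr)).2
  have h2 := ch_nonneg (r0 := r0) H hh hA k ((fun _ _ => B) + f) hk fun s r hs hr =>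
    neg_le_iff_add_nonneg'.mp (abs_le.mp (hf s r hs hr)).1
  rw [map_sub, ch_const] at h1
  rw [map_add, ch_const] at h2
  exact abs_le.mpr ⟨by linarith, by linarith⟩

theorem jump_le (H : OK P Inv t0 t1 s0 A W) {t : ℝ} (ht : t ∈ Set.Icc t0 t1) {u : M → ℝ} {B : ℝ}
    (hB : 0 ≤ B) (hu : ∀ T ∈ P.moves, |u T| ≤ B) : |P.rate t * ∑ T ∈ P.moves, u T| ≤ A * B := by
  rw [abs_mul, abs_of_nonneg (H.pos t)]
  have h1 : |∑ T ∈ P.moves, u T| ≤ P.moves.card * B := by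
    refine (abs_sum_le_sum_abs _ _).trans ((sum_le_sum hu).trans_eq ?_)
    rw [sum_const, nsmul_eq_mul]
  have h2 := mul_le_mul_of_nonneg_left h1 (H.pos t)
  have h3 := mul_le_mul_of_nonneg_right (H.hA t ht) hB
  linarith

theorem ch_osc (H : OK P Inv t0 t1 s0 A W) (hh : 0 ≤ h) (hA : h * A ≤ 1) (k : ℕ)
    (g : S → R → ℝ) {ε B : ℝ} (hB : 0 ≤ B) (i : ℕ) : ∀ f : S → R → ℝ,
      ((k + i : ℕ) : ℝ) * h ≤ t1 - t0 →
      (∀ s r, Inv s → ‖r - r0‖ ≤ ((k + i : ℕ) : ℝ) * h * W → |f s r| ≤ B) →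
      (∀ s r r', ‖r - r0‖ ≤ k * h * W → ‖r' - r‖ ≤ i * h * W → |f s r' - g s r| ≤ ε) →
      |ch P t0 h s0 r0 (k + i) f - ch P t0 h s0 r0 k g| ≤ ε + i * h * (A * (2 * B)) := by
  induction i with
  | zero =>
    intro f hk _ hf
    rw [Nat.add_zero, ← map_sub, Nat.cast_zero, zero_mul, zero_mul, add_zero]
    exact ch_abs H hh hA hk fun s r _ hr => hf s r r hr (by simp)
  | succ i ih =>
    intro f hk hb hf
    obtain ⟨ht, hk'⟩ := tk_mem (k := k + i) hh hk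
    have h1 := ih (fun s r => f s (r + h • P.drift (t0 + (k + i : ℕ) * h) s)) hk'
      (fun s r hs hr => hb s _ hs (shift_le H hh ht s hr))
      fun s r r' hr hr' => hf s r _ hr (shift_le H hh ht s hr')
    have h2 := ch_abs (r0 := r0) H hh hA hk' (B := h * (A * (2 * B)))
      (f := st P (t0 + (k + i : ℕ) * h) h f -
        fun s r => f s (r + h • P.drift (t0 + (k + i : ℕ) * h) s)) fun s r hs hr => by
      rw [Pi.sub_apply, Pi.sub_apply, st_apply, add_sub_cancel_left, mul_assoc, abs_mul,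
        abs_of_nonneg hh]
      refine mul_le_mul_of_nonneg_left (jump_le H ht (by linarith) fun T hT => ?_) hh
      have h3 := hb _ _ (H.inv T hT s hs) (shift_le H hh ht s hr)
      have h4 := hb _ _ hs (shift_le H hh ht s hr)
      exact (abs_sub _ _).trans (by linarith)
    rw [map_sub, ← ch_succ] at h2
    rw [← Nat.add_assoc]
    refine (abs_sub_le _ _ _).trans ((add_le_add h2 h1).trans_eq ?_)
    push_cast
    ring

theorem ch_sum (H : OK P Inv t0 t1 s0 A W) (hh : 0 ≤ h) (hA : h * A ≤ 1)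
    {V G : ℝ → S → R → ℝ} {ε₁ ε₂ c : ℝ} (k : ℕ)
    (hT : ∀ t ∈ Set.Icc t0 t1, ∀ s r, ‖r - r0‖ ≤ (t1 - t0) * W →
      |st P t h (V (t + h)) s r - V t s r - h * G t s r| ≤ ε₁ * h) (m : ℕ) :
    ((k + m : ℕ) : ℝ) * h ≤ t1 - t0 →
    (∀ i < m, |ch P t0 h s0 r0 (k + i) (G (t0 + (k + i : ℕ) * h)) - c| ≤ ε₂) →
    |ch P t0 h s0 r0 (k + m) (V (t0 + (k + m : ℕ) * h)) - ch P t0 h s0 r0 k (V (t0 + k * h)) -
      m * h * c| ≤ (ε₁ + ε₂) * (m * h) := by
  induction m with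
  | zero => simp
  | succ m ih =>
    intro hk hG
    obtain ⟨ht, hk'⟩ := tk_mem (k := k + m) hh hk
    have h1 := ih hk' fun i hi => hG i (Nat.lt_succ_of_lt hi)
    have h2 := hG m (Nat.lt_succ_self m)
    have h3 := ch_abs (r0 := r0) H hh hA hk' (B := ε₁ * h)
      (f := st P (t0 + (k + m : ℕ) * h) h (V (t0 + (k + m : ℕ) * h + h)) -
        V (t0 + (k + m : ℕ) * h) - h • G (t0 + (k + m : ℕ) * h)) fun s r _ hr =>
      hT _ ht s r (hr.trans (mul_le_mul_of_nonneg_right hk' H.W0))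
    rw [map_sub, map_sub, map_smul, ← ch_succ, smul_eq_mul] at h3
    have e : t0 + ((k + (m + 1) : ℕ) : ℝ) * h = t0 + (k + m : ℕ) * h + h := by
      push_cast
      ring
    rw [e, ← Nat.add_assoc]
    have h4 := mul_le_mul_of_nonneg_left (abs_le.mp h2).1 hh
    have h5 := mul_le_mul_of_nonneg_left (abs_le.mp h2).2 hh
    rw [abs_le] at h1 h3 ⊢
    push_cast at *
    constructor <;> nlinarith [h1.1, h1.2, h3.1, h3.2]

theorem gen_eq {V : ℝ → S → R → ℝ} (hV : Sm V) (τ : ℝ) (s : S) (r : R) :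
    P.gen V τ s r = fderiv ℝ (fun p : ℝ × R => V p.1 s p.2) (τ, r) (1, P.drift τ s) +
      P.rate τ * ∑ T ∈ P.moves, (V τ (P.mv T s) r - V τ s r) := by
  unfold Sys.gen
  rw [(hV.hasDerivAt_line τ s r (P.drift τ s)).deriv]

theorem gen_cont {V : ℝ → S → R → ℝ} (hV : Sm V) (hrate : Continuous P.rate)
    (hdrift : ∀ s, Continuous (fun τ => P.drift τ s)) (s : S) :
    Continuous fun p : ℝ × R => P.gen V p.1 s p.2 := by
  simp only [gen_eq hV]
  exact (((hV s).continuous_fderiv (by norm_num)).clm_apply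
    (continuous_const.prodMk ((hdrift s).comp continuous_fst))).add
    ((hrate.comp continuous_fst).mul (continuous_finset_sum _ fun T _ =>
      (hV _).continuous.sub (hV _).continuous))

variable [Fintype S] [ProperSpace R]

theorem unif {Y : Type} [PseudoMetricSpace Y] {G : S → ℝ × R → Y} (hG : ∀ s, Continuous (G s))
    (t0 t1 ρ : ℝ) (r0 : R) {ε : ℝ} (hε : 0 < ε) : ∃ δ > 0, ∀ t ∈ Set.Icc t0 t1, ∀ s r t' r',
      ‖r - r0‖ ≤ ρ → |t' - t| ≤ δ → ‖r' - r‖ ≤ δ → dist (G s (t', r')) (G s (t, r)) ≤ ε := by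
  have hc : Continuous fun p s => G s p := continuous_pi hG
  obtain ⟨δ, hδ, h⟩ := Metric.mem_uniformity_dist.mp
    ((isCompact_Icc.prod (isCompact_closedBall r0 ρ) :
      IsCompact (Set.Icc t0 t1 ×ˢ Metric.closedBall r0 ρ)).uniformContinuousAt_of_continuousAt _
      (fun _ _ => hc.continuousAt) (Metric.dist_mem_uniformity hε))
  refine ⟨δ / 2, half_pos hδ, fun t ht s r t' r' hr h1 h2 => ?_⟩
  have h3 : dist (t, r) (t', r') < δ := by
    rw [dist_comm, Prod.dist_eq, Real.dist_eq, dist_eq_norm]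
    exact max_lt (by linarith) (by linarith)
  have h4 := h h3 ⟨ht, mem_closedBall_iff_norm.mpr hr⟩
  rw [dist_comm]
  exact (dist_le_pi_dist (fun s => G s (t, r)) (fun s => G s (t', r')) s).trans (le_of_lt h4)

theorem bdd {G : S → ℝ × R → ℝ} (hG : ∀ s, Continuous (G s)) (t0 t1 ρ : ℝ) (r0 : R) :
    ∃ B, 0 ≤ B ∧ ∀ t ∈ Set.Icc t0 t1, ∀ s r, ‖r - r0‖ ≤ ρ → |G s (t, r)| ≤ B := by
  have hc : Continuous fun p s => G s p := continuous_pi hG
  obtain ⟨B, hB⟩ := (isCompact_Icc.prod (isCompact_closedBall r0 ρ) :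
    IsCompact (Set.Icc t0 t1 ×ˢ Metric.closedBall r0 ρ)).exists_bound_of_continuousOn
    hc.continuousOn
  exact ⟨max B 0, le_max_right _ _, fun t ht s r hr => le_max_of_le_left
    ((norm_le_pi_norm (fun s => G s (t, r)) s).trans (hB _ ⟨ht, mem_closedBall_iff_norm.mpr hr⟩))⟩

theorem taylor (H : OK P Inv t0 t1 s0 A W) {V : ℝ → S → R → ℝ} (hV : Sm V) (ρ : ℝ) (r0 : R)
    {ε : ℝ} (hε : 0 < ε) : ∃ δ > 0, ∀ h, 0 ≤ h → h ≤ δ → ∀ t ∈ Set.Icc t0 t1, ∀ s r,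
      ‖r - r0‖ ≤ ρ → |st P t h (V (t + h)) s r - V t s r - h * P.gen V t s r| ≤ ε * h := by
  have hW := H.W0
  have hA := H.A0
  obtain ⟨η, hη, hη'⟩ : ∃ η > 0, η * (1 + W) + A * (2 * η) ≤ ε :=
    ⟨ε / (1 + W + 2 * A), by positivity, le_of_eq (by field_simp)⟩
  obtain ⟨δ₁, hδ₁, h1⟩ := unif (G := fun s p => V p.1 s p.2) (fun s => (hV s).continuous)
    t0 t1 ρ r0 hη
  obtain ⟨δ₂, hδ₂, h2⟩ := unif (G := fun s => fderiv ℝ (fun p : ℝ × R => V p.1 s p.2))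
    (fun s => (hV s).continuous_fderiv (by norm_num)) t0 t1 ρ r0 hη
  refine ⟨min δ₁ δ₂ / (1 + W), by positivity, fun h hh hδ t ht s r hr => ?_⟩
  rw [le_div_iff₀ (by positivity), le_min_iff] at hδ
  have hd := H.hW t ht s
  have hs : ∀ u ∈ Set.Icc 0 h, ∀ δ, h * (1 + W) ≤ δ →
      |t + u - t| ≤ δ ∧ ‖r + u • P.drift t s - r‖ ≤ δ := fun u hu δ hδ => by
    rw [add_sub_cancel_left, add_sub_cancel_left, norm_smul, Real.norm_of_nonneg hu.1,
      abs_of_nonneg hu.1]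
    have := mul_le_mul hu.2 hd (norm_nonneg _) hh
    have := mul_nonneg hh hW
    constructor <;> linarith [hu.2]
  have h3 : ∀ u, HasDerivAt (fun u : ℝ => V (t + u) s (r + u • P.drift t s) -
      u * fderiv ℝ (fun p : ℝ × R => V p.1 s p.2) (t, r) (1, P.drift t s))
      ((fderiv ℝ (fun p : ℝ × R => V p.1 s p.2) (t + u, r + u • P.drift t s) -
        fderiv ℝ (fun p : ℝ × R => V p.1 s p.2) (t, r)) (1, P.drift t s)) u := by
    intro u
    have h4 : HasDerivAt (fun u : ℝ => ((t + u, r + u • P.drift t s) : ℝ × R))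
        (1, P.drift t s) u := by
      refine HasDerivAt.prodMk ((hasDerivAt_id u).const_add t) ?_
      simpa using ((hasDerivAt_id u).smul_const (P.drift t s)).const_add r
    exact (((hV s).differentiable (by norm_num) _).hasFDerivAt.comp_hasDerivAt u h4).sub
      (hasDerivAt_mul_const _)
  have h5 := norm_image_sub_le_of_norm_deriv_le_segment' (C := η * (1 + W))
    (fun u _ => (h3 u).hasDerivWithinAt) (fun u hu => by
      obtain ⟨a, b⟩ := hs u (Set.Ico_subset_Icc_self hu) δ₂ hδ.2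
      refine (ContinuousLinearMap.le_opNorm _ _).trans (mul_le_mul ?_ ?_ (norm_nonneg _) hη.le)
      · exact (dist_eq_norm _ _).symm.trans_le (h2 t ht s r _ _ hr a b)
      · rw [Prod.norm_mk, norm_one]
        exact max_le (by linarith) (by linarith)) h (Set.right_mem_Icc.mpr hh)
  simp only [add_zero, zero_smul, zero_mul, sub_zero, Real.norm_eq_abs] at h5
  obtain ⟨a, b⟩ := hs h (Set.right_mem_Icc.mpr hh) δ₁ hδ.1
  have h6 := jump_le H ht (B := 2 * η) (by linarith) (u := fun T =>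
    (V (t + h) (P.mv T s) (r + h • P.drift t s) - V (t + h) s (r + h • P.drift t s)) -
      (V t (P.mv T s) r - V t s r)) fun T _ => by
    have c1 := abs_le.mp (h1 t ht (P.mv T s) r _ _ hr a b)
    have c2 := abs_le.mp (h1 t ht s r _ _ hr a b)
    exact abs_le.mpr ⟨by linarith [c1.1, c2.2], by linarith [c1.2, c2.1]⟩
  rw [sum_sub_distrib] at h6
  have h7 := mul_le_mul_of_nonneg_left (abs_le.mp h6).1 hh
  have h8 := mul_le_mul_of_nonneg_left (abs_le.mp h6).2 hh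
  have h9 := mul_le_mul_of_nonneg_left hη' hh
  rw [st_apply, gen_eq hV]
  rw [abs_le] at h5 ⊢
  constructor <;> nlinarith [h5.1, h5.2]

/-- The step size. -/
noncomputable def hs (J : ℕ) : ℝ := 1 / ((J : ℝ) + 1)

/-- The number of steps. -/
noncomputable def ns (t0 τ : ℝ) (J : ℕ) : ℕ := ⌊(τ - t0) / hs J⌋₊

theorem hs_pos (J : ℕ) : 0 < hs J := Nat.one_div_pos_of_nat

theorem hs_small {δ : ℝ} (hδ : 0 < δ) : ∀ᶠ J in atTop, hs J ≤ δ :=
  (tendsto_one_div_add_atTop_nhds_zero_nat (𝕜 := ℝ)).eventually (ge_mem_nhds hδ)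

theorem hs_A (hA : 0 ≤ A) : ∀ᶠ J in atTop, hs J * A ≤ 1 := by
  filter_upwards [hs_small (show 0 < 1 / (A + 1) by positivity)] with J hJ
  rw [le_div_iff₀ (by positivity)] at hJ
  linarith [hs_pos J]

theorem ns_le {τ : ℝ} (h : t0 ≤ τ) (J : ℕ) : (ns t0 τ J : ℝ) * hs J ≤ τ - t0 :=
  (le_div_iff₀ (hs_pos J)).mp (Nat.floor_le (div_nonneg (sub_nonneg.mpr h) (hs_pos J).le))

theorem lt_ns (τ : ℝ) (J : ℕ) : τ - t0 < ns t0 τ J * hs J + hs J := by
  have := (div_lt_iff₀ (hs_pos J)).mp (Nat.lt_floor_add_one ((τ - t0) / hs J))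
  rw [add_mul, one_mul] at this
  exact this

/-- The approximating sequence. -/
noncomputable def sq (P : Sys S R M) (t0 : ℝ) (s0 : S) (r0 : R) (τ : ℝ) (f : S → R → ℝ)
    (J : ℕ) : ℝ := ch P t0 (hs J) s0 r0 (ns t0 τ J) f

/-- The limit functional. -/
noncomputable def lim (P : Sys S R M) (t0 : ℝ) (s0 : S) (r0 : R) (τ : ℝ) (f : S → R → ℝ) : ℝ :=
  limUnder (hyperfilter ℕ : Filter ℕ) (sq P t0 s0 r0 τ f)

theorem sq_abs (H : OK P Inv t0 t1 s0 A W) {τ : ℝ} (hτ : τ ∈ Set.Icc t0 t1) {J : ℕ}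
    (hJ : hs J * A ≤ 1) {f : S → R → ℝ} {B : ℝ}
    (hf : ∀ s r, ‖r - r0‖ ≤ (t1 - t0) * W → |f s r| ≤ B) : |sq P t0 s0 r0 τ f J| ≤ B := by
  have h1 : (ns t0 τ J : ℝ) * hs J ≤ t1 - t0 := (ns_le hτ.1 J).trans (sub_le_sub_right hτ.2 _)
  exact ch_abs H (hs_pos J).le hJ h1 fun s r _ hr =>
    hf s r (hr.trans (mul_le_mul_of_nonneg_right h1 H.W0))

theorem tendsto_lim (H : OK P Inv t0 t1 s0 A W) {τ : ℝ} (hτ : τ ∈ Set.Icc t0 t1)
    {f : S → R → ℝ} (hf : Cts f) :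
    Tendsto (sq P t0 s0 r0 τ f) (hyperfilter ℕ : Filter ℕ) (𝓝 (lim P t0 s0 r0 τ f)) := by
  obtain ⟨B, -, hB⟩ := bdd (G := fun s p => f s p.2) (fun s => (hf s).comp continuous_snd)
    t0 t1 ((t1 - t0) * W) r0
  have h1 : ∀ᶠ J in (hyperfilter ℕ : Filter ℕ), sq P t0 s0 r0 τ f J ∈ Set.Icc (-B) B :=
    Nat.hyperfilter_le_atTop ((hs_A H.A0).mono fun J hJ => abs_le.mp (sq_abs H hτ hJ (hB τ hτ)))
  obtain ⟨x, -, hx⟩ := isCompact_Icc.ultrafilter_le_nhds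
    ((hyperfilter ℕ).map (sq P t0 s0 r0 τ f)) (le_principal_iff.mpr h1)
  exact tendsto_nhds_limUnder ⟨x, hx⟩

theorem main (H : OK P Inv t0 t1 s0 A W) {V : ℝ → S → R → ℝ} (hV : Sm V)
    (hrate : Continuous P.rate) (hdrift : ∀ s, Continuous (fun τ => P.drift τ s)) {ε : ℝ}
    (hε : 0 < ε) : ∃ δ > 0, ∀ τ ∈ Set.Icc t0 t1, ∀ τ' ∈ Set.Icc t0 t1, τ ≤ τ' → τ' - τ ≤ δ →
      |lim P t0 s0 r0 τ' (V τ') - lim P t0 s0 r0 τ (V τ) -
        (τ' - τ) * lim P t0 s0 r0 τ (P.gen V τ)| ≤ ε * (τ' - τ) := by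
  have hW := H.W0
  have hA := H.A0
  have hε3 : 0 < ε / 3 := by positivity
  have hg := gen_cont hV hrate hdrift
  obtain ⟨B, hB0, hB⟩ := bdd hg t0 t1 ((t1 - t0) * W) r0
  obtain ⟨δ₁, hδ₁, h1⟩ := taylor H hV ((t1 - t0) * W) r0 hε3
  obtain ⟨δ₂, hδ₂, h2⟩ := unif hg t0 t1 ((t1 - t0) * W) r0 hε3
  obtain ⟨δ, hδ, hδa, hδb⟩ : ∃ δ > 0, δ * (1 + W) ≤ δ₂ ∧ δ * (A * (2 * B)) ≤ ε / 3 := by
    refine ⟨min (δ₂ / (1 + W)) (ε / 3 / (A * (2 * B) + 1)), by positivity,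
      (le_div_iff₀ (by positivity)).mp (min_le_left _ _), ?_⟩
    have h3 := (le_div_iff₀ (by positivity)).mp
      (min_le_right (δ₂ / (1 + W)) (ε / 3 / (A * (2 * B) + 1)))
    have h4 : 0 < min (δ₂ / (1 + W)) (ε / 3 / (A * (2 * B) + 1)) := by positivity
    linarith
  refine ⟨δ / 2, half_pos hδ, fun τ hτ τ' hτ' hle hd => le_of_forall_pos_le_add fun η hη => ?_⟩
  obtain ⟨δ₃, hδ₃, h3⟩ := unif (G := fun s p => V p.1 s p.2) (fun s => (hV s).continuous)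
    t0 t1 ((t1 - t0) * W) r0 (show 0 < η / 3 by positivity)
  refine le_of_tendsto (((tendsto_lim H hτ' (hV.cts τ')).sub (tendsto_lim H hτ (hV.cts τ))).sub
    ((tendsto_lim H hτ (hV.gen_cts P τ)).const_mul _)).abs (Nat.hyperfilter_le_atTop ?_)
  filter_upwards [hs_A H.A0, hs_small hδ₁, hs_small hδ₃, hs_small (half_pos hδ),
    hs_small (show 0 < η / 3 / (B + ε) by positivity)] with J hJ hJ1 hJ3 hJ4 hJ5
  rw [le_div_iff₀ (by positivity)] at hJ5
  have hh := hs_pos J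
  obtain ⟨m, hm⟩ : ∃ m, ns t0 τ' J = ns t0 τ J + m := Nat.exists_eq_add_of_le
    (Nat.floor_mono (div_le_div_of_nonneg_right (sub_le_sub_right hle _) hh.le))
  have a1 := ns_le hτ.1 J
  have a2 := lt_ns (t0 := t0) τ J
  have a3 := ns_le hτ'.1 J
  have a4 := lt_ns (t0 := t0) τ' J
  have near : ∀ σ ∈ Set.Icc t0 t1, |sq P t0 s0 r0 σ (V (t0 + ns t0 σ J * hs J)) J -
      sq P t0 s0 r0 σ (V σ) J| ≤ η / 3 := fun σ hσ => by
    rw [sq, sq, ← map_sub]
    refine sq_abs H hσ hJ fun s r hr => h3 σ hσ s r _ r hr (abs_le.mpr ⟨?_, ?_⟩) (by simp [hδ₃.le])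
    · linarith [lt_ns (t0 := t0) σ J]
    · linarith [ns_le hσ.1 J]
  have b1 := near τ hτ
  have b2 := near τ' hτ'
  have b3 : |sq P t0 s0 r0 τ (P.gen V τ) J| ≤ B := sq_abs H hτ hJ (hB τ hτ)
  simp only [sq, hm] at b1 b2 b3 a3 a4 ⊢
  have b4 := ch_sum (r0 := r0) H hh.le hJ (G := P.gen V) (ε₂ := ε / 3 + ε / 3)
    (c := ch P t0 (hs J) s0 r0 (ns t0 τ J) (P.gen V τ)) (ns t0 τ J) (h1 _ hh.le hJ1) m
    (a3.trans (sub_le_sub_right hτ'.2 _)) fun i hi => by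
    have c0 : (i : ℝ) * hs J ≤ m * hs J :=
      mul_le_mul_of_nonneg_right (Nat.cast_le.mpr hi.le) hh.le
    have c1 : (0 : ℝ) ≤ i * hs J := by positivity
    have c2 : (0 : ℝ) ≤ ns t0 τ J * hs J := by positivity
    have c3 : ((ns t0 τ J + i : ℕ) : ℝ) * hs J ≤ t1 - t0 := by
      push_cast at a3 ⊢
      linarith [hτ'.2]
    have c4 : (i : ℝ) * hs J ≤ δ := by
      push_cast at a3
      linarith
    have c5 := mul_nonneg hδ.le hW
    refine (ch_osc H hh.le hJ _ _ (ε := ε / 3) hB0 i _ c3 (fun s r _ hr => hB _ ⟨?_, ?_⟩ s r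
      (hr.trans (mul_le_mul_of_nonneg_right c3 hW))) fun s r r' hr hr' => h2 τ hτ s r _ r'
        (hr.trans (mul_le_mul_of_nonneg_right (a1.trans (sub_le_sub_right hτ.2 _)) hW))
        (abs_le.mpr ⟨?_, ?_⟩) (hr'.trans ?_)).trans (add_le_add le_rfl ?_)
    · exact le_add_of_nonneg_right (by positivity)
    · linarith
    · push_cast
      linarith
    · push_cast
      linarith
    · linarith [mul_le_mul_of_nonneg_right c4 hW]
    · exact (mul_le_mul_of_nonneg_right c4 (by positivity)).trans hδb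
  push_cast at a3 a4
  have d1 : |m * hs J - (τ' - τ)| ≤ hs J := abs_le.mpr ⟨by linarith, by linarith⟩
  have d2 : |(m * hs J - (τ' - τ)) * ch P t0 (hs J) s0 r0 (ns t0 τ J) (P.gen V τ)| ≤
      hs J * B := by
    rw [abs_mul]
    exact mul_le_mul d1 b3 (abs_nonneg _) hh.le
  have d3 := mul_le_mul_of_nonneg_left (abs_le.mp d1).2 hε.le
  rw [abs_le] at b1 b2 b4 d2 ⊢
  constructor <;> nlinarith [b1.1, b1.2, b2.1, b2.2, b4.1, b4.2, d2.1, d2.2]

end Dyn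

open Dyn Filter Topology in
/-- Existence of the expectation functionals. -/
theorem exists_ex (P : Sys S R M) (Inv : S → Prop) (t0 t1 : ℝ) (ht : t0 ≤ t1) (s0 : S) (r0 : R)
    (hrate : Continuous P.rate) (hpos : ∀ τ, 0 ≤ P.rate τ)
    (hdrift : ∀ s, Continuous (fun τ => P.drift τ s))
    (h0 : Inv s0) (hinv : ∀ T ∈ P.moves, ∀ s, Inv s → Inv (P.mv T s)) :
    Nonempty (Ex P Inv t0 t1 s0 r0) := by
  obtain ⟨A, hA⟩ := (isCompact_Icc (a := t0) (b := t1)).exists_bound_of_continuousOn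
    (hrate.mul (continuous_const (y := (P.moves.card : ℝ)))).continuousOn
  obtain ⟨W, hW⟩ := (isCompact_Icc (a := t0) (b := t1)).exists_bound_of_continuousOn
    (continuous_pi hdrift).continuousOn
  have H : OK P Inv t0 t1 s0 A W := ⟨hpos, fun t ht => (le_abs_self _).trans (hA t ht),
    fun t ht s => (norm_le_pi_norm (fun s => P.drift t s) s).trans (hW t ht),
    (norm_nonneg _).trans (hA t0 (Set.left_mem_Icc.mpr ht)),
    (norm_nonneg _).trans (hW t0 (Set.left_mem_Icc.mpr ht)), h0, hinv⟩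
  refine ⟨⟨lim P t0 s0 r0, fun f hf => ?_, fun τ hτ f g hf hg => ?_, fun τ hτ c f hf => ?_,
    fun τ hτ c => ?_, fun τ hτ f g hf hg hfg => ?_, fun V hV => ?_, fun V hV τ hτ => ?_⟩⟩
  · refine tendsto_nhds_unique (tendsto_lim H (Set.left_mem_Icc.mpr ht) hf)
      (tendsto_const_nhds.congr fun J => ?_)
    rw [Dyn.sq, ns, sub_self, zero_div, Nat.floor_zero]
    rfl
  · exact tendsto_nhds_unique (tendsto_lim H hτ (hf.add hg))
      (((tendsto_lim H hτ hf).add (tendsto_lim H hτ hg)).congr fun J => (map_add _ f g).symm)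
  · exact tendsto_nhds_unique (tendsto_lim H hτ (hf.cmul c))
      (((tendsto_lim H hτ hf).const_mul c).congr fun J => (map_smul _ c f).symm)
  · exact tendsto_nhds_unique (tendsto_lim H hτ (Cts.const c))
      (tendsto_const_nhds.congr fun J => (ch_const _ c).symm)
  · refine le_of_tendsto_of_tendsto (tendsto_lim H hτ hf) (tendsto_lim H hτ hg)
      (Nat.hyperfilter_le_atTop ((hs_A H.A0).mono fun J hJ => ?_))
    have := ch_nonneg (r0 := r0) H (hs_pos J).le hJ (ns t0 τ J) (g - f)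
      ((ns_le hτ.1 J).trans (sub_le_sub_right hτ.2 _)) fun s r hs _ => sub_nonneg.mpr (hfg s r hs)
    rw [map_sub] at this
    exact sub_nonneg.mp this
  · obtain ⟨δ, hδ, h1⟩ := main (r0 := r0) H hV hrate hdrift one_pos
    obtain ⟨B, hB0, hB⟩ := bdd (gen_cont hV hrate hdrift) t0 t1 ((t1 - t0) * W) r0
    have h2 : ∀ τ ∈ Set.Icc t0 t1, ∀ τ' ∈ Set.Icc t0 t1, τ ≤ τ' → τ' - τ ≤ δ →
        |lim P t0 s0 r0 τ' (V τ') - lim P t0 s0 r0 τ (V τ)| ≤ (B + 1) * (τ' - τ) := by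
      intro τ hτ τ' hτ' hle hd
      have h3 := abs_le.mp (h1 τ hτ τ' hτ' hle hd)
      have h4 : |lim P t0 s0 r0 τ (P.gen V τ)| ≤ B :=
        le_of_tendsto (tendsto_lim H hτ (hV.gen_cts P τ)).abs (Nat.hyperfilter_le_atTop
          ((hs_A H.A0).mono fun J hJ => sq_abs H hτ hJ (hB τ hτ)))
      have h5 := mul_le_mul_of_nonneg_left (abs_le.mp h4).1 (sub_nonneg.mpr hle)
      have h6 := mul_le_mul_of_nonneg_left (abs_le.mp h4).2 (sub_nonneg.mpr hle)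
      exact abs_le.mpr ⟨by linarith [h3.1], by linarith [h3.2]⟩
    refine Metric.continuousOn_iff.mpr fun τ hτ ε hε =>
      ⟨min δ (ε / (B + 1)), by positivity, fun τ' hτ' hd => ?_⟩
    rw [lt_min_iff, lt_div_iff₀ (by positivity), Real.dist_eq] at hd
    rw [Real.dist_eq]
    rcases le_total τ τ' with hle | hle
    · rw [abs_of_nonneg (sub_nonneg.mpr hle)] at hd
      exact (h2 τ hτ τ' hτ' hle hd.1.le).trans_lt (by linarith [hd.2])
    · rw [abs_sub_comm, abs_of_nonneg (sub_nonneg.mpr hle)] at hd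
      rw [abs_sub_comm]
      exact (h2 τ' hτ' τ hτ hle hd.1.le).trans_lt (by linarith [hd.2])
  · rw [hasDerivWithinAt_iff_isLittleO, Asymptotics.isLittleO_iff]
    intro ε hε
    obtain ⟨δ, hδ, h1⟩ := main (r0 := r0) H hV hrate hdrift hε
    filter_upwards [Icc_mem_nhdsGE hτ.2, Icc_mem_nhdsGE (lt_add_of_pos_right τ hδ)]
      with τ' h2 h3
    rw [Real.norm_eq_abs, Real.norm_of_nonneg (sub_nonneg.mpr h2.1), smul_eq_mul]
    exact h1 τ (Set.Ico_subset_Icc_self hτ) τ' ⟨hτ.1.trans h2.1, h2.2⟩ h2.1 (by linarith [h3.2])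

end Vale.Agent.P046
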