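import Vale.Agent.P046.Defs

open Finset

namespace Vale.Agent.P046

variable {S R M : Type} [NormedAddCommGroup R] [NormedSpace ℝ R]

theorem Sm.cts {V : ℝ → S → R → ℝ} (hV : Sm V) (τ : ℝ) : Cts (V τ) := by
  intro s
  have := (hV s).continuous
  exact this.comp (Continuous.prodMk continuous_const continuous_id)

theorem Sm.hasDerivAt_line {V : ℝ → S → R → ℝ} (hV : Sm V) (τ : ℝ) (s : S) (r v : R) :
    HasDerivAt (fun h : ℝ => V (τ + h) s (r + h • v))
      (fderiv ℝ (fun p : ℝ × R => V p.1 s p.2) (τ, r) (1, v)) 0 := by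
  have h1 : HasFDerivAt (fun p : ℝ × R => V p.1 s p.2)
      (fderiv ℝ (fun p : ℝ × R => V p.1 s p.2) (τ, r)) (τ + 0, r + (0 : ℝ) • v) := by
    simpa using ((hV s).differentiable (by norm_num) (τ, r)).hasFDerivAt
  have h2 : HasDerivAt (fun h : ℝ => ((τ + h, r + h • v) : ℝ × R)) (1, v) 0 := by
    refine HasDerivAt.prodMk ?_ ?_
    · simpa using (hasDerivAt_id (0 : ℝ)).const_add τ
    · simpa using ((hasDerivAt_id (0 : ℝ)).smul_const v).const_add r
  exact h1.comp_hasDerivAt (0 : ℝ) h2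

theorem Sm.gen_cts {V : ℝ → S → R → ℝ} (hV : Sm V) (P : Sys S R M) (τ : ℝ) :
    Cts (P.gen V τ) := by
  intro s
  have e : P.gen V τ s = fun r => fderiv ℝ (fun p : ℝ × R => V p.1 s p.2) (τ, r) (1, P.drift τ s)
      + P.rate τ * ∑ T ∈ P.moves, (V τ (P.mv T s) r - V τ s r) := by
    funext r
    unfold Sys.gen
    rw [(hV.hasDerivAt_line τ s r (P.drift τ s)).deriv]
  rw [e]
  have hc : Continuous (fderiv ℝ (fun p : ℝ × R => V p.1 s p.2)) :=
    (hV s).continuous_fderiv (by norm_num)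
  refine Continuous.add ?_ (continuous_const.mul (continuous_finset_sum _ fun T _ =>
    (hV.cts τ _).sub (hV.cts τ _)))
  exact (hc.comp (Continuous.prodMk continuous_const continuous_id)).clm_apply continuous_const

theorem Cts.add {f g : S → R → ℝ} (hf : Cts f) (hg : Cts g) : Cts (fun s r => f s r + g s r) :=
  fun s => (hf s).add (hg s)

theorem Cts.sub {f g : S → R → ℝ} (hf : Cts f) (hg : Cts g) : Cts (fun s r => f s r - g s r) :=
  fun s => (hf s).sub (hg s)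

theorem Cts.mul {f g : S → R → ℝ} (hf : Cts f) (hg : Cts g) : Cts (fun s r => f s r * g s r) :=
  fun s => (hf s).mul (hg s)

theorem Cts.cmul {f : S → R → ℝ} (c : ℝ) (hf : Cts f) : Cts (fun s r => c * f s r) :=
  fun s => continuous_const.mul (hf s)

theorem Cts.of_state (f : S → ℝ) : Cts (fun (s : S) (_ : R) => f s) := fun _ => continuous_const

theorem Cts.const (c : ℝ) : Cts (fun (_ : S) (_ : R) => c) := fun _ => continuous_const

theorem Cts.sum {ι : Type} (I : Finset ι) {f : ι → S → R → ℝ} (hf : ∀ i ∈ I, Cts (f i)) :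
    Cts (fun s r => ∑ i ∈ I, f i s r) := fun s => continuous_finset_sum _ fun i hi => hf i hi s

theorem Sm.of_state (f : S → ℝ) : Sm (fun (_ : ℝ) (s : S) (_ : R) => f s) :=
  fun _ => contDiff_const

theorem Sm.add {V W : ℝ → S → R → ℝ} (hV : Sm V) (hW : Sm W) :
    Sm (fun τ s r => V τ s r + W τ s r) := fun s => (hV s).add (hW s)

theorem Sm.mul {V W : ℝ → S → R → ℝ} (hV : Sm V) (hW : Sm W) :
    Sm (fun τ s r => V τ s r * W τ s r) := fun s => (hV s).mul (hW s)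

theorem Sm.time {c : ℝ → ℝ} (hc : ContDiff ℝ 1 c) : Sm (fun (τ : ℝ) (_ : S) (_ : R) => c τ) :=
  fun _ => hc.comp contDiff_fst

theorem Sm.tmul {c : ℝ → ℝ} (hc : ContDiff ℝ 1 c) {V : ℝ → S → R → ℝ} (hV : Sm V) :
    Sm (fun τ s r => c τ * V τ s r) := (Sm.time hc).mul hV

/-- The generator of `c(τ) V`. -/
theorem Sys.gen_tmul (P : Sys S R M) {c : ℝ → ℝ} {c' τ : ℝ} (hc : HasDerivAt c c' τ)
    {V : ℝ → S → R → ℝ} (hV : Sm V) (s : S) (r : R) :
    P.gen (fun τ s r => c τ * V τ s r) τ s r = c' * V τ s r + c τ * P.gen V τ s r := by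
  unfold Sys.gen
  have h1 := hV.hasDerivAt_line τ s r (P.drift τ s)
  have h2 : HasDerivAt (fun h : ℝ => c (τ + h)) c' 0 := by
    have : HasDerivAt c c' (τ + 0) := by simpa using hc
    simpa using this.comp_const_add τ 0
  have h3 := h2.mul h1
  rw [h1.deriv]
  have h4 : deriv (fun h : ℝ => c (τ + h) * V (τ + h) s (r + h • P.drift τ s)) 0 = _ := h3.deriv
  rw [h4]
  simp only [add_zero, zero_smul, ← mul_sub, ← Finset.mul_sum]
  ring

theorem Sys.gen_add (P : Sys S R M) {V W : ℝ → S → R → ℝ} (hV : Sm V) (hW : Sm W) (τ : ℝ)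
    (s : S) (r : R) :
    P.gen (fun τ s r => V τ s r + W τ s r) τ s r = P.gen V τ s r + P.gen W τ s r := by
  unfold Sys.gen
  have h1 := hV.hasDerivAt_line τ s r (P.drift τ s)
  have h2 := hW.hasDerivAt_line τ s r (P.drift τ s)
  have h4 : deriv (fun h : ℝ => V (τ + h) s (r + h • P.drift τ s)
      + W (τ + h) s (r + h • P.drift τ s)) 0 = _ := (h1.add h2).deriv
  rw [h4, h1.deriv, h2.deriv]
  have : ∑ T ∈ P.moves, (V τ (P.mv T s) r + W τ (P.mv T s) r - (V τ s r + W τ s r))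
      = ∑ T ∈ P.moves, (V τ (P.mv T s) r - V τ s r) + ∑ T ∈ P.moves, (W τ (P.mv T s) r - W τ s r) := by
    rw [← Finset.sum_add_distrib]; exact Finset.sum_congr rfl fun _ _ => by ring
  rw [this]; ring

/-- The generator of a functional of the discrete state only. -/
theorem Sys.gen_state (P : Sys S R M) (f : S → ℝ) (τ : ℝ) (s : S) (r : R) :
    P.gen (fun _ s _ => f s) τ s r = P.rate τ * ∑ T ∈ P.moves, (f (P.mv T s) - f s) := by
  unfold Sys.gen; simp

namespace Ex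
variable {P : Sys S R M} {Inv : S → Prop} {t0 t1 : ℝ} {s0 : S} {r0 : R} (X : Ex P Inv t0 t1 s0 r0)

theorem congr {τ : ℝ} (hτ : τ ∈ Set.Icc t0 t1) {f g : S → R → ℝ} (hf : Cts f) (hg : Cts g)
    (h : ∀ s r, Inv s → f s r = g s r) : X.E τ f = X.E τ g :=
  le_antisymm (X.mono τ hτ f g hf hg fun s r hs => (h s r hs).le)
    (X.mono τ hτ g f hg hf fun s r hs => (h s r hs).ge)

theorem sub {τ : ℝ} (hτ : τ ∈ Set.Icc t0 t1) {f g : S → R → ℝ} (hf : Cts f) (hg : Cts g) :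
    X.E τ (fun s r => f s r - g s r) = X.E τ f - X.E τ g := by
  have h1 := X.add τ hτ f (fun s r => (-1) * g s r) hf (hg.cmul _)
  rw [X.smul τ hτ (-1) g hg] at h1
  have : (fun s r => f s r - g s r) = fun s r => f s r + (-1) * g s r := by
    funext s r; ring
  rw [this, h1]; ring

theorem sum {τ : ℝ} (hτ : τ ∈ Set.Icc t0 t1) {ι : Type} (I : Finset ι) {f : ι → S → R → ℝ}
    (hf : ∀ i ∈ I, Cts (f i)) :
    X.E τ (fun s r => ∑ i ∈ I, f i s r) = ∑ i ∈ I, X.E τ (f i) := by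
  classical
  induction I using Finset.induction_on with
  | empty => simpa using X.const τ hτ 0
  | insert i I hi ih =>
    have h1 := X.add τ hτ (f i) (fun s r => ∑ j ∈ I, f j s r) (hf i (mem_insert_self _ _))
      (Cts.sum I fun j hj => hf j (mem_insert_of_mem hj))
    simp only [Finset.sum_insert hi]
    rw [h1, ih fun j hj => hf j (mem_insert_of_mem hj)]

theorem nonneg {τ : ℝ} (hτ : τ ∈ Set.Icc t0 t1) {f : S → R → ℝ} (hf : Cts f)
    (h : ∀ s r, Inv s → 0 ≤ f s r) : 0 ≤ X.E τ f := by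
  have := X.mono τ hτ (fun _ _ => 0) f (Cts.const 0) hf h
  rwa [X.const τ hτ] at this

theorem le_const {τ : ℝ} (hτ : τ ∈ Set.Icc t0 t1) {f : S → R → ℝ} (hf : Cts f) {c : ℝ}
    (h : ∀ s r, Inv s → f s r ≤ c) : X.E τ f ≤ c := by
  have := X.mono τ hτ f (fun _ _ => c) hf (Cts.const c) h
  rwa [X.const τ hτ] at this

/-- Integrated Dynkin inequality. -/
theorem le_of_gen {V : ℝ → S → R → ℝ} (hV : Sm V) {a b : ℝ} (ha : t0 ≤ a) (hab : a ≤ b)
    (hb : b ≤ t1) {B B' : ℝ → ℝ} (hB : ∀ τ ∈ Set.Icc a b, HasDerivAt B (B' τ) τ)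
    (hW : ∀ τ ∈ Set.Ico a b, ∃ W : S → R → ℝ, Cts W ∧
      (∀ s r, Inv s → P.gen V τ s r ≤ W s r) ∧ X.E τ W ≤ B' τ) :
    X.E b (V b) - B b ≤ X.E a (V a) - B a := by
  have hsub : Set.Icc a b ⊆ Set.Icc t0 t1 := Set.Icc_subset_Icc ha hb
  have hc : ContinuousOn (fun τ => X.E τ (V τ) - B τ) (Set.Icc a b) :=
    ((X.cont V hV).mono hsub).sub fun τ hτ => (hB τ hτ).continuousAt.continuousWithinAt
  have hd : ∀ τ ∈ Set.Ico a b, HasDerivWithinAt (fun τ => X.E τ (V τ) - B τ)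
      (X.E τ (P.gen V τ) - B' τ) (Set.Ici τ) τ := fun τ hτ =>
    (X.dyn V hV τ ⟨ha.trans hτ.1, lt_of_lt_of_le hτ.2 hb⟩).sub
      (hB τ (Set.Ico_subset_Icc_self hτ)).hasDerivWithinAt
  have key := image_le_of_deriv_right_le_deriv_boundary (f := fun τ => X.E τ (V τ) - B τ)
    (B := fun _ => X.E a (V a) - B a) (B' := fun _ => 0) hc hd le_rfl continuousOn_const
    (fun τ _ => (hasDerivAt_const τ _).hasDerivWithinAt)
    (fun τ hτ => by
      obtain ⟨W, hWc, h1, h2⟩ := hW τ hτ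
      have := X.mono τ (hsub (Set.Ico_subset_Icc_self hτ)) _ W (hV.gen_cts P τ) hWc h1
      linarith)
  exact key ⟨hab, le_rfl⟩

/-- Supersolutions decrease in expectation. -/
theorem le_of_super {V : ℝ → S → R → ℝ} (hV : Sm V) {a b : ℝ} (ha : t0 ≤ a) (hab : a ≤ b)
    (hb : b ≤ t1) (h : ∀ τ ∈ Set.Ico a b, ∀ s r, Inv s → P.gen V τ s r ≤ 0) :
    X.E b (V b) ≤ X.E a (V a) := by
  have := X.le_of_gen hV ha hab hb (B := fun _ => 0) (B' := fun _ => 0)
    (fun τ _ => hasDerivAt_const τ _) (fun τ hτ => ⟨fun _ _ => 0, Cts.const 0, h τ hτ, by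
      rw [X.const τ ⟨ha.trans hτ.1, hτ.2.le.trans hb⟩]⟩)
  simpa using this

/-- Harmonic functions of the discrete state have constant expectation. -/
theorem harmonic (f : S → ℝ) (h : ∀ s, Inv s → ∑ T ∈ P.moves, (f (P.mv T s) - f s) = 0)
    {τ : ℝ} (hτ : τ ∈ Set.Icc t0 t1) : X.E τ (fun s _ => f s) = f s0 := by
  have h1 := X.le_of_super (Sm.of_state (R := R) f) le_rfl hτ.1 hτ.2 (fun σ _ s r hs => by
    rw [Sys.gen_state, h s hs]; simp)
  have h2 := X.le_of_super (Sm.of_state (R := R) (fun s => (-1) * f s)) le_rfl hτ.1 hτ.2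
    (fun σ _ s r hs => by
      rw [Sys.gen_state]
      have : ∑ T ∈ P.moves, (-1 * f (P.mv T s) - -1 * f s)
          = -1 * ∑ T ∈ P.moves, (f (P.mv T s) - f s) := by
        rw [Finset.mul_sum]; exact Finset.sum_congr rfl fun _ _ => by ring
      rw [this, h s hs]; simp)
  rw [X.init _ (Cts.of_state _)] at h1 h2
  rw [X.smul τ hτ (-1) _ (Cts.of_state f)] at h2
  linarith

end Ex

end Vale.Agent.P046
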