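import Vale.Agent.P046.FwdBasic
import Vale.Agent.P046.Trees

open Finset

namespace Vale.Agent.P046

variable {α : Type} [DecidableEq α] {TT : Finset (Finset α)} {A1 : Finset α} {t : ℝ}
  {p : Finset α → ℝ → ℝ}

namespace FactorAux

/-- The factorisation defect. -/
def DD (p : Finset α → ℝ → ℝ) (S1 S1' S2 S2' : Finset α) (s : ℝ) : ℝ :=
  p (S1 ∪ S2) s * p (S1' ∪ S2') s - p (S1 ∪ S2') s * p (S1' ∪ S2) s

theorem abs_DD_le (h : Fwd TT A1 t p) (S1 S1' S2 S2' : Finset α) {s : ℝ}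
    (hs : s ∈ Set.Icc 0 t) : |DD p S1 S1' S2 S2' s| ≤ 1 := by
  have key : ∀ U V : Finset α, 0 ≤ p U s * p V s ∧ p U s * p V s ≤ 1 := fun U V =>
    ⟨mul_nonneg (h.nonneg U s hs) (h.nonneg V s hs),
      mul_le_one₀ (h.le_one U s hs) (h.nonneg V s hs) (h.le_one V s hs)⟩
  have h1 := key (S1 ∪ S2) (S1' ∪ S2')
  have h2 := key (S1 ∪ S2') (S1' ∪ S2)
  rw [DD, abs_le]
  constructor <;> linarith [h1.1, h1.2, h2.1, h2.2]

theorem der_split (h : Fwd TT A1 t p) {S1 S2 : Finset α} {B1 B2 : Finset (Finset α)}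
    (hd : Disjoint B1 B2) (he : TT.filter (fun T => (T ∩ (S1 ∪ S2)).Nonempty) = B1 ∪ B2) {s : ℝ}
    (hs : s ∈ Set.Ico 0 t) :
    HasDerivWithinAt (p (S1 ∪ S2))
      (-(∑ T ∈ B1, p (S1 ∪ T ∪ S2) s + ∑ T ∈ B2, p (S1 ∪ (S2 ∪ T)) s)) (Set.Ici s) s := by
  have := h.der (S1 ∪ S2) s hs
  rw [he, sum_union hd] at this
  refine this.congr_deriv ?_
  simp only [union_right_comm S1 S2, union_assoc]
  simp only [union_comm S2]

theorem abs_sum_le {β : Type} (B : Finset β) {f : β → ℝ} {a : ℝ} (h : ∀ T ∈ B, |f T| ≤ a) :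
    |∑ T ∈ B, f T| ≤ B.card * a :=
  (abs_sum_le_sum_abs _ _).trans (by simpa using sum_le_card_nsmul B _ a h)

theorem exp_mono {K c s t a : ℝ} (hK : 0 ≤ K) (hc : 0 ≤ c) (hs : s ≤ t) :
    Real.exp (a - K * Real.exp (-(c * s))) ≤ Real.exp (a - K * Real.exp (-(c * t))) := by
  gcongr

theorem card_meet_le' {Δ : ℕ} (hΔ : ∀ x, (thru TT x).card ≤ Δ) (S : Finset α) :
    (TT.filter (fun T => (T ∩ S).Nonempty)).card ≤ S.card * Δ :=
  (card_meet_le TT S).trans (by simpa using sum_le_card_nsmul S _ Δ fun v _ => hΔ v)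

theorem mem_vset {x y : α} {F : Finset (Finset α)} : y ∈ vset x F ↔ y = x ∨ ∃ T ∈ F, y ∈ T := by
  simp [vset]

theorem vset_union (x : α) (F G : Finset (Finset α)) :
    vset x (F ∪ G) = vset x F ∪ vset x G := by
  ext y
  simp only [mem_union, mem_vset]
  constructor
  · rintro (h | ⟨T, h | h, hy⟩)
    · exact Or.inl (Or.inl h)
    · exact Or.inl (Or.inr ⟨T, h, hy⟩)
    · exact Or.inr (Or.inr ⟨T, h, hy⟩)
  · rintro ((h | ⟨T, h, hy⟩) | (h | ⟨T, h, hy⟩))
    · exact Or.inl h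
    · exact Or.inr ⟨T, Or.inl h, hy⟩
    · exact Or.inl h
    · exact Or.inr ⟨T, Or.inr h, hy⟩

theorem sub_vset (x : α) {F : Finset (Finset α)} {T : Finset α} (h : T ∈ F) : T ⊆ vset x F :=
  fun _ hy => mem_vset.2 (Or.inr ⟨T, h, hy⟩)

end FactorAux

open FactorAux

/-- Abstract approximate factorisation. -/
theorem Fwd.factor_abs (h : Fwd TT A1 t p) (K : ℕ) {c : ℝ} (hc : 0 ≤ c) (X0 : Finset α)
    (Adm : ℕ → Finset α → Finset α → Prop) (T1 T2 : Finset α → Finset (Finset α))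
    (hsub : ∀ j U1 U2, Adm j U1 U2 → U1 ⊆ A1 ∧ U2 ⊆ A1)
    (hsplit : ∀ j < K, ∀ U1 U2, Adm j U1 U2 → ∀ S1 S2, X0 ⊆ S1 → S1 ⊆ U1 → X0 ⊆ S2 → S2 ⊆ U2 →
      Disjoint (T1 S1) (T2 S2) ∧
      TT.filter (fun T => (T ∩ (S1 ∪ S2)).Nonempty) = T1 S1 ∪ T2 S2 ∧
      ((T1 S1).card : ℝ) + ((T2 S2).card : ℝ) ≤ c * (j + 1) ∧
      (∀ T ∈ T1 S1, Adm (j + 1) (U1 ∪ T) U2) ∧ (∀ T ∈ T2 S2, Adm (j + 1) U1 (U2 ∪ T))) :
    ∀ j, 1 ≤ j → ∀ U1 U2, Adm j U1 U2 → ∀ S1 S1' S2 S2', X0 ⊆ S1 → S1 ⊆ U1 → X0 ⊆ S1' →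
      S1' ⊆ U1 → X0 ⊆ S2 → S2 ⊆ U2 → X0 ⊆ S2' → S2' ⊆ U2 → ∀ s ∈ Set.Icc 0 t,
      |p (S1 ∪ S2) s * p (S1' ∪ S2') s - p (S1 ∪ S2') s * p (S1' ∪ S2) s|
        ≤ Real.exp (j - K * Real.exp (-(12 * c * s))) := by
  have main : ∀ i j : ℕ, K ≤ j + i → 1 ≤ j → ∀ U1 U2, Adm j U1 U2 → ∀ S1 S1' S2 S2', X0 ⊆ S1 →
      S1 ⊆ U1 → X0 ⊆ S1' → S1' ⊆ U1 → X0 ⊆ S2 → S2 ⊆ U2 → X0 ⊆ S2' → S2' ⊆ U2 →
      ∀ s ∈ Set.Icc 0 t, |DD p S1 S1' S2 S2' s| ≤ Real.exp (j - K * Real.exp (-(12 * c * s))) := by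
    have hle : ∀ s : ℝ, 0 ≤ s → K * Real.exp (-(12 * c * s)) ≤ K := fun s hs =>
      mul_le_of_le_one_right (Nat.cast_nonneg K) (Real.exp_le_one_iff.2 (by
        have : 0 ≤ 12 * c * s := by positivity
        linarith))
    intro i
    induction i with
    | zero =>
      intro j hj _ U1 U2 _ S1 S1' S2 S2' _ _ _ _ _ _ _ _ s hs
      refine (abs_DD_le h _ _ _ _ hs).trans (Real.one_le_exp ?_)
      have h1 : (K : ℝ) ≤ j := by exact_mod_cast hj
      linarith [hle s hs.1]
    | succ i ih =>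
      intro j hj hj1 U1 U2 hU S1 S1' S2 S2' a1 b1 a1' b1' a2 b2 a2' b2' s hs
      by_cases hjs : K * Real.exp (-(12 * c * s)) ≤ j
      · exact (abs_DD_le h _ _ _ _ hs).trans (Real.one_le_exp (by linarith))
      push Not at hjs
      have hjK : j < K := by
        have : (j : ℝ) < K := hjs.trans_le (hle s hs.1)
        exact_mod_cast this
      obtain ⟨d11, e11, c11, k1, k2⟩ := hsplit j hjK U1 U2 hU S1 S2 a1 b1 a2 b2
      obtain ⟨d22, e22, c22, k1', k2'⟩ := hsplit j hjK U1 U2 hU S1' S2' a1' b1' a2' b2'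
      obtain ⟨d12, e12, -⟩ := hsplit j hjK U1 U2 hU S1 S2' a1 b1 a2' b2'
      obtain ⟨d21, e21, -⟩ := hsplit j hjK U1 U2 hU S1' S2 a1' b1' a2 b2
      have hsub' : Set.Icc 0 s ⊆ Set.Icc 0 t := Set.Icc_subset_Icc_right hs.2
      have hsub'' : Set.Ico 0 s ⊆ Set.Ico 0 t := Set.Ico_subset_Ico_right hs.2
      have hB : ∀ x : ℝ, HasDerivAt (fun x => Real.exp (j - K * Real.exp (-(12 * c * x))))
          (Real.exp (j - K * Real.exp (-(12 * c * x))) *
            (12 * c * (K * Real.exp (-(12 * c * x))))) x := fun x => by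
        have h1 : HasDerivAt (fun x : ℝ => -(12 * c * x)) (-(12 * c * 1)) x :=
          ((hasDerivAt_id' x).const_mul (12 * c)).fun_neg
        refine (((h1.exp.const_mul (K : ℝ)).const_sub (j : ℝ)).exp).congr_deriv ?_
        ring
      obtain ⟨u1, u2⟩ := hsub j U1 U2 hU
      have key := image_norm_le_of_norm_deriv_right_le_deriv_boundary (a := 0) (b := s)
        (f := DD p S1 S1' S2 S2')
        (f' := fun x => -(∑ T ∈ T1 S1, DD p (S1 ∪ T) S1' S2 S2' x
          + ∑ T ∈ T2 S2, DD p S1 S1' (S2 ∪ T) S2' x + ∑ T ∈ T1 S1', DD p S1 (S1' ∪ T) S2 S2' x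
          + ∑ T ∈ T2 S2', DD p S1 S1' S2 (S2' ∪ T) x))
        ((((h.cont _).mul (h.cont _)).sub ((h.cont _).mul (h.cont _))).mono hsub')
        (fun x hx => by
          have hx' := hsub'' hx
          refine (((der_split h d11 e11 hx').mul (der_split h d22 e22 hx')).sub
            ((der_split h d12 e12 hx').mul (der_split h d21 e21 hx'))).congr_deriv ?_
          simp only [DD, sum_sub_distrib, ← sum_mul, ← mul_sum]
          ring)
        (by
          rw [DD, h.init _ (union_subset (b1.trans u1) (b2.trans u2)),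
            h.init _ (union_subset (b1'.trans u1) (b2'.trans u2)),
            h.init _ (union_subset (b1.trans u1) (b2'.trans u2)),
            h.init _ (union_subset (b1'.trans u1) (b2.trans u2)), sub_self, norm_zero]
          exact (Real.exp_pos _).le) hB
        (fun x hx => by
          have hx' : x ∈ Set.Icc 0 t := hsub' (Set.Ico_subset_Icc_self hx)
          have hj' : K ≤ j + 1 + i := by omega
          have hj1' : 1 ≤ j + 1 := by omega
          have g1 := abs_sum_le (T1 S1) fun T hT => ih (j + 1) hj' hj1' _ _ (k1 T hT) (S1 ∪ T) S1'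
            S2 S2' (a1.trans subset_union_left) (union_subset_union_left b1) a1'
            (b1'.trans subset_union_left) a2 b2 a2' b2' x hx'
          have g2 := abs_sum_le (T2 S2) fun T hT => ih (j + 1) hj' hj1' _ _ (k2 T hT) S1 S1'
            (S2 ∪ T) S2' a1 b1 a1' b1' (a2.trans subset_union_left) (union_subset_union_left b2)
            a2' (b2'.trans subset_union_left) x hx'
          have g3 := abs_sum_le (T1 S1') fun T hT => ih (j + 1) hj' hj1' _ _ (k1' T hT) S1
            (S1' ∪ T) S2 S2' a1 (b1.trans subset_union_left) (a1'.trans subset_union_left)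
            (union_subset_union_left b1') a2 b2 a2' b2' x hx'
          have g4 := abs_sum_le (T2 S2') fun T hT => ih (j + 1) hj' hj1' _ _ (k2' T hT) S1 S1'
            S2 (S2' ∪ T) a1 b1 a1' b1' a2 (b2.trans subset_union_left)
            (a2'.trans subset_union_left) (union_subset_union_left b2') x hx'
          have e1 : Real.exp (((j + 1 : ℕ) : ℝ) - K * Real.exp (-(12 * c * x))) ≤
              3 * Real.exp (j - K * Real.exp (-(12 * c * x))) := by
            rw [show ((j + 1 : ℕ) : ℝ) - K * Real.exp (-(12 * c * x)) =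
              1 + (j - K * Real.exp (-(12 * c * x))) by push_cast; ring, Real.exp_add]
            exact mul_le_mul_of_nonneg_right Real.exp_one_lt_three.le (Real.exp_pos _).le
          have e2 : (j : ℝ) ≤ K * Real.exp (-(12 * c * x)) := by
            refine hjs.le.trans ?_
            have := hx.2.le
            gcongr
          have hj1r : (1 : ℝ) ≤ j := by exact_mod_cast hj1
          have hb := Real.exp_pos (j - K * Real.exp (-(12 * c * x)))
          have ha := Real.exp_pos (((j + 1 : ℕ) : ℝ) - K * Real.exp (-(12 * c * x)))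
          generalize Real.exp (((j + 1 : ℕ) : ℝ) - K * Real.exp (-(12 * c * x))) = a at *
          generalize Real.exp (j - K * Real.exp (-(12 * c * x))) = b at *
          rw [norm_neg, Real.norm_eq_abs]
          calc _ ≤ (T1 S1).card * a + (T2 S2).card * a + (T1 S1').card * a + (T2 S2').card * a :=
                (abs_add_le _ _).trans (add_le_add ((abs_add_le _ _).trans
                  (add_le_add ((abs_add_le _ _).trans (add_le_add g1 g2)) g3)) g4)
            _ = (((T1 S1).card + (T2 S2).card) + ((T1 S1').card + (T2 S2').card)) * a := by ring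
            _ ≤ (c * (j + 1) + c * (j + 1)) * (3 * b) := by gcongr
            _ = b * (6 * c * (j + 1)) := by ring
            _ ≤ b * (6 * c * (j + j)) := by gcongr
            _ = b * (12 * c * j) := by ring
            _ ≤ _ := by gcongr)
      exact key ⟨hs.1, le_rfl⟩
  intro j
  exact main K j (Nat.le_add_left K j)

/-- Factorisation across a good vertex. -/
theorem Fwd.factor_center (h : Fwd TT A1 t p) (hl : LinHG TT) (hA : ∀ T ∈ TT, T ⊆ A1) {Δ K : ℕ}
    (hΔ : ∀ x, (thru TT x).card ≤ Δ) {x : α} (hg : goodV TT K x) {T T' : Finset α}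
    (hT : T ∈ thru TT x) (hT' : T' ∈ thru TT x) (hne : T ≠ T') {s : ℝ} (hs : s ∈ Set.Icc 0 t) :
    |p T s * p T' s - p (T ∪ T') s * p {x} s|
      ≤ Real.exp (2 - K * Real.exp (-(24 * Δ * s))) := by
  obtain ⟨hT0, hxT⟩ := mem_thru.1 hT
  obtain ⟨hT0', hxT'⟩ := mem_thru.1 hT'
  have hTT' : ∀ y, y ∈ T → y ∈ T' → y = x := fun y h1 h2 => by
    by_contra hy
    exact hne (hl.eq_of_two hT0 hT0' hy h1 hxT h2 hxT')
  have key := h.factor_abs K (c := 2 * Δ) (by positivity) {x}
    (fun j U1 U2 => ∃ k ≤ j, ∃ FA FB, FA ∪ FB ∈ trees TT x k ∧ U1 = vset x FA ∧ U2 = vset x FB ∧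
      (∀ y, y ∈ U1 → y ∈ U2 → y = x) ∧ T ∈ FA ∧ (∀ R ∈ FA, R = T ∨ x ∉ R) ∧ T ∉ FB)
    (fun S => insert T (TT.filter fun R => x ∉ R ∧ (R ∩ S).Nonempty))
    (fun S => (thru TT x).erase T ∪ TT.filter fun R => x ∉ R ∧ (R ∩ S).Nonempty) ?_ ?_ 2
    (by norm_num) (vset x {T}) (vset x {T'}) ?_ T {x} {x} T' (singleton_subset_iff.2 hxT)
    (sub_vset x (mem_singleton_self T)) subset_rfl (singleton_subset_iff.2 (mem_insert_self _ _))
    subset_rfl (singleton_subset_iff.2 (mem_insert_self _ _)) (singleton_subset_iff.2 hxT')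
    (sub_vset x (mem_singleton_self T')) s hs
  · rw [union_eq_left.2 (singleton_subset_iff.2 hxT), union_eq_right.2 (singleton_subset_iff.2 hxT'),
      union_self, show 12 * (2 * (Δ : ℝ)) * s = 24 * Δ * s by ring] at key
    exact_mod_cast key
  · rintro j U1 U2 ⟨k, -, FA, FB, hF, rfl, rfl, -⟩
    have hF' := (trees_spec hl hF).1
    have : vset x (FA ∪ FB) ⊆ A1 := fun y hy => by
      rcases mem_vset.1 hy with rfl | ⟨R, hR, hy⟩
      · exact hA T hT0 hxT
      · exact hA R (hF' hR) hy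
    rw [vset_union] at this
    exact union_subset_iff.1 this
  · rintro j hj U1 U2 ⟨k, hk, FA, FB, hF, hU1, hU2, hI, hTA, hA', hTB⟩ S1 S2 x1 s1 x2 s2
    rw [singleton_subset_iff] at x1 x2
    have hV : vset x (FA ∪ FB) = U1 ∪ U2 := by rw [vset_union, hU1, hU2]
    have hmeet : ∀ R ∈ TT, R ∉ FA → R ∉ FB → (R ∩ vset x (FA ∪ FB)).card ≤ 1 := fun R hR h1 h2 =>
      goodV_meet hl hg k (by omega) _ hF R hR (by simp [h1, h2])
    have huniq : ∀ R ∈ TT, R ∉ FA → R ∉ FB → ∀ a ∈ R, a ∈ U1 ∪ U2 → ∀ b ∈ R, b ∈ U1 ∪ U2 →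
        a = b := fun R hR h1 h2 a ha ha' b hb hb' =>
      card_le_one.1 (hmeet R hR h1 h2) a (mem_inter.2 ⟨ha, hV ▸ ha'⟩) b (mem_inter.2 ⟨hb, hV ▸ hb'⟩)
    have hnew : ∀ R ∈ TT, R ∉ FA → R ∉ FB → ∀ a ∈ R, a ∈ U1 ∪ U2 →
        insert R (FA ∪ FB) ∈ trees TT x (k + 1) := fun R hR h1 h2 a ha ha' =>
      insert_mem_trees hF hR (le_antisymm (hmeet R hR h1 h2)
        (card_pos.2 ⟨a, mem_inter.2 ⟨ha, hV ▸ ha'⟩⟩))
    have hA1 : ∀ R ∈ FA, R ⊆ U1 := fun R hR => hU1 ▸ sub_vset x hR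
    have hB2 : ∀ R ∈ FB, R ⊆ U2 := fun R hR => hU2 ▸ sub_vset x hR
    have hdisj : Disjoint (insert T (TT.filter fun R => x ∉ R ∧ (R ∩ S1).Nonempty))
        ((thru TT x).erase T ∪ TT.filter fun R => x ∉ R ∧ (R ∩ S2).Nonempty) := by
      rw [disjoint_left]
      intro R h1 h2
      simp only [mem_insert, mem_filter, mem_union, mem_erase, mem_thru, Finset.Nonempty,
        mem_inter] at h1 h2
      rcases h1 with rfl | ⟨hR, hx, a, ha, ha'⟩
      · rcases h2 with h2 | h2
        · exact h2.1 rfl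
        · exact h2.2.1 hxT
      · rcases h2 with h2 | ⟨-, -, b, hb, hb'⟩
        · exact hx h2.2.2
        · by_cases hRA : R ∈ FA
          · exact hx (hI b (hA1 R hRA hb) (s2 hb') ▸ hb)
          by_cases hRB : R ∈ FB
          · exact hx (hI a (s1 ha') (hB2 R hRB ha) ▸ ha)
          have := huniq R hR hRA hRB a ha (mem_union_left _ (s1 ha')) b hb
            (mem_union_right _ (s2 hb'))
          exact hx (hI a (s1 ha') (this ▸ s2 hb') ▸ ha)
    have heq : TT.filter (fun R => (R ∩ (S1 ∪ S2)).Nonempty) =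
        insert T (TT.filter fun R => x ∉ R ∧ (R ∩ S1).Nonempty) ∪
          ((thru TT x).erase T ∪ TT.filter fun R => x ∉ R ∧ (R ∩ S2).Nonempty) := by
      ext R
      simp only [mem_insert, mem_filter, mem_union, mem_erase, mem_thru, Finset.Nonempty,
        mem_inter]
      constructor
      · rintro ⟨hR, a, ha, ha'⟩
        by_cases hx : x ∈ R
        · by_cases hRT : R = T
          · exact Or.inl (Or.inl hRT)
          · exact Or.inr (Or.inl ⟨hRT, hR, hx⟩)
        · rcases ha' with ha' | ha'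
          · exact Or.inl (Or.inr ⟨hR, hx, a, ha, ha'⟩)
          · exact Or.inr (Or.inr ⟨hR, hx, a, ha, ha'⟩)
      · rintro ((rfl | ⟨hR, -, a, ha, ha'⟩) | (⟨-, hR, hx⟩ | ⟨hR, -, a, ha, ha'⟩))
        · exact ⟨hT0, x, hxT, Or.inl x1⟩
        · exact ⟨hR, a, ha, Or.inl ha'⟩
        · exact ⟨hR, x, hx, Or.inl x1⟩
        · exact ⟨hR, a, ha, Or.inr ha'⟩
    refine ⟨hdisj, heq, ?_, fun R hR => ?_, fun R hR => ?_⟩
    · have h1 := card_meet_le' hΔ (S1 ∪ S2)
      rw [heq, card_union_of_disjoint hdisj] at h1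
      have h2 : (S1 ∪ S2).card ≤ 2 * (j + 1) := by
        have := card_le_card (union_subset_union s1 s2)
        rw [← hV, (trees_spec hl hF).2.1] at this
        omega
      have h3 := h1.trans (Nat.mul_le_mul_right Δ h2)
      have h4 : ((2 * (j + 1) * Δ : ℕ) : ℝ) = 2 * Δ * (j + 1) := by push_cast; ring
      rw [← h4]
      exact_mod_cast h3
    · by_cases hRA : R ∈ FA
      · rw [union_eq_left.2 (hA1 R hRA)]
        exact ⟨k, by omega, FA, FB, hF, hU1, hU2, hI, hTA, hA', hTB⟩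
      simp only [mem_insert, mem_filter, Finset.Nonempty, mem_inter] at hR
      rcases hR with rfl | ⟨hR, hx, a, ha, ha'⟩
      · exact absurd hTA hRA
      have hRB : R ∉ FB := fun hRB => hx (hI a (s1 ha') (hB2 R hRB ha) ▸ ha)
      refine ⟨k + 1, by omega, insert R FA, FB, ?_, by rw [vset_insert, hU1], hU2,
        fun y h1 h2 => ?_, mem_insert_of_mem hTA, fun R' hR' => ?_, hTB⟩
      · rw [insert_union]
        exact hnew R hR hRA hRB a ha (mem_union_left _ (s1 ha'))
      · rcases mem_union.1 h1 with h1 | h1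
        · exact hI y h1 h2
        · have := huniq R hR hRA hRB y h1 (mem_union_right _ h2) a ha (mem_union_left _ (s1 ha'))
          exact hI y (this ▸ s1 ha') h2
      · rcases mem_insert.1 hR' with rfl | hR'
        · exact Or.inr hx
        · exact hA' R' hR'
    · by_cases hRB : R ∈ FB
      · rw [union_eq_left.2 (hB2 R hRB)]
        exact ⟨k, by omega, FA, FB, hF, hU1, hU2, hI, hTA, hA', hTB⟩
      have hR' : R ∈ TT ∧ R ≠ T ∧ ∃ a ∈ R, a ∈ S2 := by
        simp only [mem_filter, mem_union, mem_erase, mem_thru, Finset.Nonempty, mem_inter] at hR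
        rcases hR with ⟨h1, h2, h3⟩ | ⟨h1, h2, a, ha, ha'⟩
        · exact ⟨h2, h1, x, h3, x2⟩
        · exact ⟨h1, fun e => h2 (e ▸ hxT), a, ha, ha'⟩
      obtain ⟨hR0, hRT, a, ha, ha'⟩ := hR'
      have hRA : R ∉ FA := fun hRA =>
        (hA' R hRA).elim hRT fun hx => hx (hI a (hA1 R hRA ha) (s2 ha') ▸ ha)
      refine ⟨k + 1, by omega, FA, insert R FB, ?_, hU1, by rw [vset_insert, hU2],
        fun y h1 h2 => ?_, hTA, hA', fun h1 => ?_⟩
      · rw [union_insert]
        exact hnew R hR0 hRA hRB a ha (mem_union_right _ (s2 ha'))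
      · rcases mem_union.1 h2 with h2 | h2
        · exact hI y h1 h2
        · have := huniq R hR0 hRA hRB y h2 (mem_union_left _ h1) a ha (mem_union_right _ (s2 ha'))
          exact hI y h1 (this ▸ s2 ha')
      · exact (mem_insert.1 h1).elim (fun e => hRT e.symm) hTB
  · have hI : ∀ y, y ∈ vset x {T} → y ∈ vset x {T'} → y = x := fun y h1 h2 => by
      simp only [mem_vset, mem_singleton, exists_eq_left] at h1 h2
      exact h1.elim id fun h1 => h2.elim id fun h2 => hTT' y h1 h2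
    refine ⟨2, le_rfl, {T}, {T'}, ?_, rfl, rfl, hI, mem_singleton_self T,
      fun R hR => Or.inl (mem_singleton.1 hR), fun h1 => hne (mem_singleton.1 h1)⟩
    have t0 : (∅ : Finset (Finset α)) ∈ trees TT x 0 := mem_singleton_self _
    have t1 := insert_mem_trees t0 hT0' (card_eq_one.2 ⟨x, by
      ext y
      simp only [mem_inter, mem_vset, notMem_empty, false_and, exists_false, or_false,
        mem_singleton]
      exact ⟨fun h => h.2, fun h => ⟨h ▸ hxT', h⟩⟩⟩)
    exact insert_mem_trees t1 hT0 (card_eq_one.2 ⟨x, by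
      ext y
      simp only [mem_inter, mem_vset, mem_insert, notMem_empty, or_false, exists_eq_left,
        mem_singleton]
      exact ⟨fun h => h.2.elim id fun h2 => hTT' y h.1 h2, fun h => ⟨h ▸ hxT, Or.inl h⟩⟩⟩)

theorem Fwd.errF_le (h : Fwd TT A1 t p) (hl : LinHG TT) (hA : ∀ T ∈ TT, T ⊆ A1) {Δ : ℕ} (K : ℕ)
    (hΔ : ∀ x, (thru TT x).card ≤ Δ) {s : ℝ} (hs : s ∈ Set.Icc 0 t) :
    errF TT A1 p s ≤ (Δ : ℝ) ^ 2 *
      (Real.exp (2 - K * Real.exp (-(24 * Δ * t))) * Real.exp (Δ * t) * (A1.card : ℝ)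
        + ((A1.filter (fun x => ¬ goodV TT K x)).card : ℝ)) := by
  set ε := Real.exp (2 - K * Real.exp (-(24 * Δ * t))) * Real.exp (Δ * t) with hε
  have hε0 : 0 ≤ ε := by positivity
  have hΔ' : ∀ x, ((thru TT x).card : ℝ) ≤ Δ := fun x => by exact_mod_cast hΔ x
  have key : ∀ x ∈ A1, ∀ T ∈ thru TT x, ∀ T' ∈ (thru TT x).erase T,
      |p T s * p T' s / p {x} s - p (T ∪ T') s| ≤ ε + if ¬ goodV TT K x then 1 else 0 := by
    intro x hx T hT T' hT'
    have hb := h.single_pos hx hs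
    split_ifs with hg
    · have h1 := h.factor_center hl hA hΔ hg hT (mem_erase.1 hT').2 (mem_erase.1 hT').1.symm hs
      have h2 := h.single_ge hx hs
      have h3 : 1 ≤ Real.exp (Δ * t) * p {x} s := by
        refine le_trans ?_ (mul_le_mul_of_nonneg_left h2 (Real.exp_pos _).le)
        rw [← Real.exp_add]
        refine Real.one_le_exp ?_
        have := mul_le_mul (hΔ' x) hs.2 hs.1 (Nat.cast_nonneg Δ)
        linarith
      rw [add_zero, div_sub' hb.ne', abs_div, abs_of_pos hb, div_le_iff₀ hb,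
        mul_comm (p {x} s), hε, mul_assoc]
      exact (h1.trans (exp_mono (Nat.cast_nonneg K) (by positivity) hs.2)).trans
        (le_mul_of_one_le_right (Real.exp_pos _).le h3)
    · have h1 : 0 ≤ p T s * p T' s / p {x} s :=
        div_nonneg (mul_nonneg (h.nonneg _ s hs) (h.nonneg _ s hs)) hb.le
      have h2 : p T s * p T' s / p {x} s ≤ 1 := by
        rw [div_le_one hb]
        exact (mul_le_of_le_one_right (h.nonneg _ s hs) (h.le_one _ s hs)).trans
          (h.le_single (mem_thru.1 hT).2 hs)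
      have h3 := h.nonneg (T ∪ T') s hs
      have h4 := h.le_one (T ∪ T') s hs
      rw [abs_le]
      constructor <;> linarith
  calc errF TT A1 p s ≤ ∑ x ∈ A1, (Δ : ℝ) ^ 2 * (ε + if ¬ goodV TT K x then 1 else 0) := by
        refine sum_le_sum fun x hx => ?_
        have h0 : (0 : ℝ) ≤ ε + if ¬ goodV TT K x then 1 else 0 := by
          split_ifs <;> linarith
        refine (sum_le_card_nsmul _ _ (Δ * (ε + if ¬ goodV TT K x then 1 else 0))
          fun T hT => (sum_le_card_nsmul _ _ _ (key x hx T hT)).trans ?_).trans ?_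
        · rw [nsmul_eq_mul]
          refine mul_le_mul_of_nonneg_right (le_trans ?_ (hΔ' x)) h0
          exact_mod_cast card_erase_le
        · rw [nsmul_eq_mul, sq, mul_assoc]
          exact mul_le_mul_of_nonneg_right (hΔ' x) (by positivity)
    _ = _ := by
        rw [← mul_sum, sum_add_distrib, sum_const, nsmul_eq_mul, sum_boole, mul_comm _ ε]

/-- Two point factorisation, summed. -/
theorem Fwd.var_le (h : Fwd TT A1 t p) (hl : LinHG TT) (hA : ∀ T ∈ TT, T ⊆ A1) {Δ : ℕ} (K : ℕ)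
    (hΔ : ∀ x, (thru TT x).card ≤ Δ) {s : ℝ} (hs : s ∈ Set.Icc 0 t) :
    ∑ e ∈ A1, ∑ e' ∈ A1, p {e, e'} s - massB A1 p s ^ 2 ≤
      Real.exp (1 - K * Real.exp (-(24 * Δ * t))) * (A1.card : ℝ) ^ 2
        + (1 + 2 * (Δ : ℝ)) ^ (2 * K) * (A1.card : ℝ) := by
  set ε := Real.exp (1 - K * Real.exp (-(24 * Δ * t))) with hε
  have hε0 : 0 ≤ ε := (Real.exp_pos _).le
  have key : ∀ e ∈ A1, ∀ e' ∈ A1, p {e, e'} s - p {e} s * p {e'} s ≤
      ε + if e' ∈ ball TT (2 * K) {e} then 1 else 0 := by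
    intro e he e' he'
    split_ifs with hb
    · have := mul_nonneg (h.nonneg {e} s hs) (h.nonneg {e'} s hs)
      linarith [h.le_one {e, e'} s hs]
    have hgrow : ∀ (j : ℕ) (a : α) (U S R : Finset α), U ⊆ ball TT j {a} → S ⊆ U →
        R ∈ TT.filter (fun R => (R ∩ S).Nonempty) →
        U ∪ R ⊆ ball TT (j + 1) {a} ∧ (U ∪ R).card ≤ U.card + 2 := by
      intro j a U S R hU hS hR
      obtain ⟨hR, hm⟩ := mem_filter.1 hR
      have hm' : (R ∩ U).Nonempty := hm.mono (inter_subset_inter_left hS)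
      refine ⟨union_subset (hU.trans (ball_mono TT (Nat.le_succ j) _)) ?_, ?_⟩
      · rw [ball_succ]
        exact subset_nbhd_of_meet hR (hm'.mono (inter_subset_inter_left hU))
      · have h1 := card_union_add_card_inter U R
        have h2 := card_pos.2 hm'
        rw [hl.card3 R hR, inter_comm] at h1
        omega
    have h1 := h.factor_abs K (c := 2 * Δ) (by positivity) ∅
      (fun j U1 U2 => U1 ⊆ ball TT j {e} ∧ U2 ⊆ ball TT j {e'} ∧ U1.card + U2.card ≤ 2 * j ∧
        U1 ⊆ A1 ∧ U2 ⊆ A1)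
      (fun S => TT.filter fun R => (R ∩ S).Nonempty) (fun S => TT.filter fun R => (R ∩ S).Nonempty)
      (fun _ _ _ h => h.2.2.2) ?_ 1 le_rfl {e} {e'}
      ⟨ball_mono TT (Nat.zero_le 1) {e}, ball_mono TT (Nat.zero_le 1) {e'}, by simp,
        singleton_subset_iff.2 he, singleton_subset_iff.2 he'⟩ {e} ∅ {e'} ∅ (empty_subset _)
      subset_rfl subset_rfl (empty_subset _) (empty_subset _) subset_rfl subset_rfl
      (empty_subset _) s hs
    · rw [union_self, union_empty, empty_union, h.empty_eq hs, mul_one, ← insert_eq,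
        show 12 * (2 * (Δ : ℝ)) * s = 24 * Δ * s by ring, Nat.cast_one] at h1
      rw [add_zero]
      exact (le_abs_self _).trans (h1.trans (exp_mono (Nat.cast_nonneg K) (by positivity) hs.2))
    · rintro j hj U1 U2 ⟨b1, b2, hc, a1, a2⟩ S1 S2 - s1 - s2
      refine ⟨?_, ?_, ?_, fun R hR => ?_, fun R hR => ?_⟩
      · rw [disjoint_left]
        intro R r1 r2
        obtain ⟨b, hb'⟩ := (mem_filter.1 r2).2
        obtain ⟨hbR, hbS⟩ := mem_inter.1 hb'
        have h2 := (hgrow j e U1 S1 R b1 s1 r1).1 (mem_union_right _ hbR)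
        have h3 := ball_mono_set TT j (singleton_subset_iff.2 h2) (ball_symm (b2 (s2 hbS)))
        rw [← ball_add] at h3
        exact hb (ball_mono TT (by omega) _ h3)
      · rw [← filter_or]
        refine filter_congr fun R _ => ?_
        rw [inter_union_distrib_left, union_nonempty]
      · have h2 := card_meet_le' hΔ S1
        have h3 := card_meet_le' hΔ S2
        have h4 : (S1.card + S2.card) * Δ ≤ 2 * (j + 1) * Δ := by
          have := card_le_card s1
          have := card_le_card s2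
          exact Nat.mul_le_mul_right Δ (by omega)
        have h5 : ((2 * (j + 1) * Δ : ℕ) : ℝ) = 2 * Δ * (j + 1) := by push_cast; ring
        rw [← h5]
        exact_mod_cast (add_le_add h2 h3).trans (by rw [← add_mul]; exact h4)
      · obtain ⟨g1, g2⟩ := hgrow j e U1 S1 R b1 s1 hR
        exact ⟨g1, b2.trans (ball_mono TT (Nat.le_succ j) _), by omega,
          union_subset a1 (hA R (mem_filter.1 hR).1), a2⟩
      · obtain ⟨g1, g2⟩ := hgrow j e' U2 S2 R b2 s2 hR
        exact ⟨b1.trans (ball_mono TT (Nat.le_succ j) _), g1, by omega, a1,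
          union_subset a2 (hA R (mem_filter.1 hR).1)⟩
  calc _ = ∑ e ∈ A1, ∑ e' ∈ A1, (p {e, e'} s - p {e} s * p {e'} s) := by
        rw [massB, sq, sum_mul_sum]
        simp only [sum_sub_distrib]
    _ ≤ ∑ e ∈ A1, (ε * A1.card + (1 + 2 * (Δ : ℝ)) ^ (2 * K)) := by
        refine sum_le_sum fun e he => (sum_le_sum (key e he)).trans ?_
        rw [sum_add_distrib, sum_const, nsmul_eq_mul, sum_boole, mul_comm _ ε]
        refine add_le_add_right ?_ _
        have h1 := (card_le_card (fun y hy => (mem_filter.1 hy).2 :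
          A1.filter (fun e' => e' ∈ ball TT (2 * K) {e}) ⊆ ball TT (2 * K) {e})).trans
          (card_ball_le hl hΔ (2 * K) {e})
        rw [card_singleton, mul_one] at h1
        exact_mod_cast h1
    _ = _ := by rw [sum_const, nsmul_eq_mul]; ring

end Vale.Agent.P046
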