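import Vale.Agent.P046.KH

open Finset

namespace Vale.Agent.P046

theorem gap_spec {n : ℕ} (g : Fin n → Fin n → ℝ) (gs : ∀ a b, g a b = g b a) (g0 : ∀ a b, 0 ≤ g a b)
    {μ δ : ℝ} (hδ : 0 ≤ δ) (h : ∑ b, ∑ c, (∑ a, g a b * g a c - μ) ^ 2 ≤ δ ^ 4) (w : Fin n → ℝ) :
    -(2 * δ * ∑ b, w b ^ 2) ≤ ∑ b, ∑ c, w b * g b c * w c := by
  rcases Nat.eq_zero_or_pos n with rfl | hn
  · simp
  obtain ⟨t, v, rfl, hv⟩ : ∃ (t : ℝ) (v : Fin n → ℝ), w = (fun b => t + v b) ∧ ∑ b, v b = 0 := by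
    refine ⟨(∑ b, w b) / n, fun b => w b - (∑ b, w b) / n, by simp, ?_⟩
    have : (n : ℝ) ≠ 0 := by positivity
    simp [sum_sub_distrib, mul_div_cancel₀ _ this]
  set q := ∑ b, v b ^ 2 with hq
  have q0 : 0 ≤ q := by positivity
  have h1 : ∑ a, (∑ b, g a b * v b) ^ 2 ≤ δ ^ 2 * q := by
    have e : ∑ a, (∑ b, g a b * v b) ^ 2 =
        ∑ z : Fin n × Fin n, v z.1 * v z.2 * (∑ a, g a z.1 * g a z.2 - μ) := by
      simp only [Fintype.sum_prod_type, mul_sub, sum_sub_distrib, ← sum_mul, ← mul_sum, hv,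
        mul_zero, zero_mul, sub_zero, sum_const_zero]
      simp only [sq, sum_mul_sum]
      simp only [mul_sum]
      rw [sum_comm]
      refine sum_congr rfl fun b _ => ?_
      rw [sum_comm]
      exact sum_congr rfl fun c _ => sum_congr rfl fun a _ => by ring
    have := sum_mul_sq_le_sq_mul_sq univ (fun z : Fin n × Fin n => v z.1 * v z.2)
      fun z => ∑ a, g a z.1 * g a z.2 - μ
    rw [← e] at this
    simp only [Fintype.sum_prod_type, mul_pow, ← sum_mul_sum, ← hq] at this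
    refine (abs_le_of_sq_le_sq' ?_ (by positivity)).2
    nlinarith [mul_le_mul_of_nonneg_left h (mul_nonneg q0 q0)]
  have h2 : ∑ b, (t + v b) ^ 2 = n * t ^ 2 + q := by
    simp [add_sq, sum_add_distrib, ← mul_sum, hv, hq]
  have h3 : ∑ b, (2 * t + v b) ^ 2 = 4 * (n * t ^ 2) + q := by
    simp only [add_sq, sum_add_distrib, ← mul_sum, hv, hq]
    simp
    ring
  have h4 : ∑ b, ∑ c, (t + v b) * g b c * (t + v c) =
      t ^ 2 * ∑ b, ∑ c, g b c + ∑ a, (2 * t + v a) * ∑ b, g a b * v b := by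
    have e : ∑ b, ∑ c, t * (v b * g b c) = ∑ b, ∑ c, t * (g b c * v c) := by
      rw [sum_comm]
      exact sum_congr rfl fun b _ => sum_congr rfl fun c _ => by rw [gs, mul_comm (v c)]
    have e2 : ∀ b c, (t + v b) * g b c * (t + v c) = t ^ 2 * g b c + (2 * t + v b) * (g b c * v c) +
        (t * (v b * g b c) - t * (g b c * v c)) := fun b c => by ring
    simp only [e2, sum_add_distrib, sum_sub_distrib, e, sub_self, add_zero, mul_sum]
  have h5 := sum_mul_sq_le_sq_mul_sq univ (fun a => 2 * t + v a) fun a => ∑ b, g a b * v b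
  have h6 : 0 ≤ t ^ 2 * ∑ b, ∑ c, g b c :=
    mul_nonneg (sq_nonneg _) (sum_nonneg fun _ _ => sum_nonneg fun _ _ => g0 _ _)
  rw [h2, h4]
  rw [h3] at h5
  have p0 : 0 ≤ n * t ^ 2 := by positivity
  generalize n * t ^ 2 = p at *
  have h7 := abs_le_of_sq_le_sq' (b := 2 * δ * (p + q)) (h5.trans
    ((mul_le_mul_of_nonneg_left h1 (by positivity)).trans (by
      nlinarith [mul_nonneg (sq_nonneg δ) (mul_nonneg p0 q0), mul_nonneg (sq_nonneg δ) (sq_nonneg p),
        mul_nonneg (sq_nonneg δ) (sq_nonneg q)]))) (by positivity)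
  linarith [h7.1]

theorem gap_sum {n : ℕ} (h : Sym2 (Fin n) → ℝ) :
    2 * ∑ e ∈ (KH n).A0, h e = ∑ a, ∑ b, if a = b then 0 else h s(a, b) := by
  rw [← Fintype.sum_prod_type', ← sum_fiberwise_of_maps_to (t := univ)
    (g := fun z : Fin n × Fin n => s(z.1, z.2)) fun _ _ => mem_univ _, KH, sum_filter, mul_sum]
  refine sum_congr rfl fun e _ => ?_
  induction e using Sym2.ind with
  | _ a b =>
    have : (univ.filter fun z : Fin n × Fin n => s(z.1, z.2) = s(a, b)) = {(a, b), (b, a)} := by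
      ext ⟨x, y⟩
      simp only [mem_filter, mem_univ, true_and, Sym2.eq_iff, mem_insert, mem_singleton,
        Prod.mk.injEq]
    rw [this]
    by_cases hab : a = b
    · simp [hab]
    · rw [sum_pair (by simp [hab])]
      simp [hab, Ne.symm hab, Sym2.eq_swap (a := b), two_mul]

theorem gap_thru {n : ℕ} {a b : Fin n} (h : a ≠ b) (F : Finset (Sym2 (Fin n)) → ℝ) :
    ∑ T ∈ (KH n).TT, (if s(a, b) ∈ T then F T else 0) =
      ∑ c, if c = a ∨ c = b then 0 else F {s(a, b), s(a, c), s(b, c)} := by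
  rw [← sum_filter, KH, edges3_thru h, sum_image (edges3_thru_inj a b), sdiff_eq_filter, sum_filter]
  refine sum_congr rfl fun c _ => ?_
  by_cases hc : c = a ∨ c = b
  · simp [hc]
  · rw [if_pos (by simpa using hc), if_neg hc, edges3_eq h (by grind) (by grind)]

theorem KH_gap (n : ℕ) (hn : 4 ≤ n) : (KH n).Gap := by
  intro A hA μ δ μ0 μ1 hδ h r
  obtain ⟨g, hg⟩ : ∃ g : Fin n → Fin n → ℝ, ∀ a b, g a b = if s(a, b) ∈ A then 1 else 0 :=
    ⟨_, fun _ _ => rfl⟩
  have gs : ∀ a b, g a b = g b a := fun a b => by rw [hg, hg, Sym2.eq_swap]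
  have gd : ∀ a, g a a = 0 := fun a => by
    rw [hg, if_neg fun h => by simpa [KH] using hA h]
  have g01 : ∀ a b, 0 ≤ g a b ∧ g a b ≤ 1 := fun a b => by rw [hg]; split_ifs <;> simp
  have er : ∀ a b c : Fin n, a ≠ b → ¬(c = a ∨ c = b) →
      ({s(a, b), s(a, c), s(b, c)} : Finset _).erase s(a, b) = {s(a, c), s(b, c)} :=
    fun a b c h1 h2 => erase_insert (by simp only [mem_insert, mem_singleton, Sym2.eq_iff]; grind)
  have h1 : ∀ a b, a ≠ b → ((KH n).gdeg A s(a, b) : ℝ) = ∑ c, g c a * g c b := fun a b hab => by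
    rw [HG.gdeg, card_filter]
    push_cast
    simp only [ite_and]
    rw [gap_thru hab]
    refine sum_congr rfl fun c _ => ?_
    split_ifs with h2 h3
    · rcases h2 with rfl | rfl <;> simp [gd]
    · rw [er a b c hab h2, insert_subset_iff, singleton_subset_iff] at h3
      rw [gs c, gs c, hg, hg, if_pos h3.1, if_pos h3.2, mul_one]
    · rw [er a b c hab h2, insert_subset_iff, singleton_subset_iff] at h3
      rw [gs c, gs c, hg, hg, ite_zero_mul_ite_zero, if_neg h3]
  have hD : ((KH n).D : ℝ) = n - 2 := by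
    rw [KH]
    push_cast [show 2 ≤ n by omega]
    rfl
  have n4 : (4 : ℝ) ≤ n := by exact_mod_cast hn
  have h2 : ∑ b, ∑ c, (∑ a, g a b * g a c - μ) ^ 2 ≤ δ ^ 4 := by
    refine le_trans ?_ h
    have : (n : ℝ) ^ 3 = ∑ b : Fin n, ∑ c, if b = c then (n : ℝ) ^ 2 else 0 := by simp; ring
    refine le_trans ?_ (add_le_add le_rfl (show (n : ℝ) ^ 3 ≤ _ by
      rw [hD, show 8 * (n - 2 : ℝ) ^ 3 = (2 * (n - 2)) ^ 3 by ring]
      exact pow_le_pow_left₀ (by positivity) (by linarith) 3))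
    rw [gap_sum, this, ← sum_add_distrib]
    refine sum_le_sum fun b _ => ?_
    rw [← sum_add_distrib]
    refine sum_le_sum fun c _ => ?_
    split_ifs with hbc
    · have a0 : 0 ≤ ∑ a, g a b * g a c := sum_nonneg fun a _ => mul_nonneg (g01 _ _).1 (g01 _ _).1
      have a1 : ∑ a, g a b * g a c ≤ n := by
        simpa using sum_le_card_nsmul univ (fun a => g a b * g a c) 1 fun a _ =>
          mul_le_one₀ (g01 _ _).2 (g01 _ _).1 (g01 _ _).2
      rw [zero_add]
      exact sq_le_sq' (by linarith) (by linarith)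
    · rw [h1 b c hbc, add_zero]
  have h3 := sum_le_sum fun a (_ : a ∈ univ) =>
    gap_spec g gs (fun a b => (g01 a b).1) hδ h2 fun b => g a b * r s(a, b)
  have h4 : ∑ a, ∑ b, (g a b * r s(a, b)) ^ 2 = 2 * ∑ e ∈ A, r e ^ 2 := by
    rw [← inter_eq_right.2 hA, ← sum_ite_mem, gap_sum]
    refine sum_congr rfl fun a _ => sum_congr rfl fun b _ => ?_
    split_ifs with h5 h6
    · simp [h5, gd]
    · simp [hg, h6]
    · simp [hg, h6]
  have h5 : 2 * ∑ T ∈ (KH n).tri A, ∑ e ∈ T, ∑ f ∈ T.erase e, r e * r f = ∑ a, ∑ b, ∑ c,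
      g a b * g a c * g b c * (r s(a, b) * r s(a, c) + r s(a, b) * r s(b, c)) := by
    have : ∀ T ∈ (KH n).TT, (if T ⊆ A then ∑ e ∈ T, ∑ f ∈ T.erase e, r e * r f else 0) =
        ∑ e ∈ (KH n).A0, if e ∈ T then (if T ⊆ A then ∑ f ∈ T.erase e, r e * r f else 0) else 0 :=
      fun T hT => by
        rw [sum_ite_mem, inter_eq_right.2 ((KH n).sub T hT)]
        split_ifs <;> simp
    rw [HG.tri, sum_filter, sum_congr rfl this, sum_comm, gap_sum]
    refine sum_congr rfl fun a _ => sum_congr rfl fun b _ => ?_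
    split_ifs with hab
    · simp [hab, gd]
    rw [gap_thru hab fun T => if T ⊆ A then ∑ f ∈ T.erase s(a, b), r s(a, b) * r f else 0]
    refine sum_congr rfl fun c _ => ?_
    split_ifs with h2 h3
    · rcases h2 with rfl | rfl <;> simp [gd]
    · simp only [insert_subset_iff, singleton_subset_iff] at h3
      rw [er a b c hab h2, sum_pair (by simp only [Ne, Sym2.eq_iff]; grind)]
      simp [hg, h3]
    · simp only [insert_subset_iff, singleton_subset_iff, ← and_assoc] at h3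
      rw [hg, hg, hg, ite_zero_mul_ite_zero, ite_zero_mul_ite_zero, if_neg h3, zero_mul]
  have h6 : ∑ a, ∑ b, ∑ c, g a b * g a c * g b c * (r s(a, b) * r s(b, c)) =
      ∑ a, ∑ b, ∑ c, g a b * g a c * g b c * (r s(a, b) * r s(a, c)) := by
    rw [sum_comm]
    refine sum_congr rfl fun a _ => sum_congr rfl fun b _ => sum_congr rfl fun c _ => ?_
    rw [gs b a, Sym2.eq_swap (a := b)]
    ring
  have h7 : ∑ a, ∑ b, ∑ c, g a b * r s(a, b) * g b c * (g a c * r s(a, c)) =
      ∑ a, ∑ b, ∑ c, g a b * g a c * g b c * (r s(a, b) * r s(a, c)) :=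
    sum_congr rfl fun a _ => sum_congr rfl fun b _ => sum_congr rfl fun c _ => by ring
  simp only [mul_add, sum_add_distrib, h6] at h5
  rw [sum_neg_distrib, ← mul_sum, h4, h7] at h3
  linarith

end Vale.Agent.P046
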