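import Vale.Agent.P046.Defs

open Finset

namespace Vale.Agent.P046

/-- The three edges of a triangle. -/
def edges3 {n : ℕ} (t : Finset (Fin n)) : Finset (Sym2 (Fin n)) :=
  t.sym2.filter (fun e => ¬ e.IsDiag)

theorem mem_edges3 {n : ℕ} {t : Finset (Fin n)} {a b : Fin n} :
    s(a, b) ∈ edges3 t ↔ a ∈ t ∧ b ∈ t ∧ a ≠ b := by
  simp [edges3, and_assoc]

theorem edges3_eq {n : ℕ} {a b c : Fin n} (h1 : a ≠ b) (h2 : a ≠ c) (h3 : b ≠ c) :
    edges3 {a, b, c} = {s(a, b), s(a, c), s(b, c)} := by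
  ext e
  induction e using Sym2.ind with
  | _ x y =>
    simp only [mem_edges3, mem_insert, mem_singleton, Sym2.eq_iff]
    grind

theorem edges3_two {n : ℕ} {t t' : Finset (Fin n)} (ht : t.card = 3) (ht' : t'.card = 3)
    {e f : Sym2 (Fin n)} (hef : e ≠ f) (h1 : e ∈ edges3 t) (h2 : e ∈ edges3 t')
    (h3 : f ∈ edges3 t) (h4 : f ∈ edges3 t') : t = t' := by
  induction e using Sym2.ind with
  | _ a b =>
  induction f using Sym2.ind with
  | _ c d =>
    rw [mem_edges3] at h1 h2 h3 h4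
    obtain ⟨x, x1, x2, x3, x4⟩ : ∃ x, x ∈ t ∧ x ∈ t' ∧ a ≠ x ∧ b ≠ x := by
      rw [Ne, Sym2.eq_iff] at hef
      by_cases h : a ≠ c ∧ b ≠ c
      · exact ⟨c, h3.1, h4.1, h⟩
      · exact ⟨d, h3.2.1, h4.2.1, by grind⟩
    have hc : ({a, b, x} : Finset (Fin n)).card = 3 := card_eq_three.2 ⟨a, b, x, h1.2.2, x3, x4, rfl⟩
    have k : ∀ u : Finset (Fin n), u.card = 3 → a ∈ u → b ∈ u → x ∈ u → {a, b, x} = u :=
      fun u u1 u2 u3 u4 => eq_of_subset_of_card_le (by simp [insert_subset_iff, *]) (by omega)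
    rw [← k t ht h1.1 h1.2.1 x1, k t' ht' h2.1 h2.2.1 x2]

theorem edges3_card {n : ℕ} {t : Finset (Fin n)} (ht : t.card = 3) : (edges3 t).card = 3 := by
  obtain ⟨a, b, c, h1, h2, h3, rfl⟩ := card_eq_three.1 ht
  rw [edges3_eq h1 h2 h3]
  exact card_eq_three.2 ⟨_, _, _, by simp [*], by simp [*], by simp [*], rfl⟩

theorem edges3_thru {n : ℕ} {a b : Fin n} (h : a ≠ b) :
    ((powersetCard 3 (univ : Finset (Fin n))).image edges3).filter (fun T => s(a, b) ∈ T) =
      (univ \ {a, b}).image fun c => edges3 {a, b, c} := by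
  ext T
  simp only [mem_filter, mem_image, mem_powersetCard_univ, mem_sdiff, mem_univ, true_and,
    mem_insert, mem_singleton, not_or]
  constructor
  · rintro ⟨⟨t, ht, rfl⟩, h1⟩
    rw [mem_edges3] at h1
    obtain ⟨c, c1, c2⟩ := exists_mem_notMem_of_card_lt_card (s := {a, b}) (t := t)
      (by rw [card_pair h]; omega)
    rw [mem_insert, mem_singleton, not_or] at c2
    refine ⟨c, c2, congrArg _ (eq_of_subset_of_card_le (by simp [insert_subset_iff, *]) ?_)⟩
    rw [ht, card_eq_three.2 ⟨a, b, c, h, Ne.symm c2.1, Ne.symm c2.2, rfl⟩]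
  · rintro ⟨c, c2, rfl⟩
    exact ⟨⟨_, card_eq_three.2 ⟨a, b, c, h, Ne.symm c2.1, Ne.symm c2.2, rfl⟩, rfl⟩,
      by simp [mem_edges3, h]⟩

theorem edges3_thru_inj {n : ℕ} (a b : Fin n) :
    Set.InjOn (fun c => edges3 {a, b, c}) ((univ \ {a, b} : Finset (Fin n)) : Set (Fin n)) := by
  intro c hc d _ h
  simp only [coe_sdiff, coe_univ, coe_insert, coe_singleton, Set.mem_sdiff, Set.mem_univ,
    Set.mem_insert_iff, Set.mem_singleton_iff, not_or, true_and] at hc
  have : s(a, c) ∈ edges3 {a, b, c} := by simp [mem_edges3, Ne.symm hc.1]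
  rw [show edges3 {a, b, c} = edges3 {a, b, d} from h, mem_edges3] at this
  simpa [hc.1, hc.2] using this.2.1

theorem KH_sub (n : ℕ) : ∀ T ∈ (powersetCard 3 (univ : Finset (Fin n))).image edges3,
    T ⊆ (univ : Finset (Sym2 (Fin n))).filter (fun e => ¬ e.IsDiag) := by
  simp only [mem_image]
  rintro _ ⟨t, -, rfl⟩
  exact filter_subset_filter _ (subset_univ _)

theorem KH_card3 (n : ℕ) : ∀ T ∈ (powersetCard 3 (univ : Finset (Fin n))).image edges3,
    T.card = 3 := by
  simp only [mem_image, mem_powersetCard_univ]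
  rintro _ ⟨t, ht, rfl⟩
  exact edges3_card ht

theorem KH_lin (n : ℕ) : ∀ T ∈ (powersetCard 3 (univ : Finset (Fin n))).image edges3,
    ∀ T' ∈ (powersetCard 3 (univ : Finset (Fin n))).image edges3, T ≠ T' →
      (T ∩ T').card ≤ 1 := by
  simp only [mem_image, mem_powersetCard_univ]
  rintro _ ⟨t, ht, rfl⟩ _ ⟨t', ht', rfl⟩ h
  refine card_le_one.2 fun e he f hf => by_contra fun hef => h ?_
  rw [mem_inter] at he hf
  rw [edges3_two ht ht' hef he.1 he.2 hf.1 hf.2]

theorem KH_reg (n : ℕ) : ∀ e ∈ (univ : Finset (Sym2 (Fin n))).filter (fun e => ¬ e.IsDiag),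
    (((powersetCard 3 (univ : Finset (Fin n))).image edges3).filter (fun T => e ∈ T)).card
      = n - 2 := by
  intro e he
  induction e using Sym2.ind with
  | _ a b =>
    have h : a ≠ b := by simpa using he
    rw [edges3_thru h, card_image_of_injOn (edges3_thru_inj a b), card_univ_sdiff, card_pair h,
      Fintype.card_fin]

/-- The triangle hypergraph of the complete graph. -/
def KH (n : ℕ) : HG (Sym2 (Fin n)) where
  A0 := univ.filter (fun e => ¬ e.IsDiag)
  TT := (powersetCard 3 (univ : Finset (Fin n))).image edges3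
  D := n - 2
  sub := KH_sub n
  card3 := KH_card3 n
  lin := KH_lin n
  reg := KH_reg n

theorem KH_card (n : ℕ) : (KH n).A0.card = n.choose 2 := by
  have := Sym2.card_subtype_not_diag (α := Fin n)
  rwa [Fintype.card_subtype, Fintype.card_fin] at this

theorem edges3_injOn (n : ℕ) :
    Set.InjOn (edges3 (n := n)) (powersetCard 3 (univ : Finset (Fin n)) : Set (Finset (Fin n))) := by
  intro t ht t' ht' h
  rw [mem_coe, mem_powersetCard_univ] at ht ht'
  obtain ⟨e, he, f, hf, hef⟩ := one_lt_card.1 (show 1 < (edges3 t).card by rw [edges3_card ht]; omega)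
  exact edges3_two ht ht' hef he (h ▸ he) hf (h ▸ hf)

end Vale.Agent.P046
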