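import Vale.Agent.P046.Defs

open Finset

namespace Vale.Agent.P046
namespace HG
variable {α : Type} [DecidableEq α] (H : HG α)

theorem card_sdiff_Val {A T : Finset α} (hT : T ∈ H.tri A) : (A \ T).card + 3 = A.card := by
  obtain ⟨h1, h2⟩ := mem_filter.1 hT
  rw [← H.card3 T h1]
  exact card_sdiff_add_card_eq_card h2

theorem val_of_empty (ψ : ℕ → ℝ) (k : ℕ) {A : Finset α} (h : H.tri A = ∅) :
    H.val ψ k A = ψ A.card := by
  cases k with
  | zero => rfl
  | succ k => simp only [val, if_pos h]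

theorem val_succ_of_ne (ψ : ℕ → ℝ) (k : ℕ) {A : Finset α} (h : H.tri A ≠ ∅) :
    H.val ψ (k + 1) A = (∑ T ∈ H.tri A, H.val ψ k (A \ T)) / ((H.tri A).card : ℝ) := by
  simp only [val, if_neg h]

theorem val_stable (ψ : ℕ → ℝ) (k l : ℕ) (A : Finset α) (hk : A.card ≤ k) (hl : A.card ≤ l) :
    H.val ψ k A = H.val ψ l A := by
  induction k generalizing l A with
  | zero =>
    have h : H.tri A = ∅ := by
      refine eq_empty_of_forall_notMem fun T hT => ?_
      have := H.card_sdiff_Val hT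
      omega
    rw [H.val_of_empty ψ _ h, H.val_of_empty ψ _ h]
  | succ k ih =>
    by_cases h : H.tri A = ∅
    · rw [H.val_of_empty ψ _ h, H.val_of_empty ψ _ h]
    · obtain ⟨T₀, hT₀⟩ := nonempty_iff_ne_empty.2 h
      have h0 := H.card_sdiff_Val hT₀
      obtain ⟨l, rfl⟩ : ∃ l', l = l' + 1 := ⟨l - 1, by omega⟩
      rw [H.val_succ_of_ne ψ _ h, H.val_succ_of_ne ψ _ h]
      congr 1
      refine sum_congr rfl fun T hT => ?_
      have h1 := H.card_sdiff_Val hT
      exact ih l (A \ T) (by omega) (by omega)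

theorem Hv_harm (ψ : ℕ → ℝ) (A : Finset α) (hA : A ⊆ H.A0) :
    ∑ T ∈ H.tri A, (H.Hv ψ (A \ T) - H.Hv ψ A) = 0 := by
  by_cases h : H.tri A = ∅
  · rw [h, sum_empty]
  have hc := card_le_card hA
  have h1 : H.Hv ψ A = H.val ψ (H.A0.card + 1) A := H.val_stable ψ _ _ A hc (by omega)
  have h2 : ((H.tri A).card : ℝ) ≠ 0 := by
    exact_mod_cast (card_pos.2 (nonempty_iff_ne_empty.2 h)).ne'
  rw [sum_sub_distrib, sum_const, h1, H.val_succ_of_ne ψ _ h, nsmul_eq_mul,
    mul_div_cancel₀ _ h2]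
  exact sub_self _

theorem tri_sdiff_card_Val {A T : Finset α} (hT : T ∈ H.tri A) :
    (H.tri (A \ T)).card + 1 ≤ (H.tri A).card := by
  have h1 : H.tri (A \ T) ⊆ (H.tri A).erase T := by
    intro S hS
    obtain ⟨h1, h2⟩ := mem_filter.1 hS
    refine mem_erase.2 ⟨?_, mem_filter.2 ⟨h1, h2.trans sdiff_subset⟩⟩
    rintro rfl
    obtain ⟨x, hx⟩ : S.Nonempty := card_pos.1 (by rw [H.card3 S h1]; omega)
    exact (mem_sdiff.1 (h2 hx)).2 hx
  have h2 := card_le_card h1
  have h3 := card_erase_add_one hT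
  omega

theorem val_range (c : ℝ) (k : ℕ) (A : Finset α) :
    H.val (fun k => |(k : ℝ) - c|) k A ≤ |(A.card : ℝ) - c| + 3 * ((H.tri A).card : ℝ) := by
  induction k generalizing A with
  | zero => exact le_add_of_nonneg_right (by positivity)
  | succ k ih =>
    by_cases h : H.tri A = ∅
    · rw [H.val_of_empty _ _ h]
      exact le_add_of_nonneg_right (by positivity)
    have h2 : (0 : ℝ) < ((H.tri A).card : ℝ) := by
      exact_mod_cast card_pos.2 (nonempty_iff_ne_empty.2 h)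
    rw [H.val_succ_of_ne _ _ h, div_le_iff₀ h2, mul_comm, ← nsmul_eq_mul, ← sum_const]
    refine sum_le_sum fun T hT => (ih _).trans ?_
    have h3 : (((A \ T).card : ℕ) : ℝ) + 3 = A.card := by exact_mod_cast H.card_sdiff_Val hT
    have h4 : (((H.tri (A \ T)).card : ℕ) : ℝ) + 1 ≤ (H.tri A).card := by
      exact_mod_cast H.tri_sdiff_card_Val hT
    have h5 : |(((A \ T).card : ℕ) : ℝ) - c| ≤ |(A.card : ℝ) - c| + 3 := by
      rw [abs_le]
      constructor
      · linarith [neg_abs_le ((A.card : ℝ) - c)]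
      · linarith [le_abs_self ((A.card : ℝ) - c)]
    linarith

theorem Hv_range (c : ℝ) (A : Finset α) :
    H.Hv (fun k => |(k : ℝ) - c|) A ≤ |(A.card : ℝ) - c| + 3 * ((H.tri A).card : ℝ) :=
  H.val_range c _ A

end HG
end Vale.Agent.P046
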