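import Vale.Agent.P046.Process
import Vale.Agent.P046.KH
import Vale.Agent.P046.Val

open Finset Filter Topology MeasureTheory

namespace Vale.Agent.P046

namespace Link

/-- Expectation with respect to a law on a finite type. -/
noncomputable def ex {β : Type} [Fintype β] (p : PMF β) (f : β → ℝ) : ℝ :=
  ∑ b, (p b).toReal * f b

theorem ex_pure {β : Type} [Fintype β] (a : β) (f : β → ℝ) : ex (PMF.pure a) f = f a := by
  classical
  unfold ex
  rw [sum_eq_single a]
  · simp
  · intro b _ hb
    simp [PMF.pure_apply, hb]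
  · simp

theorem ex_bind {β γ : Type} [Fintype β] [Fintype γ] (p : PMF β) (q : β → PMF γ) (f : γ → ℝ) :
    ex (p.bind q) f = ex p fun b => ex (q b) f := by
  unfold ex
  simp only [PMF.bind_apply, tsum_fintype, mul_sum]
  rw [sum_comm]
  refine sum_congr rfl fun c _ => ?_
  rw [ENNReal.toReal_sum fun b _ => ENNReal.mul_ne_top (p.apply_ne_top b) ((q b).apply_ne_top c),
    sum_mul]
  refine sum_congr rfl fun b _ => ?_
  rw [ENNReal.toReal_mul, mul_assoc]

theorem ex_map {β γ : Type} [Fintype β] [Fintype γ] (p : PMF β) (g : β → γ) (f : γ → ℝ) :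
    ex (p.map g) f = ex p fun b => f (g b) := by
  rw [← PMF.bind_pure_comp, ex_bind]
  simp only [Function.comp_apply, ex_pure]

theorem ex_uniform {β : Type} [Fintype β] (s : Finset β) (hs : s.Nonempty) (f : β → ℝ) :
    ex (PMF.uniformOfFinset s hs) f = (∑ b ∈ s, f b) / (s.card : ℝ) := by
  classical
  unfold ex
  rw [← sum_subset (subset_univ s), sum_div]
  · refine sum_congr rfl fun b hb => ?_
    rw [PMF.uniformOfFinset_apply_of_mem hs hb, ENNReal.toReal_inv, ENNReal.toReal_natCast,
      div_eq_inv_mul]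
  · intro b _ hb
    rw [PMF.uniformOfFinset_apply_of_notMem hs hb]
    simp

open Classical in
/-- The edge set as a finite set. -/
noncomputable def eds {n : ℕ} (G : SimpleGraph (Fin n)) : Finset (Sym2 (Fin n)) :=
  univ.filter fun e => e ∈ G.edgeSet

theorem mem_eds {n : ℕ} {G : SimpleGraph (Fin n)} {e : Sym2 (Fin n)} :
    e ∈ eds G ↔ e ∈ G.edgeSet := by
  simp [eds]

theorem eds_top (n : ℕ) : eds (⊤ : SimpleGraph (Fin n)) = (KH n).A0 := by
  ext e
  induction e using Sym2.ind with
  | _ a b => simp [mem_eds, KH]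

theorem eds_removeTri {n : ℕ} (G : SimpleGraph (Fin n)) (t : Finset (Fin n)) :
    eds (removeTri G t) = eds G \ edges3 t := by
  ext e
  induction e using Sym2.ind with
  | _ a b =>
    simp only [mem_eds, Finset.mem_sdiff, mem_edges3, removeTri, SimpleGraph.mem_edgeSet,
      SimpleGraph.deleteEdges_adj, Set.mem_ofPred_eq, Sym2.mem_iff, forall_eq_or_imp, forall_eq]
    constructor
    · rintro ⟨h1, h2⟩
      exact ⟨h1, fun h => h2 ⟨h.1, h.2.1⟩⟩
    · rintro ⟨h1, h2⟩
      exact ⟨h1, fun h => h2 ⟨h.1, h.2, h1.ne⟩⟩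

theorem edges3_subset_iff {n : ℕ} {G : SimpleGraph (Fin n)} {t : Finset (Fin n)} :
    edges3 t ⊆ eds G ↔ G.IsClique (t : Set (Fin n)) := by
  constructor
  · intro h a ha b hb hab
    exact mem_eds.1 (h (mem_edges3.2 ⟨ha, hb, hab⟩))
  · intro h e he
    induction e using Sym2.ind with
    | _ a b =>
      obtain ⟨ha, hb, hab⟩ := mem_edges3.1 he
      exact mem_eds.2 (h ha hb hab)

open Classical in
theorem tri_eds {n : ℕ} (G : SimpleGraph (Fin n)) :
    (KH n).tri (eds G) = (G.cliqueFinset 3).image edges3 := by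
  ext T
  simp only [HG.tri, KH, mem_filter, mem_image, mem_powersetCard_univ,
    SimpleGraph.mem_cliqueFinset_iff]
  constructor
  · rintro ⟨⟨t, ht, rfl⟩, h⟩
    exact ⟨t, ⟨edges3_subset_iff.1 h, ht⟩, rfl⟩
  · rintro ⟨t, ht, rfl⟩
    exact ⟨⟨t, ht.card_eq, rfl⟩, edges3_subset_iff.2 ht.isClique⟩

open Classical in
theorem injOn_clique {n : ℕ} (G : SimpleGraph (Fin n)) :
    Set.InjOn (edges3 (n := n)) (G.cliqueFinset 3 : Set (Finset (Fin n))) := by
  refine (edges3_injOn n).mono fun t ht => ?_
  rw [mem_coe, SimpleGraph.mem_cliqueFinset_iff] at ht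
  exact mem_coe.2 (mem_powersetCard_univ.2 ht.card_eq)

open Classical in
theorem ex_step {n : ℕ} (ψ : ℕ → ℝ) (l : ℕ) (G : SimpleGraph (Fin n)) :
    ex (step G) (fun G' => (KH n).val ψ l (eds G')) = (KH n).val ψ (l + 1) (eds G) := by
  unfold step
  split_ifs with h
  · have h1 : (KH n).tri (eds G) ≠ ∅ := by
      rw [tri_eds]
      exact (h.image _).ne_empty
    rw [ex_map, ex_uniform, HG.val_succ_of_ne _ _ _ h1, tri_eds, sum_image (injOn_clique G),
      card_image_of_injOn (injOn_clique G)]
    simp only [eds_removeTri]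
  · have h1 : (KH n).tri (eds G) = ∅ := by
      rw [tri_eds, not_nonempty_iff_eq_empty.1 h, image_empty]
    rw [ex_pure, HG.val_of_empty _ _ _ h1, HG.val_of_empty _ _ _ h1]

open Classical in
theorem ex_run (n : ℕ) (ψ : ℕ → ℝ) (k l : ℕ) :
    ex (run n k) (fun G => (KH n).val ψ l (eds G)) = (KH n).val ψ (k + l) (KH n).A0 := by
  induction k generalizing l with
  | zero => rw [run, ex_pure, eds_top, zero_add]
  | succ k ih =>
    rw [run, ex_bind]
    simp only [ex_step]
    rw [ih, add_assoc, add_comm l 1]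

open Classical in
theorem run_inv (n k : ℕ) : ∀ G ∈ (run n k).support,
    G.CliqueFree 3 ∨ (eds G).card + 3 * k ≤ n.choose 2 := by
  induction k with
  | zero =>
    intro G hG
    rw [run, PMF.support_pure, Set.mem_singleton_iff] at hG
    right
    rw [hG, eds_top, KH_card]
    omega
  | succ k ih =>
    intro G hG
    rw [run, PMF.mem_support_bind_iff] at hG
    obtain ⟨G₀, h0, h1⟩ := hG
    unfold step at h1
    split_ifs at h1 with h
    · rw [PMF.mem_support_map_iff] at h1
      obtain ⟨t, ht, rfl⟩ := h1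
      rw [PMF.mem_support_uniformOfFinset_iff] at ht
      rcases ih G₀ h0 with h2 | h2
      · exact absurd (SimpleGraph.mem_cliqueFinset_iff.1 ht) (h2 t)
      · right
        have h3 : edges3 t ∈ (KH n).tri (eds G₀) := by
          rw [tri_eds]
          exact mem_image_of_mem _ ht
        have h4 := (KH n).card_sdiff_Val h3
        rw [eds_removeTri]
        omega
    · rw [PMF.support_pure, Set.mem_singleton_iff] at h1
      left
      rw [h1]
      exact fun t ht => h ⟨t, SimpleGraph.mem_cliqueFinset_iff.2 ht⟩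

theorem choose_le_sq (n : ℕ) : n.choose 2 ≤ n ^ 2 := Nat.choose_le_pow n 2

end Link

theorem run_cliqueFree (n : ℕ) : ∀ G ∈ (run n (n ^ 2)).support, G.CliqueFree 3 := by
  intro G hG
  rcases Link.run_inv n _ G hG with h | h
  · exact h
  · have h1 := Link.choose_le_sq n
    have h2 : n ^ 2 = 0 := by omega
    have h3 : n = 0 := pow_eq_zero_iff two_ne_zero |>.1 h2
    subst h3
    exact SimpleGraph.cliqueFree_of_card_lt (by simp)

theorem finalLaw_integrable (n : ℕ) (ψ : ℕ → ℝ) : Integrable ψ (finalLaw n).toMeasure := by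
  classical
  let _ : MeasurableSpace (SimpleGraph (Fin n)) := ⊤
  unfold finalLaw
  rw [← PMF.toMeasure_map _ _ measurable_from_top,
    integrable_map_measure (Measurable.of_discrete).aestronglyMeasurable
      measurable_from_top.aemeasurable]
  exact Integrable.of_finite

theorem finalLaw_integral (n : ℕ) (ψ : ℕ → ℝ) :
    ∫ k, ψ k ∂(finalLaw n).toMeasure = (KH n).Hv ψ (KH n).A0 := by
  classical
  let _ : MeasurableSpace (SimpleGraph (Fin n)) := ⊤
  unfold finalLaw
  rw [← PMF.toMeasure_map _ _ measurable_from_top,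
    integral_map measurable_from_top.aemeasurable (Measurable.of_discrete).aestronglyMeasurable,
    PMF.integral_eq_sum]
  have h1 := Link.ex_run n ψ (n ^ 2) 0
  have h2 : (KH n).val ψ (n ^ 2 + 0) (KH n).A0 = (KH n).Hv ψ (KH n).A0 :=
    (KH n).val_stable ψ _ _ _ (by rw [KH_card]; exact Link.choose_le_sq n) le_rfl
  rw [← h2, ← h1]
  refine sum_congr rfl fun G _ => ?_
  rw [smul_eq_mul]
  congr 1
  refine congrArg ψ (congrArg Finset.card ?_)
  ext e
  rw [Link.mem_eds, SimpleGraph.mem_edgeFinset]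

end Vale.Agent.P046
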