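import Vale.Agent.P046.Main
import Vale.Agent.P046.Gap
import Vale.Agent.P046.Link

open Filter Topology MeasureTheory

namespace Vale.Agent.P046

theorem rpow_three_half (n : ℕ) : (n : ℝ) ^ (3 / 2 : ℝ) = n * Real.sqrt n := by
  rw [show (3 / 2 : ℝ) = 1 + 1 / 2 by norm_num, Real.rpow_add' (Nat.cast_nonneg n) (by norm_num),
    Real.rpow_one, Real.sqrt_eq_rpow]

theorem KH_scale {n : ℕ} (hn : 7 ≤ n) :
    |(KH n).NN / Real.sqrt (2 * (KH n).D) / (n : ℝ) ^ (3 / 2 : ℝ) - 1 / (2 * Real.sqrt 2)|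
        ≤ 1 / ((n : ℝ) - 2) ∧
      (KH n).NN / Real.sqrt (KH n).D ≤ (n : ℝ) ^ (3 / 2 : ℝ) := by
  have hn' : (7 : ℝ) ≤ n := by exact_mod_cast hn
  have hN : (KH n).NN = n * (n - 1) / 2 := by
    unfold HG.NN; rw [KH_card, Nat.cast_choose_two]
  have hD : (((KH n).D : ℕ) : ℝ) = n - 2 := by
    show ((n - 2 : ℕ) : ℝ) = n - 2
    rw [Nat.cast_sub (by omega)]; norm_num
  rw [hN, hD, rpow_three_half, Real.sqrt_mul (by norm_num)]
  have ha : 0 < Real.sqrt n := Real.sqrt_pos.2 (by linarith)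
  have hb : 0 < Real.sqrt (n - 2) := Real.sqrt_pos.2 (by linarith)
  have h2 : 1 ≤ Real.sqrt 2 := Real.one_le_sqrt.2 (by norm_num)
  have hab : Real.sqrt n * Real.sqrt (n - 2) = Real.sqrt (n * (n - 2)) :=
    (Real.sqrt_mul (by linarith) _).symm
  have h3 : (n : ℝ) - 2 ≤ Real.sqrt n * Real.sqrt (n - 2) := by
    rw [hab]; exact Real.le_sqrt_of_sq_le (by nlinarith)
  have h4 : Real.sqrt n * Real.sqrt (n - 2) ≤ n - 1 := by
    rw [hab]; exact Real.sqrt_le_iff.2 ⟨by linarith, by nlinarith⟩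
  constructor
  · obtain ⟨w, hw⟩ : ∃ w, w = Real.sqrt n * Real.sqrt (n - 2) := ⟨_, rfl⟩
    have hw0 : 0 < w := by rw [hw]; positivity
    have e : (n : ℝ) * (n - 1) / 2 / (Real.sqrt 2 * Real.sqrt (n - 2)) / (n * Real.sqrt n)
        - 1 / (2 * Real.sqrt 2) = (n - 1 - w) / (2 * Real.sqrt 2 * w) := by
      rw [hw]; field_simp
    rw [← hw] at h3 h4
    rw [e, abs_of_nonneg (div_nonneg (by linarith) (by positivity)),
      div_le_div_iff₀ (by positivity) (by linarith)]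
    nlinarith
  · rw [div_le_iff₀ hb]
    nlinarith

theorem tendsto_L1 : Tendsto (fun n : ℕ => ∫ k : ℕ,
    |(k : ℝ) / (n : ℝ) ^ (3 / 2 : ℝ) - 1 / (2 * Real.sqrt 2)| ∂(finalLaw n).toMeasure)
      atTop (𝓝 0) := by
  rw [Metric.tendsto_atTop]
  intro ε hε
  obtain ⟨D0, hD0⟩ := main_abs (η := ε / 3) (by positivity)
  obtain ⟨n1, hn1⟩ := exists_nat_ge (3 / ε + 2)
  refine ⟨max (D0 + 2) (max 7 n1), fun n hn => ?_⟩
  have h1 : D0 + 2 ≤ n := (le_max_left _ _).trans hn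
  have h7 : 7 ≤ n := ((le_max_left _ _).trans (le_max_right _ _)).trans hn
  have h3 : n1 ≤ n := ((le_max_right _ _).trans (le_max_right _ _)).trans hn
  have hDn : (KH n).D = n - 2 := rfl
  have hc2 : 2 * n.choose 2 = n * (n - 1) := by
    rw [Nat.choose_two_right, Nat.mul_div_cancel' (Nat.even_mul_pred_self n).two_dvd]
  obtain ⟨m, rfl⟩ : ∃ m, n = m + 7 := ⟨n - 7, by omega⟩
  have e1 : m + 7 - 1 = m + 6 := rfl
  have e2 : m + 7 - 2 = m + 5 := rfl
  rw [e1] at hc2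
  have hmain := hD0 (KH (m + 7)) (KH_gap _ (by omega)) (by omega)
    (by rw [KH_card, hDn, e2]; nlinarith) (by rw [KH_card, hDn, e2]; nlinarith)
  obtain ⟨hs1, hs2⟩ := KH_scale h7
  generalize m + 7 = n at *
  rw [← finalLaw_integral] at hmain
  obtain ⟨c, hc⟩ : ∃ c, c = (KH n).NN / Real.sqrt (2 * (KH n).D) := ⟨_, rfl⟩
  rw [← hc] at hmain hs1
  have hn' : (7 : ℝ) ≤ n := by exact_mod_cast h7
  obtain ⟨s, hs⟩ : ∃ s, s = (n : ℝ) ^ (3 / 2 : ℝ) := ⟨_, rfl⟩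
  have hs0 : 0 < s := by rw [hs]; positivity
  rw [← hs] at hs1 hs2 ⊢
  have hb : ∫ k : ℕ, |(k : ℝ) / s - 1 / (2 * Real.sqrt 2)| ∂(finalLaw n).toMeasure
      ≤ ∫ k : ℕ, (|(k : ℝ) - c| / s + |c / s - 1 / (2 * Real.sqrt 2)|) ∂(finalLaw n).toMeasure := by
    refine integral_mono (finalLaw_integrable n _) (finalLaw_integrable n _) fun k => ?_
    have := abs_sub_le ((k : ℝ) / s) (c / s) (1 / (2 * Real.sqrt 2))
    rw [← sub_div, abs_div, abs_of_pos hs0] at this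
    exact this
  rw [integral_add (finalLaw_integrable n _) (finalLaw_integrable n _), integral_div,
    integral_const] at hb
  simp only [probReal_univ, smul_eq_mul, one_mul] at hb
  have a1 : (∫ k : ℕ, |(k : ℝ) - c| ∂(finalLaw n).toMeasure) / s ≤ ε / 3 := by
    rw [div_le_iff₀ hs0]
    exact hmain.trans (mul_le_mul_of_nonneg_left hs2 (by positivity))
  have a2 : 1 / ((n : ℝ) - 2) ≤ ε / 3 := by
    have : (n1 : ℝ) ≤ n := by exact_mod_cast h3
    have a3 : 3 / ε ≤ n - 2 := by linarith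
    rw [div_le_iff₀ hε] at a3
    rw [div_le_div_iff₀ (by linarith) (by norm_num)]
    linarith
  rw [Real.dist_eq, sub_zero, abs_of_nonneg (integral_nonneg fun k => abs_nonneg _)]
  linarith

theorem tendsto_prob (ε : ℝ) (hε : 0 < ε) : Tendsto (fun n : ℕ => (finalLaw n).toMeasure
    {k : ℕ | ε ≤ |(k : ℝ) / (n : ℝ) ^ (3 / 2 : ℝ) - 1 / (2 * Real.sqrt 2)|}) atTop (𝓝 0) := by
  have h1 : Tendsto (fun n : ℕ => (finalLaw n).toMeasure.real
      {k : ℕ | ε ≤ |(k : ℝ) / (n : ℝ) ^ (3 / 2 : ℝ) - 1 / (2 * Real.sqrt 2)|}) atTop (𝓝 0) := by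
    have h2 := tendsto_L1.div_const ε
    rw [zero_div] at h2
    refine squeeze_zero (fun n => measureReal_nonneg) (fun n => ?_) h2
    rw [le_div_iff₀ hε, mul_comm]
    exact mul_meas_ge_le_integral_of_nonneg (Eventually.of_forall fun k => abs_nonneg _)
      (finalLaw_integrable n _) ε
  have h3 := ENNReal.tendsto_ofReal h1
  rw [ENNReal.ofReal_zero] at h3
  refine h3.congr fun n => ?_
  exact ofReal_measureReal (measure_ne_top _ _)

theorem tendsto_mean : Tendsto (fun n : ℕ =>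
    (∫ k : ℕ, (k : ℝ) ∂(finalLaw n).toMeasure) / (n : ℝ) ^ (3 / 2 : ℝ))
      atTop (𝓝 (1 / (2 * Real.sqrt 2))) := by
  rw [tendsto_iff_norm_sub_tendsto_zero]
  refine squeeze_zero (fun n => norm_nonneg _) (fun n => ?_) tendsto_L1
  have e : (∫ k : ℕ, (k : ℝ) ∂(finalLaw n).toMeasure) / (n : ℝ) ^ (3 / 2 : ℝ)
      - 1 / (2 * Real.sqrt 2) = ∫ k : ℕ, ((k : ℝ) / (n : ℝ) ^ (3 / 2 : ℝ)
        - 1 / (2 * Real.sqrt 2)) ∂(finalLaw n).toMeasure := by
    rw [integral_sub (finalLaw_integrable n _) (finalLaw_integrable n _), integral_div,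
      integral_const]
    simp
  rw [e]
  exact norm_integral_le_integral_norm _

end Vale.Agent.P046
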