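import Vale.Agent.P046.Defs2

open Finset

namespace Vale.Agent.P046

theorem tau_zero (M τ1 : ℝ) : tau M τ1 0 = τ1 := by
  rw [tau, mul_zero, add_zero, Real.log_one, zero_div, add_zero]

theorem tau_mono {M : ℝ} (hM : 0 < M) (τ1 : ℝ) {s s' : ℝ} (hs : 0 ≤ s) (h : s ≤ s') :
    tau M τ1 s ≤ tau M τ1 s' := by
  have h1 : Real.log (1 + 2 * M * s) ≤ Real.log (1 + 2 * M * s') :=
    Real.log_le_log (by positivity) (by nlinarith)
  unfold tau
  linarith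

theorem fe_tau_lt {M : ℝ} (hM : 0 < M) (τ1 : ℝ) {s s' : ℝ} (hs : 0 ≤ s) (h : s < s') :
    tau M τ1 s < tau M τ1 s' := by
  have h1 : Real.log (1 + 2 * M * s) < Real.log (1 + 2 * M * s') :=
    Real.log_lt_log (by positivity) (by nlinarith)
  unfold tau
  linarith

theorem fe_tau_deriv {M : ℝ} (hM : 0 < M) (τ1 : ℝ) {s : ℝ} (hs : 0 ≤ s) :
    HasDerivAt (tau M τ1) (M / (1 + 2 * M * s)) s := by
  have h0 : 0 < 1 + 2 * M * s := by positivity
  have h1 : HasDerivAt (fun s : ℝ => 1 + 2 * M * s) (2 * M * 1) s :=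
    ((hasDerivAt_id s).const_mul (2 * M)).const_add 1
  have h2 := ((h1.log h0.ne').div_const 2).const_add τ1
  have e : M / (1 + 2 * M * s) = 2 * M * 1 / (1 + 2 * M * s) / 2 := by field_simp
  rw [e]
  exact h2

theorem tau_mem {M : ℝ} (hM : 0 < M) (τ1 : ℝ) {t s : ℝ} (hs : s ∈ Set.Icc 0 t) :
    tau M τ1 s ∈ Set.Icc τ1 (tau M τ1 t) :=
  ⟨(tau_zero M τ1).ge.trans (tau_mono hM τ1 le_rfl hs.1), tau_mono hM τ1 hs.1 hs.2⟩

theorem exp_tau {M : ℝ} (hM : 0 < M) (τ1 : ℝ) {s : ℝ} (hs : 0 ≤ s) :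
    Real.exp (tau M τ1 s) = Real.exp τ1 * Real.sqrt (1 + 2 * M * s) := by
  rw [tau, Real.exp_add, Real.exp_half, Real.exp_log (by positivity)]

variable {α : Type} [DecidableEq α] [Fintype α] {H : HG α} {H' : Finset (Finset α)}
  {δ M2 : ℝ} {A1 : Finset α} {r1 : (α → ℝ) × (α → ℝ)}

theorem aa_tau {M τ1 : ℝ} (hM : 0 < M) (h1 : H.aa τ1 = 1 / M) {s : ℝ} (hs : 0 ≤ s) :
    H.aa (tau M τ1 s) = (1 + 2 * M * s) / M := by
  have e : 2 * tau M τ1 s = 2 * τ1 + Real.log (1 + 2 * M * s) := by unfold tau; ring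
  unfold HG.aa at h1 ⊢
  rw [e, Real.exp_add, Real.exp_log (by positivity), mul_div_right_comm, h1]
  ring

theorem nrm_tau {M : ℝ} (hM : 0 < M) (τ1 : ℝ) {s : ℝ} (hs : 0 ≤ s) :
    H.nrm (tau M τ1 s) = H.nrm τ1 * Real.sqrt (1 + 2 * M * s) := by
  unfold HG.nrm
  rw [exp_tau hM τ1 hs, mul_div_right_comm]

omit [Fintype α] in
theorem fe_ind_mem (S A : Finset α) : 0 ≤ ind S A ∧ ind S A ≤ 1 := by
  unfold ind
  split_ifs <;> norm_num

omit [Fintype α] in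
theorem fe_jump {TT G : Finset (Finset α)} (hG : G ⊆ TT) (S B : Finset α) :
    ∑ T ∈ TT, (ind S (if T ⊆ B ∧ T ∈ G then B \ T else B) - ind S B)
      = -1 * ∑ T ∈ G.filter (fun T => (T ∩ S).Nonempty), ind (S ∪ T) B := by
  have h1 : G.filter (fun T => (T ∩ S).Nonempty)
      = TT.filter (fun T => T ∈ G ∧ (T ∩ S).Nonempty) := by
    ext T
    simp only [mem_filter]
    exact ⟨fun h => ⟨hG h.1, h⟩, fun h => h.2⟩
  rw [h1, Finset.sum_filter, Finset.mul_sum]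
  refine Finset.sum_congr rfl fun T _ => ?_
  have h2 : (T ∩ S).Nonempty ↔ ¬ Disjoint S T := by
    rw [Finset.not_disjoint_iff_nonempty_inter, inter_comm]
  by_cases a1 : T ⊆ B <;> by_cases a2 : T ∈ G <;> by_cases a3 : Disjoint S T <;>
    by_cases a4 : S ⊆ B <;> simp [ind, h2, a1, a2, a3, a4, subset_sdiff, union_subset_iff]

theorem fe_fwd {M τ1 t : ℝ} (hM : 0 < M) (h1 : H.aa τ1 = 1 / M)
    (X : H.XE H' δ M2 A1 τ1 (tau M τ1 t) r1) (π : Finset α × Finset α → Finset α)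
    {G : Finset (Finset α)} (hG : G ⊆ H.TT) (h0 : π (A1, A1) = A1)
    (hπ : ∀ σ, HG.InvS A1 σ → ∀ T ∈ H.TT,
      π ((H.sys H' δ M2).mv T σ) = if T ⊆ π σ ∧ T ∈ G then π σ \ T else π σ) :
    Fwd G A1 t (fun S s => X.E (tau M τ1 s) (fun σ _ => ind S (π σ))) := by
  refine ⟨fun S => ?_, fun S s hs => ?_, fun S s hs => ?_, fun S s hs => ?_,
    fun S S' hS s hs => ?_, fun S hS => ?_⟩
  · exact (X.cont _ (Sm.of_state fun σ => ind S (π σ))).comp
      (fun s hs => (fe_tau_deriv hM τ1 hs.1).continuousAt.continuousWithinAt)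
      fun s hs => tau_mem hM τ1 hs
  · have hτ := tau_mem hM τ1 (Set.Ico_subset_Icc_self hs)
    have hV : Sm fun (_ : ℝ) (σ : Finset α × Finset α) (_ : (α → ℝ) × (α → ℝ)) => ind S (π σ) :=
      Sm.of_state _
    have d1 := X.dyn _ hV (tau M τ1 s) ⟨hτ.1, fe_tau_lt hM τ1 hs.1 hs.2⟩
    have hc : Cts fun (σ : Finset α × Finset α) (_ : (α → ℝ) × (α → ℝ)) =>
        ∑ T ∈ G.filter (fun T => (T ∩ S).Nonempty), ind (S ∪ T) (π σ) := Cts.of_state _
    rw [X.congr hτ (hV.gen_cts _ _) (hc.cmul (H.aa (tau M τ1 s) * -1)) fun σ r hσ => by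
      rw [Sys.gen_state _ fun σ => ind S (π σ), mul_assoc, ← fe_jump hG]
      exact congrArg _ (Finset.sum_congr rfl fun T hT => by rw [hπ σ hσ T hT]),
      X.smul _ hτ _ _ hc, X.sum hτ _ fun T _ => Cts.of_state fun σ => ind (S ∪ T) (π σ),
      aa_tau hM h1 hs.1] at d1
    have d2 := d1.comp s (fe_tau_deriv hM τ1 hs.1).hasDerivWithinAt
      (s := Set.Ici s) fun s' hs' => tau_mono hM τ1 hs.1 hs'
    have hp : 0 < 1 + 2 * M * s := by have := hs.1; positivity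
    refine d2.congr_deriv ?_
    field_simp
  · exact X.nonneg (tau_mem hM τ1 hs) (Cts.of_state _) fun σ _ _ => (fe_ind_mem _ _).1
  · exact X.le_const (tau_mem hM τ1 hs) (Cts.of_state _) fun σ _ _ => (fe_ind_mem _ _).2
  · refine X.mono _ (tau_mem hM τ1 hs) _ _ (Cts.of_state _) (Cts.of_state _) fun σ _ _ => ?_
    by_cases h : S' ⊆ π σ
    · rw [ind, ind, if_pos h, if_pos (hS.trans h)]
    · rw [ind, if_neg h]
      exact (fe_ind_mem _ _).1
  · show X.E (tau M τ1 0) _ = 1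
    rw [tau_zero, X.init _ (Cts.of_state _), h0, ind, if_pos hS]

theorem fwd_pE {M τ1 t : ℝ} (hM : 0 < M) (h1 : H.aa τ1 = 1 / M) (ht : 0 ≤ t)
    (X : H.XE H' δ M2 A1 τ1 (tau M τ1 t) r1) :
    Fwd (H.tri A1) A1 t (fun S s => pE X S (tau M τ1 s)) := by
  have _ := ht
  refine fe_fwd hM h1 X Prod.fst (H.tri_subset A1) rfl fun σ hσ T hT => ?_
  exact if_congr ⟨fun h => ⟨h, H.mem_tri.2 ⟨hT, h.trans hσ.1⟩⟩, fun h => h.1⟩ rfl rfl

theorem fwd_pE' {M τ1 t : ℝ} (hM : 0 < M) (h1 : H.aa τ1 = 1 / M) (ht : 0 ≤ t)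
    (hH' : H' ⊆ H.tri A1) (X : H.XE H' δ M2 A1 τ1 (tau M τ1 t) r1) :
    Fwd H' A1 t (fun S s => pE' X S (tau M τ1 s)) := by
  have _ := ht
  exact fe_fwd hM h1 X Prod.snd (hH'.trans (H.tri_subset A1)) rfl fun _ _ _ _ => rfl

omit [Fintype α] in
theorem fe_card {A B : Finset α} (h : B ⊆ A) : (B.card : ℝ) = ∑ e ∈ A, ind {e} B := by
  simp only [ind, singleton_subset_iff]
  rw [Finset.sum_boole, filter_mem_eq_inter, inter_eq_right.2 h]

omit [Fintype α] in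
theorem fe_deg {A B : Finset α} (h : B ⊆ A) (e : α) :
    (H.deg B e : ℝ) = ∑ T ∈ thru (H.tri A) e, ind T B := by
  have h1 : thru (H.tri B) e = (thru (H.tri A) e).filter fun T => T ⊆ B := by
    ext T
    simp only [mem_filter, mem_thru, HG.mem_tri]
    exact ⟨fun h1 => ⟨⟨⟨h1.1.1, h1.1.2.trans h⟩, h1.2⟩, h1.1.2⟩, fun h1 => ⟨⟨h1.1.1.1, h1.2⟩, h1.1.2⟩⟩
  simp only [ind]
  rw [Finset.sum_boole, HG.deg, h1]

omit [Fintype α] in
theorem fe_dis_mem (v : α) (σ : Finset α × Finset α) : 0 ≤ dis v σ ∧ dis v σ ≤ 1 := by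
  unfold dis
  split_ifs <;> norm_num

omit [Fintype α] in
theorem fe_ind_sub (S : Finset α) (σ : Finset α × Finset α) :
    |ind S σ.1 - ind S σ.2| ≤ ∑ v ∈ S, dis v σ := by
  by_cases h : ∀ v ∈ S, (v ∈ σ.1 ↔ v ∈ σ.2)
  · have h1 : S ⊆ σ.1 ↔ S ⊆ σ.2 :=
      ⟨fun h1 v hv => (h v hv).1 (h1 hv), fun h1 v hv => (h v hv).2 (h1 hv)⟩
    rw [ind, ind, if_congr h1 rfl rfl, sub_self, abs_zero]
    exact Finset.sum_nonneg fun v _ => (fe_dis_mem v σ).1
  · push Not at h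
    obtain ⟨v, hv, h1⟩ := h
    have h2 : dis v σ = 1 := if_neg (by tauto)
    have h3 := Finset.single_le_sum (fun v _ => (fe_dis_mem v σ).1) hv
    have a := fe_ind_mem S σ.1
    have b := fe_ind_mem S σ.2
    exact abs_le.2 ⟨by linarith [a.1, b.2], by linarith [a.2, b.1]⟩

variable {t0 t1 : ℝ} (X : H.XE H' δ M2 A1 t0 t1 r1)

theorem E_card {τ : ℝ} (hτ : τ ∈ Set.Icc t0 t1) :
    X.E τ (fun σ _ => (σ.1.card : ℝ)) = massB A1 (pE X) τ := by
  rw [X.congr hτ (Cts.of_state _) (Cts.of_state fun σ : Finset α × Finset α => ∑ e ∈ A1, ind {e} σ.1)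
    fun σ _ hσ => fe_card hσ.1, X.sum hτ _ fun e _ => Cts.of_state fun σ : Finset α × Finset α => ind {e} σ.1]
  rfl

theorem fe_E_card' {τ : ℝ} (hτ : τ ∈ Set.Icc t0 t1) :
    X.E τ (fun σ _ => (σ.2.card : ℝ)) = massB A1 (pE' X) τ := by
  rw [X.congr hτ (Cts.of_state _) (Cts.of_state fun σ : Finset α × Finset α => ∑ e ∈ A1, ind {e} σ.2)
    fun σ _ hσ => fe_card hσ.2, X.sum hτ _ fun e _ => Cts.of_state fun σ : Finset α × Finset α => ind {e} σ.2]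
  rfl

theorem E_deg {τ : ℝ} (hτ : τ ∈ Set.Icc t0 t1) (e : α) :
    X.E τ (fun σ _ => (H.deg σ.1 e : ℝ)) = WW (H.tri A1) (pE X) e τ := by
  rw [X.congr hτ (Cts.of_state _) (Cts.of_state fun σ : Finset α × Finset α => ∑ T ∈ thru (H.tri A1) e, ind T σ.1)
    fun σ _ hσ => fe_deg hσ.1 e, X.sum hτ _ fun T _ => Cts.of_state fun σ : Finset α × Finset α => ind T σ.1]
  rfl

theorem E_tri {τ : ℝ} (hτ : τ ∈ Set.Icc t0 t1) :
    X.E τ (fun σ _ => 3 * ((H.tri σ.1).card : ℝ)) = ∑ e ∈ A1, WW (H.tri A1) (pE X) e τ := by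
  rw [X.congr hτ (Cts.of_state _) (Cts.of_state fun σ : Finset α × Finset α => ∑ e ∈ A1, (H.deg σ.1 e : ℝ))
    fun σ _ hσ => by
      rw [← H.sum_card_tri]
      exact Finset.sum_subset hσ.1 fun e _ he => by rw [H.deg_of_notMem he, Nat.cast_zero],
    X.sum hτ _ fun e _ => Cts.of_state fun σ : Finset α × Finset α => (H.deg σ.1 e : ℝ)]
  exact Finset.sum_congr rfl fun e _ => E_deg X hτ e

theorem E_dis_mem {τ : ℝ} (hτ : τ ∈ Set.Icc t0 t1) (v : α) :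
    0 ≤ X.E τ (fun σ _ => dis v σ) ∧ X.E τ (fun σ _ => dis v σ) ≤ 1 :=
  ⟨X.nonneg hτ (Cts.of_state _) fun σ _ _ => (fe_dis_mem v σ).1,
    X.le_const hτ (Cts.of_state _) fun σ _ _ => (fe_dis_mem v σ).2⟩

theorem pE_sub_le {τ : ℝ} (hτ : τ ∈ Set.Icc t0 t1) (S : Finset α) :
    |pE X S τ - pE' X S τ| ≤ ∑ v ∈ S, X.E τ (fun σ _ => dis v σ) := by
  have hd : Cts fun (σ : Finset α × Finset α) (_ : (α → ℝ) × (α → ℝ)) => ∑ v ∈ S, dis v σ :=
    Cts.of_state _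
  have h1 := X.mono τ hτ _ _ (Cts.of_state fun σ : Finset α × Finset α => ind S σ.1 - ind S σ.2) hd
    fun σ _ _ => (abs_le.1 (fe_ind_sub S σ)).2
  have h2 := X.mono τ hτ _ _ (Cts.of_state fun σ : Finset α × Finset α => ind S σ.2 - ind S σ.1) hd
    fun σ _ _ => by have := (abs_le.1 (fe_ind_sub S σ)).1; linarith
  rw [X.sub hτ (Cts.of_state _) (Cts.of_state _),
    X.sum hτ _ fun v _ => Cts.of_state fun σ : Finset α × Finset α => dis v σ] at h1 h2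
  unfold pE pE'
  exact abs_le.2 ⟨by linarith, h1⟩

/-- First absolute moment of the number of uncovered vertices around its mean. -/
theorem E_abs_le {τ : ℝ} (hτ : τ ∈ Set.Icc t0 t1) :
    X.E τ (fun σ _ => |(σ.1.card : ℝ) - massB A1 (pE X) τ|) ≤
      2 * ∑ v ∈ A1, X.E τ (fun σ _ => dis v σ)
        + Real.sqrt (∑ e ∈ A1, ∑ e' ∈ A1, pE' X {e, e'} τ - massB A1 (pE' X) τ ^ 2) := by
  have hB : |massB A1 (pE X) τ - massB A1 (pE' X) τ| ≤ ∑ v ∈ A1, X.E τ (fun σ _ => dis v σ) := by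
    rw [massB, massB, ← Finset.sum_sub_distrib]
    refine (Finset.abs_sum_le_sum_abs _ _).trans (Finset.sum_le_sum fun v _ => ?_)
    simpa only [Finset.sum_singleton] using pE_sub_le X hτ {v}
  have hq : X.E τ (fun σ _ => (σ.2.card : ℝ) ^ 2) = ∑ e ∈ A1, ∑ e' ∈ A1, pE' X {e, e'} τ := by
    rw [X.congr hτ (Cts.of_state _)
      (Cts.of_state fun σ : Finset α × Finset α => ∑ e ∈ A1, ∑ e' ∈ A1, ind {e, e'} σ.2) fun σ _ hσ => by
        rw [fe_card hσ.2, pow_two, Finset.sum_mul_sum]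
        refine Finset.sum_congr rfl fun e _ => Finset.sum_congr rfl fun e' _ => ?_
        by_cases a : e ∈ σ.2 <;> by_cases b : e' ∈ σ.2 <;> simp [ind, insert_subset_iff, a, b],
      X.sum hτ _ fun e _ => Cts.of_state fun σ : Finset α × Finset α => ∑ e' ∈ A1, ind {e, e'} σ.2]
    exact Finset.sum_congr rfl fun e _ =>
      X.sum hτ _ fun e' _ => Cts.of_state fun σ : Finset α × Finset α => ind {e, e'} σ.2
  generalize massB A1 (pE X) τ = B at hB ⊢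
  have hB' := fe_E_card' X hτ
  generalize massB A1 (pE' X) τ = B' at hB hB' ⊢
  obtain ⟨m, hm⟩ : ∃ m, m = X.E τ (fun σ _ => |(σ.2.card : ℝ) - B'|) := ⟨_, rfl⟩
  have h1 := X.mono τ hτ _ _
    (Cts.of_state fun σ : Finset α × Finset α => 2 * m * |(σ.2.card : ℝ) - B'| + 2 * B' * (σ.2.card : ℝ))
    (Cts.of_state fun σ : Finset α × Finset α => (σ.2.card : ℝ) ^ 2 + (B' ^ 2 + m ^ 2)) fun σ _ _ => by
      nlinarith [sq_nonneg (|(σ.2.card : ℝ) - B'| - m), sq_abs ((σ.2.card : ℝ) - B')]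
  rw [X.add τ hτ _ _ (Cts.of_state _) (Cts.of_state _),
    X.add τ hτ _ _ (Cts.of_state _) (Cts.const _), X.smul τ hτ _ _ (Cts.of_state _),
    X.smul τ hτ _ _ (Cts.of_state _), X.const τ hτ, ← hm, hB', hq] at h1
  have h2 : m ≤ Real.sqrt (∑ e ∈ A1, ∑ e' ∈ A1, pE' X {e, e'} τ - B' ^ 2) :=
    Real.le_sqrt_of_sq_le (by linarith)
  have h3 := X.mono τ hτ _ _ (Cts.of_state fun σ : Finset α × Finset α => |(σ.1.card : ℝ) - B|)
    (Cts.of_state fun σ : Finset α × Finset α => ∑ v ∈ A1, dis v σ + (|(σ.2.card : ℝ) - B'| + |B - B'|))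
    fun σ _ hσ => by
      have a : |(σ.1.card : ℝ) - σ.2.card| ≤ ∑ v ∈ A1, dis v σ := by
        rw [fe_card hσ.1, fe_card hσ.2, ← Finset.sum_sub_distrib]
        refine (Finset.abs_sum_le_sum_abs _ _).trans (Finset.sum_le_sum fun v _ => ?_)
        simpa only [Finset.sum_singleton] using fe_ind_sub {v} σ
      have b := abs_sub_le (σ.1.card : ℝ) σ.2.card B
      have c := abs_sub_le (σ.2.card : ℝ) B' B
      rw [abs_sub_comm B' B] at c
      linarith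
  rw [X.add τ hτ _ _ (Cts.of_state _) (Cts.of_state _),
    X.add τ hτ _ _ (Cts.of_state _) (Cts.const _), X.const τ hτ, ← hm,
    X.sum hτ _ fun v _ => Cts.of_state fun σ : Finset α × Finset α => dis v σ] at h3
  linarith

end Vale.Agent.P046
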