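import Vale.Agent.P046.Defs2

open Finset

namespace Vale.Agent.P046
namespace HG

theorem genA_exp {x : ℝ} (hx : 0 ≤ x) :
    Real.exp (x / 4) * (2 * x / 4) - x * Real.exp (x / 4) ≤ -2 * Real.exp (x / 4) + 6 := by
  have h0 := Real.exp_pos (x / 4)
  rcases le_total 4 x with h | h
  · nlinarith
  · have h1 : Real.exp (x / 4) ≤ Real.exp 1 := Real.exp_le_exp.2 (by linarith)
    have h2 := Real.exp_one_lt_d9
    nlinarith

theorem gen_UU {α : Type} [DecidableEq α] [Fintype α] (H : HG α) {a : ℝ} (ha : 0 ≤ a)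
    (A : Finset α) (r : α → ℝ) :
    H.gen (fun a A _ => H.UU a A) a A r ≤ -2 * H.UU a A + 6 * (A.card : ℝ) := by
  have hd : HasDerivAt (fun h : ℝ => H.UU (a * Real.exp (2 * h)) A)
      (∑ e ∈ A, Real.exp (H.u a A e / 4) * (2 * H.u a A e / 4)) 0 := by
    refine HasDerivAt.fun_sum fun e _ => ?_
    have := ((H.hasDerivAt_u a A e).div_const 4).exp
    simpa only [mul_zero, Real.exp_zero, mul_one] using this
  unfold gen
  rw [hd.deriv]
  unfold UU
  rw [H.jump_sum A fun B e => Real.exp (H.u a B e / 4), mul_sum, ← sum_add_distrib, mul_sum]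
  have h6 : 6 * (A.card : ℝ) = ∑ _e ∈ A, (6 : ℝ) := by simp [mul_comm]
  rw [h6, ← sum_add_distrib]
  refine sum_le_sum fun e _ => ?_
  have h1 : ∑ T' ∈ (H.tri A).filter (fun T' => e ∉ T'),
      (Real.exp (H.u a (A \ T') e / 4) - Real.exp (H.u a A e / 4)) ≤ 0 := by
    refine sum_nonpos fun T' _ => sub_nonpos.2 (Real.exp_le_exp.2 ?_)
    have h2 : (H.deg (A \ T') e : ℝ) ≤ H.deg A e := by exact_mod_cast H.deg_mono sdiff_subset e
    have := mul_le_mul_of_nonneg_left h2 ha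
    unfold u
    linarith
  have h2 := genA_exp (H.u_nonneg ha A e)
  have h3 := mul_nonpos_of_nonneg_of_nonpos ha h1
  have h4 : a * (H.deg A e : ℝ) = H.u a A e := rfl
  rw [mul_add, mul_neg, ← mul_assoc, h4]
  linarith

theorem genA_pow {m a k : ℝ} (hk : 0 ≤ k) (h3 : k ≤ 3) :
    (m - a * k) ^ 4 - m ^ 4 ≤ (-4 * m ^ 3 + 24 * a * m ^ 2 + 81 * a ^ 3) * a * k := by
  have h1 : k ^ 2 ≤ 3 * k := by nlinarith
  have h2 : k ^ 4 ≤ 27 * k := by nlinarith [pow_le_pow_left₀ hk h3 3]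
  have h4 := mul_le_mul_of_nonneg_left h1 (by positivity : 0 ≤ 8 * m ^ 2 * a ^ 2)
  have h5 := mul_le_mul_of_nonneg_left h2 (by positivity : 0 ≤ 3 * a ^ 4)
  nlinarith [sq_nonneg (m * (a * k) + (a * k) ^ 2)]

theorem genA_nb_le {α : Type} [DecidableEq α] (H : HG α) {a : ℝ} (ha : 0 ≤ a) (A : Finset α)
    (m : ℝ) (e : α) :
    24 * a * m ^ 2 * H.nb a A (H.u a A) e ≤
      H.u a A e * m ^ 4 / 8 + 2304 * a ^ 2 * H.nb a A (fun f => H.u a A f ^ 2) e := by
  have h1 := H.nb_const a A (m ^ 4 / 16) e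
  have h2 : 24 * a * m ^ 2 * H.nb a A (H.u a A) e ≤
      H.nb a A (fun _ => m ^ 4 / 16) e + 2304 * a ^ 2 * H.nb a A (fun f => H.u a A f ^ 2) e := by
    unfold nb
    rw [mul_left_comm, mul_left_comm (2304 * a ^ 2), ← mul_add]
    refine mul_le_mul_of_nonneg_left ?_ ha
    simp only [mul_sum, ← sum_add_distrib]
    refine sum_le_sum fun T _ => sum_le_sum fun f _ => ?_
    nlinarith [sq_nonneg (m ^ 2 / 4 - 48 * a * H.u a A f)]
  linarith

theorem gen_M4 : ∃ K : ℝ, 0 < K ∧ ∀ {α : Type} [DecidableEq α] [Fintype α] (H : HG α) (a : ℝ),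
    0 ≤ a → a ≤ 1 → ∀ (A : Finset α) (r : α → ℝ),
      H.gen H.M4 a A r ≤ -(3 / 4) * H.M1 a A r + K * a ^ 2 * H.UU a A := by
  refine ⟨3000000, by norm_num, ?_⟩
  intro α _ _ H a ha ha1 A r
  have hd : HasDerivAt (fun h : ℝ => H.M4 (a * Real.exp (2 * h)) A (r + h • H.vel a A))
      (∑ e ∈ A, 4 * H.mm a A r e ^ 3 * H.nb a A (H.u a A) e) 0 := by
    refine HasDerivAt.fun_sum fun e _ => ?_
    have := (H.hasDerivAt_mm a A r e).fun_pow 4
    simpa only [mul_zero, Real.exp_zero, mul_one, zero_smul, add_zero, Nat.cast_ofNat,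
      Nat.add_one_sub_one] using this
  unfold gen
  rw [hd.deriv]
  unfold M4
  rw [H.jump_sum A fun B e => H.mm a B r e ^ 4, mul_sum, ← sum_add_distrib]
  have key : ∀ e ∈ A, 4 * H.mm a A r e ^ 3 * H.nb a A (H.u a A) e +
      a * (-((H.deg A e : ℝ) * H.mm a A r e ^ 4) + ∑ T' ∈ (H.tri A).filter (fun T' => e ∉ T'),
        (H.mm a (A \ T') r e ^ 4 - H.mm a A r e ^ 4)) ≤
      -(3 / 4) * (H.u a A e * H.mm a A r e ^ 4) + a ^ 2 * (262144 * H.u a A e +
        2304 * H.nb a A (fun f => H.u a A f ^ 2) e + 81 * H.nb a A (H.u a A) e) := by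
    intro e _
    set m := H.mm a A r e with hm
    have h1 : ∑ T' ∈ (H.tri A).filter (fun T' => e ∉ T'), (H.mm a (A \ T') r e ^ 4 - m ^ 4) ≤
        (-4 * m ^ 3 + 24 * a * m ^ 2 + 81 * a ^ 3) * a *
          ∑ T' ∈ (H.tri A).filter (fun T' => e ∉ T'), (H.kk A T' e : ℝ) := by
      rw [mul_sum]
      refine sum_le_sum fun T' hT' => ?_
      rw [mm_sdiff, ← hm]
      refine genA_pow (Nat.cast_nonneg _) ?_
      exact_mod_cast H.kk_le_three (mem_filter.1 hT').1 (mem_filter.1 hT').2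
    have h2 := mul_le_mul_of_nonneg_left h1 ha
    have h3 : a * ((-4 * m ^ 3 + 24 * a * m ^ 2 + 81 * a ^ 3) * a *
          ∑ T' ∈ (H.tri A).filter (fun T' => e ∉ T'), (H.kk A T' e : ℝ)) =
        (-4 * m ^ 3 + 24 * a * m ^ 2 + 81 * a ^ 3) *
          (H.nb a A (H.u a A) e - 2 * a * H.u a A e) := by
      rw [← sum_kk_u]; ring
    have h4 : a * (H.deg A e : ℝ) = H.u a A e := rfl
    have h5 := H.genA_nb_le ha A m e
    have hu := H.u_nonneg ha A e
    have hn : 0 ≤ H.nb a A (H.u a A) e :=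
      mul_nonneg ha (sum_nonneg fun _ _ => sum_nonneg fun f _ => H.u_nonneg ha A f)
    have h6 : 8 * a * m ^ 3 ≤ m ^ 4 / 8 + 262144 * a ^ 2 := by
      have : a ^ 4 ≤ a ^ 2 := pow_le_pow_of_le_one ha ha1 (by norm_num)
      nlinarith [sq_nonneg (m ^ 2 / 4 - 16 * a * m), sq_nonneg (m ^ 2 / 4 - 512 * a ^ 2)]
    have h7 := mul_le_mul_of_nonneg_right h6 hu
    have h8 : a ^ 3 * H.nb a A (H.u a A) e ≤ a ^ 2 * H.nb a A (H.u a A) e :=
      mul_le_mul_of_nonneg_right (pow_le_pow_of_le_one ha ha1 (by norm_num)) hn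
    have h9 : 0 ≤ (24 * a * m ^ 2 + 81 * a ^ 3) * (2 * a * H.u a A e) := by positivity
    rw [h3] at h2
    rw [mul_add, mul_neg, ← mul_assoc a, h4]
    linarith
  refine (sum_le_sum key).trans ?_
  rw [sum_add_distrib, ← mul_sum, ← mul_sum, sum_add_distrib, sum_add_distrib, ← mul_sum,
    ← mul_sum, ← mul_sum, sum_nb, sum_nb]
  have s1 := H.sum_u_pow_le ha A 1
  have s2 := H.sum_u_pow_le ha A 2
  have s3 := H.sum_u_pow_le ha A 3
  have e2 : ∑ f ∈ A, H.u a A f * H.u a A f = ∑ f ∈ A, H.u a A f ^ 2 :=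
    sum_congr rfl fun _ _ => by ring
  have e3 : ∑ f ∈ A, H.u a A f * H.u a A f ^ 2 = ∑ f ∈ A, H.u a A f ^ 3 :=
    sum_congr rfl fun _ _ => by ring
  rw [e2, e3]
  norm_num [Nat.factorial] at s1 s2 s3
  have hU := H.UU_nonneg a A
  have h1 : 262144 * ∑ e ∈ A, H.u a A e + 2304 * (2 * ∑ f ∈ A, H.u a A f ^ 3) +
      81 * (2 * ∑ f ∈ A, H.u a A f ^ 2) ≤ 3000000 * H.UU a A := by linarith
  have h2 := mul_le_mul_of_nonneg_left h1 (sq_nonneg a)
  unfold M1
  linarith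

theorem genA_card {α : Type} [DecidableEq α] (H : HG α) {A T : Finset α} (hT : T ∈ H.tri A) :
    ((A \ T).card : ℝ) = A.card - 3 := by
  have h := card_sdiff_add_card_eq_card (H.tri_sub A T hT)
  rw [H.tri_card3 hT] at h
  rw [← h]
  push_cast
  ring

theorem genA_sum_u {α : Type} [DecidableEq α] (H : HG α) (a : ℝ) (A : Finset α) :
    ∑ e ∈ A, H.u a A e = 3 * a * ((H.tri A).card : ℝ) := by
  unfold u
  rw [← mul_sum, sum_card_tri]
  ring

theorem gen_card {α : Type} [DecidableEq α] [Fintype α] (H : HG α) (a : ℝ)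
    (A : Finset α) (r : α → ℝ) :
    H.gen (fun _ A _ => (A.card : ℝ)) a A r = -∑ e ∈ A, H.u a A e := by
  unfold gen
  beta_reduce
  rw [deriv_const, sum_congr rfl (g := fun _ => (-3 : ℝ)) fun T hT => by
    rw [H.genA_card hT]; ring, genA_sum_u, sum_const, nsmul_eq_mul]
  ring

theorem gen_ind_mm {α : Type} [DecidableEq α] [Fintype α] (H : HG α) (a c : ℝ) (e : α)
    (A : Finset α) (r : α → ℝ) :
    H.gen (fun a A r => ind {e} A * (H.mm a A r e - c)) a A r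
      = ind {e} A * (2 * a * H.u a A e - H.u a A e * (H.mm a A r e - c)) := by
  unfold gen
  beta_reduce
  rw [(((H.hasDerivAt_mm a A r e).sub_const c).const_mul (ind {e} A)).deriv]
  by_cases he : e ∈ A
  · have h1 : ind {e} A = 1 := by simp [ind, he]
    have h2 : ∀ T' ∈ H.tri A, ind {e} (A \ T') * (H.mm a (A \ T') r e - c) -
        ind {e} A * (H.mm a A r e - c) =
        if e ∈ T' then -(H.mm a A r e - c) else -a * H.kk A T' e := by
      intro T' _
      by_cases h3 : e ∈ T'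
      · simp [ind, he, h3]
      · simp only [ind, he, h3, singleton_subset_iff, mem_sdiff, not_false_eq_true, and_self,
          if_true, if_false, mm_sdiff]
        ring
    rw [sum_congr rfl h2, sum_ite, sum_const, nsmul_eq_mul, ← mul_sum, h1]
    have h3 := H.sum_kk_u a A e
    have h4 : a * (((H.tri A).filter fun T' => e ∈ T').card : ℝ) = H.u a A e := rfl
    linear_combination (-1) * h3 - (H.mm a A r e - c) * h4
  · have h1 : ∀ B, B ⊆ A → ind {e} B = 0 := fun B hB => by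
      rw [ind, if_neg]
      exact fun h => he (hB (singleton_subset_iff.1 h))
    rw [sum_eq_zero fun T' _ => by rw [h1 _ sdiff_subset, h1 _ subset_rfl]; ring, h1 _ subset_rfl]
    ring

theorem genA_sqrt {x t g : ℝ} (hg : 0 < g) :
    Real.sqrt ((x - t) ^ 2 + g ^ 2) - Real.sqrt (x ^ 2 + g ^ 2) ≤
      -(t * (x / Real.sqrt (x ^ 2 + g ^ 2))) + t ^ 2 / (2 * g) := by
  set s := Real.sqrt (x ^ 2 + g ^ 2) with hs
  have h1 : s ^ 2 = x ^ 2 + g ^ 2 := Real.sq_sqrt (by positivity)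
  have h2 : g ≤ s := Real.le_sqrt_of_sq_le (by nlinarith)
  have h3 : 0 < s := hg.trans_le h2
  set w := Real.sqrt ((x - t) ^ 2 + g ^ 2) with hw
  have h4 : w ^ 2 = (x - t) ^ 2 + g ^ 2 := Real.sq_sqrt (by positivity)
  have h5 : t ^ 2 / (2 * s) ≤ t ^ 2 / (2 * g) := by gcongr
  have h6 : w - s ≤ -(t * (x / s)) + t ^ 2 / (2 * s) := by
    have : -(t * (x / s)) + t ^ 2 / (2 * s) = (t ^ 2 - 2 * t * x) / (2 * s) := by
      field_simp
      ring
    rw [this, le_div_iff₀ (by positivity)]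
    nlinarith [sq_nonneg (w - s)]
  linarith

theorem genT_Vabs {α : Type} [DecidableEq α] [Fintype α] (H : HG α) {γ2 : ℝ} (hγ : 0 < γ2)
    (τ : ℝ) (A : Finset α) (r : α → ℝ) :
    H.genT (fun τ A _ => H.Vabs γ2 τ A) τ A r ≤
      H.nrm τ * |∑ e ∈ A, (H.u (H.aa τ) A e - 1)|
        + 3 / (2 * γ2) * H.nrm τ ^ 2 * ∑ e ∈ A, H.u (H.aa τ) A e := by
  set x := H.nrm τ * (A.card : ℝ) - 1 with hx
  set s := Real.sqrt (x ^ 2 + γ2 ^ 2) with hs
  have hs0 : 0 < s := Real.sqrt_pos.2 (by positivity)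
  have hn : HasDerivAt (fun h : ℝ => H.nrm (τ + h)) (H.nrm τ) 0 :=
    HasDerivAt.comp_const_add τ 0 (by simpa using H.hasDerivAt_nrm τ)
  have hd : HasDerivAt (fun h : ℝ => H.Vabs γ2 (τ + h) A) (x / s * (H.nrm τ * A.card)) 0 := by
    have := ((((hn.mul_const (A.card : ℝ)).sub_const 1).fun_pow 2).add_const (γ2 ^ 2)).sqrt
      (by positivity)
    refine HasDerivAt.congr_deriv this ?_
    simp only [add_zero, ← hx, ← hs]
    field_simp
    push_cast
    ring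
  have hn0 : 0 ≤ H.nrm τ := by unfold nrm NN; positivity
  have hj : ∑ T ∈ H.tri A, (H.Vabs γ2 τ (A \ T) - H.Vabs γ2 τ A) ≤
      ∑ _T ∈ H.tri A, (-(3 * H.nrm τ * (x / s)) + (3 * H.nrm τ) ^ 2 / (2 * γ2)) := by
    refine sum_le_sum fun T hT => ?_
    unfold Vabs
    have : H.nrm τ * ((A \ T).card : ℝ) - 1 = x - 3 * H.nrm τ := by
      rw [H.genA_card hT, hx]; ring
    rw [this]
    exact genA_sqrt hγ
  have h1 : |x / s| ≤ 1 := by
    rw [abs_div, abs_of_pos hs0, div_le_one hs0]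
    exact Real.abs_le_sqrt (by nlinarith)
  have h2 := mul_le_mul_of_nonneg_left hj (H.aa_nonneg τ)
  rw [sum_const, nsmul_eq_mul] at h2
  unfold genT
  beta_reduce
  rw [hd.deriv, sum_sub_distrib (f := fun e => H.u (H.aa τ) A e), sum_const, nsmul_eq_mul, mul_one]
  have h3 := H.genA_sum_u (H.aa τ) A
  set U := ∑ e ∈ A, H.u (H.aa τ) A e with hU
  have h4 : -(x / s * (U - A.card)) ≤ |U - A.card| := by
    refine (neg_le_abs _).trans ?_
    rw [abs_mul]
    exact mul_le_of_le_one_left (abs_nonneg _) h1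
  have h5 := mul_le_mul_of_nonneg_left h4 hn0
  have h6 : H.aa τ * (((H.tri A).card : ℝ) *
      (-(3 * H.nrm τ * (x / s)) + (3 * H.nrm τ) ^ 2 / (2 * γ2))) =
      -(H.nrm τ * (x / s) * U) + 3 / (2 * γ2) * H.nrm τ ^ 2 * U := by
    rw [h3]; ring
  linarith

end HG
end Vale.Agent.P046
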