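import Vale.Agent.P046.Defs2

open Finset

namespace Vale.Agent.P046
namespace HG

theorem genPhi_add {α : Type} [DecidableEq α] [Fintype α] (H : HG α) {φ φ' : ℝ → ℝ}
    (hφ : ∀ x, HasDerivAt φ (φ' x) x) (a : ℝ) (A : Finset α) (r : α → ℝ) :
    H.gen (fun _ A r => ∑ e ∈ A, φ (r e)) a A r =
      -(a * ∑ T ∈ H.tri A, ∑ e ∈ T, φ' (r e) * ∑ f ∈ T.erase e, r f)
        - ∑ e ∈ A, φ' (r e) * H.yy a A r e - ∑ e ∈ A, H.u a A e * φ (r e) := by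
  have hd : HasDerivAt (fun h : ℝ => ∑ e ∈ A, φ ((r + h • H.vel a A) e))
      (∑ e ∈ A, φ' (r e) * H.vel a A e) 0 := by
    refine HasDerivAt.fun_sum fun e _ => ?_
    have h1 : HasDerivAt φ (φ' (r e)) ((r + (0 : ℝ) • H.vel a A) e) := by simpa using hφ (r e)
    exact h1.comp (0 : ℝ) (hasDerivAt_r r (H.vel a A) e)
  unfold gen
  beta_reduce
  rw [hd.deriv, H.jump_sum A fun _ e => φ (r e), H.sum_tri A, mul_sum, mul_sum, ← sum_neg_distrib,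
    ← sum_add_distrib, ← sum_sub_distrib, ← sum_sub_distrib]
  refine sum_congr rfl fun e _ => ?_
  have h1 : H.vel a A e = -(H.yy a A r e + H.nb a A r e) := by
    unfold vel yy
    rw [← nb_add]
    congr 2
    funext f
    unfold mm
    ring
  rw [h1, ← mul_sum]
  unfold nb u
  simp only [sub_self, sum_const_zero]
  ring

theorem genPhi_pt {C γ g p cc d u r y : ℝ} (hC : 1 ≤ C) (hγ : 0 < γ) (hγ1 : γ ≤ 1) (hg : 0 < g)
    (hp : 0 ≤ p) (hc0 : 0 ≤ cc) (hc : cc ≤ 5 * p) (hc1 : (1 + r) * cc ≤ p) (hpr : p ≤ C * |r|)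
    (hd : d ^ 2 ≤ C * p) (hu : 0 ≤ u) :
    u * cc - d * y ≤ (1 + γ + g) * p + 625 * C / g * y ^ 2 +
      625 * C / γ ^ 6 * ((u - 1 - r) ^ 4 + u * (u - 1 - r) ^ 4) + 125 * C * γ ^ 10 * (1 + u) := by
  set m := u - 1 - r with hm
  set t := |m| with ht
  have ht0 : 0 ≤ t := abs_nonneg m
  have ht4 : t ^ 4 = m ^ 4 := Even.pow_abs (by decide) m
  have hC0 : 0 < C := by linarith
  have h1 : u * cc ≤ p + 5 * t * p := by
    have e : u * cc = (1 + r) * cc + m * cc := by rw [hm]; ring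
    have h2 : m * cc ≤ t * cc := mul_le_mul_of_nonneg_right (le_abs_self m) hc0
    have h3 : t * cc ≤ t * (5 * p) := mul_le_mul_of_nonneg_left hc ht0
    linarith
  have h2 : 5 * t ≤ γ + 125 * t ^ 3 / γ ^ 2 := by
    rcases le_total (5 * t) γ with h | h
    · have : 0 ≤ 125 * t ^ 3 / γ ^ 2 := by positivity
      linarith
    · have h3 : γ ^ 2 ≤ (5 * t) ^ 2 := pow_le_pow_left₀ hγ.le h 2
      have : 5 * t ≤ 125 * t ^ 3 / γ ^ 2 := by
        rw [le_div_iff₀ (by positivity)]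
        nlinarith
      linarith
  have h3 : t ^ 3 ≤ t ^ 4 / γ ^ 4 + γ ^ 12 := by
    rcases le_total t (γ ^ 4) with h | h
    · have h3 : t ^ 3 ≤ (γ ^ 4) ^ 3 := pow_le_pow_left₀ ht0 h 3
      have : 0 ≤ t ^ 4 / γ ^ 4 := by positivity
      linarith
    · have : t ^ 3 ≤ t ^ 4 / γ ^ 4 := by
        rw [le_div_iff₀ (by positivity)]
        nlinarith [mul_le_mul_of_nonneg_left h (pow_nonneg ht0 3)]
      have h5 : 0 ≤ γ ^ 12 := by positivity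
      linarith
  have h4 : p ≤ C * (1 + u + t) := by
    refine hpr.trans (mul_le_mul_of_nonneg_left (abs_le.2 ⟨?_, ?_⟩) hC0.le)
    · linarith [le_abs_self m]
    · linarith [neg_abs_le m]
  have h5 : 125 * t ^ 3 / γ ^ 2 * p ≤
      625 * C / γ ^ 6 * (t ^ 4 + u * t ^ 4) + 125 * C * γ ^ 10 * (1 + u) := by
    have h6 : t ^ 4 ≤ t ^ 4 / γ ^ 4 :=
      le_div_self (by positivity) (by positivity) (pow_le_one₀ hγ.le hγ1)
    have h7 : t ^ 3 * (1 + u + t) ≤ 5 * (t ^ 4 / γ ^ 4) * (1 + u) + γ ^ 12 * (1 + u) := by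
      have h8 := mul_le_mul_of_nonneg_right h3 (by positivity : 0 ≤ 1 + u)
      have h9 : 0 ≤ t ^ 4 / γ ^ 4 := by positivity
      nlinarith [mul_nonneg h9 hu]
    calc 125 * t ^ 3 / γ ^ 2 * p ≤ 125 * t ^ 3 / γ ^ 2 * (C * (1 + u + t)) :=
          mul_le_mul_of_nonneg_left h4 (by positivity)
      _ = 125 * C / γ ^ 2 * (t ^ 3 * (1 + u + t)) := by ring
      _ ≤ 125 * C / γ ^ 2 * (5 * (t ^ 4 / γ ^ 4) * (1 + u) + γ ^ 12 * (1 + u)) :=
          mul_le_mul_of_nonneg_left h7 (by positivity)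
      _ = _ := by field_simp; ring
  have h6 : -(d * y) ≤ g * p + 625 * C / g * y ^ 2 := by
    have h7 : -(d * y) * (C * g) ≤ (g * p + 625 * C / g * y ^ 2) * (C * g) := by
      have e : (g * p + 625 * C / g * y ^ 2) * (C * g) = g ^ 2 * (C * p) + 625 * C ^ 2 * y ^ 2 := by
        field_simp
      rw [e]
      nlinarith [mul_le_mul_of_nonneg_left hd (sq_nonneg g), sq_nonneg (g * d + C * y),
        sq_nonneg (C * y), sq_nonneg (g * d)]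
    exact le_of_mul_le_mul_right h7 (by positivity)
  have h7 := mul_le_mul_of_nonneg_right h2 hp
  rw [← ht4]
  linarith

theorem gen_phi {φ φ' c : ℝ → ℝ} {C : ℝ} (hφ : PhiOK φ φ' c C) :
    ∃ K : ℝ, 0 < K ∧ ∀ {α : Type} [DecidableEq α] [Fintype α] (H : HG α) (γ g : ℝ),
      0 < γ → γ ≤ 1 → 0 < g → ∀ (A : Finset α) (r : α → ℝ),
      H.gen (fun _ A r => ∑ e ∈ A, φ (r e)) (γ ^ 8) A r ≤
        (1 + γ + g) * ∑ e ∈ A, φ (r e) + K / g * H.Ups (γ ^ 8) A r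
          + K / γ ^ 6 * (H.M4 (γ ^ 8) A r + H.M1 (γ ^ 8) A r) + K * γ ^ 10 * H.UU (γ ^ 8) A := by
  have hC := hφ.C1
  refine ⟨625 * C, by linarith, ?_⟩
  intro α _ _ H γ g hγ hγ1 hg A r
  set a := γ ^ 8 with ha
  have ha0 : 0 ≤ a := by positivity
  rw [H.genPhi_add hφ.der]
  have h1 : -(a * ∑ T ∈ H.tri A, ∑ e ∈ T, φ' (r e) * ∑ f ∈ T.erase e, r f) ≤
      ∑ e ∈ A, H.u a A e * (φ (r e) + c (r e)) := by
    rw [← sum_tri_u, ← mul_neg, ← sum_neg_distrib]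
    refine mul_le_mul_of_nonneg_left (sum_le_sum fun T hT => ?_) ha0
    have h2 : ∀ e ∈ T, φ' (r e) * ∑ f ∈ T.erase e, r f = φ' (r e) * (∑ f ∈ T, r f - r e) :=
      fun e he => by rw [← add_sum_erase T r he]; ring
    rw [sum_congr rfl h2]
    obtain ⟨x, y, z, hxy, hxz, hyz, rfl⟩ := card_eq_three.1 (H.tri_card3 hT)
    have h3 : x ∉ ({y, z} : Finset α) := by simp [hxy, hxz]
    simp only [sum_insert h3, sum_pair hyz]
    linarith [hφ.tri (r x) (r y) (r z)]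
  have h2 : ∑ e ∈ A, (H.u a A e * c (r e) - φ' (r e) * H.yy a A r e) ≤
      ∑ e ∈ A, ((1 + γ + g) * φ (r e) + 625 * C / g * H.yy a A r e ^ 2 +
        625 * C / γ ^ 6 * (H.mm a A r e ^ 4 + H.u a A e * H.mm a A r e ^ 4) +
        125 * C * γ ^ 10 * (1 + H.u a A e)) :=
    sum_le_sum fun e _ => genPhi_pt hC hγ hγ1 hg (hφ.nonneg _) (hφ.c_nonneg _) (hφ.c_le _)
      (hφ.c_mul _) (hφ.le_abs _) (hφ.d_sq _) (H.u_nonneg ha0 A e)
  simp only [sum_add_distrib, sum_sub_distrib, ← mul_sum, sum_const, nsmul_eq_mul, mul_one] at h2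
  simp only [mul_add (H.u a A _), sum_add_distrib] at h1
  have s1 := H.sum_u_pow_le ha0 A 1
  have s0 := H.card_le_UU ha0 A
  norm_num at s1
  have h3 : 125 * C * γ ^ 10 * (A.card + ∑ e ∈ A, H.u a A e) ≤
      125 * C * γ ^ 10 * (5 * H.UU a A) :=
    mul_le_mul_of_nonneg_left (by linarith) (by positivity)
  unfold Ups M4 M1
  linarith

theorem genPhi_good {α : Type} [DecidableEq α] [Fintype α] (H : HG α) (hG : H.Gap)
    (hN : H.A0.card ≤ H.D ^ 2) {a Λ : ℝ} (h1 : 1 ≤ a * H.D) (h2 : a * H.D ≤ Λ)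
    (h3 : 2 ^ 48 * Λ ^ 4 ≤ H.D) {A : Finset α} (hA : A ⊆ H.A0) (r : α → ℝ)
    (hX : (2 ^ 23 * Λ ^ 2) ^ 2 * H.X4 a A ≤ H.A0.card) :
    -(a * ∑ T ∈ H.tri A, ∑ e ∈ T, 2 * r e * ∑ f ∈ T.erase e, r f) ≤
      1 / 4 * ∑ e ∈ A, r e ^ 2 := by
  have hD0 : (0 : ℝ) ≤ H.D := Nat.cast_nonneg _
  have ha : 0 < a := by
    by_contra h
    nlinarith [mul_nonpos_of_nonpos_of_nonneg (not_lt.1 h) hD0]
  have hΛ : 1 ≤ Λ := h1.trans h2
  set μ := a⁻¹ with hμ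
  have hμ0 : 0 < μ := inv_pos.2 ha
  have haμ : a * μ = 1 := mul_inv_cancel₀ ha.ne'
  have hμD : μ ≤ H.D := by nlinarith [mul_le_mul_of_nonneg_left h1 hμ0.le]
  have hDμ : (H.D : ℝ) ≤ Λ * μ := by nlinarith [mul_le_mul_of_nonneg_left h2 hμ0.le]
  set S : ℝ := 2 ^ 23 * Λ ^ 2 with hS
  have hS0 : 0 < S := by positivity
  have hN' : (H.A0.card : ℝ) ≤ (H.D : ℝ) ^ 2 := by exact_mod_cast hN
  have h4 : S * ∑ e ∈ H.A0, (a * (H.gdeg A e : ℝ) - 1) ^ 2 ≤ H.A0.card + S ^ 2 * H.X4 a A := by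
    unfold X4
    rw [mul_sum, mul_sum, card_eq_sum_ones, Nat.cast_sum, ← sum_add_distrib]
    refine sum_le_sum fun e _ => ?_
    push_cast
    nlinarith [sq_nonneg (S * (a * (H.gdeg A e : ℝ) - 1) ^ 2 - 1),
      sq_nonneg (S * (a * (H.gdeg A e : ℝ) - 1) ^ 2)]
  have h5 : ∑ e ∈ H.A0, ((H.gdeg A e : ℝ) - μ) ^ 2 =
      μ ^ 2 * ∑ e ∈ H.A0, (a * (H.gdeg A e : ℝ) - 1) ^ 2 := by
    rw [mul_sum]
    refine sum_congr rfl fun e _ => ?_
    rw [← mul_pow]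
    congr 1
    linear_combination (-(H.gdeg A e : ℝ)) * haμ
  have h6 : 2 ^ 22 * ∑ e ∈ H.A0, (a * (H.gdeg A e : ℝ) - 1) ^ 2 ≤ μ ^ 2 := by
    have h7 : (H.D : ℝ) ^ 2 ≤ (Λ * μ) ^ 2 := pow_le_pow_left₀ hD0 hDμ 2
    refine le_of_mul_le_mul_left ?_ (by positivity : 0 < 2 * Λ ^ 2)
    nlinarith
  have h7 : 2 ^ 48 * (H.D : ℝ) ^ 3 ≤ μ ^ 4 := by
    have h8 : (H.D : ℝ) ^ 4 ≤ (Λ * μ) ^ 4 := pow_le_pow_left₀ hD0 hDμ 4
    have h9 := mul_le_mul_of_nonneg_left h3 (pow_nonneg hD0 3)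
    refine le_of_mul_le_mul_left ?_ (by positivity : 0 < Λ ^ 4)
    nlinarith
  have h8 := hG A hA μ (μ / 32) hμ0.le hμD (by positivity) (by
    rw [h5]
    have h9 := mul_le_mul_of_nonneg_left h6 (sq_nonneg μ)
    have h10 : 0 ≤ μ ^ 4 := by positivity
    nlinarith) r
  have h9 : ∑ T ∈ H.tri A, ∑ e ∈ T, 2 * r e * ∑ f ∈ T.erase e, r f =
      2 * ∑ T ∈ H.tri A, ∑ e ∈ T, ∑ f ∈ T.erase e, r e * r f := by
    simp only [mul_sum, mul_assoc]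
  rw [h9]
  have h10 := mul_le_mul_of_nonneg_left h8 ha.le
  have h11 : a * -(4 * (μ / 32) * ∑ e ∈ A, r e ^ 2) = -(1 / 8 * ∑ e ∈ A, r e ^ 2) := by
    linear_combination (-(1 / 8) * ∑ e ∈ A, r e ^ 2) * haμ
  linarith

theorem genPhi_bad {α : Type} [DecidableEq α] [Fintype α] (H : HG α) {a : ℝ} (ha : 0 ≤ a)
    (A : Finset α) (r : α → ℝ) :
    -(a * ∑ T ∈ H.tri A, ∑ e ∈ T, 2 * r e * ∑ f ∈ T.erase e, r f) ≤
      ∑ e ∈ A, H.u a A e * (2 * r e ^ 2) := by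
  rw [← sum_tri_u, ← mul_neg, ← sum_neg_distrib]
  refine mul_le_mul_of_nonneg_left (sum_le_sum fun T _ => ?_) ha
  have h2 : ∀ e ∈ T, 2 * r e * ∑ f ∈ T.erase e, r f =
      2 * (∑ f ∈ T, r f) * r e - 2 * r e ^ 2 :=
    fun e he => by rw [← add_sum_erase T r he]; ring
  rw [sum_congr rfl h2, sum_sub_distrib, ← mul_sum]
  nlinarith [sq_nonneg (∑ f ∈ T, r f)]

theorem gen_R2 : ∃ K : ℝ, 0 < K ∧ ∀ {α : Type} [DecidableEq α] [Fintype α] (H : HG α), H.Gap →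
    H.A0.card ≤ H.D ^ 2 → ∀ a Λ : ℝ, 1 ≤ a * H.D → a * H.D ≤ Λ → K * Λ ^ 4 ≤ H.D →
      ∀ A ⊆ H.A0, ∀ r : α → ℝ,
      H.gen (fun _ A r => ∑ e ∈ A, r e ^ 2) a A r ≤
        -(3 / 8) * ∑ e ∈ A, r e ^ 2 + 4 * H.Ups a A r
          + K * Λ ^ 5 * Real.sqrt H.D * (H.X4 a A + H.M4 a A r) := by
  refine ⟨2 ^ 48, by positivity, ?_⟩
  intro α _ _ H hG hN a Λ h1 h2 h3 A hA r
  have hD0 : (0 : ℝ) ≤ H.D := Nat.cast_nonneg _
  have ha : 0 < a := by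
    by_contra h
    nlinarith [mul_nonpos_of_nonpos_of_nonneg (not_lt.1 h) hD0]
  have hΛ : 1 ≤ Λ := h1.trans h2
  have hΛ4 : 1 ≤ Λ ^ 4 := one_le_pow₀ hΛ
  have hD1 : (1 : ℝ) ≤ H.D := by linarith
  set w := Real.sqrt H.D with hw
  have hw1 : 1 ≤ w := Real.one_le_sqrt.2 hD1
  rw [H.genPhi_add (φ := fun x => x ^ 2) (φ' := fun x => 2 * x)
    fun x => by simpa using hasDerivAt_pow 2 x]
  have hX := H.X4_nonneg a A
  have hM := H.M4_nonneg a A r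
  have hR : 0 ≤ ∑ e ∈ A, r e ^ 2 := sum_nonneg fun _ _ => sq_nonneg _
  have hd : ∑ e ∈ A, (H.u a A e - 1) ^ 4 ≤ H.X4 a A := by
    refine le_trans (le_of_eq (sum_congr rfl fun e he => ?_))
      (sum_le_sum_of_subset_of_nonneg hA fun _ _ _ => by positivity)
    rw [H.gdeg_eq_deg he, u]
  have hr4 : ∑ e ∈ A, r e ^ 4 ≤ 8 * H.X4 a A + 8 * H.M4 a A r := by
    refine le_trans ?_ (add_le_add_left (mul_le_mul_of_nonneg_left hd (by norm_num)) _)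
    unfold M4
    rw [mul_sum, mul_sum, ← sum_add_distrib]
    refine sum_le_sum fun e _ => ?_
    have e1 : r e = (H.u a A e - 1) - H.mm a A r e := by unfold mm; ring
    rw [e1]
    generalize H.u a A e - 1 = x
    generalize H.mm a A r e = y
    nlinarith [sq_nonneg (x + y), sq_nonneg (x ^ 2 - y ^ 2), sq_nonneg (x - y),
      mul_nonneg (sq_nonneg (x + y)) (sq_nonneg (x - y)),
      mul_nonneg (sq_nonneg (x + y)) (add_nonneg (sq_nonneg x) (sq_nonneg y))]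
  have hrest : -∑ e ∈ A, 2 * r e * H.yy a A r e - ∑ e ∈ A, H.u a A e * r e ^ 2 ≤
      -(5 / 8) * ∑ e ∈ A, r e ^ 2 + 4 * H.Ups a A r + ∑ e ∈ A, (H.u a A e - 1) ^ 4 +
        ∑ e ∈ A, r e ^ 4 := by
    unfold Ups
    rw [mul_sum, mul_sum, ← sum_neg_distrib, ← sum_sub_distrib, ← sum_add_distrib,
      ← sum_add_distrib, ← sum_add_distrib]
    refine sum_le_sum fun e _ => ?_
    nlinarith [sq_nonneg (r e / 2 + 2 * H.yy a A r e), sq_nonneg ((H.u a A e - 1) ^ 2 - r e ^ 2),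
      mul_nonneg (sq_nonneg (r e)) (sq_nonneg (H.u a A e - 1 + 1 / 4))]
  have hL : 1 ≤ Λ ^ 5 * w := one_le_mul_of_one_le_of_one_le (one_le_pow₀ hΛ) hw1
  have hXM : H.X4 a A + H.M4 a A r ≤ Λ ^ 5 * w * (H.X4 a A + H.M4 a A r) :=
    le_mul_of_one_le_left (by positivity) hL
  by_cases hc : (2 ^ 23 * Λ ^ 2) ^ 2 * H.X4 a A ≤ H.A0.card
  · have h4 := H.genPhi_good hG hN h1 h2 h3 hA r hc
    nlinarith
  · have h4 := H.genPhi_bad ha.le A r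
    have h5 : ∑ e ∈ A, H.u a A e * (2 * r e ^ 2) ≤
        2 * Λ * ((A.card : ℝ) + ∑ e ∈ A, r e ^ 4) := by
      rw [card_eq_sum_ones, Nat.cast_sum, ← sum_add_distrib, mul_sum]
      refine sum_le_sum fun e _ => ?_
      have h6 : H.u a A e ≤ Λ := by
        have : (H.deg A e : ℝ) ≤ H.D := by exact_mod_cast H.deg_le_D A e
        exact (mul_le_mul_of_nonneg_left this ha.le).trans h2
      have h7 := mul_le_mul_of_nonneg_right h6 (sq_nonneg (r e))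
      have h8 : r e ^ 2 ≤ 1 + r e ^ 4 := by nlinarith [sq_nonneg (r e ^ 2 - 1)]
      have h9 := mul_le_mul_of_nonneg_left h8 (by linarith : 0 ≤ Λ)
      push_cast
      linarith
    have h6 : (A.card : ℝ) ≤ H.A0.card := by exact_mod_cast card_le_card hA
    have h7 : (A.card : ℝ) + ∑ e ∈ A, r e ^ 4 ≤
        (2 ^ 46 + 8) * Λ ^ 4 * (H.X4 a A + H.M4 a A r) := by
      have h8 := mul_le_mul_of_nonneg_right hΛ4 (add_nonneg hX hM)
      have h9 : 0 ≤ Λ ^ 4 * H.M4 a A r := by positivity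
      nlinarith [not_le.1 hc]
    have h8 := mul_le_mul_of_nonneg_left h7 (by linarith : 0 ≤ 2 * Λ)
    have h9 : Λ ^ 5 * (H.X4 a A + H.M4 a A r) ≤ Λ ^ 5 * w * (H.X4 a A + H.M4 a A r) :=
      mul_le_mul_of_nonneg_right (le_mul_of_one_le_right (by positivity) hw1) (by positivity)
    nlinarith

end HG
end Vale.Agent.P046
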