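import Vale.Agent.P046.Defs2

open Finset

namespace Vale.Agent.P046
namespace HG

section aux
variable {α : Type} [DecidableEq α] (H : HG α)

theorem gw_walk {A : Finset α} {s : Finset (α × α × α × α)}
    (hs : ∀ q ∈ s, H.adj A q.1 q.2.1 ∧ H.adj A q.2.1 q.2.2.1 ∧ H.adj A q.2.2.1 q.2.2.2)
    {g : α → α → ℝ} (hg : ∀ x f, 0 ≤ g x f) :
    ∑ q ∈ s, g q.1 q.2.1 ≤ ∑ x ∈ A, ∑ f ∈ A.filter (fun f => H.adj A x f),
      g x f * ∑ e ∈ A.filter (fun e => H.adj A f e), 2 * (H.deg A e : ℝ) := by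
  have h1 : s ⊆ (A ×ˢ A ×ˢ A ×ˢ A).filter (fun q =>
      H.adj A q.1 q.2.1 ∧ H.adj A q.2.1 q.2.2.1 ∧ H.adj A q.2.2.1 q.2.2.2) := fun q hq => by
    obtain ⟨h1, h2, h3⟩ := hs q hq
    simp only [mem_filter, mem_product]
    exact ⟨⟨(H.adj_mem h1).1, (H.adj_mem h1).2, (H.adj_mem h3).1, (H.adj_mem h3).2⟩, h1, h2, h3⟩
  refine (sum_le_sum_of_subset_of_nonneg h1 fun q _ _ => hg _ _).trans (le_of_eq ?_)
  simp only [← card_nbr, card_filter, sum_filter, sum_product, mul_sum, Nat.cast_sum]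
  refine sum_congr rfl fun x _ => sum_congr rfl fun f _ => ?_
  by_cases h1 : H.adj A x f
  · rw [if_pos h1]
    refine sum_congr rfl fun e _ => ?_
    by_cases h2 : H.adj A f e
    · simp only [h1, h2, true_and, if_true, mul_sum]
      exact sum_congr rfl fun _ _ => by split_ifs <;> simp
    · simp [h2]
  · simp [h1]

theorem gw_mem {A : Finset α} {q : α × α × α × α} (hq : q ∈ H.quadIn A) :
    H.adj A q.1 q.2.1 ∧ H.adj A q.2.1 q.2.2.1 ∧ H.adj A q.2.2.1 q.2.2.2 ∧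
      (H.supp q).card = 8 ∧ q.1 ∈ H.supp q := by
  obtain ⟨h0, hA⟩ := mem_filter.1 hq
  obtain ⟨-, h1, h2, h3, -, h5⟩ := mem_filter.1 h0
  have key : ∀ {x f : α}, H.adj H.A0 x f → H.tr x f ⊆ H.supp q → H.adj A x f := fun h hs =>
    ⟨h.1, _, H.mem_tri.2 ⟨H.tri_subset _ (H.tr_of_adj h).1, hs.trans hA⟩, (H.tr_of_adj h).2⟩
  refine ⟨key h1 ?_, key h2 ?_, key h3 ?_, h5, ?_⟩
  · exact fun v hv => by simp [supp, hv]
  · exact fun v hv => by simp [supp, hv]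
  · exact fun v hv => by simp [supp, hv]
  · simp [supp, (H.tr_of_adj h1).2.1]

theorem gw_rot {A : Finset α} {q : α × α × α × α} (hq : q ∈ H.quadIn A) :
    (q.2.1, q.2.2.1, q.2.2.2, q.1) ∈ H.quadIn A := by
  have h : H.supp (q.2.1, q.2.2.1, q.2.2.2, q.1) = H.supp q := by
    ext v
    simp only [supp, mem_union]
    tauto
  simp only [quadIn, quad, mem_filter, mem_product, h] at hq ⊢
  tauto

theorem gw_rot_sum (A : Finset α) (F : α × α × α × α → ℝ) :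
    ∑ q ∈ H.quadIn A, F (q.2.1, q.2.2.1, q.2.2.2, q.1) = ∑ q ∈ H.quadIn A, F q :=
  sum_nbij' (fun q => (q.2.1, q.2.2.1, q.2.2.2, q.1)) (fun q => (q.2.2.2, q.1, q.2.1, q.2.2.1))
    (fun _ hq => H.gw_rot hq) (fun _ hq => H.gw_rot (H.gw_rot (H.gw_rot hq)))
    (fun _ _ => rfl) (fun _ _ => rfl) (fun _ _ => rfl)

theorem gw_supp (A : Finset α) {l : α → ℝ} (hl : ∀ v, 0 ≤ l v) :
    ∑ q ∈ H.quadIn A, ∑ v ∈ H.supp q, l v ≤ 4 * ∑ q ∈ H.quadIn A, ∑ v ∈ H.tr q.1 q.2.1, l v := by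
  have hu : ∀ S T : Finset α, ∑ v ∈ S ∪ T, l v ≤ ∑ v ∈ S, l v + ∑ v ∈ T, l v := fun S T => by
    rw [← sum_union_inter]
    exact le_add_of_nonneg_right (sum_nonneg fun v _ => hl v)
  have h1 := H.gw_rot_sum A (fun q => ∑ v ∈ H.tr q.1 q.2.1, l v)
  have h2 := H.gw_rot_sum A (fun q => ∑ v ∈ H.tr q.2.1 q.2.2.1, l v)
  have h3 := H.gw_rot_sum A (fun q => ∑ v ∈ H.tr q.2.2.1 q.2.2.2, l v)
  have h4 : ∑ q ∈ H.quadIn A, ∑ v ∈ H.supp q, l v ≤ ∑ q ∈ H.quadIn A,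
      (∑ v ∈ H.tr q.1 q.2.1, l v + ∑ v ∈ H.tr q.2.1 q.2.2.1, l v +
        ∑ v ∈ H.tr q.2.2.1 q.2.2.2, l v + ∑ v ∈ H.tr q.2.2.2 q.1, l v) :=
    sum_le_sum fun q _ => (hu _ _).trans (add_le_add ((hu _ _).trans
      (add_le_add (hu _ _) le_rfl)) le_rfl)
  simp only [sum_add_distrib] at h1 h2 h3 h4
  linarith

theorem gw_nb (a : ℝ) (A : Finset α) (g : α → ℝ) (f : α) :
    H.nb a A g f = a * ∑ e ∈ A.filter (fun e => H.adj A f e), g e := by
  unfold nb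
  rw [sum_thru_erase]

theorem gw_nb_sq [Fintype α] {a : ℝ} (ha : 0 ≤ a) (A : Finset α) :
    ∑ f ∈ A, H.u a A f * H.nb a A (H.u a A) f ^ 2 ≤ 491520 * H.UU a A := by
  have h1 : ∀ f ∈ A, H.u a A f * H.nb a A (H.u a A) f ^ 2 ≤
      2 * H.u a A f ^ 5 + H.nb a A (fun e => H.u a A e ^ 4) f := fun f _ => by
    have h2 := sq_sum_le_card_mul_sum_sq (s := A.filter (fun e => H.adj A f e)) (f := H.u a A)
    have h3 : ∑ e ∈ A.filter (fun e => H.adj A f e), 2 * H.u a A f ^ 2 * H.u a A e ^ 2 ≤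
        ∑ e ∈ A.filter (fun e => H.adj A f e), (H.u a A f ^ 4 + H.u a A e ^ 4) :=
      sum_le_sum fun e _ => by nlinarith [sq_nonneg (H.u a A f ^ 2 - H.u a A e ^ 2)]
    rw [sum_add_distrib, sum_const, nsmul_eq_mul, ← mul_sum] at h3
    rw [card_nbr] at h2 h3
    rw [gw_nb, gw_nb]
    have h4 := mul_le_mul_of_nonneg_left h2 (mul_nonneg (H.u_nonneg ha A f) (sq_nonneg a))
    have h5 := mul_le_mul_of_nonneg_left h3 ha
    have h6 : H.u a A f = a * H.deg A f := rfl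
    rw [h6] at h4 h5 ⊢
    linarith
  have h2 := sum_le_sum h1
  have h3 := H.sum_u_pow_le ha A 5
  rw [sum_add_distrib, sum_nb, ← mul_sum] at h2
  simp only [← pow_succ'] at h2
  norm_num [Nat.factorial] at h2 h3
  linarith

theorem gw_low [Fintype α] {γ : ℝ} (hγ : 0 < γ) (A : Finset α) {l : α → ℝ} (hl : ∀ v, 0 ≤ l v)
    (hl1 : ∀ v, l v ≤ 1) :
    (γ ^ 8) ^ 4 * ∑ q ∈ H.quadIn A, ∑ v ∈ H.tr q.1 q.2.1, l v ≤
      36 * γ ^ 4 * ∑ v ∈ A, H.u (γ ^ 8) A v * l v + 4 * γ ^ 12 * (491520 * H.UU (γ ^ 8) A) := by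
  set a := γ ^ 8 with ha
  have ha0 : 0 ≤ a := by positivity
  have h1 := H.gw_walk (A := A) (s := H.quadIn A) (fun q hq => by
    obtain ⟨h1, h2, h3, -⟩ := H.gw_mem hq
    exact ⟨h1, h2, h3⟩) (g := fun x f => ∑ v ∈ H.tr x f, l v)
    fun x f => sum_nonneg fun v _ => hl v
  have h2 : a ^ 2 * ∑ x ∈ A, ∑ f ∈ A.filter (fun f => H.adj A x f),
      (∑ v ∈ H.tr x f, l v) * ∑ e ∈ A.filter (fun e => H.adj A f e), 2 * (H.deg A e : ℝ) =
      4 * ∑ T ∈ H.tri A, ∑ f ∈ T, (∑ v ∈ T, l v) * H.nb a A (H.u a A) f := by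
    simp only [← sum_thru_erase H A _ (fun f => (∑ v ∈ H.tr _ f, l v) * _)]
    rw [← sum_tri, mul_sum, mul_sum]
    refine sum_congr rfl fun T hT => ?_
    rw [show (4 : ℝ) = 2 * 2 by norm_num, mul_assoc, ← sum_erase_swap (H.tri_card3 hT), mul_sum,
      mul_sum]
    refine sum_congr rfl fun x hx => ?_
    rw [mul_sum, mul_sum]
    refine sum_congr rfl fun f hf => ?_
    rw [H.tr_eq (H.tri_subset A hT) (ne_of_mem_erase hf).symm hx (mem_of_mem_erase hf), gw_nb]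
    unfold u
    rw [← mul_sum, ← mul_sum]
    ring
  have h3 : ∀ T ∈ H.tri A, a * ∑ f ∈ T, (∑ v ∈ T, l v) * H.nb a A (H.u a A) f ≤
      9 * γ ^ 4 * ∑ v ∈ T, l v + γ ^ 12 * ∑ f ∈ T, H.nb a A (H.u a A) f ^ 2 := fun T hT => by
    have k1 : ∑ v ∈ T, l v ≤ 3 := by
      simpa [H.tri_card3 hT] using sum_le_card_nsmul T l 1 fun v _ => hl1 v
    have k2 : 0 ≤ ∑ v ∈ T, l v := sum_nonneg fun v _ => hl v
    generalize ∑ v ∈ T, l v = L at k1 k2
    have k3 : ∑ f ∈ T, a * (L * H.nb a A (H.u a A) f) ≤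
        ∑ f ∈ T, (3 * γ ^ 4 * L + γ ^ 12 * H.nb a A (H.u a A) f ^ 2) := sum_le_sum fun f _ => by
      generalize H.nb a A (H.u a A) f = w
      have k4 := mul_le_mul_of_nonneg_left k1 (by positivity : 0 ≤ γ ^ 4 * L)
      rw [ha]
      nlinarith [sq_nonneg (γ ^ 2 * L - γ ^ 6 * w / 2), sq_nonneg (γ ^ 6 * w)]
    rw [sum_add_distrib, sum_const, H.tri_card3 hT, ← mul_sum, ← mul_sum T _ (γ ^ 12)] at k3
    simp only [nsmul_eq_mul, Nat.cast_ofNat] at k3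
    linarith
  have h4 := mul_le_mul_of_nonneg_left (sum_le_sum h3) ha0
  rw [sum_add_distrib, ← mul_sum, ← mul_sum, ← mul_sum, mul_add, mul_left_comm a (9 * γ ^ 4),
    mul_left_comm a (γ ^ 12), sum_tri_u, sum_tri_u] at h4
  have h5 := mul_le_mul_of_nonneg_left (H.gw_nb_sq ha0 A) (by positivity : 0 ≤ γ ^ 12)
  have h6 := mul_le_mul_of_nonneg_left h1 (by positivity : 0 ≤ a ^ 4)
  rw [show a ^ 4 = a ^ 2 * a ^ 2 by ring] at h6 ⊢
  rw [mul_assoc (a ^ 2) (a ^ 2) (∑ x ∈ A, _), h2] at h6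
  linarith

theorem gw_jump (A : Finset α) :
    ∑ T ∈ H.tri A, (((H.quadIn (A \ T)).card : ℝ) - (H.quadIn A).card) ≤
      ∑ q ∈ H.quadIn A, (64 - ∑ v ∈ H.supp q, (H.deg A v : ℝ)) := by
  have h1 : ∀ T ∈ H.tri A, ((H.quadIn (A \ T)).card : ℝ) - (H.quadIn A).card =
      -∑ q ∈ H.quadIn A, if (T ∩ H.supp q).Nonempty then 1 else 0 := fun T _ => by
    have h2 : H.quadIn (A \ T) = (H.quadIn A).filter (fun q => ¬ (T ∩ H.supp q).Nonempty) := by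
      ext q
      simp only [quadIn, mem_filter, not_nonempty_iff_eq_empty, subset_sdiff,
        disjoint_iff_inter_eq_empty, inter_comm T, and_assoc]
    have h3 := card_filter_add_card_filter_not (s := H.quadIn A)
      (fun q => (T ∩ H.supp q).Nonempty)
    rw [h2, sum_boole, ← h3]
    push_cast
    ring
  rw [sum_congr rfl h1, sum_neg_distrib, sum_comm, ← sum_neg_distrib]
  refine sum_le_sum fun q hq => ?_
  have h2 := (H.tri_lin A).hazard (H.supp q)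
  rw [(H.gw_mem hq).2.2.2.1] at h2
  rw [sum_boole]
  unfold deg
  norm_num at h2 ⊢
  linarith

end aux

theorem card_quad_le {α : Type} [DecidableEq α] [Fintype α] (H : HG α) :
    (H.quad.card : ℝ) ≤ H.NN * (2 * H.D) ^ 3 := by
  have h1 := H.gw_walk (A := H.A0) (s := H.quad) (fun q hq => by
    obtain ⟨-, h1, h2, h3, -⟩ := mem_filter.1 hq
    exact ⟨h1, h2, h3⟩) (g := fun _ _ => 1) fun _ _ => zero_le_one
  have hd : ∀ e, 2 * (H.deg H.A0 e : ℝ) ≤ 2 * H.D := fun e => by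
    have : (H.deg H.A0 e : ℝ) ≤ H.D := by exact_mod_cast H.deg_le_D H.A0 e
    linarith
  have h2 : ∀ (x : α) (g : α → ℝ) (c : ℝ), 0 ≤ c → (∀ e, g e ≤ c) →
      ∑ e ∈ H.A0.filter (fun e => H.adj H.A0 x e), g e ≤ 2 * H.D * c := fun x g c hc hg => by
    refine (sum_le_card_nsmul _ _ c fun e _ => hg e).trans ?_
    rw [nsmul_eq_mul, card_nbr]
    exact mul_le_mul_of_nonneg_right (hd x) hc
  simp only [sum_const, nsmul_eq_mul, mul_one, one_mul] at h1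
  refine h1.trans ((sum_le_card_nsmul _ _ _ fun x _ => h2 x _ _ (by positivity)
    fun f => h2 f _ _ (by positivity) hd).trans (le_of_eq ?_))
  unfold NN
  rw [nsmul_eq_mul]
  ring

theorem gen_om {φ φ' c : ℝ → ℝ} {C : ℝ} (hφ : PhiOK φ φ' c C) :
    ∃ K : ℝ, 0 < K ∧ ∀ {α : Type} [DecidableEq α] [Fintype α] (H : HG α) (γ : ℝ),
      0 < γ → γ ^ 8 ≤ 1 / 512 → ∀ A ⊆ H.A0, ∀ r : α → ℝ,
      H.gen (fun a A _ => H.om a A) (γ ^ 8) A r + H.Zq (γ ^ 8) A / 8 ≤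
        H.om (γ ^ 8) A / 2 + K * γ ^ 4 * (∑ e ∈ A, φ (r e) + H.M4 (γ ^ 8) A r)
          + K * γ ^ 10 * H.UU (γ ^ 8) A := by
  have hC := hφ.C1
  obtain ⟨K, hK⟩ : ∃ K, K = 16 * C / (1 / 32) ^ 4 := ⟨_, rfl⟩
  have hK0 : 0 < K := by rw [hK]; positivity
  refine ⟨144 * K + 7864320, by positivity, ?_⟩
  intro α _ _ H γ hγ h8 A _ r
  have hγ1 : γ ≤ 1 := (pow_le_one_iff_of_nonneg hγ.le (by norm_num : 8 ≠ 0)).1 (by linarith)
  obtain ⟨l, hl⟩ : ∃ l : α → ℝ, ∀ v, l v = if H.u (γ ^ 8) A v < 31 / 32 then 1 else 0 :=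
    ⟨_, fun _ => rfl⟩
  have l0 : ∀ v, 0 ≤ l v := fun v => by rw [hl]; split_ifs <;> norm_num
  have l1 : ∀ v, l v ≤ 1 := fun v => by rw [hl]; split_ifs <;> norm_num
  have h1 := H.gw_low hγ A l0 l1
  have h2 := H.gw_supp A l0
  have h3 := H.gw_jump A
  have hU := H.UU_nonneg (γ ^ 8) A
  have h12 := mul_le_mul_of_nonneg_right (pow_le_pow_of_le_one hγ.le hγ1 (by norm_num : 10 ≤ 12)) hU
  set a := γ ^ 8 with ha
  have ha0 : 0 ≤ a := by positivity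
  have l2 : ∀ v, 0 ≤ H.u a A v - 31 / 32 + l v := fun v => by
    have := H.u_nonneg ha0 A v
    rw [hl]
    split_ifs <;> linarith
  have h4 : ∑ v ∈ A, H.u a A v * l v ≤ K * (∑ e ∈ A, φ (r e) + H.M4 a A r) := by
    unfold M4
    rw [← sum_add_distrib, mul_sum, hK]
    refine sum_le_sum fun v _ => ?_
    rw [hl]
    split_ifs with h
    · refine le_trans (by linarith) (hφ.one_le_of_dev (by norm_num) (by norm_num) ?_)
      unfold mm
      exact le_abs.2 (Or.inr (by linarith))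
    · have := hφ.nonneg (r v)
      rw [mul_zero]
      positivity
  have h5 : ∀ q ∈ H.quadIn A, 8 + a * (64 - ∑ v ∈ H.supp q, (H.deg A v : ℝ)) + H.u a A q.1 / 8 ≤
      1 / 2 + ∑ v ∈ H.supp q, l v := fun q hq => by
    obtain ⟨-, -, -, k1, k2⟩ := H.gw_mem hq
    have k3 := single_le_sum (fun v _ => l2 v) k2
    have k4 : ∑ v ∈ H.supp q, H.u a A v = a * ∑ v ∈ H.supp q, (H.deg A v : ℝ) := by
      unfold u
      rw [mul_sum]
    rw [sum_add_distrib, sum_sub_distrib, sum_const, k1, k4] at k3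
    norm_num at k3
    linarith [l2 q.1, l0 q.1]
  have h6 := sum_le_sum h5
  simp only [sum_add_distrib, sum_const, nsmul_eq_mul, ← mul_sum, ← sum_div] at h6
  have hd : HasDerivAt (fun h : ℝ => H.om (a * Real.exp (2 * h)) A)
      (8 * H.om a A) 0 := by
    refine (((hasDerivAt_flow a).fun_pow 4).mul_const ((H.quadIn A).card : ℝ)).congr_deriv ?_
    unfold om
    simp
    ring
  have hΦ : 0 ≤ ∑ e ∈ A, φ (r e) + H.M4 a A r :=
    add_nonneg (sum_nonneg fun _ _ => hφ.nonneg _) (H.M4_nonneg a A r)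
  unfold gen
  beta_reduce
  rw [hd.deriv]
  unfold om Zq
  simp only [← mul_sub, ← mul_sum]
  have g2 := mul_le_mul_of_nonneg_left h2 (by positivity : 0 ≤ a ^ 4)
  have g3 := mul_le_mul_of_nonneg_left h3 (by positivity : 0 ≤ a ^ 4 * a)
  have g4 := mul_le_mul_of_nonneg_left h4 (by positivity : 0 ≤ γ ^ 4)
  have g6 := mul_le_mul_of_nonneg_left h6 (by positivity : 0 ≤ a ^ 4)
  have g7 : 0 ≤ γ ^ 4 * (∑ e ∈ A, φ (r e) + H.M4 a A r) := by positivity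
  have g8 : 0 ≤ K * γ ^ 10 * H.UU a A := by positivity
  linarith

end HG
end Vale.Agent.P046
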