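import Vale.Agent.P046.Defs2

open Finset

namespace Vale.Agent.P046
namespace HG

section
variable {α : Type} [DecidableEq α] (H : HG α)

/-- Ghost hyperedges at `e`. -/
def genXG (A : Finset α) (e : α) : Finset (Finset α) :=
  H.TT.filter (fun T => e ∈ T ∧ T.erase e ⊆ A)

/-- Ghost hyperedges destroyed by removing `T'`. -/
def genXk (A T' : Finset α) (e : α) : ℕ :=
  ((H.genXG A e).filter (fun T => (T' ∩ T.erase e).Nonempty)).card

theorem genX_sdiff (A T' : Finset α) (e : α) :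
    (H.gdeg (A \ T') e : ℝ) = H.gdeg A e - H.genXk A T' e := by
  have h1 : H.genXG (A \ T') e = (H.genXG A e).filter (fun T => ¬ (T' ∩ T.erase e).Nonempty) := by
    ext T
    simp only [genXG, mem_filter, Finset.not_nonempty_iff_eq_empty, subset_sdiff,
      disjoint_iff_inter_eq_empty, inter_comm T']
    tauto
  have h2 := Finset.card_filter_add_card_filter_not (s := H.genXG A e)
    (fun T => (T' ∩ T.erase e).Nonempty)
  rw [← h1] at h2
  have h3 : (H.genXk A T' e : ℝ) + H.gdeg (A \ T') e = H.gdeg A e := by exact_mod_cast h2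
  linarith

theorem genX_le {A T' : Finset α} (hT' : T'.card = 3) (e : α) : H.genXk A T' e ≤ 3 := by
  have hsub : (H.genXG A e).filter (fun T => (T' ∩ T.erase e).Nonempty) ⊆
      (T'.erase e).biUnion (fun x => H.TT.filter (fun T => e ∈ T ∧ x ∈ T)) := by
    intro T hT
    simp only [genXG, mem_filter, Finset.Nonempty, mem_inter, mem_erase] at hT
    obtain ⟨⟨h1, h2, -⟩, x, hx1, hx2, hx3⟩ := hT
    exact mem_biUnion.2 ⟨x, mem_erase.2 ⟨hx2, hx1⟩, mem_filter.2 ⟨h1, h2, hx3⟩⟩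
  refine (card_le_card hsub).trans (card_biUnion_le.trans ?_)
  have : ∀ x ∈ T'.erase e, (H.TT.filter (fun T => e ∈ T ∧ x ∈ T)).card ≤ 1 := by
    intro x hx
    apply card_le_one.2
    intro T hT S hS
    simp only [mem_filter] at hT hS
    exact H.lin0.eq_of_two hT.1 hS.1 (mem_erase.1 hx).1 hT.2.2 hT.2.1 hS.2.2 hS.2.1
  refine (Finset.sum_le_card_nsmul _ _ 1 this).trans ?_
  rw [smul_eq_mul, mul_one, ← hT']
  exact card_erase_le

theorem genX_sum (A : Finset α) (e : α) :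
    ∑ T' ∈ H.tri A, (H.genXk A T' e : ℝ) = ∑ T ∈ H.genXG A e,
      (((H.tri A).filter (fun T' => (T' ∩ T.erase e).Nonempty)).card : ℝ) := by
  simp only [genXk, card_filter]
  push_cast
  exact sum_comm

theorem genX_pow {m a k : ℝ} (hk : 0 ≤ k) (h3 : k ≤ 3) :
    (m - a * k) ^ 4 - m ^ 4 ≤ (-4 * m ^ 3 + 24 * a * m ^ 2 + 81 * a ^ 3) * a * k := by
  have h1 : k ^ 2 ≤ 3 * k := by nlinarith
  have h2 : k ^ 4 ≤ 27 * k := by nlinarith [pow_le_pow_left₀ hk h3 3]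
  have h4 := mul_le_mul_of_nonneg_left h1 (by positivity : 0 ≤ 8 * m ^ 2 * a ^ 2)
  have h5 := mul_le_mul_of_nonneg_left h2 (by positivity : 0 ≤ 3 * a ^ 4)
  nlinarith [sq_nonneg (m * (a * k) + (a * k) ^ 2)]

theorem genX_young (x y : ℝ) : -4 * x ^ 3 * y ≤ 3 * x ^ 4 + y ^ 4 := by
  nlinarith [mul_nonneg (sq_nonneg (x + y)) (sq_nonneg (x - y)),
    mul_nonneg (sq_nonneg (x + y)) (sq_nonneg x)]

theorem genX_pt (hD : 1 ≤ H.D) {a Λ : ℝ} (ha : 0 ≤ a) (hΛ : 1 ≤ Λ) (haD : a * H.D ≤ Λ)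
    (A : Finset α) (e : α) :
    4 * (a * (H.gdeg A e : ℝ) - 1) ^ 3 * (2 * a * H.gdeg A e) +
      a * ∑ T' ∈ H.tri A, ((a * (H.gdeg (A \ T') e : ℝ) - 1) ^ 4 - (a * (H.gdeg A e : ℝ) - 1) ^ 4)
      ≤ 33 * Λ ^ 5 * (a * (H.gdeg A e : ℝ) - 1) ^ 4 +
        H.nb a H.A0 (fun f => (a * (H.gdeg A f : ℝ) - 1) ^ 4) e +
        442 * Λ ^ 5 * (1 / (H.D : ℝ) ^ 2) := by
  set d : α → ℝ := fun f => a * (H.gdeg A f : ℝ) - 1 with hd
  set n : Finset α → ℝ := fun T =>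
    (((H.tri A).filter (fun T' => (T' ∩ T.erase e).Nonempty)).card : ℝ) with hn
  have hD1 : (1 : ℝ) ≤ H.D := by exact_mod_cast hD
  have hG : H.genXG A e ⊆ thru H.TT e := fun T hT =>
    mem_thru.2 ⟨(mem_filter.1 hT).1, (mem_filter.1 hT).2.1⟩
  have hGc : ((H.genXG A e).card : ℝ) ≤ H.D := by
    exact_mod_cast (card_le_card hG).trans (H.card_thru_TT_le e)
  have hgd : (H.gdeg A e : ℝ) = (H.genXG A e).card := rfl
  have haG : a * (H.genXG A e).card ≤ Λ := (mul_le_mul_of_nonneg_left hGc ha).trans haD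
  have h1 : ∑ T' ∈ H.tri A, ((a * (H.gdeg (A \ T') e : ℝ) - 1) ^ 4 - d e ^ 4) ≤
      (-4 * d e ^ 3 + 24 * a * d e ^ 2 + 81 * a ^ 3) * a * ∑ T ∈ H.genXG A e, n T := by
    rw [← genX_sum, mul_sum]
    refine sum_le_sum fun T' hT' => ?_
    have : a * (H.gdeg (A \ T') e : ℝ) - 1 = d e - a * H.genXk A T' e := by
      rw [genX_sdiff, hd]; ring
    rw [this]
    exact genX_pow (Nat.cast_nonneg _) (by exact_mod_cast H.genX_le (H.tri_card3 hT') e)
  have h2 : ∀ T ∈ H.genXG A e, a * n T ≤ 2 * Λ ∧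
      -4 * d e ^ 3 * (a * n T - 2) ≤ 9 * d e ^ 4 + 256 * a ^ 4 + ∑ f ∈ T.erase e, d f ^ 4 := by
    intro T hT
    obtain ⟨t1, t2, t3⟩ := mem_filter.1 hT
    have c2 := card_erase_two (H.card3 T t1) t2
    have k1 : n T ≤ ∑ f ∈ T.erase e, (H.deg A f : ℝ) := by
      simp only [hn]
      exact_mod_cast card_meet_le (H.tri A) (T.erase e)
    have k2 : ∑ f ∈ T.erase e, (H.deg A f : ℝ) - 4 ≤ n T := by
      have := (H.tri_lin A).hazard (T.erase e)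
      rw [c2] at this
      norm_num at this
      simp only [hn, deg]
      linarith
    obtain ⟨x, y, hxy, hE⟩ := card_eq_two.1 c2
    have hx : x ∈ A := t3 (hE ▸ by simp)
    have hy : y ∈ A := t3 (hE ▸ by simp)
    rw [hE, sum_pair hxy] at k1 k2 ⊢
    have dx : d x = a * H.deg A x - 1 := by rw [hd, ← H.gdeg_eq_deg hx]
    have dy : d y = a * H.deg A y - 1 := by rw [hd, ← H.gdeg_eq_deg hy]
    have bx : (H.deg A x : ℝ) ≤ H.D := by exact_mod_cast H.deg_le_D A x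
    have by' : (H.deg A y : ℝ) ≤ H.D := by exact_mod_cast H.deg_le_D A y
    refine ⟨by nlinarith, ?_⟩
    set ε := (H.deg A x : ℝ) + H.deg A y - n T with hε
    have e1 : a * n T - 2 = d x + d y + -(a * ε) := by rw [dx, dy, hε]; ring
    have e2 : (a * ε) ^ 4 ≤ (a * 4) ^ 4 :=
      pow_le_pow_left₀ (mul_nonneg ha (by linarith)) (mul_le_mul_of_nonneg_left (by linarith) ha) 4
    rw [e1]
    linarith [genX_young (d e) (d x), genX_young (d e) (d y), genX_young (d e) (-(a * ε))]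
  have h3 : a * ∑ T ∈ H.genXG A e, n T ≤ (H.genXG A e).card * (2 * Λ) := by
    rw [mul_sum, ← nsmul_eq_mul]
    exact sum_le_card_nsmul _ _ _ fun T hT => (h2 T hT).1
  have h4 : -4 * d e ^ 3 * (a * ∑ T ∈ H.genXG A e, n T - 2 * (H.genXG A e).card) ≤
      (H.genXG A e).card * (9 * d e ^ 4 + 256 * a ^ 4) +
        ∑ T ∈ thru (H.tri H.A0) e, ∑ f ∈ T.erase e, d f ^ 4 := by
    have k := sum_le_sum fun T hT => (h2 T hT).2
    rw [← mul_sum, sum_sub_distrib, ← mul_sum, sum_add_distrib, sum_const, sum_const,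
      nsmul_eq_mul, nsmul_eq_mul] at k
    have k2 : ∑ T ∈ H.genXG A e, ∑ f ∈ T.erase e, d f ^ 4 ≤
        ∑ T ∈ thru H.TT e, ∑ f ∈ T.erase e, d f ^ 4 :=
      sum_le_sum_of_subset_of_nonneg hG fun _ _ _ => sum_nonneg fun _ _ => by positivity
    rw [tri_A0]
    linarith
  set q : ℝ := 1 / (H.D : ℝ) ^ 2 with hq
  have hq0 : 0 ≤ q := by positivity
  have a1 : a ≤ Λ := by nlinarith
  have a2 : a ^ 2 ≤ Λ ^ 2 * q := by
    rw [hq, mul_one_div, le_div_iff₀ (by positivity), ← mul_pow]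
    exact pow_le_pow_left₀ (by positivity) haD 2
  have a3 : a ^ 3 ≤ Λ ^ 3 * q := by
    have := mul_le_mul a1 a2 (by positivity) (by linarith)
    linarith
  have a4 : a ^ 4 ≤ Λ ^ 4 * q := by
    have := mul_le_mul a1 a3 (by positivity) (by linarith)
    linarith
  have k1 := mul_le_mul_of_nonneg_left h1 ha
  have k2 := mul_le_mul_of_nonneg_left h4 ha
  have k3 : a * (a * ∑ T ∈ H.genXG A e, n T) ≤ 2 * Λ ^ 2 := by
    have := mul_le_mul_of_nonneg_left h3 ha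
    have := mul_le_mul_of_nonneg_right haG (by linarith : 0 ≤ 2 * Λ)
    linarith
  have k4 := mul_le_mul_of_nonneg_left k3 (by positivity : 0 ≤ 24 * a * d e ^ 2 + 81 * a ^ 3)
  have k5 := mul_le_mul_of_nonneg_right haG (by positivity : 0 ≤ 9 * d e ^ 4 + 256 * a ^ 4)
  have k6 : 24 * a * d e ^ 2 + 81 * a ^ 3 ≤ 12 * d e ^ 4 + (12 * Λ ^ 2 + 81 * Λ ^ 3) * q := by
    nlinarith [sq_nonneg (d e ^ 2 - a)]
  have k7 := mul_le_mul_of_nonneg_right k6 (by positivity : 0 ≤ 2 * Λ ^ 2)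
  have k8 := mul_le_mul_of_nonneg_left a4 (by linarith : 0 ≤ Λ)
  have l1 : Λ ≤ Λ ^ 5 := le_self_pow₀ hΛ (by norm_num)
  have l2 : Λ ^ 2 ≤ Λ ^ 5 := pow_le_pow_right₀ hΛ (by norm_num)
  have l4 : Λ ^ 4 ≤ Λ ^ 5 := pow_le_pow_right₀ hΛ (by norm_num)
  have m1 := mul_le_mul_of_nonneg_right l1 (by positivity : 0 ≤ d e ^ 4)
  have m2 := mul_le_mul_of_nonneg_right l2 (by positivity : 0 ≤ d e ^ 4)
  have m4 := mul_le_mul_of_nonneg_right l4 hq0
  change 4 * d e ^ 3 * (2 * a * H.gdeg A e) +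
      a * ∑ T' ∈ H.tri A, ((a * (H.gdeg (A \ T') e : ℝ) - 1) ^ 4 - d e ^ 4)
      ≤ 33 * Λ ^ 5 * d e ^ 4 + a * ∑ T ∈ thru (H.tri H.A0) e, ∑ f ∈ T.erase e, d f ^ 4 +
        442 * Λ ^ 5 * q
  rw [hgd]
  linarith

end

theorem gen_X4 : ∃ K : ℝ, 0 < K ∧ ∀ {α : Type} [DecidableEq α] [Fintype α] (H : HG α),
    1 ≤ H.D → ∀ a Λ : ℝ, 0 ≤ a → 1 ≤ Λ → a * H.D ≤ Λ → ∀ (A : Finset α) (r : α → ℝ),
      H.gen (fun a A _ => H.X4 a A) a A r ≤ K * Λ ^ 5 * (H.X4 a A + H.NN / (H.D : ℝ) ^ 2) := by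
  refine ⟨442, by norm_num, ?_⟩
  intro α _ _ H hD a Λ ha hΛ haD A r
  have hd : HasDerivAt (fun h : ℝ => H.X4 (a * Real.exp (2 * h)) A)
      (∑ e ∈ H.A0, 4 * (a * (H.gdeg A e : ℝ) - 1) ^ 3 * (2 * a * H.gdeg A e)) 0 := by
    refine HasDerivAt.fun_sum fun e _ => ?_
    have := (((hasDerivAt_flow a).mul_const (H.gdeg A e : ℝ)).sub_const 1).fun_pow 4
    simpa only [mul_zero, Real.exp_zero, mul_one, Nat.cast_ofNat, Nat.add_one_sub_one] using this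
  unfold gen
  beta_reduce
  rw [hd.deriv]
  have hX := H.X4_nonneg a A
  have h1 : ∑ f ∈ H.A0, H.u a H.A0 f * (a * (H.gdeg A f : ℝ) - 1) ^ 4 ≤ Λ ^ 5 * H.X4 a A := by
    unfold X4
    rw [mul_sum]
    refine sum_le_sum fun f _ => mul_le_mul_of_nonneg_right ?_ (by positivity)
    have : (H.deg H.A0 f : ℝ) ≤ H.D := by exact_mod_cast H.deg_le_D H.A0 f
    exact ((mul_le_mul_of_nonneg_left this ha).trans haD).trans (le_self_pow₀ hΛ (by norm_num))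
  have h2 := sum_le_sum fun e (_ : e ∈ H.A0) => H.genX_pt hD ha hΛ haD A e
  simp only [sum_add_distrib, ← mul_sum, sum_nb, sum_const, nsmul_eq_mul] at h2
  have h3 : ∑ T ∈ H.tri A, (H.X4 a (A \ T) - H.X4 a A) = ∑ e ∈ H.A0, ∑ T' ∈ H.tri A,
      ((a * (H.gdeg (A \ T') e : ℝ) - 1) ^ 4 - (a * (H.gdeg A e : ℝ) - 1) ^ 4) := by
    unfold X4
    simp only [← sum_sub_distrib]
    exact sum_comm
  rw [h3]
  have h4 : 0 ≤ Λ ^ 5 * H.X4 a A := by positivity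
  have h5 : (H.A0.card : ℝ) * (442 * Λ ^ 5 * (1 / (H.D : ℝ) ^ 2)) =
      442 * Λ ^ 5 * (H.NN / (H.D : ℝ) ^ 2) := by unfold NN; ring
  unfold X4 at h1 h4 ⊢
  linarith

end HG
end Vale.Agent.P046
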