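import Vale.Agent.P046.Defs2

open Finset

set_option linter.unusedSectionVars false

namespace Vale.Agent.P046
namespace HG

section aux
variable {α : Type} [DecidableEq α] [Fintype α] (H : HG α)

/-- Loss of `y` by the destroyed hyperedges through `e`. -/
noncomputable def gy1Q (a : ℝ) (A : Finset α) (r : α → ℝ) (e : α) (T' : Finset α) : ℝ :=
  a * ∑ T ∈ (thru (H.tri A) e).filter (fun T => (T ∩ T').Nonempty), ∑ f ∈ T.erase e, H.mm a A r f

/-- Loss of `y` by the degree changes at the neighbours. -/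
noncomputable def gy1P (a : ℝ) (A : Finset α) (e : α) (T' : Finset α) : ℝ :=
  a ^ 2 * ∑ T ∈ (thru (H.tri A) e).filter (fun T => ¬ (T ∩ T').Nonempty),
    ∑ f ∈ T.erase e, (H.kk A T' f : ℝ)

/-- The remainder of the first order term. -/
noncomputable def gy1G (a : ℝ) (A : Finset α) (e : α) (T : Finset α) : ℝ :=
  ∑ f ∈ T.erase e, (2 * a * H.u a A f + a ^ 2 *
    ∑ T' ∈ ((H.tri A).filter (fun T' => f ∉ T')).filter (fun T' => (T ∩ T').Nonempty),
      (H.kk A T' f : ℝ))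

theorem gy1_yy_sdiff (a : ℝ) (A : Finset α) (r : α → ℝ) (e : α) (T' : Finset α) :
    H.yy a (A \ T') r e = H.yy a A r e - H.gy1Q a A r e T' - H.gy1P a A e T' := by
  unfold yy nb gy1Q gy1P
  rw [thru_sdiff]
  have h := Finset.sum_filter_add_sum_filter_not (thru (H.tri A) e) (fun T => (T ∩ T').Nonempty)
    (fun T => ∑ f ∈ T.erase e, H.mm a A r f)
  rw [← h]
  simp only [mm_sdiff, Finset.sum_sub_distrib, ← Finset.mul_sum]
  ring

theorem gy1_sumQ (a : ℝ) (A : Finset α) (r : α → ℝ) (e : α) :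
    a * ∑ T' ∈ (H.tri A).filter (fun T' => e ∉ T'), H.gy1Q a A r e T'
      = a * ∑ T ∈ thru (H.tri A) e, (∑ f ∈ T.erase e, H.mm a A r f) *
          ((∑ f ∈ T.erase e, (H.u a A f - 1)) + 2 - 2 * a) := by
  unfold gy1Q
  rw [← Finset.mul_sum, sum_destroy, Finset.mul_sum]
  congr 1
  refine Finset.sum_congr rfl fun T hT => ?_
  have hc := card_erase_two (H.tri_card3 (mem_thru.1 hT).1) (mem_thru.1 hT).2
  simp only [Finset.sum_sub_distrib, Finset.sum_const, hc, u, ← Finset.mul_sum, nsmul_eq_mul]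
  push_cast
  ring

theorem gy1_sumP (a : ℝ) (A : Finset α) (e : α) :
    H.nb a A (H.nb a A (H.u a A)) e
        - a * ∑ T' ∈ (H.tri A).filter (fun T' => e ∉ T'), H.gy1P a A e T'
      = a * ∑ T ∈ thru (H.tri A) e, H.gy1G a A e T := by
  have h1 : ∑ T' ∈ (H.tri A).filter (fun T' => e ∉ T'), H.gy1P a A e T'
      = ∑ T ∈ thru (H.tri A) e, ∑ f ∈ T.erase e, a ^ 2 *
        ∑ T' ∈ ((H.tri A).filter (fun T' => f ∉ T')).filter (fun T' => ¬ (T ∩ T').Nonempty),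
          (H.kk A T' f : ℝ) := by
    unfold gy1P
    rw [← Finset.mul_sum, Finset.sum_comm' (t' := thru (H.tri A) e)
      (s' := fun T => (H.tri A).filter (fun T' => ¬ (T ∩ T').Nonempty)), Finset.mul_sum]
    · refine Finset.sum_congr rfl fun T hT => ?_
      rw [Finset.sum_comm, Finset.mul_sum]
      refine Finset.sum_congr rfl fun f hf => ?_
      congr 1
      refine Finset.sum_congr ?_ fun _ _ => rfl
      ext T'
      simp only [mem_filter]
      constructor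
      · rintro ⟨h1, h2⟩
        exact ⟨⟨h1, fun h => h2 ⟨f, mem_inter.2 ⟨(mem_erase.1 hf).2, h⟩⟩⟩, h2⟩
      · rintro ⟨⟨h1, _⟩, h2⟩
        exact ⟨h1, h2⟩
    · intro T' T
      simp only [mem_filter]
      constructor
      · rintro ⟨⟨h1, _⟩, h2, h3⟩
        exact ⟨⟨h1, h3⟩, h2⟩
      · rintro ⟨⟨h1, h3⟩, h2⟩
        exact ⟨⟨h1, fun h => h3 ⟨e, mem_inter.2 ⟨(mem_thru.1 h2).2, h⟩⟩⟩, h2, h3⟩
  rw [h1]
  conv_lhs => rw [nb]
  rw [← mul_sub, ← Finset.sum_sub_distrib]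
  congr 1
  refine Finset.sum_congr rfl fun T _ => ?_
  unfold gy1G
  rw [← Finset.sum_sub_distrib]
  refine Finset.sum_congr rfl fun f _ => ?_
  have h2 := H.sum_kk_u a A f
  have h3 := Finset.sum_filter_add_sum_filter_not ((H.tri A).filter (fun T' => f ∉ T'))
    (fun T' => (T ∩ T').Nonempty) (fun T' => (H.kk A T' f : ℝ))
  rw [← h3] at h2
  linear_combination (-1) * h2

theorem gy1G_nonneg {a : ℝ} (ha : 0 ≤ a) (A : Finset α) (e : α) (T : Finset α) :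
    0 ≤ H.gy1G a A e T := by
  unfold gy1G
  refine Finset.sum_nonneg fun f _ => ?_
  have := H.u_nonneg ha A f
  have h2 : 0 ≤ ∑ T' ∈ ((H.tri A).filter (fun T' => f ∉ T')).filter
      (fun T' => (T ∩ T').Nonempty), (H.kk A T' f : ℝ) :=
    Finset.sum_nonneg fun _ _ => Nat.cast_nonneg _
  positivity

theorem gy1G_le {a : ℝ} (ha : 0 ≤ a) (A : Finset α) (e : α) {T : Finset α}
    (hT : T ∈ thru (H.tri A) e) : H.gy1G a A e T ≤ 6 * a * ∑ f ∈ T, H.u a A f := by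
  have hT1 := (mem_thru.1 hT).1
  have hc := card_erase_two (H.tri_card3 hT1) (mem_thru.1 hT).2
  unfold gy1G
  have key : ∀ f ∈ T.erase e, 2 * a * H.u a A f + a ^ 2 *
      ∑ T' ∈ ((H.tri A).filter (fun T' => f ∉ T')).filter (fun T' => (T ∩ T').Nonempty),
        (H.kk A T' f : ℝ) ≤ 3 * a * ∑ f ∈ T, H.u a A f := by
    intro f hf
    have hfT := (mem_erase.1 hf).2
    have h1 : ∑ T' ∈ ((H.tri A).filter (fun T' => f ∉ T')).filter (fun T' => (T ∩ T').Nonempty),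
        (H.kk A T' f : ℝ) ≤ ∑ _T' ∈ ((H.tri A).filter (fun T' => f ∉ T')).filter
          (fun T' => (T ∩ T').Nonempty), (3 : ℝ) := by
      refine Finset.sum_le_sum fun T' hT' => ?_
      have := mem_filter.1 (mem_filter.1 hT').1
      exact_mod_cast H.kk_le_three this.1 this.2
    rw [Finset.sum_const, nsmul_eq_mul, H.card_meet_avoid hT1 hfT] at h1
    have h2 : ∑ g ∈ T.erase f, ((H.deg A g : ℝ) - 1) ≤ ∑ g ∈ T.erase f, (H.deg A g : ℝ) :=
      Finset.sum_le_sum fun g _ => by linarith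
    have h3 : a * ∑ g ∈ T.erase f, (H.deg A g : ℝ) = ∑ g ∈ T.erase f, H.u a A g := by
      rw [Finset.mul_sum]; rfl
    have h4 := Finset.add_sum_erase T (H.u a A) hfT
    have h5 := H.u_nonneg ha A f
    have h6 := mul_le_mul_of_nonneg_left (h1.trans (mul_le_mul_of_nonneg_right h2 (by norm_num)))
      (sq_nonneg a)
    have h7 : a ^ 2 * ((∑ g ∈ T.erase f, (H.deg A g : ℝ)) * 3)
        = 3 * a * ∑ g ∈ T.erase f, H.u a A g := by rw [← h3]; ring
    rw [h7] at h6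
    rw [← h4]
    nlinarith [mul_nonneg ha h5]
  refine (Finset.sum_le_sum key).trans ?_
  rw [Finset.sum_const, hc, nsmul_eq_mul]
  push_cast
  linarith

theorem gy1_sumQ2 (a : ℝ) (A : Finset α) (r : α → ℝ) (e : α) :
    ∑ T' ∈ (H.tri A).filter (fun T' => e ∉ T'), H.gy1Q a A r e T' ^ 2
      ≤ ∑ T ∈ thru (H.tri A) e,
        3 * a * (∑ f ∈ T.erase e, H.mm a A r f) ^ 2 * ∑ f ∈ T.erase e, H.u a A f := by
  have h1 : ∀ T' ∈ (H.tri A).filter (fun T' => e ∉ T'), H.gy1Q a A r e T' ^ 2 ≤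
      ∑ T ∈ (thru (H.tri A) e).filter (fun T => (T ∩ T').Nonempty),
        3 * a ^ 2 * (∑ f ∈ T.erase e, H.mm a A r f) ^ 2 := by
    intro T' hT'
    unfold gy1Q
    have hk : (((thru (H.tri A) e).filter (fun T => (T ∩ T').Nonempty)).card : ℝ) ≤ 3 := by
      exact_mod_cast H.kk_le_three (mem_filter.1 hT').1 (mem_filter.1 hT').2
    have h2 := sq_sum_le_card_mul_sum_sq
      (s := (thru (H.tri A) e).filter (fun T => (T ∩ T').Nonempty))
      (f := fun T => ∑ f ∈ T.erase e, H.mm a A r f)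
    have h3 : 0 ≤ ∑ T ∈ (thru (H.tri A) e).filter (fun T => (T ∩ T').Nonempty),
        (∑ f ∈ T.erase e, H.mm a A r f) ^ 2 := Finset.sum_nonneg fun _ _ => sq_nonneg _
    have h4 := mul_le_mul_of_nonneg_left (h2.trans (mul_le_mul_of_nonneg_right hk h3))
      (sq_nonneg a)
    rw [← Finset.mul_sum, mul_pow]
    linarith
  refine (Finset.sum_le_sum h1).trans ?_
  rw [sum_destroy]
  refine Finset.sum_le_sum fun T _ => ?_
  have h2 : ∑ g ∈ T.erase e, ((H.deg A g : ℝ) - 1) ≤ ∑ g ∈ T.erase e, (H.deg A g : ℝ) :=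
    Finset.sum_le_sum fun g _ => by linarith
  have h3 : a * ∑ g ∈ T.erase e, (H.deg A g : ℝ) = ∑ g ∈ T.erase e, H.u a A g := by
    rw [Finset.mul_sum]; rfl
  rw [← h3]
  have h4 := mul_le_mul_of_nonneg_right h2
    (show 0 ≤ 3 * a ^ 2 * (∑ f ∈ T.erase e, H.mm a A r f) ^ 2 by positivity)
  linarith

theorem gy1P_le (a : ℝ) (A : Finset α) (e : α) (T' : Finset α) :
    H.gy1P a A e T' ≤ a ^ 2 * ∑ x ∈ T', (H.cnb A x e : ℝ) := by
  unfold gy1P
  refine mul_le_mul_of_nonneg_left ?_ (sq_nonneg a)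
  have h1 : ∑ T ∈ (thru (H.tri A) e).filter (fun T => ¬ (T ∩ T').Nonempty),
      ∑ f ∈ T.erase e, (H.kk A T' f : ℝ) ≤
      ∑ T ∈ (thru (H.tri A) e).filter (fun T => ¬ (T ∩ T').Nonempty),
        ∑ f ∈ T.erase e, ((T'.filter (fun x => H.adj A x f)).card : ℝ) := by
    refine Finset.sum_le_sum fun T hT => Finset.sum_le_sum fun f hf => ?_
    have : f ∉ T' := fun h => (mem_filter.1 hT).2 ⟨f, mem_inter.2 ⟨(mem_erase.1 hf).2, h⟩⟩
    exact_mod_cast H.kk_le_adj A this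
  have h2 : ∑ T ∈ (thru (H.tri A) e).filter (fun T => ¬ (T ∩ T').Nonempty),
        ∑ f ∈ T.erase e, ((T'.filter (fun x => H.adj A x f)).card : ℝ) ≤
      ∑ T ∈ thru (H.tri A) e, ∑ f ∈ T.erase e, ((T'.filter (fun x => H.adj A x f)).card : ℝ) :=
    Finset.sum_le_sum_of_subset_of_nonneg (filter_subset _ _)
      fun _ _ _ => Finset.sum_nonneg fun _ _ => Nat.cast_nonneg _
  refine (h1.trans h2).trans (le_of_eq ?_)
  rw [sum_thru_erase]
  simp only [cnb, Finset.card_filter, Nat.cast_sum, Nat.cast_ite, Nat.cast_one, Nat.cast_zero]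
  rw [Finset.sum_comm]
  refine Finset.sum_congr rfl fun x _ => ?_
  rw [Finset.sum_filter]
  refine Finset.sum_congr rfl fun f _ => ?_
  by_cases h1 : H.adj A e f
  · have h1' := H.adj_symm h1
    simp [h1, h1']
  · have h1' : ¬ H.adj A f e := fun h => h1 (H.adj_symm h)
    simp [h1, h1']

theorem gy1_sumP2 {a : ℝ} (A : Finset α) (e : α) :
    ∑ T' ∈ (H.tri A).filter (fun T' => e ∉ T'), H.gy1P a A e T' ^ 2
      ≤ 3 * a ^ 4 * ∑ x ∈ A.erase e, (H.deg A x : ℝ) * (H.cnb A x e : ℝ) ^ 2 := by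
  have h1 : ∀ T' ∈ (H.tri A).filter (fun T' => e ∉ T'), H.gy1P a A e T' ^ 2 ≤
      3 * a ^ 4 * ∑ x ∈ T', (H.cnb A x e : ℝ) ^ 2 := by
    intro T' hT'
    have h0 : 0 ≤ H.gy1P a A e T' := mul_nonneg (sq_nonneg a)
      (Finset.sum_nonneg fun _ _ => Finset.sum_nonneg fun _ _ => Nat.cast_nonneg _)
    have h2 := pow_le_pow_left₀ h0 (H.gy1P_le a A e T') 2
    have h3 := sq_sum_le_card_mul_sum_sq (s := T') (f := fun x => (H.cnb A x e : ℝ))
    rw [H.tri_card3 (mem_filter.1 hT').1] at h3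
    have h4 := mul_le_mul_of_nonneg_left h3 (show 0 ≤ a ^ 4 by positivity)
    push_cast at h4
    rw [mul_pow] at h2
    linarith
  refine (Finset.sum_le_sum h1).trans ?_
  rw [← Finset.mul_sum]
  refine mul_le_mul_of_nonneg_left ?_ (by positivity)
  have hsub : ∀ T ∈ (H.tri A).filter (fun T' => e ∉ T'), T ⊆ A.erase e := fun T hT x hx =>
    mem_erase.2 ⟨fun h => (mem_filter.1 hT).2 (h ▸ hx), H.tri_sub A T (mem_filter.1 hT).1 hx⟩
  rw [sum_inc_card _ (A.erase e) hsub]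
  refine Finset.sum_le_sum fun x _ => mul_le_mul_of_nonneg_right ?_ (sq_nonneg _)
  exact_mod_cast card_le_card (filter_subset_filter _ (filter_subset _ _))

theorem gy1_point {a : ℝ} (ha : 0 ≤ a) (A : Finset α) (r : α → ℝ) (e : α) :
    2 * H.yy a A r e * (2 * H.yy a A r e + H.nb a A (H.nb a A (H.u a A)) e)
      + a * (-((H.deg A e : ℝ) * H.yy a A r e ^ 2)
        + ∑ T' ∈ (H.tri A).filter (fun T' => e ∉ T'),
          (H.yy a (A \ T') r e ^ 2 - H.yy a A r e ^ 2)) ≤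
      a * ∑ T ∈ thru (H.tri A) e,
        (3 * (∑ f ∈ T.erase e, H.mm a A r f) ^ 2 * (∑ f ∈ T.erase e, (H.u a A f - 1)) ^ 2
          + 12 * a ^ 2 * (∑ f ∈ T.erase e, H.mm a A r f) ^ 2
          + 108 * a ^ 2 * (∑ f ∈ T, H.u a A f) ^ 2
          + 6 * a * (∑ f ∈ T.erase e, H.mm a A r f) ^ 2 * ∑ f ∈ T.erase e, H.u a A f)
      + 6 * (a ^ 4 * ∑ x ∈ A.erase e, H.u a A x * (H.cnb A x e : ℝ) ^ 2) := by
  set y := H.yy a A r e with hy
  have h1 : ∑ T' ∈ (H.tri A).filter (fun T' => e ∉ T'), (H.yy a (A \ T') r e ^ 2 - y ^ 2) ≤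
      ∑ T' ∈ (H.tri A).filter (fun T' => e ∉ T'), (-(2 * y) * H.gy1Q a A r e T'
        - 2 * y * H.gy1P a A e T' + 2 * H.gy1Q a A r e T' ^ 2 + 2 * H.gy1P a A e T' ^ 2) := by
    refine Finset.sum_le_sum fun T' _ => ?_
    rw [gy1_yy_sdiff, ← hy]
    nlinarith [sq_nonneg (H.gy1Q a A r e T' - H.gy1P a A e T')]
  simp only [Finset.sum_add_distrib, Finset.sum_sub_distrib, ← Finset.mul_sum] at h1
  rw [← Finset.sum_sub_distrib] at h1
  have hQ := H.gy1_sumQ a A r e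
  have hP := H.gy1_sumP a A e
  have hQ2 := mul_le_mul_of_nonneg_left (H.gy1_sumQ2 a A r e) ha
  have hP2 := mul_le_mul_of_nonneg_left (H.gy1_sumP2 (a := a) A e) ha
  have hyy : y = a * ∑ T ∈ thru (H.tri A) e, ∑ f ∈ T.erase e, H.mm a A r f := rfl
  have hu : a * ∑ x ∈ A.erase e, (H.deg A x : ℝ) * (H.cnb A x e : ℝ) ^ 2
      = ∑ x ∈ A.erase e, H.u a A x * (H.cnb A x e : ℝ) ^ 2 := by
    rw [Finset.mul_sum]
    exact Finset.sum_congr rfl fun x _ => by unfold u; ring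
  have hw : ∀ T ∈ thru (H.tri A) e,
      2 * y * (2 * (∑ f ∈ T.erase e, H.mm a A r f) - (∑ f ∈ T.erase e, H.mm a A r f) *
          ((∑ f ∈ T.erase e, (H.u a A f - 1)) + 2 - 2 * a) + H.gy1G a A e T)
        + 2 * (3 * a * (∑ f ∈ T.erase e, H.mm a A r f) ^ 2 * ∑ f ∈ T.erase e, H.u a A f) ≤
      y ^ 2 + (3 * (∑ f ∈ T.erase e, H.mm a A r f) ^ 2 * (∑ f ∈ T.erase e, (H.u a A f - 1)) ^ 2
          + 12 * a ^ 2 * (∑ f ∈ T.erase e, H.mm a A r f) ^ 2
          + 108 * a ^ 2 * (∑ f ∈ T, H.u a A f) ^ 2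
          + 6 * a * (∑ f ∈ T.erase e, H.mm a A r f) ^ 2 * ∑ f ∈ T.erase e, H.u a A f) := by
    intro T hT
    have g1 := pow_le_pow_left₀ (H.gy1G_nonneg ha A e T) (H.gy1G_le ha A e hT) 2
    generalize H.gy1G a A e T = G at *
    generalize ∑ f ∈ T.erase e, H.mm a A r f = S at *
    generalize ∑ f ∈ T.erase e, (H.u a A f - 1) = d at *
    generalize ∑ f ∈ T, H.u a A f = U at *
    nlinarith [sq_nonneg (y - (-(S * d) + 2 * a * S + G)), sq_nonneg (S * d + 2 * a * S),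
      sq_nonneg (S * d + G), sq_nonneg (2 * a * S - G)]
  have hw2 := mul_le_mul_of_nonneg_left (Finset.sum_le_sum hw) ha
  rw [Finset.sum_add_distrib, Finset.sum_add_distrib (f := fun _ => y ^ 2), ← Finset.mul_sum,
    ← Finset.mul_sum, Finset.sum_add_distrib, Finset.sum_sub_distrib, ← Finset.mul_sum,
    Finset.sum_const, nsmul_eq_mul] at hw2
  have hd : ((thru (H.tri A) e).card : ℝ) = H.deg A e := rfl
  rw [hd] at hw2
  have h1' := mul_le_mul_of_nonneg_left h1 ha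
  rw [← hu]
  linear_combination h1' + hw2 + 2 * hQ2 + 2 * hP2 - 2 * y * hQ + 2 * y * hP + 4 * y * hyy

end aux

theorem gen_Ups_raw {α : Type} [DecidableEq α] [Fintype α] (H : HG α) {a : ℝ} (ha : 0 ≤ a)
    (A : Finset α) (r : α → ℝ) :
    H.gen H.Ups a A r ≤
      a * ∑ T ∈ H.tri A, ∑ e ∈ T,
        (3 * (∑ f ∈ T.erase e, H.mm a A r f) ^ 2 * (∑ f ∈ T.erase e, (H.u a A f - 1)) ^ 2
          + 12 * a ^ 2 * (∑ f ∈ T.erase e, H.mm a A r f) ^ 2
          + 108 * a ^ 2 * (∑ f ∈ T, H.u a A f) ^ 2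
          + 6 * a * (∑ f ∈ T.erase e, H.mm a A r f) ^ 2 * ∑ f ∈ T.erase e, H.u a A f)
      + 6 * (a ^ 4 * ∑ x ∈ A, H.u a A x * ∑ e ∈ A.erase x, (H.cnb A x e : ℝ) ^ 2) := by
  have hd : HasDerivAt (fun h : ℝ => H.Ups (a * Real.exp (2 * h)) A (r + h • H.vel a A))
      (∑ e ∈ A, 2 * H.yy a A r e * (2 * H.yy a A r e + H.nb a A (H.nb a A (H.u a A)) e)) 0 := by
    unfold Ups
    refine HasDerivAt.fun_sum fun e _ => ?_
    refine HasDerivAt.congr_deriv ((H.hasDerivAt_yy a A r e).fun_pow 2) ?_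
    simp
  have hs : ∑ x ∈ A, H.u a A x * ∑ e ∈ A.erase x, (H.cnb A x e : ℝ) ^ 2
      = ∑ e ∈ A, ∑ x ∈ A.erase e, H.u a A x * (H.cnb A x e : ℝ) ^ 2 := by
    simp only [Finset.mul_sum]
    apply Finset.sum_comm'
    intro x e
    simp only [mem_erase]
    constructor
    · rintro ⟨h1, h2, h3⟩; exact ⟨⟨h2.symm, h1⟩, h3⟩
    · rintro ⟨⟨h1, h2⟩, h3⟩; exact ⟨h2, h1.symm, h3⟩
  unfold gen
  rw [hd.deriv, hs, sum_tri]
  unfold Ups
  rw [H.jump_sum A (fun B e => H.yy a B r e ^ 2), Finset.mul_sum, ← Finset.sum_add_distrib,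
    Finset.mul_sum, Finset.mul_sum, Finset.mul_sum, ← Finset.sum_add_distrib]
  exact Finset.sum_le_sum fun e _ => H.gy1_point ha A r e

end HG
end Vale.Agent.P046
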