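import Vale.Agent.P046.GenY1

open Finset

namespace Vale.Agent.P046
namespace HG

section aux
variable {α : Type} [DecidableEq α] (H : HG α)

theorem gy2_card {x f e g : α} {T1 T2 T3 T4 : Finset α} (h1 : T1 ∈ H.TT) (h2 : T2 ∈ H.TT)
    (h3 : T3 ∈ H.TT) (h4 : T4 ∈ H.TT) (x1 : x ∈ T1) (f1 : f ∈ T1) (f2 : f ∈ T2) (e2 : e ∈ T2)
    (e3 : e ∈ T3) (g3 : g ∈ T3) (g4 : g ∈ T4) (x4 : x ∈ T4) (n13 : ∀ v ∈ T1, v ∉ T3)
    (n24 : ∀ v ∈ T2, v ∉ T4) : (T1 ∪ T2 ∪ T3 ∪ T4).card = 8 := by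
  have two : ∀ {T T' : Finset α} {p v w : α}, T ∈ H.TT → T' ∈ H.TT → w ∈ T → w ∉ T' → p ∈ T →
      p ∈ T' → v ∈ T → v ∈ T' → v = p := fun hT hT' w1 w2 p1 p2 v1 v2 => by
    by_contra hne
    exact w2 (H.lin0.eq_of_two hT hT' hne v1 p1 v2 p2 ▸ w1)
  have i1 : T1 ∩ T2 = {f} := by
    ext v
    rw [mem_inter, mem_singleton]
    exact ⟨fun h => two h2 h1 e2 (fun h => n13 e h e3) f2 f1 h.2 h.1, fun h => h ▸ ⟨f1, f2⟩⟩
  have i2 : (T1 ∪ T2) ∩ T3 = {e} := by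
    ext v
    rw [mem_inter, mem_singleton, mem_union]
    refine ⟨fun h => h.1.elim (fun k => (n13 v k h.2).elim)
      fun k => two h2 h3 f2 (n13 f f1) e2 e3 k h.2, fun h => h ▸ ⟨Or.inr e2, e3⟩⟩
  have i3 : (T1 ∪ T2 ∪ T3) ∩ T4 = {x, g} := by
    ext v
    rw [mem_inter, mem_insert, mem_singleton, mem_union, mem_union]
    constructor
    · rintro ⟨(k | k) | k, k4⟩
      · exact Or.inl (two h1 h4 f1 (n24 f f2) x1 x4 k k4)
      · exact (n24 v k k4).elim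
      · exact Or.inr (two h3 h4 e3 (n24 e e2) g3 g4 k k4)
    · rintro (rfl | rfl)
      · exact ⟨Or.inl (Or.inl x1), x4⟩
      · exact ⟨Or.inr g3, g4⟩
  have c1 := card_union_add_card_inter T1 T2
  have c2 := card_union_add_card_inter (T1 ∪ T2) T3
  have c3 := card_union_add_card_inter (T1 ∪ T2 ∪ T3) T4
  rw [i1, card_singleton, H.card3 _ h1, H.card3 _ h2] at c1
  rw [i2, card_singleton, H.card3 _ h3] at c2
  rw [i3, card_pair (fun h : x = g => n13 x x1 (h ▸ g3)), H.card3 _ h4] at c3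
  omega

theorem gy2_tr (x f : α) : (H.tr x f).card ≤ 3 := by
  unfold tr
  split_ifs with h
  · exact (H.card3 _ h.choose_spec.1).le
  · simp

theorem gy2_mem {A : Finset α} (hA : A ⊆ H.A0) {x f e g : α} (hxe : x ≠ e) (h1 : H.adj A x f)
    (h2 : H.adj A f e) (h3 : H.adj A x g) (h4 : H.adj A g e) (hf : f ∉ H.tr x e)
    (hg : g ∉ (H.tr x f).biUnion (H.tr e) ∪ (H.tr f e).biUnion (H.tr x)) :
    (x, f, e, g) ∈ H.quadIn A := by
  obtain ⟨a1, a2, a3⟩ := H.tr_of_adj h1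
  obtain ⟨b1, b2, b3⟩ := H.tr_of_adj h2
  obtain ⟨c1, c2, c3⟩ := H.tr_of_adj (H.adj_symm h4)
  obtain ⟨d1, d2, d3⟩ := H.tr_of_adj (H.adj_symm h3)
  have t := H.tri_subset A
  simp only [mem_union, mem_biUnion, not_or, not_exists, not_and] at hg
  have hc := H.gy2_card (t a1) (t b1) (t c1) (t d1) a2 a3 b2 b3 c2 c3 d2 d3 (fun v k1 k2 => by
    by_cases hv : e = v
    · exact hf (H.tr_eq (t a1) hxe a2 (hv ▸ k1) ▸ a3)
    · exact hg.1 v k1 (H.tr_eq (t c1) hv c2 k2 ▸ c3)) (fun v k1 k2 => by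
    by_cases hv : x = v
    · exact hf (H.tr_eq (t b1) hxe (hv ▸ k1) b3 ▸ b2)
    · exact hg.2 v k1 (H.tr_eq (t d1) hv d3 k2 ▸ d2))
  simp only [quadIn, quad, mem_filter, mem_product]
  refine ⟨⟨⟨hA (H.adj_mem h1).1, hA (H.adj_mem h1).2, hA (H.adj_mem h2).2, hA (H.adj_mem h3).2⟩,
    H.adj_mono hA h1, H.adj_mono hA h2, H.adj_mono hA (H.adj_symm h4),
    H.adj_mono hA (H.adj_symm h3), hc⟩, ?_⟩
  exact union_subset (union_subset (union_subset (H.tri_sub A _ a1) (H.tri_sub A _ b1))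
    (H.tri_sub A _ c1)) (H.tri_sub A _ d1)

theorem gy2_sq {A : Finset α} (hA : A ⊆ H.A0) {x e : α} (hxe : x ≠ e) :
    H.cnb A x e ^ 2 ≤
      ∑ f ∈ A, (A.filter (fun g => (x, f, e, g) ∈ H.quadIn A)).card + 21 * H.cnb A x e := by
  unfold cnb
  set S := A.filter (fun f => H.adj A x f ∧ H.adj A f e) with hS
  have h1 : ∀ f ∈ S, S.card ≤ (A.filter (fun g => (x, f, e, g) ∈ H.quadIn A)).card + 18 +
      if f ∈ H.tr x e then S.card else 0 := fun f hf => by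
    split_ifs with h
    · omega
    · have h2 : S ⊆ A.filter (fun g => (x, f, e, g) ∈ H.quadIn A) ∪
          ((H.tr x f).biUnion (H.tr e) ∪ (H.tr f e).biUnion (H.tr x)) := fun g hg => by
        rw [mem_union, or_iff_not_imp_right]
        rw [hS, mem_filter] at hf hg
        exact fun k => mem_filter.2 ⟨hg.1, H.gy2_mem hA hxe hf.2.1 hf.2.2 hg.2.1 hg.2.2 h k⟩
      have h3 : ∀ p q y, ((H.tr p q).biUnion (H.tr y)).card ≤ 9 := fun p q y =>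
        (card_biUnion_le_card_mul _ _ 3 fun v _ => H.gy2_tr y v).trans
          (Nat.mul_le_mul_right 3 (H.gy2_tr p q))
      have h4 := (card_le_card h2).trans ((card_union_le _ _).trans
        (Nat.add_le_add_left (card_union_le _ _) _))
      have := h3 x f e
      have := h3 f e x
      omega
  have h2 := sum_le_sum h1
  have h3 : ∑ f ∈ S, (A.filter (fun g => (x, f, e, g) ∈ H.quadIn A)).card ≤ _ :=
    sum_le_sum_of_subset (filter_subset _ A)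
  have h4 : (S ∩ H.tr x e).card ≤ 3 := (card_le_card inter_subset_right).trans (H.gy2_tr x e)
  rw [sum_add_distrib, sum_add_distrib, sum_ite_mem] at h2
  simp only [sum_const, smul_eq_mul] at h2
  nlinarith [Nat.mul_le_mul_right S.card h4]

theorem gy2_cnb (A : Finset α) (x : α) :
    ∑ e ∈ A, (H.cnb A x e : ℝ) = ∑ f ∈ A.filter (fun f => H.adj A x f), 2 * (H.deg A f : ℝ) := by
  simp only [cnb, ← card_nbr, card_filter, sum_filter, Nat.cast_sum]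
  rw [sum_comm]
  refine sum_congr rfl fun f _ => ?_
  by_cases h : H.adj A x f
  · simp only [h, true_and, if_true]
  · simp [h]

theorem gy2_quad {a : ℝ} (ha : 0 ≤ a) (A : Finset α) :
    ∑ x ∈ A, H.u a A x * ∑ e ∈ A, ∑ f ∈ A,
      ((A.filter (fun g => (x, f, e, g) ∈ H.quadIn A)).card : ℝ) ≤
      ∑ q ∈ H.quadIn A, H.u a A q.1 := by
  refine le_trans (le_of_eq ?_) (sum_le_sum_of_subset_of_nonneg
    (inter_subset_right (s₁ := A ×ˢ A ×ˢ A ×ˢ A)) fun q _ _ => H.u_nonneg ha A q.1)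
  rw [← sum_ite_mem]
  simp only [sum_product, card_filter, Nat.cast_sum]
  refine sum_congr rfl fun x _ => ?_
  rw [sum_comm]
  simp only [mul_sum]
  refine sum_congr rfl fun f _ => sum_congr rfl fun e _ => sum_congr rfl fun g _ => ?_
  split_ifs <;> simp

end aux

theorem cnb_sq_le : ∃ K : ℝ, 0 < K ∧ ∀ {α : Type} [DecidableEq α] [Fintype α] (H : HG α) (a : ℝ),
    0 ≤ a → ∀ A ⊆ H.A0,
      a ^ 4 * ∑ x ∈ A, H.u a A x * ∑ e ∈ A.erase x, (H.cnb A x e : ℝ) ^ 2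
        ≤ H.Zq a A + K * a ^ 2 * H.UU a A := by
  refine ⟨32256, by norm_num, ?_⟩
  intro α _ _ H a ha A hA
  have h1 : ∀ x ∈ A, a ^ 2 * (H.u a A x * ∑ e ∈ A.erase x, (H.cnb A x e : ℝ) ^ 2) ≤
      a ^ 2 * (H.u a A x * ∑ e ∈ A, ∑ f ∈ A,
        ((A.filter (fun g => (x, f, e, g) ∈ H.quadIn A)).card : ℝ)) +
      (42 * H.u a A x ^ 3 + 21 * H.nb a A (fun f => H.u a A f ^ 2) x) := fun x _ => by
    have k1 : ∑ e ∈ A.erase x, (H.cnb A x e : ℝ) ^ 2 ≤ ∑ e ∈ A, (∑ f ∈ A,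
        ((A.filter (fun g => (x, f, e, g) ∈ H.quadIn A)).card : ℝ) + 21 * H.cnb A x e) :=
      (sum_le_sum fun e he => by exact_mod_cast H.gy2_sq hA (ne_of_mem_erase he).symm).trans
        (sum_le_sum_of_subset_of_nonneg (erase_subset x A) fun _ _ _ => by positivity)
    have k2 : ∑ f ∈ A.filter (fun f => H.adj A x f), 2 * H.u a A x * H.u a A f ≤
        ∑ f ∈ A.filter (fun f => H.adj A x f), (H.u a A x ^ 2 + H.u a A f ^ 2) :=
      sum_le_sum fun f _ => two_mul_le_add_sq _ _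
    have k3 : ∑ f ∈ A.filter (fun f => H.adj A x f), H.u a A f =
        a * ∑ f ∈ A.filter (fun f => H.adj A x f), (H.deg A f : ℝ) := by
      unfold u
      rw [mul_sum]
    rw [sum_add_distrib, ← mul_sum, gy2_cnb, ← mul_sum] at k1
    rw [sum_add_distrib, ← mul_sum, sum_const, nsmul_eq_mul, card_nbr, k3] at k2
    have k4 := mul_le_mul_of_nonneg_left k1 (mul_nonneg (sq_nonneg a) (H.u_nonneg ha A x))
    have k5 := mul_le_mul_of_nonneg_left k2 ha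
    have k6 : H.u a A x = a * H.deg A x := rfl
    unfold nb
    rw [sum_thru_erase]
    rw [k6] at k4 k5 ⊢
    linarith
  have h2 := mul_le_mul_of_nonneg_left (sum_le_sum h1) (sq_nonneg a)
  have h3 := mul_le_mul_of_nonneg_left (H.gy2_quad ha A) (by positivity : 0 ≤ a ^ 4)
  have h4 := mul_le_mul_of_nonneg_left (H.sum_u_pow_le ha A 3) (sq_nonneg a)
  simp only [sum_add_distrib, ← mul_sum, sum_nb, ← pow_succ'] at h2
  norm_num [Nat.factorial] at h2 h4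
  unfold Zq
  linarith

/-- Pointwise control of `u d⁴` by `m`, `φ r` and the exponential moment. -/
theorem u_d4_le {φ φ' c : ℝ → ℝ} {C : ℝ} (hφ : PhiOK φ φ' c C) :
    ∃ K : ℝ, 0 < K ∧ ∀ γ u r : ℝ, 0 < γ → γ ≤ 1 → 0 ≤ u →
      (1 + u) * (u - 1) ^ 4 ≤ 16 * (1 + u) * (u - 1 - r) ^ 4 + K / γ ^ 4 * φ r
        + K * γ ^ 4 * Real.exp (u / 4) := by
  have hC := hφ.C1
  obtain ⟨L, hL⟩ : ∃ L : ℝ, L = 4 ^ 10 * ((Nat.factorial 10 : ℕ) : ℝ) := ⟨_, rfl⟩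
  have hL0 : 0 ≤ L := by rw [hL]; positivity
  refine ⟨64 * C + L, by positivity, fun γ u r hγ hγ1 hu => ?_⟩
  have h0 := hφ.nonneg r
  have h1 := hφ.ge_min r
  have hE := Real.exp_pos (u / 4)
  have p1 : 0 ≤ 16 * (1 + u) * (u - 1 - r) ^ 4 := by positivity
  have p2 : 0 ≤ (64 * C + L) / γ ^ 4 * φ r := by positivity
  have p3 : 0 ≤ (64 * C + L) * γ ^ 4 * Real.exp (u / 4) := by positivity
  have p4 : 64 * (C * φ r / γ ^ 4) ≤ (64 * C + L) / γ ^ 4 * φ r := by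
    have : 0 ≤ L * φ r / γ ^ 4 := by positivity
    have e : (64 * C + L) / γ ^ 4 * φ r = 64 * (C * φ r / γ ^ 4) + L * φ r / γ ^ 4 := by ring
    linarith
  have e4 : ∀ x : ℝ, |x| ^ 4 = x ^ 4 := fun x => Even.pow_abs (by decide) x
  rcases le_total |u - 1| (2 * |u - 1 - r|) with h | h
  · have h2 := pow_le_pow_left₀ (abs_nonneg _) h 4
    rw [mul_pow, e4, e4] at h2
    have := mul_le_mul_of_nonneg_left h2 (by linarith : 0 ≤ 1 + u)
    linarith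
  have h2 : |u - 1| ≤ 2 * |r| := by
    have := abs_add_le (u - 1 - r) r
    rw [sub_add_cancel] at this
    linarith
  have h3 : (u - 1) ^ 2 ≤ 4 * r ^ 2 := by
    have := pow_le_pow_left₀ (abs_nonneg _) h2 2
    rw [mul_pow, sq_abs, sq_abs] at this
    linarith
  rcases le_total u 3 with h4 | h4
  · have h5 : |u - 1| ≤ 2 := abs_le.2 ⟨by linarith, by linarith⟩
    have h6 : (u - 1) ^ 2 ≤ 4 * (C * φ r) := by
      rcases min_le_iff.1 h1 with k | k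
      · linarith
      · nlinarith [sq_abs (u - 1), abs_nonneg (u - 1)]
    have h7 : (u - 1) ^ 2 ≤ 4 := by nlinarith
    have h8 : C * φ r ≤ C * φ r / γ ^ 4 :=
      le_div_self (by positivity) (by positivity) (pow_le_one₀ hγ.le hγ1)
    have h9 : (1 + u) * (u - 1) ^ 2 ≤ 4 * 4 :=
      mul_le_mul (by linarith) h7 (sq_nonneg _) (by norm_num)
    have := mul_le_mul h9 h6 (sq_nonneg _) (by norm_num)
    linarith
  · have h5 : 1 ≤ C * φ r := by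
      have := le_abs_self (u - 1)
      rcases min_le_iff.1 h1 with k | k
      · nlinarith
      · linarith
    have h6 : (1 + u) * (u - 1) ^ 4 ≤ 2 * u * u ^ 4 :=
      mul_le_mul (by linarith) (pow_le_pow_left₀ (by linarith) (by linarith) 4) (by positivity)
        (by positivity)
    have h7 : 2 * u * u ^ 4 ≤ 1 / γ ^ 4 + γ ^ 4 * u ^ 10 := by
      rw [← sub_le_iff_le_add, le_div_iff₀ (by positivity)]
      nlinarith [sq_nonneg (γ ^ 4 * u ^ 5 - 1)]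
    have h8 : 1 / γ ^ 4 ≤ C * φ r / γ ^ 4 := by gcongr
    have h9 := mul_le_mul_of_nonneg_left (hL ▸ pow_le_exp4 10 hu) (by positivity : 0 ≤ γ ^ 4)
    have p5 : 0 ≤ C * φ r / γ ^ 4 := by positivity
    have p6 : 0 ≤ C * γ ^ 4 * Real.exp (u / 4) := by positivity
    linarith

theorem gy2_sum4 {α : Type} [DecidableEq α] {T : Finset α} (hT : T.card = 3) {e : α} (he : e ∈ T)
    (g : α → ℝ) : (∑ f ∈ T.erase e, g f) ^ 4 ≤ 8 * ∑ f ∈ T, g f ^ 4 := by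
  have h1 := sq_sum_le_card_mul_sum_sq (s := T.erase e) (f := g)
  have h2 := sq_sum_le_card_mul_sum_sq (s := T.erase e) (f := fun f => g f ^ 2)
  have h3 : ∑ f ∈ T.erase e, g f ^ 4 ≤ ∑ f ∈ T, g f ^ 4 :=
    sum_le_sum_of_subset_of_nonneg (erase_subset _ _) fun _ _ _ => by positivity
  rw [card_erase_two hT he] at h1 h2
  have h4 := pow_le_pow_left₀ (sq_nonneg _) h1 2
  simp only [← pow_mul, mul_pow] at h2 h4
  norm_num at h2 h4
  linarith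

theorem gy2_pt {γ m d s s' M D U : ℝ} (hγ : 0 < γ) (hγ1 : γ ≤ 1) (hm : m ^ 4 ≤ 8 * M)
    (hd : d ^ 4 ≤ 8 * D) (h0 : 0 ≤ s') (hs : s' ≤ s) (hU : s ^ 2 ≤ 3 * U) :
    3 * m ^ 2 * d ^ 2 + 12 * (γ ^ 8) ^ 2 * m ^ 2 + 108 * (γ ^ 8) ^ 2 * s ^ 2
      + 6 * γ ^ 8 * m ^ 2 * s' ≤
      24 * γ ^ 6 * D + 144 / γ ^ 6 * M + 12 * γ ^ 10 + 333 * γ ^ 10 * U := by
  have h1 : m ^ 2 * d ^ 2 ≤ γ ^ 6 * d ^ 4 + m ^ 4 / γ ^ 6 := by
    rw [← sub_le_iff_le_add', le_div_iff₀ (by positivity)]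
    nlinarith [sq_nonneg (γ ^ 6 * d ^ 2 - m ^ 2), sq_nonneg (γ ^ 6 * d ^ 2), sq_nonneg (m ^ 2)]
  have h2 : m ^ 4 ≤ m ^ 4 / γ ^ 6 :=
    le_div_self (by positivity) (by positivity) (pow_le_one₀ hγ.le hγ1)
  have h3 : m ^ 4 / γ ^ 6 ≤ 8 * M / γ ^ 6 := by gcongr
  have h4 := mul_le_mul_of_nonneg_left hd (by positivity : 0 ≤ γ ^ 6)
  have h5 : (γ ^ 8) ^ 2 ≤ γ ^ 10 := by
    rw [← pow_mul]
    exact pow_le_pow_of_le_one hγ.le hγ1 (by norm_num)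
  have h6 : γ ^ 10 ≤ 1 := pow_le_one₀ hγ.le hγ1
  have h7 : (γ ^ 8) ^ 2 * m ^ 2 ≤ γ ^ 10 * (m ^ 4 + 1) :=
    mul_le_mul h5 (by nlinarith [sq_nonneg (m ^ 2 - 1)]) (sq_nonneg _) (by positivity)
  have h8 := mul_le_mul_of_nonneg_right h6 (by positivity : 0 ≤ m ^ 4)
  have h9 : (γ ^ 8) ^ 2 * s ^ 2 ≤ γ ^ 10 * (3 * U) :=
    mul_le_mul h5 hU (sq_nonneg _) (by positivity)
  have h10 := mul_le_mul_of_nonneg_left (pow_le_pow_left₀ h0 hs 2) (sq_nonneg (γ ^ 8))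
  have h11 := sq_nonneg (m ^ 2 - γ ^ 8 * s')
  have e : 144 / γ ^ 6 * M = 18 * (8 * M / γ ^ 6) := by ring
  linarith

theorem gen_Ups {φ φ' c : ℝ → ℝ} {C : ℝ} (hφ : PhiOK φ φ' c C) :
    ∃ K : ℝ, 0 < K ∧ ∀ {α : Type} [DecidableEq α] [Fintype α] (H : HG α) (γ : ℝ),
      0 < γ → γ ≤ 1 → ∀ A ⊆ H.A0, ∀ r : α → ℝ,
      H.gen H.Ups (γ ^ 8) A r ≤
        K * γ ^ 2 * ∑ e ∈ A, φ (r e) + K / γ ^ 6 * (H.M4 (γ ^ 8) A r + H.M1 (γ ^ 8) A r)
          + K * γ ^ 10 * H.UU (γ ^ 8) A + 6 * H.Zq (γ ^ 8) A := by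
  obtain ⟨K1, p1, G1⟩ := u_d4_le hφ
  obtain ⟨K2, p2, G2⟩ := cnb_sq_le
  refine ⟨72 * K1 + 400000 + 6 * K2, by positivity, ?_⟩
  intro α _ _ H γ hγ hγ1 A hA r
  have ha : 0 ≤ γ ^ 8 := by positivity
  have h1 := H.gen_Ups_raw ha A r
  have h2 := G2 H _ ha A hA
  have h3 : ∀ T ∈ H.tri A, _ ≤ ∑ f ∈ T, (72 * γ ^ 6 * (H.u (γ ^ 8) A f - 1) ^ 4 +
      432 / γ ^ 6 * H.mm (γ ^ 8) A r f ^ 4 + 12 * γ ^ 10 + 999 * γ ^ 10 * H.u (γ ^ 8) A f ^ 2) :=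
    fun T hT => (sum_le_sum (s := T) fun e he => gy2_pt hγ hγ1
      (gy2_sum4 (H.tri_card3 hT) he (H.mm (γ ^ 8) A r))
      (gy2_sum4 (H.tri_card3 hT) he (fun f => H.u (γ ^ 8) A f - 1))
      (sum_nonneg fun f _ => H.u_nonneg ha A f)
      (sum_le_sum_of_subset_of_nonneg (erase_subset e T) fun f _ _ => H.u_nonneg ha A f)
      (U := ∑ f ∈ T, H.u (γ ^ 8) A f ^ 2) (by
        simpa [H.tri_card3 hT] using sq_sum_le_card_mul_sum_sq (s := T)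
          (f := H.u (γ ^ 8) A))).trans (le_of_eq (by
      simp only [sum_add_distrib, ← mul_sum, sum_const, H.tri_card3 hT, nsmul_eq_mul]
      push_cast
      ring))
  have h4 := mul_le_mul_of_nonneg_left (sum_le_sum h3) ha
  rw [sum_tri_u] at h4
  have h5 : ∀ f ∈ A, H.u (γ ^ 8) A f * (72 * γ ^ 6 * (H.u (γ ^ 8) A f - 1) ^ 4 +
      432 / γ ^ 6 * H.mm (γ ^ 8) A r f ^ 4 + 12 * γ ^ 10 + 999 * γ ^ 10 * H.u (γ ^ 8) A f ^ 2) ≤
      72 * K1 * γ ^ 2 * φ (r f) + 1584 / γ ^ 6 * (H.mm (γ ^ 8) A r f ^ 4 +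
        H.u (γ ^ 8) A f * H.mm (γ ^ 8) A r f ^ 4) +
        (72 * K1 + 400000) * γ ^ 10 * Real.exp (H.u (γ ^ 8) A f / 4) := fun f _ => by
    have k0 := H.u_nonneg ha A f
    have k1 := mul_le_mul_of_nonneg_left (G1 γ _ (r f) hγ hγ1 k0) (by positivity : 0 ≤ γ ^ 6)
    unfold mm
    generalize H.u (γ ^ 8) A f = u at k0 k1
    generalize hm : (u - 1 - r f) ^ 4 = m at k1
    have k2 : 0 ≤ m := by rw [← hm]; positivity
    have k3 := mul_le_mul_of_nonneg_left (pow_le_exp4 1 k0) (by positivity : 0 ≤ γ ^ 10)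
    have k4 := mul_le_mul_of_nonneg_left (pow_le_exp4 3 k0) (by positivity : 0 ≤ γ ^ 10)
    have k5 : γ ^ 6 * (K1 / γ ^ 4 * φ (r f)) = K1 * γ ^ 2 * φ (r f) := by field_simp
    have k6 : γ ^ 6 * (m + u * m) ≤ 1 / γ ^ 6 * (m + u * m) := mul_le_mul_of_nonneg_right
      ((pow_le_one₀ hγ.le hγ1).trans (one_le_one_div (by positivity) (pow_le_one₀ hγ.le hγ1)))
      (by positivity)
    have k7 : 0 ≤ γ ^ 6 * (u - 1) ^ 4 := by positivity
    have k8 : 0 ≤ 1 / γ ^ 6 * m := by positivity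
    have k9 : 0 ≤ γ ^ 10 * Real.exp (u / 4) := by positivity
    rw [mul_add, mul_add, k5] at k1
    norm_num [Nat.factorial] at k3 k4
    rw [div_eq_mul_one_div 432, div_eq_mul_one_div 1584]
    linarith
  have h6 := sum_le_sum h5
  rw [sum_add_distrib, sum_add_distrib, ← mul_sum, ← mul_sum, ← mul_sum, sum_add_distrib] at h6
  have hM := add_nonneg (H.M4_nonneg (γ ^ 8) A r) (H.M1_nonneg ha A r)
  have hU := H.UU_nonneg (γ ^ 8) A
  have hΦ : 0 ≤ γ ^ 2 * ∑ e ∈ A, φ (r e) :=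
    mul_nonneg (sq_nonneg γ) (sum_nonneg fun _ _ => hφ.nonneg _)
  have h7 : (γ ^ 8) ^ 2 ≤ γ ^ 10 := by
    rw [← pow_mul]
    exact pow_le_pow_of_le_one hγ.le hγ1 (by norm_num)
  have h8 := mul_le_mul_of_nonneg_left (mul_le_mul_of_nonneg_right h7 hU) p2.le
  have h9 : 1584 / γ ^ 6 * (H.M4 (γ ^ 8) A r + H.M1 (γ ^ 8) A r) ≤
      (72 * K1 + 400000 + 6 * K2) / γ ^ 6 * (H.M4 (γ ^ 8) A r + H.M1 (γ ^ 8) A r) := by
    gcongr
    linarith
  have h10 := mul_nonneg p2.le hΦ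
  unfold M4 M1 UU at *
  linarith

end HG
end Vale.Agent.P046
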