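import Vale.Agent.P046.Xi

open Finset

namespace Vale.Agent.P046

namespace IIIbAux

theorem tri_sum {φ φ' c : ℝ → ℝ} {C : ℝ} (hφ : PhiOK φ φ' c C) {α : Type} [DecidableEq α]
    {T : Finset α} (hT : T.card = 3) (d : α → ℝ) :
    ∑ e ∈ T, (-φ (d e) - φ' (d e) * (∑ f ∈ T, d f - d e)) ≤ ∑ e ∈ T, c (d e) := by
  obtain ⟨x, y, z, h1, h2, h3, rfl⟩ := Finset.card_eq_three.1 hT
  have a1 : x ∉ ({y, z} : Finset α) := by simp [h1, h2]
  have a2 : y ∉ ({z} : Finset α) := by simp [h3]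
  simp only [Finset.sum_insert a1, Finset.sum_insert a2, Finset.sum_singleton]
  linarith [hφ.tri (d x) (d y) (d z)]

theorem le_of_der {f : ℝ → ℝ} {a b : ℝ} (hc : ContinuousOn f (Set.Icc a b))
    (hd : ∀ x ∈ Set.Ico a b, ∃ d, HasDerivWithinAt f d (Set.Ici x) x ∧ d ≤ 0) :
    ∀ x ∈ Set.Icc a b, f x ≤ f a := by
  choose! d h1 h2 using hd
  exact fun x hx => image_le_of_deriv_right_le_deriv_boundary (B := fun _ => f a)
    (B' := fun _ => 0) hc h1 le_rfl continuousOn_const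
    (fun x _ => (hasDerivAt_const x _).hasDerivWithinAt) h2 hx

noncomputable def qf (M a s : ℝ) : ℝ := 1 + 2 * M * (1 - Real.exp (-(s - a)))

noncomputable def mu (M a s : ℝ) : ℝ := M * Real.exp (-(s - a)) / qf M a s

noncomputable def rf (M a s : ℝ) : ℝ := √(qf M a s)

noncomputable def If (M a s : ℝ) : ℝ := √(mu M a s)⁻¹

variable {M a s : ℝ}

theorem one_le_qf (hM : 1 ≤ M) (hs : a ≤ s) : 1 ≤ qf M a s := by
  have : Real.exp (-(s - a)) ≤ 1 := Real.exp_le_one_iff.2 (by linarith)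
  unfold qf
  nlinarith

theorem qf_le (hM : 1 ≤ M) : qf M a s ≤ 1 + 2 * M := by
  have := Real.exp_pos (-(s - a))
  unfold qf
  nlinarith

theorem mu_pos (hM : 1 ≤ M) (hs : a ≤ s) : 0 < mu M a s :=
  div_pos (mul_pos (by linarith) (Real.exp_pos _)) (by linarith [one_le_qf hM hs])

theorem rf_pos (hM : 1 ≤ M) (hs : a ≤ s) : 0 < rf M a s :=
  Real.sqrt_pos.2 (by linarith [one_le_qf hM hs])

theorem If_pos (hM : 1 ≤ M) (hs : a ≤ s) : 0 < If M a s :=
  Real.sqrt_pos.2 (inv_pos.2 (mu_pos hM hs))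

theorem mu_If (hM : 1 ≤ M) (hs : a ≤ s) : mu M a s * If M a s ^ 2 = 1 := by
  rw [If, Real.sq_sqrt (inv_pos.2 (mu_pos hM hs)).le, mul_inv_cancel₀ (mu_pos hM hs).ne']

theorem If_le (hM : 1 ≤ M) {t : ℝ} (ht : s ≤ a + t) :
    If M a s ≤ √(3 * Real.exp t) := by
  refine Real.sqrt_le_sqrt ?_
  have h1 : 1 ≤ Real.exp t * Real.exp (-(s - a)) := by
    rw [← Real.exp_add]
    exact Real.one_le_exp (by linarith)
  rw [mu, inv_div, div_le_iff₀ (mul_pos (by linarith) (Real.exp_pos _))]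
  nlinarith [qf_le (a := a) (s := s) hM]

theorem qf_self : qf M a a = 1 := by simp [qf]

theorem mu_self : mu M a a = M := by simp [mu, qf]

theorem rf_self : rf M a a = 1 := by simp [rf, qf]

theorem der_exp (a s : ℝ) :
    HasDerivAt (fun s => Real.exp (-(s - a))) (-Real.exp (-(s - a))) s := by
  simpa using ((hasDerivAt_id s).sub_const a).neg.exp

theorem der_qf (M a s : ℝ) : HasDerivAt (qf M a) (2 * M * Real.exp (-(s - a))) s := by
  refine ((((der_exp a s).const_sub 1).const_mul (2 * M)).const_add 1).congr_deriv ?_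
  rw [neg_neg]

theorem der_mu (hM : 1 ≤ M) (hs : a ≤ s) :
    HasDerivAt (mu M a) (-mu M a s - 2 * mu M a s ^ 2) s := by
  have hq : qf M a s ≠ 0 := by linarith [one_le_qf hM hs]
  refine (((der_exp a s).const_mul M).div (der_qf M a s) hq).congr_deriv ?_
  unfold mu
  field_simp

theorem der_rf (hM : 1 ≤ M) (hs : a ≤ s) : HasDerivAt (rf M a) (mu M a s * rf M a s) s := by
  have hq : 0 < qf M a s := by linarith [one_le_qf hM hs]
  refine ((der_qf M a s).sqrt hq.ne').congr_deriv ?_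
  have h1 := rf_pos hM hs
  have h2 : qf M a s = rf M a s ^ 2 := (Real.sq_sqrt hq.le).symm
  change _ / (2 * rf M a s) = _
  rw [mu, h2]
  field_simp

theorem der_If (hM : 1 ≤ M) (hs : a ≤ s) :
    ∃ d, HasDerivAt (If M a) d s ∧ 1 / If M a s ≤ d := by
  have h0 := mu_pos hM hs
  have h1 := If_pos hM hs
  refine ⟨_, ((der_mu hM hs).inv h0.ne').sqrt (inv_pos.2 h0).ne', ?_⟩
  change 1 / If M a s ≤ _ / (2 * If M a s)
  rw [div_le_div_iff₀ h1 (by linarith)]
  have : 2 ≤ -(-mu M a s - 2 * mu M a s ^ 2) / mu M a s ^ 2 := by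
    rw [le_div_iff₀ (by positivity)]
    linarith
  nlinarith

theorem alg {C μ Φ ξ Er d1 d2 : ℝ} (hC : 1 ≤ C) (hμ : 0 < μ) (hΦ : 0 ≤ Φ) (hξ : 0 ≤ ξ)
    (hE : 0 ≤ Er) (h1 : d1 ≤ μ * Φ + 3 * C / μ * (ξ + Er))
    (h2 : d2 ≤ (4 - 4 * μ) * ξ + 12 * μ ^ 2 * (25 * C * Φ) + 6 * Er) :
    (-μ - 2 * μ ^ 2) * Φ + μ * d1 +
        (-(3 * C * (-μ - 2 * μ ^ 2)) / (1 + μ) ^ 2 * ξ + 3 * C / (1 + μ) * d2) +
        (μ * Φ + 3 * C / (1 + μ) * ξ) * μ ≤
      900 * C ^ 2 * (μ * Φ + 3 * C / (1 + μ) * ξ) + 900 * C ^ 2 * Er := by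
  have e1 : -(3 * C * (-μ - 2 * μ ^ 2)) / (1 + μ) ^ 2 ≤ 2 * μ * (3 * C / (1 + μ)) := by
    rw [div_le_iff₀ (by positivity)]
    have : 2 * μ * (3 * C / (1 + μ)) * (1 + μ) ^ 2 = 2 * μ * (3 * C) * (1 + μ) := by
      field_simp
    rw [this]
    nlinarith [mul_pos hμ (show 0 < C by linarith)]
  have e2 : 3 * C / (1 + μ) * (1 + μ) = 3 * C := by field_simp
  have e3 : 0 ≤ 3 * C / (1 + μ) := by positivity
  generalize 3 * C / (1 + μ) = A at e1 e2 e3 ⊢
  have e4 : μ * d1 ≤ μ ^ 2 * Φ + 3 * C * (ξ + Er) := by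
    have := mul_le_mul_of_nonneg_left h1 hμ.le
    have e : μ * (μ * Φ + 3 * C / μ * (ξ + Er)) = μ ^ 2 * Φ + 3 * C * (ξ + Er) := by field_simp
    linarith
  have e5 := mul_le_mul_of_nonneg_left h2 e3
  have e6 := mul_le_mul_of_nonneg_right e1 hξ
  have e7 : A * μ ≤ 3 * C := by linarith
  have e8 : A ≤ 3 * C := by nlinarith
  have e9 := mul_le_mul_of_nonneg_right e7 (show 0 ≤ 300 * C * (μ * Φ) by positivity)
  have f1 : 5 * (A * ξ) ≤ 900 * C ^ 2 * (A * ξ) :=
    mul_le_mul_of_nonneg_right (by nlinarith) (by positivity)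
  have f2 : (3 * C + 6 * A) * Er ≤ 900 * C ^ 2 * Er :=
    mul_le_mul_of_nonneg_right (by nlinarith) hE
  have f3 : 3 * C * ξ = A * (1 + μ) * ξ := by rw [e2]
  have f4 : 0 ≤ μ * Φ := by positivity
  nlinarith

theorem lyap {C Er t : ℝ} {Φ ξ : ℝ → ℝ} (hC : 1 ≤ C) (hM : 1 ≤ M) (hE : 0 ≤ Er)
    (c1 : ContinuousOn Φ (Set.Icc a (a + t))) (c2 : ContinuousOn ξ (Set.Icc a (a + t)))
    (n1 : ∀ s ∈ Set.Icc a (a + t), 0 ≤ Φ s) (n2 : ∀ s ∈ Set.Icc a (a + t), 0 ≤ ξ s)
    (d1 : ∀ s ∈ Set.Ico a (a + t), ∃ d, HasDerivWithinAt Φ d (Set.Ici s) s ∧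
      d ≤ mu M a s * Φ s + 3 * C / mu M a s * (ξ s + Er))
    (d2 : ∀ s ∈ Set.Ico a (a + t), ∃ d, HasDerivWithinAt ξ d (Set.Ici s) s ∧
      d ≤ (4 - 4 * mu M a s) * ξ s + 12 * mu M a s ^ 2 * (25 * C * Φ s) + 6 * Er) :
    ∀ s ∈ Set.Icc a (a + t), mu M a s * Φ s * rf M a s ≤
      Real.exp (900 * C ^ 2 * t) * (3 * C * (M * Φ a + ξ a / M + √(1 + 2 * M) * Er)) := by
  have hexp : ∀ s : ℝ, HasDerivAt (fun s => Real.exp (-(900 * C ^ 2 * (s - a))))
      (Real.exp (-(900 * C ^ 2 * (s - a))) * -(900 * C ^ 2)) s := fun s => by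
    simpa using (((hasDerivAt_id s).sub_const a).const_mul (900 * C ^ 2)).neg.exp
  have cm : ContinuousOn (mu M a) (Set.Icc a (a + t)) := fun s hs =>
    (der_mu hM hs.1).continuousAt.continuousWithinAt
  have cr : ContinuousOn (rf M a) (Set.Icc a (a + t)) := fun s hs =>
    (der_rf hM hs.1).continuousAt.continuousWithinAt
  have key := le_of_der (a := a) (b := a + t)
    (f := fun s => ((mu M a s * Φ s + 3 * C / (1 + mu M a s) * ξ s) * rf M a s +
      √(1 + 2 * M) * Er) * Real.exp (-(900 * C ^ 2 * (s - a))))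
    (((((cm.mul c1).add ((continuousOn_const.div (continuousOn_const.add cm) fun s hs =>
      (add_pos one_pos (mu_pos hM hs.1)).ne').mul c2)).mul cr).add continuousOn_const).mul (by fun_prop))
    fun s hs => by
      obtain ⟨e1, h1, h1'⟩ := d1 s hs
      obtain ⟨e2, h2, h2'⟩ := d2 s hs
      have hs' := Set.Ico_subset_Icc_self hs
      have hμ := mu_pos hM hs.1
      have hr := rf_pos hM hs.1
      have hm := (der_mu hM hs.1).hasDerivWithinAt (s := Set.Ici s)
      refine ⟨_, ((((hm.mul h1).add (((hasDerivWithinAt_const s _ (3 * C)).div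
        (hm.const_add 1) (by linarith)).mul h2)).mul
        (der_rf hM hs.1).hasDerivWithinAt).add_const _).mul (hexp s).hasDerivWithinAt, ?_⟩
      have h3 := mul_le_mul_of_nonneg_right (alg hC hμ (n1 s hs') (n2 s hs') hE h1' h2') hr.le
      have h4 : rf M a s * Er ≤ √(1 + 2 * M) * Er :=
        mul_le_mul_of_nonneg_right (Real.sqrt_le_sqrt (qf_le hM)) hE
      have h5 := mul_le_mul_of_nonneg_left h4 (show 0 ≤ 900 * C ^ 2 by positivity)
      simp only [Pi.add_apply, Pi.mul_apply, Pi.div_apply, zero_mul, zero_sub]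
      rw [mul_comm (Real.exp _), ← mul_assoc _ (-(900 * C ^ 2)), ← add_mul]
      refine mul_nonpos_of_nonpos_of_nonneg ?_ (Real.exp_pos _).le
      linarith
  intro s hs
  have ha : a ∈ Set.Icc a (a + t) := ⟨le_rfl, hs.1.trans hs.2⟩
  have h1 := key s hs
  simp only [mu_self, rf_self, sub_self, mul_zero, neg_zero, Real.exp_zero, mul_one] at h1
  have hμ := mu_pos hM hs.1
  have hr := rf_pos hM hs.1
  have p1 := n1 s hs
  have p2 := n2 s hs
  have p3 := n1 a ha
  have p4 := n2 a ha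
  have h2 : 1 ≤ Real.exp (900 * C ^ 2 * t) * Real.exp (-(900 * C ^ 2 * (s - a))) := by
    rw [← Real.exp_add]
    exact Real.one_le_exp (by nlinarith [hs.2, show 0 ≤ 900 * C ^ 2 by positivity])
  have h3 : 3 * C / (1 + M) * ξ a ≤ 3 * C * (ξ a / M) := by
    rw [div_mul_eq_mul_div, mul_div_assoc]
    exact mul_le_mul_of_nonneg_left (div_le_div_of_nonneg_left p4 (by linarith) (by linarith))
      (by linarith)
  have h4 : 0 ≤ √(1 + 2 * M) * Er := by positivity
  have h5 : 0 ≤ M * Φ a := by positivity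
  have h6 : 0 ≤ 3 * C / (1 + mu M a s) * ξ s * rf M a s := by positivity
  have h7 : 0 ≤ mu M a s * Φ s * rf M a s := by positivity
  have h8 := mul_le_mul_of_nonneg_left (h1.trans (show _ ≤ 3 * C *
    (M * Φ a + ξ a / M + √(1 + 2 * M) * Er) by nlinarith)) (Real.exp_pos (900 * C ^ 2 * t)).le
  refine le_trans ?_ h8
  rw [mul_left_comm]
  exact le_trans (by linarith) (le_mul_of_one_le_right (by linarith) h2)

theorem mass {C F t θ : ℝ} {Φ m W : ℝ → ℝ} (hC : 1 ≤ C) (hM : 1 ≤ M) (ht : 0 ≤ t) (hθ : 0 < θ)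
    (hθ1 : θ * √(3 * Real.exp t) ≤ 1 / 2) (hF0 : 0 ≤ F)
    (c1 : ContinuousOn m (Set.Icc a (a + t))) (n1 : ∀ s ∈ Set.Icc a (a + t), 0 ≤ m s)
    (d1 : ∀ s ∈ Set.Ico a (a + t), HasDerivWithinAt m (-W s) (Set.Ici s) s)
    (hW : ∀ s ∈ Set.Icc a (a + t), ∀ g, 0 < g →
      |W s - mu M a s * m s| ≤ mu M a s * (g * m s + C * (1 / g + 1) * Φ s))
    (hF : ∀ s ∈ Set.Icc a (a + t), mu M a s * Φ s * rf M a s ≤ F) :
    |m (a + t) * rf M a (a + t) - m a| ≤ 2 * (θ * √(3 * Real.exp t)) * m a +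
      2 * (C * F * (√(3 * Real.exp t) / θ + t)) := by
  have cr : ContinuousOn (rf M a) (Set.Icc a (a + t)) := fun s hs =>
    (der_rf hM hs.1).continuousAt.continuousWithinAt
  have cI : ContinuousOn (If M a) (Set.Icc a (a + t)) := fun s hs =>
    (der_If hM hs.1).choose_spec.1.continuousAt.continuousWithinAt
  have ha : a ∈ Set.Icc a (a + t) := ⟨le_rfl, by linarith⟩
  obtain ⟨u, hu, hU⟩ := isCompact_Icc.exists_isMaxOn ⟨a, ha⟩ (c1.mul cr)
  set U := m u * rf M a u with hUd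
  have hU0 : 0 ≤ U := mul_nonneg (n1 u hu) (rf_pos hM hu.1).le
  have hP : 0 ≤ θ * U + C * F / θ := by positivity
  have key : ∀ ε : ℝ, |ε| = 1 → ∀ s ∈ Set.Icc a (a + t), ε * (m s * rf M a s - m a) ≤
      θ * √(3 * Real.exp t) * U + C * F * (√(3 * Real.exp t) / θ + t) := by
    intro ε hε s hs
    have h1 := le_of_der (a := a) (b := a + t) (f := fun s => ε * (m s * rf M a s) -
      (θ * U + C * F / θ) * If M a s - C * F * s)
      (((continuousOn_const.mul (c1.mul cr)).sub (continuousOn_const.mul cI)).sub (by fun_prop))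
      (fun s hs => by
        obtain ⟨d, hd, hd'⟩ := der_If hM hs.1
        have hs' := Set.Ico_subset_Icc_self hs
        have hI := If_pos hM hs.1
        have hr := rf_pos hM hs.1
        refine ⟨_, ((((d1 s hs).mul (der_rf hM hs.1).hasDerivWithinAt).const_mul ε).sub
          (hd.hasDerivWithinAt.const_mul _)).sub ((hasDerivWithinAt_id s _).const_mul _), ?_⟩
        have h2 := mul_le_mul_of_nonneg_right (hW s hs' (θ * If M a s) (by positivity)) hr.le
        have h3 : ε * (-W s * rf M a s + m s * (mu M a s * rf M a s)) ≤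
            |W s - mu M a s * m s| * rf M a s := by
          have e : ε * (-W s * rf M a s + m s * (mu M a s * rf M a s)) =
              -(ε * (W s - mu M a s * m s)) * rf M a s := by ring
          rw [e]
          refine mul_le_mul_of_nonneg_right ((neg_le_abs _).trans ?_) hr.le
          rw [abs_mul, hε, one_mul]
        have h4 := mul_le_mul_of_nonneg_left hd' hP
        have h5 : mu M a s * If M a s = 1 / If M a s := by
          rw [eq_div_iff hI.ne', ← mu_If hM hs.1]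
          ring
        have h6 := mul_le_mul_of_nonneg_left (hF s hs')
          (show 0 ≤ C * (1 / (θ * If M a s) + 1) by positivity)
        have h7 := mul_le_mul_of_nonneg_left (show m s * rf M a s ≤ U from hU hs')
          (show 0 ≤ θ * (1 / If M a s) by positivity)
        have e1 : mu M a s * (θ * If M a s * m s + C * (1 / (θ * If M a s) + 1) * Φ s) *
            rf M a s = θ * (1 / If M a s) * (m s * rf M a s) +
            C * (1 / (θ * If M a s) + 1) * (mu M a s * Φ s * rf M a s) := by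
          rw [← h5]
          ring
        have e2 : C * (1 / (θ * If M a s) + 1) * F = C * F / θ * (1 / If M a s) + C * F := by
          field_simp
        linarith) s hs
    have h2 := mul_le_mul_of_nonneg_left (If_le hM hs.2) hP
    have h3 := mul_nonneg hP (If_pos hM (le_refl a)).le
    have h4 := mul_le_mul_of_nonneg_left hs.2 (show 0 ≤ C * F by positivity)
    simp only [rf_self, mul_one] at h1
    have e : (θ * U + C * F / θ) * √(3 * Real.exp t) =
        θ * √(3 * Real.exp t) * U + C * F * (√(3 * Real.exp t) / θ) := by ring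
    linarith
  have k1 := key 1 abs_one u hu
  have k2 := key 1 abs_one (a + t) ⟨by linarith, le_rfl⟩
  have k3 := key (-1) (by simp) (a + t) ⟨by linarith, le_rfl⟩
  have hκ : 0 ≤ θ * √(3 * Real.exp t) := by positivity
  have hG : 0 ≤ C * F * (√(3 * Real.exp t) / θ + t) := by positivity
  generalize θ * √(3 * Real.exp t) = κ at *
  generalize C * F * (√(3 * Real.exp t) / θ + t) = G at *
  have k4 : U ≤ 2 * (m a + G) := by nlinarith
  have k5 : κ * U ≤ κ * (2 * (m a + G)) := mul_le_mul_of_nonneg_left k4 hκ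
  have k6 : κ * G ≤ 1 / 2 * G := mul_le_mul_of_nonneg_right hθ1 hG
  rw [abs_le]
  constructor <;> linarith

end IIIbAux

open IIIbAux

theorem Fwd.phiHat_der {φ φ' c : ℝ → ℝ} {C : ℝ} (hφ : PhiOK φ φ' c C)
    {α : Type} [DecidableEq α] {TT : Finset (Finset α)} {A1 : Finset α} {t : ℝ}
    {p : Finset α → ℝ → ℝ} (h : Fwd TT A1 t p) (hl : LinHG TT) (hA : ∀ T ∈ TT, T ⊆ A1)
    {μ : ℝ → ℝ} {s : ℝ} (hs : s ∈ Set.Ico 0 t) (hμ : 0 < μ s)
    (hd : HasDerivAt μ (-μ s - 2 * μ s ^ 2) s) :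
    ∃ d, HasDerivWithinAt (fun s => phiHat φ TT A1 p (μ s) s) d (Set.Ici s) s ∧
      d ≤ μ s * phiHat φ TT A1 p (μ s) s
        + 3 * C / μ s * (xiF TT p s + errF TT A1 p s) := by
  have hs' := Set.Ico_subset_Icc_self hs
  set dh : α → ℝ := fun e => WW TT p e s / (μ s * p {e} s) - 1 with hdh
  set r : Finset α → ℝ := fun T => ∑ x ∈ T, p T s ^ 2 / p {x} s + errT TT p T s with hr
  have hW : ∀ e ∈ A1, WW TT p e s = μ s * p {e} s * (1 + dh e) := fun e he => by
    have := h.single_pos he hs'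
    simp only [hdh]
    field_simp
    ring
  have hT : ∀ T ∈ TT, HasDerivWithinAt (p T)
      (-((1 + 3 * μ s) * p T s) - μ s * (p T s * ∑ f ∈ T, dh f) + r T) (Set.Ici s) s := by
    intro T hT
    refine (h.der_tri hl hT hs).congr_deriv ?_
    have e1 : p T s * ∑ x ∈ T, (WW TT p x s - p T s) / p {x} s =
        ∑ x ∈ T, (μ s * p T s + μ s * p T s * dh x - p T s ^ 2 / p {x} s) := by
      rw [Finset.mul_sum]
      refine Finset.sum_congr rfl fun x hx => ?_
      have := h.single_pos (hA T hT hx) hs'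
      rw [hW x (hA T hT hx)]
      field_simp
    rw [mul_add, e1, Finset.sum_sub_distrib, Finset.sum_add_distrib, Finset.sum_const,
      hl.card3 T hT, ← Finset.mul_sum]
    simp only [hr, nsmul_eq_mul, Nat.cast_ofNat]
    ring
  have he : ∀ e ∈ A1, HasDerivWithinAt
      (fun s => p {e} s * φ (WW TT p e s / (μ s * p {e} s) - 1))
      (∑ T ∈ thru TT e, (p T s * (-φ (dh e) - φ' (dh e) * (∑ f ∈ T, dh f - dh e)) +
        φ' (dh e) / μ s * r T)) (Set.Ici s) s := by
    intro e he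
    have hb := h.single_pos he hs'
    have h1 := h.der_single e hs
    have h2 : HasDerivWithinAt (WW TT p e) _ (Set.Ici s) s :=
      HasDerivWithinAt.fun_sum fun T hT' => hT T (mem_thru.1 hT').1
    have h3 := (hφ.der (dh e)).comp_hasDerivWithinAt s
      ((h2.fun_div (hd.hasDerivWithinAt.fun_mul h1) (mul_pos hμ hb).ne').sub_const 1)
    refine (h1.fun_mul h3).congr_deriv ?_
    have e1 : ∀ T : Finset α, p T s * (-φ (dh e) - φ' (dh e) * (∑ f ∈ T, dh f - dh e)) =
        (φ' (dh e) * dh e - φ (dh e)) * p T s - φ' (dh e) * (p T s * ∑ f ∈ T, dh f) :=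
      fun T => by ring
    simp only [e1, Finset.sum_add_distrib, Finset.sum_sub_distrib, Finset.sum_neg_distrib,
      ← Finset.mul_sum, Function.comp_apply]
    change _ * φ (dh e) + _ = (_ - _) * WW TT p e s - _ + _
    rw [show ∑ T ∈ thru TT e, p T s = WW TT p e s from rfl, hW e he]
    field_simp
    ring
  refine ⟨_, HasDerivWithinAt.fun_sum he, ?_⟩
  rw [← sum_inc_swap TT A1 hA fun T e => p T s * (-φ (dh e) - φ' (dh e) *
    (∑ f ∈ T, dh f - dh e)) + φ' (dh e) / μ s * r T]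
  have b1 : ∀ T ∈ TT, ∑ e ∈ T, (p T s * (-φ (dh e) - φ' (dh e) * (∑ f ∈ T, dh f - dh e)) +
      φ' (dh e) / μ s * r T) ≤ ∑ e ∈ T, p T s * c (dh e) +
      3 * C / μ s * (∑ x ∈ T, p T s ^ 2 / p {x} s + |errT TT p T s|) := by
    intro T hT
    rw [Finset.sum_add_distrib, ← Finset.mul_sum, ← Finset.mul_sum]
    refine add_le_add (mul_le_mul_of_nonneg_left (tri_sum hφ (hl.card3 T hT) dh)
      (h.nonneg T s hs')) ?_
    have n1 : 0 ≤ ∑ x ∈ T, p T s ^ 2 / p {x} s :=
      Finset.sum_nonneg fun x _ => div_nonneg (sq_nonneg _) (h.nonneg _ s hs')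
    have b2 : |r T| ≤ ∑ x ∈ T, p T s ^ 2 / p {x} s + |errT TT p T s| :=
      (abs_add_le _ _).trans (by rw [abs_of_nonneg n1])
    refine (Finset.sum_le_card_nsmul T _ (C / μ s *
      (∑ x ∈ T, p T s ^ 2 / p {x} s + |errT TT p T s|)) fun e _ => ?_).trans (le_of_eq ?_)
    · refine (le_abs_self _).trans ?_
      rw [abs_mul, abs_div, abs_of_pos hμ]
      exact mul_le_mul (div_le_div_of_nonneg_right (hφ.d_abs _) hμ.le) b2 (abs_nonneg _)
        (div_nonneg (by linarith [hφ.C1]) hμ.le)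
    · rw [hl.card3 T hT, nsmul_eq_mul]
      push_cast
      ring
  refine (Finset.sum_le_sum b1).trans ?_
  rw [Finset.sum_add_distrib, ← Finset.mul_sum, Finset.sum_add_distrib, sum_inc_swap TT A1 hA]
  refine add_le_add ?_ (mul_le_mul_of_nonneg_left (add_le_add le_rfl (sum_abs_errT_le hA p s))
    (div_nonneg (by linarith [hφ.C1]) hμ.le))
  rw [phiHat, Finset.mul_sum]
  refine Finset.sum_le_sum fun e he => ?_
  rw [← Finset.sum_mul, show ∑ T ∈ thru TT e, p T s = WW TT p e s from rfl, ← mul_assoc]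
  nth_rewrite 1 [hW e he]
  rw [mul_assoc]
  exact mul_le_mul_of_nonneg_left (hφ.c_mul _) (mul_pos hμ (h.single_pos he hs')).le

theorem IIIb {φ φ' c : ℝ → ℝ} {C : ℝ} (hφ : PhiOK φ φ' c C) {η t1 : ℝ} (hη : 0 < η)
    (hη1 : η ≤ 1) (ht1 : 1 ≤ t1) :
    ∃ K : ℝ, 0 < K ∧ ∀ {α : Type} [DecidableEq α] (TT : Finset (Finset α)) (A1 : Finset α)
      (t : ℝ) (p : Finset α → ℝ → ℝ), Fwd TT A1 t p → LinHG TT → (∀ T ∈ TT, T ⊆ A1) →
      ∀ M' s2 B0 Er : ℝ, 1 ≤ M' → 0 ≤ s2 → t = s2 + t1 → 0 < B0 →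
      (∀ s ∈ Set.Icc s2 t, errF TT A1 p s ≤ Er) →
      |massB A1 p t - B0 / Real.sqrt (1 + 2 * M' * (1 - Real.exp (-t1)))|
          + ∑ e ∈ A1, WW TT p e t
        ≤ B0 / Real.sqrt (1 + 2 * M' * (1 - Real.exp (-t1))) *
          (η + 4 * Real.exp (-t1) + K * (M' * phiHat φ TT A1 p M' s2 / B0
            + xiF TT p s2 / (M' * B0) + Real.sqrt (1 + 2 * M') * Er / B0
            + |massB A1 p s2 / B0 - 1|)) := by
  have hC := hφ.C1
  have hI : 0 < √(3 * Real.exp t1) := by positivity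
  set θ := η / 2 / √(3 * Real.exp t1) with hθd
  have hθ : 0 < θ := by positivity
  have hκ : θ * √(3 * Real.exp t1) = η / 2 := div_mul_cancel₀ _ hI.ne'
  set L := √(3 * Real.exp t1) / θ + t1 with hL
  have hL0 : 0 < L := by positivity
  refine ⟨6 + (6 * L + 2) * C * (Real.exp (900 * C ^ 2 * t1) * (3 * C)), by positivity, ?_⟩
  intro α _ TT A1 t p h hl hA M a B0 Er hM ha ht hB hEr
  subst ht
  have sub1 : Set.Icc a (a + t1) ⊆ Set.Icc 0 (a + t1) := Set.Icc_subset_Icc_left ha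
  have sub2 : Set.Ico a (a + t1) ⊆ Set.Ico 0 (a + t1) := Set.Ico_subset_Ico_left ha
  have ha' : a ∈ Set.Icc a (a + t1) := ⟨le_rfl, by linarith⟩
  have hb' : a + t1 ∈ Set.Icc a (a + t1) := ⟨by linarith, le_rfl⟩
  have hE : 0 ≤ Er := (errF_nonneg TT A1 p a).trans (hEr a ha')
  have n1 : ∀ s ∈ Set.Icc a (a + t1), 0 ≤ phiHat φ TT A1 p (mu M a s) s := fun s hs =>
    Finset.sum_nonneg fun e _ => mul_nonneg (h.nonneg _ s (sub1 hs)) (hφ.nonneg _)
  have n2 : ∀ s ∈ Set.Icc a (a + t1), 0 ≤ massB A1 p s := fun s hs =>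
    Finset.sum_nonneg fun e _ => h.nonneg _ s (sub1 hs)
  have hF := lyap (Φ := fun s => phiHat φ TT A1 p (mu M a s) s) (ξ := xiF TT p) hC hM hE
    (continuousOn_finsetSum _ fun e he => ((h.cont _).mono sub1).mul
      (hφ.continuous.comp_continuousOn ((((h.cont_WW e).mono sub1).div
        (ContinuousOn.mul (fun s hs => (der_mu hM hs.1).continuousAt.continuousWithinAt)
          ((h.cont _).mono sub1)) fun s hs =>
        (mul_pos (mu_pos hM hs.1) (h.single_pos he (sub1 hs))).ne').sub continuousOn_const)))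
    ((h.xi_cont hA).mono sub1) n1 (fun s hs => h.xi_nonneg (sub1 hs))
    (fun s hs => by
      obtain ⟨d, h1, h2⟩ := h.phiHat_der hφ hl hA (sub2 hs) (mu_pos hM hs.1) (der_mu hM hs.1)
      refine ⟨d, h1, h2.trans (add_le_add le_rfl (mul_le_mul_of_nonneg_left
        (add_le_add le_rfl (hEr s (Set.Ico_subset_Icc_self hs))) ?_))⟩
      exact div_nonneg (by linarith) (mu_pos hM hs.1).le)
    (fun s hs => by
      have hs' := Set.Ico_subset_Icc_self hs
      have hμ := mu_pos hM hs.1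
      obtain ⟨d, h1, h2⟩ := h.xi_der hl hA hμ.le (sub2 hs)
      refine ⟨d, h1, h2.trans (add_le_add (add_le_add le_rfl
        (mul_le_mul_of_nonneg_left ?_ (by positivity))) (by linarith [hEr s hs']))⟩
      rw [lowF, phiHat, Finset.mul_sum]
      refine le_trans (Finset.sum_le_sum fun e he => ?_) (Finset.sum_le_sum_of_subset_of_nonneg
        (filter_subset _ _) fun e _ _ => mul_nonneg (by linarith)
          (mul_nonneg (h.nonneg _ s (sub1 hs')) (hφ.nonneg _)))
      obtain ⟨he1, he2⟩ := mem_filter.1 he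
      have hb := h.single_pos he1 (sub1 hs')
      have h3 : WW TT p e s / (mu M a s * p {e} s) - 1 < -(1 / 5) := by
        rw [sub_lt_iff_lt_add, div_lt_iff₀ (mul_pos hμ hb)]
        linarith
      have h4 := hφ.ge_min (WW TT p e s / (mu M a s * p {e} s) - 1)
      have h5 : 1 / 25 ≤ min ((WW TT p e s / (mu M a s * p {e} s) - 1) ^ 2)
          |WW TT p e s / (mu M a s * p {e} s) - 1| :=
        le_min (by nlinarith) (by rw [abs_of_neg (by linarith)]; linarith)
      nlinarith)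
  simp only [mu_self] at hF
  set Z := M * phiHat φ TT A1 p M a + xiF TT p a / M + √(1 + 2 * M) * Er with hZ
  have hZ0 : 0 ≤ Z := by
    have h1 := n1 a ha'
    have h2 := h.xi_nonneg (sub1 ha')
    rw [mu_self] at h1
    positivity
  have hW : ∀ s ∈ Set.Icc a (a + t1), ∀ g, 0 < g →
      |∑ e ∈ A1, WW TT p e s - mu M a s * massB A1 p s| ≤
        mu M a s * (g * massB A1 p s + C * (1 / g + 1) * phiHat φ TT A1 p (mu M a s) s) := by
    intro s hs g hg
    have hμ := mu_pos hM hs.1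
    simp only [massB, phiHat, Finset.mul_sum, ← Finset.sum_sub_distrib, ← Finset.sum_add_distrib]
    refine (Finset.abs_sum_le_sum_abs _ _).trans (Finset.sum_le_sum fun e he => ?_)
    have hb := mul_pos hμ (h.single_pos he (sub1 hs))
    have h1 := mul_le_mul_of_nonneg_left
      (hφ.abs_le hg (WW TT p e s / (mu M a s * p {e} s) - 1)) hb.le
    have e1 : WW TT p e s - mu M a s * p {e} s =
        mu M a s * p {e} s * (WW TT p e s / (mu M a s * p {e} s) - 1) := by
      rw [mul_sub, mul_div_cancel₀ _ hb.ne', mul_one]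
    rw [e1, abs_mul, abs_of_pos hb]
    linarith
  have hm := mass (m := massB A1 p) (W := fun s => ∑ e ∈ A1, WW TT p e s) hC hM (by linarith) hθ
    (by linarith) (by positivity) (continuousOn_finsetSum _ fun e _ => (h.cont _).mono sub1) n2
    (fun s hs => by
      rw [← Finset.sum_neg_distrib]
      exact HasDerivWithinAt.fun_sum fun e _ => h.der_single e (sub2 hs)) hW hF
  have hr := rf_pos hM hb'.1
  have hμ := mu_pos hM hb'.1
  have er : √(1 + 2 * M * (1 - Real.exp (-t1))) = rf M a (a + t1) := by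
    rw [rf, qf, add_sub_cancel_left]
  have hE1 : Real.exp (-t1) ≤ 1 / 2 := by
    rw [Real.exp_neg, inv_le_comm₀ (Real.exp_pos _) (by norm_num)]
    linarith [Real.add_one_le_exp t1]
  have hE0 := Real.exp_pos (-t1)
  have hμ1 : mu M a (a + t1) ≤ Real.exp (-t1) := by
    rw [mu, div_le_iff₀ (by linarith [one_le_qf hM hb'.1]), qf, add_sub_cancel_left]
    nlinarith [mul_nonneg hE0.le (mul_nonneg (show 0 ≤ M by linarith)
      (show 0 ≤ 1 / 2 - Real.exp (-t1) by linarith))]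
  have w1 := mul_le_mul_of_nonneg_right (le_abs_self _ |>.trans (hW _ hb' 1 one_pos)) hr.le
  have w2 := mul_le_mul_of_nonneg_left (hF _ hb') (show 0 ≤ 2 * C by linarith)
  have w3 := mul_le_mul_of_nonneg_right hμ1 (mul_nonneg (n2 _ hb') hr.le)
  have e1 : |massB A1 p (a + t1) - B0 / rf M a (a + t1)| =
      |massB A1 p (a + t1) * rf M a (a + t1) - B0| / rf M a (a + t1) := by
    rw [← abs_of_pos hr, ← abs_div, abs_of_pos hr]
    congr 1
    field_simp
  have e2 : |massB A1 p a / B0 - 1| = |massB A1 p a - B0| / B0 := by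
    rw [← abs_of_pos hB, ← abs_div, abs_of_pos hB]
    congr 1
    field_simp
  have e3 : M * phiHat φ TT A1 p M a / B0 + xiF TT p a / (M * B0) + √(1 + 2 * M) * Er / B0 =
      Z / B0 := by
    rw [hZ]
    field_simp
  rw [er, e1, e2, e3, hκ] at *
  rw [div_mul_eq_mul_div, div_add' _ _ _ hr.ne', div_le_div_iff_of_pos_right hr, ← add_div,
    mul_add B0, mul_left_comm B0, mul_div_cancel₀ _ hB.ne']
  have d0 := abs_nonneg (massB A1 p a - B0)
  have d1 := le_abs_self (massB A1 p a - B0)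
  have d2 := abs_sub_le (massB A1 p (a + t1) * rf M a (a + t1)) (massB A1 p a) B0
  have d3 := le_abs_self (massB A1 p (a + t1) * rf M a (a + t1) - B0)
  have hG : 0 ≤ C * (Real.exp (900 * C ^ 2 * t1) * (3 * C * Z)) * L := by positivity
  have hK : 0 ≤ (6 * L + 2) * C * (Real.exp (900 * C ^ 2 * t1) * (3 * C)) *
    |massB A1 p a - B0| := by positivity
  generalize |massB A1 p a - B0| = δ at *
  generalize |massB A1 p (a + t1) * rf M a (a + t1) - B0| = D at *
  have d4 : η * massB A1 p a ≤ η * B0 + δ := by nlinarith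
  have d5 : D ≤ η * B0 + 2 * δ + 2 * (C * (Real.exp (900 * C ^ 2 * t1) * (3 * C * Z)) * L) := by
    linarith
  have d6 : η * B0 ≤ B0 := mul_le_of_le_one_left hB.le hη1
  have d7 := mul_le_mul_of_nonneg_left (show massB A1 p (a + t1) * rf M a (a + t1) ≤ 2 * B0 +
    (2 * δ + 2 * (C * (Real.exp (900 * C ^ 2 * t1) * (3 * C * Z)) * L)) by linarith) hE0.le
  have d8 := mul_le_mul_of_nonneg_right hE1 (show 0 ≤ 2 * δ +
    2 * (C * (Real.exp (900 * C ^ 2 * t1) * (3 * C * Z)) * L) by linarith)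
  linarith

end Vale.Agent.P046
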