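import Vale.Agent.P046.Run
import Vale.Agent.P046.GenA
import Vale.Agent.P046.GenPhi
import Vale.Agent.P046.GenX

open Finset

namespace Vale.Agent.P046

section
variable {φ φ' c : ℝ → ℝ} {C : ℝ} {κ : Fin 4 → ℝ} {K γ0 : ℝ}
  {α : Type} [DecidableEq α] [Fintype α] {H : HG α} {H' : Finset (Finset α)} {δ M2 τ1 : ℝ}

omit [Fintype α] in
theorem p1Aux_aD (hD : 1 ≤ H.D) (τ : ℝ) : H.aa τ * H.D = Real.exp (2 * τ) := by
  have : (H.D : ℝ) ≠ 0 := by exact_mod_cast (by omega : H.D ≠ 0)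
  exact div_mul_cancel₀ _ this

omit [Fintype α] in
theorem p1Aux_le (hD : 1 ≤ H.D) {τ σ : ℝ} (h : τ ≤ σ) : H.aa τ * H.D ≤ Real.exp (2 * σ) := by
  rw [p1Aux_aD hD]
  exact Real.exp_le_exp.2 (by linarith)

theorem p1Aux_UU (hD : 1 ≤ H.D) {τ σ : ℝ} (h : τ ≤ σ) {A : Finset α} (hA : A ⊆ H.A0) :
    H.UU (H.aa τ) A ≤ H.NN * Real.exp (Real.exp (2 * σ) / 4) := by
  have h1 : H.UU (H.aa τ) A ≤ A.card * Real.exp (Real.exp (2 * σ) / 4) := by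
    rw [← nsmul_eq_mul]
    refine sum_le_card_nsmul _ _ _ fun e _ => Real.exp_le_exp.2 ?_
    have h2 : (H.deg A e : ℝ) ≤ H.D := by exact_mod_cast H.deg_le_D A e
    have h3 := (mul_le_mul_of_nonneg_left h2 (H.aa_nonneg τ)).trans (p1Aux_le hD h)
    unfold HG.u
    linarith
  refine h1.trans (mul_le_mul_of_nonneg_right ?_ (Real.exp_pos _).le)
  unfold HG.NN
  exact_mod_cast card_le_card hA

theorem p1Aux_X4 (hD : 1 ≤ H.D) (X : H.XE H' δ M2 H.A0 0 τ1 (0, 0)) {KX σ : ℝ} (hKX : 0 < KX)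
    (hX : ∀ a Λ : ℝ, 0 ≤ a → 1 ≤ Λ → a * H.D ≤ Λ → ∀ (A : Finset α) (r : α → ℝ),
      H.gen (fun a A _ => H.X4 a A) a A r ≤ KX * Λ ^ 5 * (H.X4 a A + H.NN / (H.D : ℝ) ^ 2))
    (hσ : σ ≤ τ1) {τ : ℝ} (hτ : τ ∈ Set.Icc 0 σ) :
    X.E τ (fun s _ => H.X4 (H.aa τ) s.1) ≤
      Real.exp (KX * Real.exp (2 * σ) ^ 5 * σ) * (H.NN / (H.D : ℝ) ^ 2) := by
  set Λ := Real.exp (2 * σ) with hΛ
  set q := H.NN / (H.D : ℝ) ^ 2 with hq
  have hq0 : 0 ≤ q := div_nonneg (Nat.cast_nonneg _) (by positivity)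
  have hΛ1 : 1 ≤ Λ := Real.one_le_exp (by linarith [hτ.1, hτ.2])
  have s1 := H.smF_X4.comp H.contDiff_aa
  have s2 := SmF.of_state fun _ : Finset α => q
  have h1 := runAux_gron X (s1.add s2) (G := fun τ => KX * Λ ^ 5 * τ) (G' := fun _ => KX * Λ ^ 5)
    (contDiff_const.mul contDiff_id)
    (fun τ => by simpa using (hasDerivAt_id τ).const_mul (KX * Λ ^ 5)) le_rfl hτ.1
    (hτ.2.trans hσ) fun t ht A _ r => by
      rw [H.genT_add s1 s2, H.genT_comp fun a A _ => H.X4 a A]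
      have h2 : H.genT (fun _ _ _ => q) t A r = 0 := by simp [HG.genT]
      rw [h2, add_zero]
      exact hX _ Λ (H.aa_nonneg t) hΛ1 (p1Aux_le hD (ht.2.le.trans hτ.2)) A r
  rw [X.init _ ((s1.add s2).cts 0)] at h1
  have h2 : H.X4 (H.aa 0) H.A0 = 0 := sum_eq_zero fun e he => by
    rw [H.gdeg_eq_deg he, H.deg_A0 he, p1Aux_aD hD]
    simp
  simp only [h2, zero_add, mul_zero, sub_zero] at h1
  refine le_trans (X.mono τ ⟨hτ.1, hτ.2.trans hσ⟩ _ _ (s1.cts τ) ((s1.add s2).cts τ)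
    fun s r _ => le_add_of_nonneg_right hq0) (h1.trans ?_)
  refine mul_le_mul_of_nonneg_right (Real.exp_le_exp.2 ?_) hq0
  exact mul_le_mul_of_nonneg_left hτ.2 (by positivity)

theorem p1Aux_M4 (hD : 1 ≤ H.D) (X : H.XE H' δ M2 H.A0 0 τ1 (0, 0)) {KM σ : ℝ} (hKM : 0 < KM)
    (hM : ∀ a : ℝ, 0 ≤ a → a ≤ 1 → ∀ (A : Finset α) (r : α → ℝ),
      H.gen H.M4 a A r ≤ -(3 / 4) * H.M1 a A r + KM * a ^ 2 * H.UU a A)
    (hσ : σ ≤ τ1) (hΛD : Real.exp (2 * σ) ≤ H.D) {τ : ℝ} (hτ : τ ∈ Set.Icc 0 σ) :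
    X.E τ (fun s r => H.M4 (H.aa τ) s.1 r.1) ≤
      KM * Real.exp (2 * σ) ^ 2 * Real.exp (Real.exp (2 * σ) / 4) * σ *
        (H.NN / (H.D : ℝ) ^ 2) := by
  set Λ := Real.exp (2 * σ) with hΛ
  set m := KM * Λ ^ 2 * Real.exp (Λ / 4) * (H.NN / (H.D : ℝ) ^ 2) with hm
  have hD' : (0 : ℝ) < H.D := by exact_mod_cast hD
  have hN0 : 0 ≤ H.NN := Nat.cast_nonneg _
  have s1 := H.smF_M4.comp H.contDiff_aa
  have h1 := X.le_of_gen s1.lift le_rfl hτ.1 (hτ.2.trans hσ) (B := fun t => m * t)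
    (B' := fun _ => m) (fun t _ => by simpa using (hasDerivAt_id t).const_mul m) fun t ht => by
      refine ⟨fun _ _ => m, Cts.const m, fun s r hs => ?_,
        (X.const t ⟨ht.1, ht.2.le.trans (hτ.2.trans hσ)⟩ m).le⟩
      rw [H.sys_gen_lift H' δ M2 (fun τ A r => H.M4 (H.aa τ) A r), H.genT_comp H.M4]
      have k1 := p1Aux_le hD (ht.2.le.trans hτ.2)
      have k0 := H.aa_nonneg t
      have k2 : H.aa t ≤ 1 := le_of_mul_le_mul_right (by linarith) hD'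
      have k3 : H.aa t ^ 2 ≤ Λ ^ 2 / (H.D : ℝ) ^ 2 := by
        rw [le_div_iff₀ (by positivity), ← mul_pow]
        exact pow_le_pow_left₀ (by positivity) k1 2
      have k4 := mul_le_mul k3 (p1Aux_UU hD (ht.2.le.trans hτ.2) hs.1) (H.UU_nonneg _ _)
        (by positivity)
      have k5 := mul_le_mul_of_nonneg_left k4 hKM.le
      have k6 := hM _ k0 k2 s.1 r.1
      have k7 := H.M1_nonneg k0 s.1 r.1
      have k8 : m = KM * (Λ ^ 2 / (H.D : ℝ) ^ 2 * (H.NN * Real.exp (Λ / 4))) := by rw [hm]; ring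
      linarith
  rw [X.init _ (s1.cts 0)] at h1
  simp only [runAux_M40 hD] at h1
  have h2 : m * τ ≤ m * σ := mul_le_mul_of_nonneg_left hτ.2 (by positivity)
  linarith

theorem p1Aux_R2 (hφ : PhiOK φ φ' c C) (hV : VOK φ κ K γ0) (hD : 1 ≤ H.D) (hN : H.D ≤ H.A0.card)
    (X : H.XE H' δ M2 H.A0 0 τ1 (0, 0)) {KR σ γ2 K1 Q : ℝ} (hKR : 0 < KR)
    (hR : ∀ a Λ : ℝ, 1 ≤ a * H.D → a * H.D ≤ Λ → KR * Λ ^ 4 ≤ H.D →
      ∀ A ⊆ H.A0, ∀ r : α → ℝ, H.gen (fun _ A r => ∑ e ∈ A, r e ^ 2) a A r ≤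
        -(3 / 8) * ∑ e ∈ A, r e ^ 2 + 4 * H.Ups a A r
          + KR * Λ ^ 5 * Real.sqrt H.D * (H.X4 a A + H.M4 a A r))
    (hσ0 : 0 ≤ σ) (hσ : σ ≤ τ1) (hΛD : KR * Real.exp (2 * σ) ^ 4 ≤ H.D) (hγ : 0 < γ2)
    (hg : H.gam σ ≤ γ2) (hK1 : ∀ τ ∈ Set.Icc 0 σ, EV X φ κ 1 γ2 τ ≤ K1) (hK0 : 0 ≤ K1)
    (hQ : ∀ τ ∈ Set.Icc 0 σ, X.E τ (fun s _ => H.X4 (H.aa τ) s.1) +
      X.E τ (fun s r => H.M4 (H.aa τ) s.1 r.1) ≤ Q) :
    X.E σ (fun s r => ∑ e ∈ s.1, r.1 e ^ 2) ≤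
      4 * K1 * (H.NN / H.D) * (4 / 3 * Real.exp (3 / 4 * σ) + γ2 * Real.exp σ) +
        KR * Real.exp (2 * σ) ^ 5 * Real.sqrt H.D * Q * σ := by
  set Λ := Real.exp (2 * σ) with hΛ
  set L := KR * Λ ^ 5 * Real.sqrt H.D with hL
  have hD' : (0 : ℝ) < H.D := by exact_mod_cast hD
  have hNN := H.NN_pos hD hN
  have s1 := smF_sq (α := α)
  have h1 := X.le_of_gen s1.lift le_rfl hσ0 hσ
    (B := fun t => 4 * K1 * (H.NN / H.D) * (4 / 3 * Real.exp (3 / 4 * t) + γ2 * Real.exp t) +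
      L * Q * t)
    (B' := fun t => 4 * K1 * (H.NN / H.D) * (Real.exp (3 / 4 * t) + γ2 * Real.exp t) + L * Q)
    (fun t _ => by
      have := ((((((hasDerivAt_id t).const_mul (3 / 4)).exp.const_mul (4 / 3)).add
        ((Real.hasDerivAt_exp t).const_mul γ2)).const_mul (4 * K1 * (H.NN / H.D))).add
        ((hasDerivAt_id t).const_mul (L * Q)))
      refine HasDerivAt.congr_deriv this ?_
      simp only [id]
      ring) fun t ht => by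
      have ht' : t ∈ Set.Icc 0 τ1 := ⟨ht.1, ht.2.le.trans hσ⟩
      have c1 := (H.smF_Ups.comp H.contDiff_aa).cts t
      have c2 := (H.smF_X4.comp H.contDiff_aa).cts t
      have c3 := (H.smF_M4.comp H.contDiff_aa).cts t
      refine ⟨fun s r => 4 * H.Ups (H.aa t) s.1 r.1 +
          L * (H.X4 (H.aa t) s.1 + H.M4 (H.aa t) s.1 r.1),
        (c1.cmul 4).add ((c2.add c3).cmul L), fun s r hs => ?_, ?_⟩
      · rw [H.sys_gen_lift H' δ M2 (fun _ A r => ∑ e ∈ A, r e ^ 2),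
          H.genT_comp fun _ A r => ∑ e ∈ A, r e ^ 2]
        have k1 := hR (H.aa t) Λ (by
          rw [p1Aux_aD hD]; exact Real.one_le_exp (by linarith [ht.1])) (p1Aux_le hD ht.2.le)
          hΛD s.1 hs.1 r.1
        have k2 : 0 ≤ ∑ e ∈ s.1, r.1 e ^ 2 := sum_nonneg fun _ _ => sq_nonneg _
        linarith
      · rw [X.add t ht' _ _ (c1.cmul 4) ((c2.add c3).cmul L), X.smul t ht' _ _ c1,
          X.smul t ht' _ _ (c2.add c3), X.add t ht' _ _ c2 c3]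
        have hgt : H.gam t ≤ γ2 := (H.gam_mono ht.2.le).trans hg
        have hgg := H.gg_pos hD zero_le_one t
        have hcc := H.cc_pos hD hN t
        have k1 := X.mono t ht' _ _ (c1.cmul (H.cc t / H.gg 1 t))
          ((H.smF_VV hφ hD κ zero_le_one hγ).cts t) fun s r _ =>
          (H.VV_lower hφ hV.kap hD hN zero_le_one hgt s.1 r.1).2.2.1
        rw [X.smul t ht' _ _ c1] at k1
        have k2 := k1.trans (hK1 t ⟨ht.1, ht.2.le⟩)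
        rw [div_mul_eq_mul_div, div_le_iff₀ hgg] at k2
        have k3 : H.gg 1 t ≤ Real.exp (-t / 4) + γ2 := by unfold HG.gg; linarith
        have k4 := k2.trans (mul_le_mul_of_nonneg_left k3 hK0)
        have k5 : H.cc t * (Real.exp t * (H.NN / H.D)) = 1 := by
          unfold HG.cc
          rw [Real.exp_neg]
          field_simp
        have k6 : Real.exp (-t / 4) * Real.exp t = Real.exp (3 / 4 * t) := by
          rw [← Real.exp_add]; congr 1; ring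
        have k7 := mul_le_mul_of_nonneg_right k4 (by positivity : 0 ≤ Real.exp t * (H.NN / H.D))
        rw [mul_right_comm, k5, one_mul] at k7
        have k8 := mul_le_mul_of_nonneg_left (hQ t ⟨ht.1, ht.2.le⟩) (by positivity : 0 ≤ L)
        rw [← k6]
        linarith
  rw [X.init _ (s1.cts 0)] at h1
  have h2 : 0 ≤ 4 * K1 * (H.NN / H.D) * (4 / 3 * Real.exp (3 / 4 * 0) + γ2 * Real.exp 0) := by
    positivity
  simp only [Pi.zero_apply, ne_eq, OfNat.ofNat_ne_zero, not_false_eq_true, zero_pow,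
    sum_const_zero] at h1
  linarith

theorem p1Aux_Vabs (hφ : PhiOK φ φ' c C) (hV : VOK φ κ K γ0) (hD : 1 ≤ H.D)
    (hN : H.D ≤ H.A0.card) (X : H.XE H' δ M2 H.A0 0 τ1 (0, 0)) {σ γ2 K1 : ℝ}
    (hσ0 : 0 ≤ σ) (hσ : σ ≤ τ1) (hγ : 0 < γ2) (hγ0 : γ2 ≤ γ0)
    (hg : H.gam σ ≤ γ2) (hK1 : ∀ τ ∈ Set.Icc 0 σ, EV X φ κ 1 γ2 τ ≤ K1) (hK0 : 0 ≤ K1) :
    X.E σ (fun s _ => H.Vabs γ2 σ s.1) ≤ γ2 + 4 * K * K1 / γ2 * H.gam σ := by
  have s1 := H.smF_Vabs hγ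
  have hK := hV.Kpos
  have h1 := X.le_of_gen s1.lift le_rfl hσ0 hσ (B := fun t => 4 * K * K1 / γ2 * H.gam t)
    (B' := fun t => 4 * K * K1 / γ2 * (H.gam t / 4))
    (fun t _ => (H.hasDerivAt_gam t).const_mul _) fun t ht => by
      have ht' : t ∈ Set.Icc 0 τ1 := ⟨ht.1, ht.2.le.trans hσ⟩
      have c1 := (H.smF_VV hφ hD κ zero_le_one hγ).cts t
      have hg0 := H.gam_pos hD t
      refine ⟨_, c1.cmul (K * (H.gam t / γ2)), fun s r hs => ?_, ?_⟩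
      · rw [H.sys_gen_lift H' δ M2 (fun τ A _ => H.Vabs γ2 τ A)]
        exact (hV.super H hD hN 1 γ2 t zero_le_one hγ hγ0 ((H.gam_mono ht.2.le).trans hg) s.1
          hs.1 r.1).2
      · rw [X.smul t ht' _ _ c1]
        refine (mul_le_mul_of_nonneg_left (hK1 t ⟨ht.1, ht.2.le⟩) (by positivity)).trans
          (le_of_eq ?_)
        ring
  rw [X.init _ (s1.cts 0)] at h1
  simp only [runAux_Vabs0 hD hN hγ] at h1
  have hg0 := H.gam_pos hD 0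
  have h2 : 0 ≤ 4 * K * K1 / γ2 * H.gam 0 := by positivity
  linarith

theorem p1Aux_pt (hφ : PhiOK φ φ' c C) (hκ : ∀ i, 1 ≤ κ i) (hD : 1 ≤ H.D)
    (hN : H.D ≤ H.A0.card) {σ γ2 : ℝ} (hγ : Real.exp (-σ / 4) = γ2) (hg : H.gam σ ≤ γ2)
    {A : Finset α} (hA : A ⊆ H.A0) (r : α → ℝ) :
    H.VV φ κ (Real.exp (σ / 4)) γ2 σ A r ≤
      C * H.cc σ * ∑ e ∈ A, r e ^ 2 + (2 + 48 * κ 3) * γ2 * H.VV φ κ 1 γ2 σ A r +
        κ 2 * (H.cc σ / H.gam σ ^ 7) * H.M4 (H.aa σ) A r + H.Vabs γ2 σ A +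
        (κ 3 * H.gam σ * Real.exp σ * Real.exp (Real.exp (2 * σ) / 4) + 48 * κ 3 * γ2) := by
  have hcc := H.cc_pos hD hN σ
  have hg0 := H.gam_pos hD σ
  have hγ0 : 0 < γ2 := hg0.trans_le hg
  have hn := H.nrm_pos hD hN σ
  have hNN := H.NN_pos hD hN
  have k0 := zero_le_one.trans (hκ 0)
  have k1 := zero_le_one.trans (hκ 1)
  have k3 := zero_le_one.trans (hκ 3)
  obtain ⟨-, v2, -, -, -, -, -, v8, -, v10⟩ := H.VV_lower hφ hκ hD hN zero_le_one hg A r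
  set W := H.VV φ κ 1 γ2 σ A r with hW
  have h1 : H.cc σ * ∑ e ∈ A, φ (r e) ≤ C * H.cc σ * ∑ e ∈ A, r e ^ 2 := by
    rw [mul_comm C, mul_assoc, mul_sum A _ C]
    exact mul_le_mul_of_nonneg_left (sum_le_sum fun e _ => hφ.le_sq _) hcc.le
  have h2 : H.cc σ / H.gg (Real.exp (σ / 4)) σ ≤ 2 * γ2 * (H.cc σ / H.gg 1 σ) := by
    have g1 := H.gg_pos hD zero_le_one σ
    have g2 : 1 ≤ H.gg (Real.exp (σ / 4)) σ := by
      unfold HG.gg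
      rw [← Real.exp_add, show σ / 4 + -σ / 4 = 0 by ring, Real.exp_zero]
      linarith
    have g3 : H.gg 1 σ ≤ 2 * γ2 := by unfold HG.gg; linarith
    refine (div_le_self hcc.le g2).trans ?_
    rw [← mul_div_assoc, le_div_iff₀ g1, mul_comm]
    exact mul_le_mul_of_nonneg_right g3 hcc.le
  have h3 := mul_le_mul_of_nonneg_right h2 (mul_nonneg k0 (H.Ups_nonneg (H.aa σ) A r))
  have h4 := mul_le_mul_of_nonneg_right h2 (mul_nonneg k1 (H.om_nonneg (H.aa σ) A))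
  have h5 := mul_le_mul_of_nonneg_left v2 (by positivity : 0 ≤ 2 * γ2)
  have h6 := mul_le_mul_of_nonneg_left (p1Aux_UU hD (le_refl σ) hA)
    (by positivity : 0 ≤ κ 3 * (H.gam σ * H.nrm σ))
  have h7 : κ 3 * (H.gam σ * H.nrm σ) * (H.NN * Real.exp (Real.exp (2 * σ) / 4)) =
      κ 3 * H.gam σ * Real.exp σ * Real.exp (Real.exp (2 * σ) / 4) := by
    unfold HG.nrm
    field_simp
  have h8 : 24 * κ 3 * (2 * γ2 - H.gam σ) * (H.nrm σ * (A.card : ℝ)) ≤ 48 * κ 3 * γ2 * (1 + W) :=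
    mul_le_mul (by nlinarith) v8 (by positivity) (by positivity)
  rw [HG.VV]
  linarith

end

theorem phase1 {φ φ' c : ℝ → ℝ} {C : ℝ} (hφ : PhiOK φ φ' c C) {κ : Fin 4 → ℝ} {K γ0 : ℝ}
    (hV : VOK φ κ K γ0) :
    ∃ K2 : ℝ, 0 < K2 ∧ ∀ γ2 : ℝ, 0 < γ2 → γ2 ≤ γ0 → ∃ σ0 : ℝ, 0 ≤ σ0 ∧ ∃ D0 : ℕ,
      ∀ {α : Type} [DecidableEq α] [Fintype α] (H : HG α), H.Gap → D0 ≤ H.D →
        H.D ≤ H.A0.card → H.A0.card ≤ H.D ^ 2 →
        ∀ (H' : Finset (Finset α)) (δ M2 τ1 : ℝ), σ0 ≤ τ1 → H.gam τ1 ≤ γ2 →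
        ∀ X : H.XE H' δ M2 H.A0 0 τ1 (0, 0),
          EV X φ κ (Real.exp (σ0 / 4)) γ2 τ1 ≤ K2 * γ2 := by
  obtain ⟨KX, hKX, hX⟩ := HG.gen_X4
  obtain ⟨KM, hKM, hM⟩ := HG.gen_M4
  obtain ⟨KR, hKR, hR⟩ := HG.gen_R2
  have hC := hφ.C1
  have hK := hV.Kpos
  have k1 := hV.kap 1
  have k2 := hV.kap 2
  have k3 := hV.kap 3
  set K1 := Real.exp (12 * K) * (8 * κ 1 + 50 * κ 3 + 1) with hK1
  have hK10 : 0 < K1 := by positivity
  refine ⟨Real.exp (12 * K) * (10 * C * K1 + (2 + 48 * κ 3) * K1 + 48 * κ 3 + 2), by positivity,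
    fun γ2 hγ hγ0 => ?_⟩
  have hγ1 := hγ0.trans hV.g0le
  obtain ⟨σ, hσ0, hσγ⟩ : ∃ σ : ℝ, 0 ≤ σ ∧ Real.exp (-σ / 4) = γ2 :=
    ⟨-4 * Real.log γ2, by linarith [Real.log_nonpos hγ.le hγ1], by
      rw [show -(-4 * Real.log γ2) / 4 = Real.log γ2 by ring, Real.exp_log hγ]⟩
  set Λ := Real.exp (2 * σ) with hΛ
  set C1 := Real.exp (KX * Λ ^ 5 * σ) with hC1
  set C2 := KM * Λ ^ 2 * Real.exp (Λ / 4) * σ with hC2
  have hΛ1 : 1 ≤ Λ := Real.one_le_exp (by linarith)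
  have hC20 : 0 ≤ C2 := by positivity
  have hC10 : 0 ≤ C1 := by positivity
  obtain ⟨Z, hZ⟩ : ∃ Z : ℝ, Z = C * (KR * Λ ^ 5 * (C1 + C2) * σ) + κ 2 * C2 +
    (4 * K * K1 / γ2 + κ 3 * Real.exp σ * Real.exp (Λ / 4)) * Real.exp (σ / 4) := ⟨_, rfl⟩
  have hZ0 : 0 ≤ Z := by rw [hZ]; positivity
  refine ⟨σ, hσ0, ⌈(Z / γ2) ^ 8 + KR * Λ ^ 4 + Λ⌉₊, ?_⟩
  intro α _ _ H hG hD0 hN hN2 H' δ M2 τ1 hσ hg1 X
  have hD0' := Nat.ceil_le.1 hD0
  have p1 : 0 ≤ (Z / γ2) ^ 8 := by positivity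
  have p2 : 0 ≤ KR * Λ ^ 4 := by positivity
  have hD1 : (1 : ℝ) ≤ H.D := by linarith
  have hD : 1 ≤ H.D := by exact_mod_cast hD1
  have hNN := H.NN_pos hD hN
  have hg : H.gam σ ≤ γ2 := (H.gam_mono hσ).trans hg1
  have hrun : ∀ τ ∈ Set.Icc 0 σ, EV X φ κ 1 γ2 τ ≤ K1 := fun τ hτ =>
    run_one hφ hV hD hN X hγ hγ0 ⟨hτ.1, hτ.2.trans hσ⟩ ((H.gam_mono hτ.2).trans hg)
  have e1 := fun τ hτ => p1Aux_X4 hD X hKX (hX H hD) hσ (τ := τ) hτ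
  have e2 := fun τ hτ => p1Aux_M4 hD X hKM (hM H) hσ (by linarith) (τ := τ) hτ
  have e3 := p1Aux_R2 hφ hV hD hN X hKR (hR H hG hN2) hσ0 hσ (by linarith) hγ hg hrun hK10.le
    (Q := (C1 + C2) * (H.NN / (H.D : ℝ) ^ 2)) fun τ hτ => by linarith [e1 τ hτ, e2 τ hτ]
  have e4 := p1Aux_Vabs hφ hV hD hN X hσ0 hσ hγ hγ0 hg hrun hK10.le
  have e5 := e2 σ ⟨hσ0, le_rfl⟩
  have e6 := hrun σ ⟨hσ0, le_rfl⟩
  refine (run_V hφ hV hD hN subset_rfl X (Real.exp_pos _).le hγ hγ0 hσ0 hσ le_rfl (by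
    rw [← Real.exp_add, show σ / 4 + -σ / 4 = 0 by ring, Real.exp_zero]) hg1).trans ?_
  rw [mul_assoc]
  refine mul_le_mul_of_nonneg_left ?_ (Real.exp_pos _).le
  have ht : σ ∈ Set.Icc 0 τ1 := ⟨hσ0, hσ⟩
  have c1 := ((smF_sq (α := α)).cts σ)
  have c2 := (H.smF_VV hφ hD κ zero_le_one hγ).cts σ
  have c3 := (H.smF_M4.comp H.contDiff_aa).cts σ
  have c4 := (H.smF_Vabs hγ).cts σ
  have m1 := X.mono σ ht _ _ ((H.smF_VV hφ hD κ (Real.exp_pos (σ / 4)).le hγ).cts σ)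
    (((((c1.cmul _).add (c2.cmul _)).add (c3.cmul _)).add c4).add (Cts.const _))
    fun s r hs => p1Aux_pt hφ hV.kap hD hN hσγ hg hs.1 r.1
  rw [X.add σ ht _ _ ((((c1.cmul _).add (c2.cmul _)).add (c3.cmul _)).add c4) (Cts.const _),
    X.add σ ht _ _ (((c1.cmul _).add (c2.cmul _)).add (c3.cmul _)) c4,
    X.add σ ht _ _ ((c1.cmul _).add (c2.cmul _)) (c3.cmul _),
    X.add σ ht _ _ (c1.cmul _) (c2.cmul _), X.smul σ ht _ _ c1, X.smul σ ht _ _ c2,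
    X.smul σ ht _ _ c3, X.const σ ht] at m1
  set g := H.gam 0 with hgdef
  have hg0 : 0 < g := H.gam_pos hD 0
  have g8 : g ^ 8 * H.D = 1 := by rw [hgdef, H.gam_pow hD, p1Aux_aD hD]; simp
  have gσ : H.gam σ = g * Real.exp (σ / 4) := by simp [hgdef, HG.gam]
  have g1 : g ≤ 1 := (H.gam_mono hσ0).trans (hg.trans hγ1)
  have gZ : g * Z ≤ γ2 := by
    have : (g * (Z / γ2)) ^ 8 ≤ 1 ^ 8 := by
      rw [mul_pow, one_pow, ← g8]
      exact mul_le_mul_of_nonneg_left (by linarith) (by positivity)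
    have h2 := le_of_pow_le_pow_left₀ (by norm_num) zero_le_one this
    rwa [← mul_div_assoc, div_le_one hγ] at h2
  have hcc := H.cc_pos hD hN σ
  have cc1 : H.cc σ * (H.NN / H.D) = Real.exp (-σ) := by unfold HG.cc; field_simp
  have cc2 : H.cc σ * (H.NN / (H.D : ℝ) ^ 2) ≤ g ^ 8 := by
    have : H.cc σ * (H.NN / (H.D : ℝ) ^ 2) * H.D = Real.exp (-σ) := by rw [← cc1]; field_simp
    refine le_of_mul_le_mul_right ?_ (zero_lt_one.trans_le hD1)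
    rw [this, g8]
    exact Real.exp_le_one_iff.2 (by linarith)
  have sq1 : Real.sqrt H.D * g ^ 8 ≤ g := by
    have h1 : Real.sqrt H.D * g ^ 4 = 1 := by
      rw [← Real.sqrt_sq (by positivity : 0 ≤ g ^ 4), ← Real.sqrt_mul (by positivity), ← pow_mul,
        mul_comm, g8, Real.sqrt_one]
    calc Real.sqrt H.D * g ^ 8 = Real.sqrt H.D * g ^ 4 * g ^ 4 := by ring
      _ ≤ g := by rw [h1, one_mul]; exact pow_le_of_le_one hg0.le g1 (by norm_num)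
  have t1 : H.cc σ * X.E σ (fun s r => ∑ e ∈ s.1, r.1 e ^ 2) ≤
      10 * K1 * γ2 + g * (KR * Λ ^ 5 * (C1 + C2) * σ) := by
    have h1 := mul_le_mul_of_nonneg_left e3 hcc.le
    have h2 : Real.exp (-σ) * Real.exp (3 / 4 * σ) = γ2 := by
      rw [← Real.exp_add, ← hσγ]; congr 1; ring
    have h3 : Real.exp (-σ) * Real.exp σ = 1 := by rw [← Real.exp_add]; simp
    have h4 : H.cc σ * (4 * K1 * (H.NN / H.D) *
        (4 / 3 * Real.exp (3 / 4 * σ) + γ2 * Real.exp σ)) = 28 / 3 * K1 * γ2 := by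
      linear_combination (4 * K1 * (4 / 3 * Real.exp (3 / 4 * σ) + γ2 * Real.exp σ)) * cc1 +
        16 / 3 * K1 * h2 + 4 * K1 * γ2 * h3
    have h5 := (mul_le_mul_of_nonneg_left cc2 (Real.sqrt_nonneg H.D)).trans sq1
    have h6 := mul_le_mul_of_nonneg_right h5 (by positivity : 0 ≤ KR * Λ ^ 5 * (C1 + C2) * σ)
    have h7 : 0 ≤ K1 * γ2 := by positivity
    linarith
  have t2 : H.cc σ / H.gam σ ^ 7 * X.E σ (fun s r => H.M4 (H.aa σ) s.1 r.1) ≤ g * C2 := by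
    have hgs := H.gam_pos hD σ
    have h1 := mul_le_mul_of_nonneg_left e5 (by positivity : 0 ≤ H.cc σ / H.gam σ ^ 7)
    have h2 : H.cc σ * (H.NN / (H.D : ℝ) ^ 2) / H.gam σ ^ 7 ≤ g := by
      rw [div_le_iff₀ (by positivity)]
      refine cc2.trans ?_
      rw [pow_succ' g 7]
      exact mul_le_mul_of_nonneg_left (pow_le_pow_left₀ hg0.le (H.gam_mono hσ0) 7) hg0.le
    have h3 := mul_le_mul_of_nonneg_right h2 hC20
    refine h1.trans (le_of_eq_of_le ?_ h3)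
    ring
  have t3 := mul_le_mul_of_nonneg_left t1 (by linarith : 0 ≤ C)
  have t4 := mul_le_mul_of_nonneg_left t2 (by linarith : 0 ≤ κ 2)
  have t5 := mul_le_mul_of_nonneg_left e6 (by positivity : 0 ≤ (2 + 48 * κ 3) * γ2)
  unfold EV at t5 ⊢
  rw [gσ] at e4
  rw [hZ] at gZ
  nth_rewrite 2 [gσ] at m1
  linarith

end Vale.Agent.P046
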