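import Vale.Agent.P046.Defs

namespace Vale.Agent.P046

namespace PhiAux

/-- Gluing two differentiable functions whose values and derivatives agree at a point. -/
theorem glue {f f' g g' : ℝ → ℝ} {c : ℝ} (hf : ∀ x, HasDerivAt f (f' x) x)
    (hg : ∀ x, HasDerivAt g (g' x) x) (h0 : f c = g c) (h1 : f' c = g' c) (x : ℝ) :
    HasDerivAt (fun y => if y ≤ c then f y else g y) (if x ≤ c then f' x else g' x) x := by
  rcases lt_trichotomy x c with h | h | h
  · rw [if_pos h.le]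
    refine (hf x).congr_of_eventuallyEq ?_
    filter_upwards [Iio_mem_nhds h] with y hy
    exact if_pos (le_of_lt hy)
  · subst h
    rw [if_pos le_rfl]
    have a1 : HasDerivWithinAt (fun y => if y ≤ x then f y else g y) (f' x) (Set.Iic x) x :=
      (hf x).hasDerivWithinAt.congr (fun y hy => if_pos hy) (if_pos le_rfl)
    have a2 : HasDerivWithinAt (fun y => if y ≤ x then f y else g y) (f' x) (Set.Ici x) x := by
      rw [h1]
      refine (hg x).hasDerivWithinAt.congr (fun y hy => ?_) (by rw [if_pos le_rfl, h0])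
      rcases eq_or_lt_of_le (show x ≤ y from hy) with h | h
      · subst h; rw [if_pos le_rfl, h0]
      · exact if_neg (not_le.2 h)
    have a3 := a1.union a2
    rw [Set.Iic_union_Ici] at a3
    exact hasDerivWithinAt_univ.1 a3
  · rw [if_neg (not_le.2 h)]
    refine (hg x).congr_of_eventuallyEq ?_
    filter_upwards [Ioi_mem_nhds h] with y hy
    exact if_neg (not_le.2 hy)

noncomputable def f1 (r : ℝ) : ℝ := 438 / 10 ^ 9 - 1503 / 2000000 * (r + 1 / 1000)
noncomputable def f2 (r : ℝ) : ℝ := r ^ 2 / 2 - r ^ 3 / 2 - 62500 * r ^ 4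
noncomputable def f3 (r : ℝ) : ℝ :=
  437 / 10 ^ 9 + 1497 / 2000000 * (r - 1 / 1000) + 3 / 4000 * (r - 1 / 1000) ^ 2
noncomputable def f4 (r : ℝ) : ℝ :=
  437 / 10 ^ 9 + 1497 / 2000000 * (r - 1 / 1000) + 3 / 2000 * (r - 1 / 1000 - 1 / 2)

noncomputable def d1 (_ : ℝ) : ℝ := -(1503 / 2000000)
noncomputable def d2 (r : ℝ) : ℝ := r - 3 / 2 * r ^ 2 - 250000 * r ^ 3
noncomputable def d3 (r : ℝ) : ℝ := 1497 / 2000000 + 3 / 2000 * (r - 1 / 1000)
noncomputable def d4 (_ : ℝ) : ℝ := 1497 / 2000000 + 3 / 2000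

noncomputable def ph (r : ℝ) : ℝ :=
  if r ≤ -(1 / 1000) then f1 r else if r ≤ 1 / 1000 then f2 r else
    if r ≤ 1001 / 1000 then f3 r else f4 r

noncomputable def dph (r : ℝ) : ℝ :=
  if r ≤ -(1 / 1000) then d1 r else if r ≤ 1 / 1000 then d2 r else
    if r ≤ 1001 / 1000 then d3 r else d4 r

noncomputable def cf (r : ℝ) : ℝ :=
  if r < -(1001 / 1000) then 5 * ph r else if r ≤ 1 / 1000 then ph r * (1 - r) else
    ph r / (1 + r)

theorem der1 (x : ℝ) : HasDerivAt f1 (d1 x) x := by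
  have h := (((hasDerivAt_id x).add_const (1 / 1000)).const_mul (1503 / 2000000)).const_sub
    (438 / 10 ^ 9)
  exact h.congr_deriv (by simp [d1])

theorem der2 (x : ℝ) : HasDerivAt f2 (d2 x) x := by
  have h := (((hasDerivAt_pow 2 x).div_const 2).sub ((hasDerivAt_pow 3 x).div_const 2)).sub
    ((hasDerivAt_pow 4 x).const_mul 62500)
  exact h.congr_deriv (by simp only [d2]; norm_num; ring)

theorem der3 (x : ℝ) : HasDerivAt f3 (d3 x) x := by
  have h0 := (hasDerivAt_id x).sub_const (1 / 1000)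
  have h := ((h0.const_mul (1497 / 2000000)).const_add (437 / 10 ^ 9)).add
    ((h0.pow 2).const_mul (3 / 4000))
  exact h.congr_deriv (by simp only [d3]; norm_num; ring)

theorem der4 (x : ℝ) : HasDerivAt f4 (d4 x) x := by
  have h0 := (hasDerivAt_id x).sub_const (1 / 1000)
  have h := ((h0.const_mul (1497 / 2000000)).const_add (437 / 10 ^ 9)).add
    ((h0.sub_const (1 / 2)).const_mul (3 / 2000))
  exact h.congr_deriv (by simp only [d4]; norm_num)

theorem ph_der (x : ℝ) : HasDerivAt ph (dph x) x := by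
  have h34 := glue (c := 1001 / 1000) der3 der4 (by norm_num [f3, f4]) (by norm_num [d3, d4])
  have h234 := glue (c := 1 / 1000) der2 h34 (by norm_num [f2, f3]) (by norm_num [d2, d3])
  exact glue (c := -(1 / 1000)) der1 h234 (by norm_num [f1, f2]) (by norm_num [d1, d2]) x

theorem dph_cts : Continuous dph := by
  have c1 : Continuous d1 := continuous_const
  have c2 : Continuous d2 := by unfold d2; fun_prop
  have c3 : Continuous d3 := by unfold d3; fun_prop
  have c4 : Continuous d4 := continuous_const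
  have h34 : Continuous fun r => if r ≤ 1001 / 1000 then d3 r else d4 r :=
    c3.if_le c4 continuous_id continuous_const fun x hx => by
      rw [show x = 1001 / 1000 from hx]; norm_num [d3, d4]
  have h234 : Continuous fun r => if r ≤ 1 / 1000 then d2 r else
      if r ≤ 1001 / 1000 then d3 r else d4 r :=
    c2.if_le h34 continuous_id continuous_const fun x hx => by
      rw [show x = 1 / 1000 from hx]; norm_num [d2, d3]
  exact c1.if_le h234 continuous_id continuous_const fun x hx => by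
    rw [show x = -(1 / 1000) from hx]; norm_num [d1, d2]

/-- The four pieces. -/
theorem cases4 (r : ℝ) :
    (r ≤ -(1 / 1000) ∧ ph r = f1 r ∧ dph r = d1 r) ∨
    (-(1 / 1000) ≤ r ∧ r ≤ 1 / 1000 ∧ ph r = f2 r ∧ dph r = d2 r) ∨
    (1 / 1000 < r ∧ r ≤ 1001 / 1000 ∧ ph r = f3 r ∧ dph r = d3 r) ∨
    (1001 / 1000 ≤ r ∧ ph r = f4 r ∧ dph r = d4 r) := by
  by_cases h1 : r ≤ -(1 / 1000)
  · exact Or.inl ⟨h1, if_pos h1, if_pos h1⟩
  by_cases h2 : r ≤ 1 / 1000
  · exact Or.inr (Or.inl ⟨(not_le.1 h1).le, h2, (if_neg h1).trans (if_pos h2),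
      (if_neg h1).trans (if_pos h2)⟩)
  by_cases h3 : r ≤ 1001 / 1000
  · exact Or.inr (Or.inr (Or.inl ⟨not_le.1 h2, h3,
      (if_neg h1).trans ((if_neg h2).trans (if_pos h3)),
      (if_neg h1).trans ((if_neg h2).trans (if_pos h3))⟩))
  · exact Or.inr (Or.inr (Or.inr ⟨(not_le.1 h3).le,
      (if_neg h1).trans ((if_neg h2).trans (if_neg h3)),
      (if_neg h1).trans ((if_neg h2).trans (if_neg h3))⟩))

theorem f2_bounds {r : ℝ} (h1 : -(1 / 1000) ≤ r) (h2 : r ≤ 1 / 1000) :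
    r ^ 2 / 4 ≤ f2 r ∧ f2 r ≤ r ^ 2 := by
  have a1 : r ^ 2 ≤ 1 / 1000000 := by nlinarith
  have a2 : f2 r = r ^ 2 * (1 / 2 - r / 2 - 62500 * r ^ 2) := by unfold f2; ring
  have a3 := sq_nonneg r
  rw [a2]
  constructor
  · have : 1 / 4 ≤ 1 / 2 - r / 2 - 62500 * r ^ 2 := by linarith
    nlinarith
  · have : 1 / 2 - r / 2 - 62500 * r ^ 2 ≤ 1 := by linarith
    nlinarith

theorem d2_bounds {r : ℝ} (h1 : -(1 / 1000) ≤ r) (h2 : r ≤ 1 / 1000) :
    -(1503 / 2000000) ≤ d2 r ∧ d2 r ≤ 1497 / 2000000 := by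
  have a1 : r ^ 2 ≤ 1 / 1000000 := by nlinarith
  constructor
  · have e : d2 r + 1503 / 2000000 = (r + 1 / 1000) *
        (1 - 3 / 2 * (r - 1 / 1000) - 250000 * (r ^ 2 - r / 1000 + 1 / 1000000)) := by
      unfold d2; ring
    have : 0 ≤ 1 - 3 / 2 * (r - 1 / 1000) - 250000 * (r ^ 2 - r / 1000 + 1 / 1000000) := by
      linarith
    have := mul_nonneg (show 0 ≤ r + 1 / 1000 by linarith) this
    linarith
  · have e : 1497 / 2000000 - d2 r = (1 / 1000 - r) *
        (1 - 3 / 2 * (r + 1 / 1000) - 250000 * (r ^ 2 + r / 1000 + 1 / 1000000)) := by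
      unfold d2; ring
    have : 0 ≤ 1 - 3 / 2 * (r + 1 / 1000) - 250000 * (r ^ 2 + r / 1000 + 1 / 1000000) := by
      linarith
    have := mul_nonneg (show 0 ≤ 1 / 1000 - r by linarith) this
    linarith

theorem d2_sq {r : ℝ} (h1 : -(1 / 1000) ≤ r) (h2 : r ≤ 1 / 1000) : d2 r ^ 2 ≤ 4 * r ^ 2 := by
  have a1 : r ^ 2 ≤ 1 / 1000000 := by nlinarith
  have a3 := sq_nonneg r
  have a2 : d2 r ^ 2 = r ^ 2 * (1 - 3 / 2 * r - 250000 * r ^ 2) ^ 2 := by unfold d2; ring
  have b1 : 0 ≤ 1 - 3 / 2 * r - 250000 * r ^ 2 := by linarith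
  have b2 : 1 - 3 / 2 * r - 250000 * r ^ 2 ≤ 2 := by linarith
  have b3 : (1 - 3 / 2 * r - 250000 * r ^ 2) ^ 2 ≤ 4 := by nlinarith
  rw [a2]
  nlinarith

/-- Outside the middle piece the function is at least linear. -/
theorem ph_lin (r : ℝ) : (|r| ≤ 1 / 1000 ∧ ph r = f2 r ∧ dph r = d2 r) ∨
    (1 / 1000 ≤ |r| ∧ |r| ≤ 10000 * ph r ∧ ph r ≤ |r| ∧ |dph r| ≤ 1 / 100) := by
  rcases cases4 r with ⟨h, e, e'⟩ | ⟨h, h', e, e'⟩ | ⟨h, h', e, e'⟩ | ⟨h, e, e'⟩
  · right
    rw [abs_of_nonpos (show r ≤ 0 by linarith), e, e', f1, d1, abs_le]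
    refine ⟨by linarith, by linarith, by linarith, by norm_num, by norm_num⟩
  · exact Or.inl ⟨abs_le.2 ⟨h, h'⟩, e, e'⟩
  · right
    rw [abs_of_nonneg (show 0 ≤ r by linarith), e, e', f3, d3, abs_le]
    have a1 := sq_nonneg (r - 1 / 1000)
    have a2 : (r - 1 / 1000) ^ 2 ≤ r - 1 / 1000 := by nlinarith
    refine ⟨by linarith, by linarith, by linarith, by linarith, by linarith⟩
  · right
    rw [abs_of_nonneg (show 0 ≤ r by linarith), e, e', f4, d4, abs_le]
    refine ⟨by linarith, by linarith, by linarith, by norm_num, by norm_num⟩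

theorem ph_nonneg (r : ℝ) : 0 ≤ ph r := by
  rcases ph_lin r with ⟨h, e, _⟩ | ⟨h, h1, _⟩
  · rw [e]
    have := (f2_bounds (abs_le.1 h).1 (abs_le.1 h).2).1
    have := sq_nonneg r
    linarith
  · linarith

/-- The data attached to one point. -/
structure Pt (i j k g b : ℝ) : Prop where
  i1 : -(1 / 1000) ≤ i
  k1 : -(1503 / 2000000) ≤ k
  k2 : k ≤ 1497 / 2000000
  g0 : 0 ≤ g
  g1 : g ≤ 3 / 2000
  pos : 0 ≤ j → g ≤ 3 / 2000 * j ∧ 1503 / 2000000 * j ≤ b
  neg : j ≤ 0 → g = 0 ∧ 1497 / 2000000 * -j ≤ b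
  neg' : j < -1 → (1497 / 2000000 + 3 / 2000) * -j ≤ b

theorem pair_mixed {i j k g b i' j' k' g' b' κ : ℝ} (h : Pt i j k g b) (h' : Pt i' j' k' g' b')
    (h1 : -(1503 / 2000000) ≤ κ) (h2 : κ ≤ 1497 / 2000000) (hj : 0 ≤ j) (hj' : j' ≤ 0) :
    -((j + j') * κ) - g * j' - g' * j ≤ b + b' := by
  obtain ⟨p1, p2⟩ := h.pos hj
  obtain ⟨n1, n2⟩ := h'.neg hj'
  have g0 := h.g0
  have g1 := h.g1
  have a1 : 0 ≤ j * (κ + 1503 / 2000000) := mul_nonneg hj (by linarith)
  have a2 : 0 ≤ -j' * (1497 / 2000000 - κ) := mul_nonneg (by linarith) (by linarith)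
  have a3 : g * -j' ≤ 3 / 2000 * -j' := mul_le_mul_of_nonneg_right g1 (by linarith)
  rw [n1]
  rcases lt_or_ge j' (-1) with c | c
  · have n3 := h'.neg' c
    linarith
  · have a4 : g * -j' ≤ g := mul_le_of_le_one_right g0 (by linarith)
    rcases le_total j (-j') with d | d
    · have a5 : 0 ≤ (-j' - j) * (1497 / 2000000 - κ) := mul_nonneg (by linarith) (by linarith)
      linarith
    · have a5 : 0 ≤ (j + j') * (κ + 1503 / 2000000) := mul_nonneg (by linarith) (by linarith)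
      linarith

theorem pair {i j k g b i' j' k' g' b' κ : ℝ} (h : Pt i j k g b) (h' : Pt i' j' k' g' b')
    (h1 : -(1503 / 2000000) ≤ κ) (h2 : κ ≤ 1497 / 2000000) :
    -((j + j') * κ) - g * j' - g' * j ≤ b + b' := by
  rcases le_total 0 j with hj | hj <;> rcases le_total 0 j' with hj' | hj'
  · have p2 := (h.pos hj).2
    have p3 := (h'.pos hj').2
    have a1 : 0 ≤ (j + j') * (κ + 1503 / 2000000) := mul_nonneg (by linarith) (by linarith)
    have a2 := mul_nonneg h.g0 hj'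
    have a3 := mul_nonneg h'.g0 hj
    linarith
  · exact pair_mixed h h' h1 h2 hj hj'
  · have := pair_mixed h' h h1 h2 hj' hj
    linarith
  · obtain ⟨n1, n2⟩ := h.neg hj
    obtain ⟨n3, n4⟩ := h'.neg hj'
    have a1 : 0 ≤ -(j + j') * (1497 / 2000000 - κ) := mul_nonneg (by linarith) (by linarith)
    rw [n1, n3]
    linarith

theorem one_var (r : ℝ) : ∃ i j k g b, Pt i j k g b ∧ r = i + j ∧ dph r = k + g ∧
    i * k + 3 / 4 * (i - k) ^ 2 + 2 * b + 2 / 1000 * g ≤ ph r + cf r := by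
  rcases cases4 r with ⟨h, e, e'⟩ | ⟨h, h', e, e'⟩ | ⟨h, h', e, e'⟩ | ⟨h, e, e'⟩
  · by_cases c : r < -(1001 / 1000)
    · refine ⟨-(1 / 1000), r + 1 / 1000, -(1503 / 2000000), 0,
        (1497 / 2000000 + 3 / 2000) * -(r + 1 / 1000), ⟨le_rfl, le_rfl, by norm_num, le_rfl,
          by norm_num, fun hj => by constructor <;> linarith, fun _ => ⟨rfl, by linarith⟩,
          fun _ => le_rfl⟩, by ring, by rw [e', d1, add_zero], ?_⟩
      rw [cf, if_pos c, e, f1]
      linarith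
    · refine ⟨-(1 / 1000), r + 1 / 1000, -(1503 / 2000000), 0,
        1497 / 2000000 * -(r + 1 / 1000), ⟨le_rfl, le_rfl, by norm_num, le_rfl,
          by norm_num, fun hj => by constructor <;> linarith, fun _ => ⟨rfl, le_rfl⟩,
          fun hj => absurd (by linarith) c⟩, by ring, by rw [e', d1, add_zero], ?_⟩
      rw [cf, if_neg c, if_pos (by linarith), e, f1]
      nlinarith [sq_nonneg (r + 1 / 1000)]
  · obtain ⟨b1, b2⟩ := d2_bounds h h'
    refine ⟨r, 0, d2 r, 0, 0, ⟨h, b1, b2, le_rfl, by norm_num, fun _ => by norm_num,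
      fun _ => by norm_num, fun hj => by norm_num at hj⟩, by ring, by rw [e', add_zero], ?_⟩
    rw [cf, if_neg (by linarith), if_pos h', e]
    have a1 : r ^ 2 ≤ 1 / 1000000 := by nlinarith
    have a2 : f2 r + f2 r * (1 - r) - (r * d2 r + 3 / 4 * (r - d2 r) ^ 2) =
        r ^ 4 * (1 / 2 + 125000 - 27 / 16 - 500000 * r - 12 * 62500 ^ 2 * r ^ 2) := by
      unfold f2 d2; ring
    have a3 : 0 ≤ r ^ 4 * (1 / 2 + 125000 - 27 / 16 - 500000 * r - 12 * 62500 ^ 2 * r ^ 2) :=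
      mul_nonneg (by positivity) (by linarith)
    linarith
  · refine ⟨1 / 1000, r - 1 / 1000, 1497 / 2000000, 3 / 2000 * (r - 1 / 1000),
      1503 / 2000000 * (r - 1 / 1000), ⟨by norm_num, by norm_num, le_rfl, by linarith,
        by linarith, fun _ => ⟨le_rfl, le_rfl⟩, fun hj => absurd h (by linarith),
        fun hj => absurd h (by linarith)⟩, by ring, by rw [e', d3], ?_⟩
    rw [cf, if_neg (by linarith), if_neg (by linarith), e, ← sub_le_iff_le_add',
      le_div_iff₀ (by linarith), f3]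
    obtain ⟨j, rfl⟩ : ∃ j, r = j + 1 / 1000 := ⟨r - 1 / 1000, by ring⟩
    have a1 : 0 ≤ j ^ 3 := pow_nonneg (by linarith) 3
    simp only [add_sub_cancel_right]
    nlinarith [sq_nonneg (j - 7 / 1000), sq_nonneg j]
  · refine ⟨1 / 1000, r - 1 / 1000, 1497 / 2000000, 3 / 2000,
      1503 / 2000000 * (r - 1 / 1000), ⟨by norm_num, by norm_num, le_rfl, by norm_num,
        le_rfl, fun _ => ⟨by linarith, le_rfl⟩, fun hj => absurd h (by linarith),
        fun hj => absurd h (by linarith)⟩, by ring, by rw [e', d4], ?_⟩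
    rw [cf, if_neg (by linarith), if_neg (by linarith), e, ← sub_le_iff_le_add',
      le_div_iff₀ (by linarith), f4]
    nlinarith [sq_nonneg r]

theorem tri (x y z : ℝ) : -(dph x * (y + z) + dph y * (x + z) + dph z * (x + y)) ≤
    (ph x + cf x) + (ph y + cf y) + (ph z + cf z) := by
  obtain ⟨i₁, j₁, k₁, g₁, b₁, p₁, r₁, e₁, o₁⟩ := one_var x
  obtain ⟨i₂, j₂, k₂, g₂, b₂, p₂, r₂, e₂, o₂⟩ := one_var y
  obtain ⟨i₃, j₃, k₃, g₃, b₃, p₃, r₃, e₃, o₃⟩ := one_var z
  rw [e₁, e₂, e₃]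
  have q₃ := pair p₁ p₂ p₃.k1 p₃.k2
  have q₂ := pair p₁ p₃ p₂.k1 p₂.k2
  have q₁ := pair p₂ p₃ p₁.k1 p₁.k2
  have m₁ : 0 ≤ g₁ * (i₂ + i₃ + 2 / 1000) := mul_nonneg p₁.g0 (by linarith [p₂.i1, p₃.i1])
  have m₂ : 0 ≤ g₂ * (i₁ + i₃ + 2 / 1000) := mul_nonneg p₂.g0 (by linarith [p₁.i1, p₃.i1])
  have m₃ : 0 ≤ g₃ * (i₁ + i₂ + 2 / 1000) := mul_nonneg p₃.g0 (by linarith [p₁.i1, p₂.i1])
  have s₀ := sq_nonneg (k₁ + k₂ + k₃ + i₁ + i₂ + i₃)
  have s₁ := sq_nonneg (i₁ - k₁ - (i₂ - k₂))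
  have s₂ := sq_nonneg (i₁ - k₁ - (i₃ - k₃))
  have s₃ := sq_nonneg (i₂ - k₂ - (i₃ - k₃))
  generalize ph x + cf x = A at o₁ ⊢
  generalize ph y + cf y = B at o₂ ⊢
  generalize ph z + cf z = D at o₃ ⊢
  subst r₁ r₂ r₃
  linarith

end PhiAux

open PhiAux in
theorem exists_phi : ∃ φ φ' c : ℝ → ℝ, ∃ C : ℝ, PhiOK φ φ' c C := by
  refine ⟨ph, dph, cf, 10000, by norm_num, ph_der, dph_cts, ph_nonneg, fun x => ?_, fun x => ?_,
    fun x => ?_, fun x => ?_, fun x => ?_, fun x => ?_, fun x => ?_, fun x => ?_, tri⟩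
  · rcases ph_lin x with ⟨h, e, _⟩ | ⟨h, _, h2, _⟩
    · have := (f2_bounds (abs_le.1 h).1 (abs_le.1 h).2).2
      have := sq_nonneg x
      linarith
    · rw [← sq_abs]
      nlinarith
  · rcases ph_lin x with ⟨h, e, _⟩ | ⟨h, _, h2, _⟩
    · have := (f2_bounds (abs_le.1 h).1 (abs_le.1 h).2).2
      rw [← sq_abs] at this
      nlinarith [abs_nonneg x]
    · linarith
  · rcases ph_lin x with ⟨h, e, _⟩ | ⟨_, h1, _⟩
    · have := (f2_bounds (abs_le.1 h).1 (abs_le.1 h).2).1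
      have := sq_nonneg x
      exact (min_le_left _ _).trans (by linarith)
    · exact (min_le_right _ _).trans h1
  · rcases ph_lin x with ⟨h, _, e⟩ | ⟨_, _, _, h3⟩
    · obtain ⟨b1, b2⟩ := d2_bounds (abs_le.1 h).1 (abs_le.1 h).2
      rw [e, abs_le]
      constructor <;> linarith
    · linarith
  · rcases ph_lin x with ⟨h, e, e'⟩ | ⟨h, h1, _, h3⟩
    · have := (f2_bounds (abs_le.1 h).1 (abs_le.1 h).2).1
      have := d2_sq (abs_le.1 h).1 (abs_le.1 h).2
      have := sq_nonneg x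
      rw [e, e']
      linarith
    · rw [← sq_abs]
      nlinarith [abs_nonneg (dph x)]
  · have h0 := ph_nonneg x
    unfold cf
    split_ifs with c1 c2
    · linarith
    · exact mul_nonneg h0 (by linarith)
    · exact div_nonneg h0 (by linarith)
  · have h0 := ph_nonneg x
    unfold cf
    split_ifs with c1 c2
    · exact le_rfl
    · nlinarith
    · rw [div_le_iff₀ (by linarith)]
      nlinarith
  · have h0 := ph_nonneg x
    unfold cf
    split_ifs with c1 c2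
    · nlinarith
    · nlinarith [mul_nonneg h0 (sq_nonneg x)]
    · rw [mul_div_cancel₀ _ (by linarith)]

end Vale.Agent.P046
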