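import Vale.Agent.P046.GenA
import Vale.Agent.P046.GenPhi
import Vale.Agent.P046.GenY2
import Vale.Agent.P046.GenW

open Finset

namespace Vale.Agent.P046

namespace VsuperAux

section scal
variable {b c γ g K K' X : ℝ}

theorem m1 (hγ : 0 < γ) (hc : 0 ≤ c) (hb : b ≤ c / γ) (h0 : 0 ≤ K') (hK : K' ≤ K) (hX : 0 ≤ X) :
    b * (K' / γ ^ 6 * X) ≤ K * (c / γ ^ 7 * X) :=
  calc b * (K' / γ ^ 6 * X) ≤ c / γ * (K' / γ ^ 6 * X) :=
        mul_le_mul_of_nonneg_right hb (by positivity)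
    _ = K' * (c / γ ^ 7 * X) := by field_simp
    _ ≤ _ := mul_le_mul_of_nonneg_right hK (by positivity)

theorem m2 (hγ : 0 < γ) (hc : 0 ≤ c) (hb : b ≤ c / γ) (h0 : 0 ≤ K') (hK : K' ≤ K) (hX : 0 ≤ X) :
    b * (K' * γ ^ 10 * X) ≤ K * (γ * (c * γ ^ 8) * X) :=
  calc b * (K' * γ ^ 10 * X) ≤ c / γ * (K' * γ ^ 10 * X) :=
        mul_le_mul_of_nonneg_right hb (by positivity)
    _ = K' * (γ * (c * γ ^ 8) * X) := by field_simp
    _ ≤ _ := mul_le_mul_of_nonneg_right hK (by positivity)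

theorem m3 (hγ : 0 < γ) (hg : γ ≤ g) (hc : 0 ≤ c) (hb : b ≤ c / γ) (h0 : 0 ≤ K') (hK : K' ≤ K)
    (hX : 0 ≤ X) : b * (K' * γ ^ 2 * X) ≤ K * (g * (c * X)) :=
  calc b * (K' * γ ^ 2 * X) ≤ c / γ * (K' * γ ^ 2 * X) :=
        mul_le_mul_of_nonneg_right hb (by positivity)
    _ = K' * (γ * (c * X)) := by field_simp
    _ ≤ _ := mul_le_mul hK (mul_le_mul_of_nonneg_right hg (by positivity)) (by positivity)
        (h0.trans hK)

theorem m4 (hγ : 0 < γ) (hγ1 : γ ≤ 1) (hb : 0 ≤ b) (h0 : 0 ≤ K') (hX : 0 ≤ X) :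
    b * (K' * γ ^ 4 * X) ≤ b * (K' * γ ^ 2 * X) ∧ b * (K' * γ ^ 4 * X) ≤ b * (K' / γ ^ 6 * X) := by
  have h1 : γ ^ 4 ≤ γ ^ 2 := pow_le_pow_of_le_one hγ.le hγ1 (by norm_num)
  have h2 : K' * γ ^ 4 ≤ K' / γ ^ 6 := by
    rw [le_div_iff₀ (by positivity), mul_assoc, ← pow_add]
    exact mul_le_of_le_one_right h0 (pow_le_one₀ hγ.le hγ1)
  constructor <;> gcongr

end scal

theorem comb {K k0 k1 k2 k3 P U O Z A4 A1 W N S T0 T1 T2 T3 T4 T5 : ℝ} (hK : 1 ≤ K)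
    (e0 : k0 = 2 * K) (e1 : k1 = 96 * K) (e2 : k2 = 2 * K * (1 + k0 + k1))
    (e3 : k3 = 2 * K * (1 + k0 + k1 + k2)) (hU : 0 ≤ U) (hO : 0 ≤ O) (hA4 : 0 ≤ A4)
    (hA1 : 0 ≤ A1) (hW : 0 ≤ W) (h0 : T0 ≤ 2 * P + K * U + K * (A4 + A1) + K * W)
    (h1 : T1 ≤ -(3 / 4) * U + K * P + K * (A4 + A1) + K * W + 6 * Z)
    (h2 : T2 ≤ -(1 / 4) * O - Z / 8 + K * P + K * A4 + K * W)
    (h3 : T3 ≤ -(11 / 4) * A4 - 3 / 4 * A1 + K * W) (h4 : T4 ≤ -(3 / 4) * W + 6 * N)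
    (h5 : T5 ≤ -(6 * k3 * N) + S) :
    T0 + k0 * T1 + k1 * T2 + k2 * T3 + k3 * T4 + T5 ≤ (2 + k0 * K + k1 * K) * P + S := by
  have p0 : 0 ≤ k0 := by linarith
  have p1 : 0 ≤ k1 := by linarith
  have p2 : 0 ≤ k2 := by rw [e2]; positivity
  have p3 : 0 ≤ k3 := by rw [e3]; positivity
  have q1 := mul_le_mul_of_nonneg_left h1 p0
  have q2 := mul_le_mul_of_nonneg_left h2 p1
  have q3 := mul_le_mul_of_nonneg_left h3 p2
  have q4 := mul_le_mul_of_nonneg_left h4 p3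
  have r1 : (K - 3 / 4 * k0) * U ≤ 0 := mul_nonpos_of_nonpos_of_nonneg (by linarith) hU
  have r2 : (6 * k0 - k1 / 8) * Z = 0 := by rw [e0, e1]; ring
  have r3 : (K + k0 * K + k1 * K - 11 / 4 * k2) * A4 ≤ 0 :=
    mul_nonpos_of_nonpos_of_nonneg (by linarith) hA4
  have r4 : (K + k0 * K - 3 / 4 * k2) * A1 ≤ 0 :=
    mul_nonpos_of_nonpos_of_nonneg (by linarith [mul_nonneg p1 (by linarith : 0 ≤ K)]) hA1
  have r5 : (K + k0 * K + k1 * K + k2 * K - 3 / 4 * k3) * W ≤ 0 :=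
    mul_nonpos_of_nonpos_of_nonneg (by linarith) hW
  have r6 := mul_nonneg p1 hO
  linarith

theorem abs_m {γ : ℝ} (hγ : 0 < γ) (m : ℝ) : |m| ≤ γ / 2 + 8 / γ ^ 3 * m ^ 4 := by
  rcases le_total |m| (γ / 2) with h | h
  · exact h.trans (le_add_of_nonneg_right (by positivity))
  · have h1 : (γ / 2) ^ 3 ≤ |m| ^ 3 := pow_le_pow_left₀ (by positivity) h 3
    have h2 : m ^ 4 = |m| * |m| ^ 3 := by
      rw [← pow_succ', show (3 + 1 : ℕ) = 2 * 2 from rfl, pow_mul |m|, sq_abs, ← pow_mul]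
    have h3 : |m| ≤ 8 / γ ^ 3 * m ^ 4 := by
      rw [div_mul_eq_mul_div, le_div_iff₀ (by positivity), h2]
      nlinarith [mul_le_mul_of_nonneg_left h1 (abs_nonneg m)]
    linarith

variable {α : Type} [DecidableEq α] [Fintype α] (H : HG α)

theorem nrm_le (hD : 1 ≤ H.D) (hN : H.D ≤ H.A0.card) {τ : ℝ} (h1 : H.gam τ ≤ 1) :
    H.nrm τ ≤ H.gam τ ^ 2 := by
  have hg := H.gam_pos hD τ
  have hD' : (1 : ℝ) ≤ H.D := by exact_mod_cast hD
  have hN' : (H.D : ℝ) ≤ H.NN := by unfold HG.NN; exact_mod_cast hN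
  have h2 : H.nrm τ ^ 2 ≤ (H.gam τ ^ 4) ^ 2 := by
    rw [← pow_mul, H.gam_pow hD]
    unfold HG.nrm HG.aa
    rw [div_pow, ← Real.exp_nat_mul]
    exact div_le_div_of_nonneg_left (Real.exp_pos _).le (by linarith) (by nlinarith)
  exact (le_of_sq_le_sq h2 (by positivity)).trans
    (pow_le_pow_of_le_one hg.le h1 (by norm_num))

theorem dev_le {φ φ' c : ℝ → ℝ} {C : ℝ} (hφ : PhiOK φ φ' c C) {κ : Fin 4 → ℝ}
    (hκ : ∀ i, 1 ≤ κ i) (hD : 1 ≤ H.D) (hN : H.D ≤ H.A0.card) {β γ2 τ : ℝ} (hβ : 0 ≤ β)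
    (hγ : H.gam τ ≤ γ2) (h1 : γ2 ≤ 1) (A : Finset α) (r : α → ℝ) :
    H.nrm τ * |∑ e ∈ A, (H.u (H.aa τ) A e - 1)| ≤
        (9 + 3 * C) * (H.gam τ / γ2 * H.VV φ κ β γ2 τ A r) ∧
      3 / (2 * γ2) * H.nrm τ ^ 2 * ∑ e ∈ A, H.u (H.aa τ) A e ≤
        6 * (H.gam τ / γ2 * H.VV φ κ β γ2 τ A r) := by
  obtain ⟨v0, -, -, v3, v4, v5, -, -, -, v9⟩ := H.VV_lower hφ hκ hD hN hβ hγ A r
  have hg := H.gam_pos hD τ
  have hc := H.cc_pos hD hN τ
  have hn := H.nrm_pos hD hN τ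
  have hγ2 : 0 < γ2 := hg.trans_le hγ
  have hC := hφ.C1
  have hnc : H.nrm τ = H.cc τ * H.gam τ ^ 8 := by rw [H.gam_pow hD, H.cc_mul_aa hD]
  have hM := H.M4_nonneg (H.aa τ) A r
  have hΦ : 0 ≤ ∑ e ∈ A, φ (r e) := sum_nonneg fun _ _ => hφ.nonneg _
  have hnl := nrm_le H hD hN (hγ.trans h1)
  have hU := H.UU_nonneg (H.aa τ) A
  have hsu := H.sum_u_pow_le (H.aa_nonneg τ) A 1
  set γ := H.gam τ with hγd
  set V := H.VV φ κ β γ2 τ A r with hV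
  have hγ1 : γ ≤ 1 := hγ.trans h1
  have hq : γ ≤ γ / γ2 := le_div_self hg.le hγ2 h1
  constructor
  · have h2 : |∑ e ∈ A, (H.u (H.aa τ) A e - 1)| ≤
        γ * A.card + 8 / γ ^ 3 * H.M4 (H.aa τ) A r + 3 * C / γ * ∑ e ∈ A, φ (r e) := by
      refine (abs_sum_le_sum_abs _ _).trans ?_
      unfold HG.M4
      rw [mul_sum, mul_sum, mul_comm γ, ← nsmul_eq_mul, ← sum_const, ← sum_add_distrib,
        ← sum_add_distrib]
      refine sum_le_sum fun e _ => ?_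
      have h3 : H.u (H.aa τ) A e - 1 = H.mm (H.aa τ) A r e + r e := by
        unfold HG.mm
        ring
      have h4 := hφ.abs_le (half_pos hg) (r e)
      have h5 : C * (1 / (γ / 2) + 1) ≤ 3 * C / γ := by
        rw [le_div_iff₀ hg]
        have : C * (1 / (γ / 2) + 1) * γ = C * (2 + γ) := by field_simp
        rw [this]
        nlinarith
      have h6 := mul_le_mul_of_nonneg_right h5 (hφ.nonneg (r e))
      rw [h3]
      linarith [abs_add_le (H.mm (H.aa τ) A r e) (r e), abs_m hg (H.mm (H.aa τ) A r e)]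
    refine (mul_le_mul_of_nonneg_left h2 hn.le).trans ?_
    have a1 : H.nrm τ * (γ * A.card) ≤ γ / γ2 * V :=
      calc H.nrm τ * (γ * A.card) = γ / γ2 * (γ2 * (H.nrm τ * A.card)) := by field_simp
        _ ≤ _ := mul_le_mul_of_nonneg_left v5 (by positivity)
    have a2 : H.nrm τ * (8 / γ ^ 3 * H.M4 (H.aa τ) A r) ≤ 8 * (γ / γ2 * V) :=
      calc _ = 8 * (γ ^ 12 * (H.cc τ / γ ^ 7 * H.M4 (H.aa τ) A r)) := by
            rw [hnc]
            field_simp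
        _ ≤ _ := mul_le_mul_of_nonneg_left (mul_le_mul
            ((pow_le_of_le_one hg.le hγ1 (by norm_num)).trans hq) v3 (by positivity)
            (by positivity)) (by norm_num)
    have a3 : H.nrm τ * (3 * C / γ * ∑ e ∈ A, φ (r e)) ≤ 3 * C * (γ / γ2 * V) :=
      calc _ = 3 * C * (γ ^ 7 * (H.cc τ * ∑ e ∈ A, φ (r e))) := by
            rw [hnc]
            field_simp
        _ ≤ _ := mul_le_mul_of_nonneg_left (mul_le_mul
            ((pow_le_of_le_one hg.le hγ1 (by norm_num)).trans hq) v0 (by positivity)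
            (by positivity)) (by positivity)
    linarith
  · simp only [pow_one, Nat.factorial_one, Nat.cast_one, mul_one] at hsu
    calc _ ≤ 3 / (2 * γ2) * (H.nrm τ * γ ^ 2) * (4 * H.UU (H.aa τ) A) := by
          rw [sq (H.nrm τ)]
          refine mul_le_mul (by gcongr) hsu
            (sum_nonneg fun e _ => H.u_nonneg (H.aa_nonneg τ) A e) (by positivity)
      _ = 6 * (γ / γ2 * (γ * H.nrm τ * H.UU (H.aa τ) A)) := by field_simp; ring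
      _ ≤ _ := by gcongr

theorem genT_VV {φ φ' c : ℝ → ℝ} {C : ℝ} (h : PhiOK φ φ' c C) (hD : 1 ≤ H.D) (κ : Fin 4 → ℝ)
    {β γ2 : ℝ} (hβ : 0 ≤ β) (hγ : 0 < γ2) (τ : ℝ) (A : Finset α) (r : α → ℝ) :
    ∃ w : ℝ, w ≤ -(3 / 4) * (H.cc τ / H.gg β τ) ∧ H.genT (H.VV φ κ β γ2) τ A r =
      (-H.cc τ * ∑ e ∈ A, φ (r e) + H.cc τ * H.gen (fun _ A r => ∑ e ∈ A, φ (r e)) (H.aa τ) A r)
      + κ 0 * (w * H.Ups (H.aa τ) A r + H.cc τ / H.gg β τ * H.gen H.Ups (H.aa τ) A r)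
      + κ 1 * (w * H.om (H.aa τ) A +
          H.cc τ / H.gg β τ * H.gen (fun a A _ => H.om a A) (H.aa τ) A r)
      + κ 2 * (-(11 / 4) * (H.cc τ / H.gam τ ^ 7 * H.M4 (H.aa τ) A r) +
          H.cc τ / H.gam τ ^ 7 * H.gen H.M4 (H.aa τ) A r)
      + κ 3 * (5 / 4 * (H.gam τ * H.nrm τ * H.UU (H.aa τ) A) +
          H.gam τ * H.nrm τ * H.gen (fun a A _ => H.UU a A) (H.aa τ) A r)
      + (-(6 * κ 3 * (H.gam τ * (H.nrm τ * A.card))) - 24 * κ 3 * (2 * γ2 - H.gam τ) *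
          (H.nrm τ * ∑ e ∈ A, (H.u (H.aa τ) A e - 1)))
      + H.genT (fun τ A _ => H.Vabs γ2 τ A) τ A r := by
  have h1 : ContDiff ℝ 1 (fun τ => H.cc τ / H.gg β τ) :=
    H.contDiff_cc.div (H.contDiff_gg β) fun τ => (H.gg_pos hD hβ τ).ne'
  have h2 : ContDiff ℝ 1 (fun τ => H.cc τ / H.gam τ ^ 7) :=
    H.contDiff_cc.div (H.contDiff_gam.pow 7) fun τ => (pow_pos (H.gam_pos hD τ) 7).ne'
  have s0 := smF_phi (α := α) h
  have s1 := H.smF_Ups.comp H.contDiff_aa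
  have s2 := H.smF_om.comp H.contDiff_aa
  have s3 := H.smF_M4.comp H.contDiff_aa
  have s4 := H.smF_UU.comp H.contDiff_aa
  have s5 := SmF.of_state (fun A : Finset α => (A.card : ℝ))
  have s6 := SmF.tmul H.contDiff_nrm s5
  have t0 := SmF.tmul H.contDiff_cc s0
  have t1 := SmF.tmul (contDiff_const (c := κ 0).mul h1) s1
  have t2 := SmF.tmul (contDiff_const (c := κ 1).mul h1) s2
  have t3 := SmF.tmul (contDiff_const (c := κ 2).mul h2) s3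
  have t4 := SmF.tmul (contDiff_const (c := κ 3).mul (H.contDiff_gam.mul H.contDiff_nrm)) s4
  have t5 := SmF.tmul (contDiff_const (c := 24 * κ 3).mul
    ((contDiff_const (c := 2 * γ2)).sub H.contDiff_gam)) s6
  have hg := H.gam_pos hD τ
  have hgg := H.gg_pos hD hβ τ
  have d1 := (H.hasDerivAt_cc τ).fun_div (H.hasDerivAt_gg β τ) hgg.ne'
  have d2 := (H.hasDerivAt_cc τ).fun_div ((H.hasDerivAt_gam τ).fun_pow 7) (pow_pos hg 7).ne'
  have d4 := (H.hasDerivAt_gam τ).fun_mul (H.hasDerivAt_nrm τ)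
  have d5 := (H.hasDerivAt_gam τ).const_sub (2 * γ2)
  have e0 := H.genT_tmul (H.hasDerivAt_cc τ) s0 A r
  have e1 := H.genT_tmul (d1.const_mul (κ 0)) s1 A r
  have e2 := H.genT_tmul (d1.const_mul (κ 1)) s2 A r
  have e3 := H.genT_tmul (d2.const_mul (κ 2)) s3 A r
  have e4 := H.genT_tmul (d4.const_mul (κ 3)) s4 A r
  have e5 := H.genT_tmul (d5.const_mul (24 * κ 3)) s6 A r
  have e6 := H.genT_tmul (H.hasDerivAt_nrm τ) s5 A r
  have f0 := H.genT_comp (fun _ A r => ∑ e ∈ A, φ (r e)) τ A r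
  have f5 := H.genT_comp (fun _ A _ => (A.card : ℝ)) τ A r
  rw [H.gen_card] at f5
  rw [f0] at e0
  rw [H.genT_comp H.Ups] at e1
  rw [H.genT_comp (fun a A _ => H.om a A)] at e2
  rw [H.genT_comp H.M4] at e3
  rw [H.genT_comp (fun a A _ => H.UU a A)] at e4
  rw [f5] at e6
  rw [e6] at e5
  have g6 := H.genT_add (((((t0.add t1).add t2).add t3).add t4).add t5) (H.smF_Vabs hγ) τ A r
  rw [H.genT_add ((((t0.add t1).add t2).add t3).add t4) t5,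
    H.genT_add (((t0.add t1).add t2).add t3) t4, H.genT_add ((t0.add t1).add t2) t3,
    H.genT_add (t0.add t1) t2, H.genT_add t0 t1, e0, e1, e2, e3, e4, e5] at g6
  refine ⟨(-H.cc τ * H.gg β τ - H.cc τ * (-(β * Real.exp (-τ / 4)) / 4 + H.gam τ / 4)) /
    H.gg β τ ^ 2, ?_, g6.trans ?_⟩
  swap
  · rw [sum_sub_distrib, sum_const, nsmul_eq_mul, mul_one]
    have k2 : (-H.cc τ * H.gam τ ^ 7 - H.cc τ * ((7 : ℕ) * H.gam τ ^ (7 - 1) * (H.gam τ / 4))) /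
        (H.gam τ ^ 7) ^ 2 = -(11 / 4) * (H.cc τ / H.gam τ ^ 7) := by
      push_cast
      field_simp
      ring
    rw [k2]
    generalize (-H.cc τ * H.gg β τ - H.cc τ * (-(β * Real.exp (-τ / 4)) / 4 + H.gam τ / 4)) /
      H.gg β τ ^ 2 = w
    ring
  · have hc : 0 ≤ H.cc τ := by
      unfold HG.cc HG.NN
      positivity
    rw [div_le_iff₀ (by positivity)]
    have k1 : -(3 / 4) * (H.cc τ / H.gg β τ) * H.gg β τ ^ 2 = -(3 / 4) * (H.cc τ * H.gg β τ) := by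
      field_simp
    rw [k1]
    have k3 : H.gg β τ = β * Real.exp (-τ / 4) + H.gam τ := rfl
    have k4 := mul_nonneg hc hg.le
    rw [k3]
    linarith

end VsuperAux

open VsuperAux in
theorem exists_VOK {φ φ' c : ℝ → ℝ} {C : ℝ} (hφ : PhiOK φ φ' c C) :
    ∃ (κ : Fin 4 → ℝ) (K γ0 : ℝ), VOK φ κ K γ0 := by
  obtain ⟨K1, p1, G1⟩ := HG.gen_phi hφ
  obtain ⟨K2, p2, G2⟩ := HG.gen_Ups hφ
  obtain ⟨K3, p3, G3⟩ := HG.gen_om hφ
  obtain ⟨K4, p4, G4⟩ := HG.gen_M4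
  have hC := hφ.C1
  obtain ⟨K, hK⟩ : ∃ K, K = K1 + K2 + K3 + K4 + 1 := ⟨_, rfl⟩
  have hK1 : 1 ≤ K := by linarith
  obtain ⟨k0, e0⟩ : ∃ k0, k0 = 2 * K := ⟨_, rfl⟩
  obtain ⟨k1, e1⟩ : ∃ k1, k1 = 96 * K := ⟨_, rfl⟩
  obtain ⟨k2, e2⟩ : ∃ k2, k2 = 2 * K * (1 + k0 + k1) := ⟨_, rfl⟩
  obtain ⟨k3, e3⟩ : ∃ k3, k3 = 2 * K * (1 + k0 + k1 + k2) := ⟨_, rfl⟩
  have q0 : 1 ≤ k0 := by linarith
  have q1 : 1 ≤ k1 := by linarith
  have q2 : 1 ≤ k2 := by nlinarith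
  have q3 : 1 ≤ k3 := by nlinarith
  have hκ : ∀ i, 1 ≤ ![k0, k1, k2, k3] i := fun i => by fin_cases i <;> assumption
  have hγ0 : 1 / (48 * k3) ≤ 1 / 48 := one_div_le_one_div_of_le (by norm_num) (by linarith)
  have hK' : 0 ≤ 2 + k0 * K + k1 * K := by positivity
  refine ⟨![k0, k1, k2, k3], 2 + k0 * K + k1 * K + (24 + 6 * C), 1 / (48 * k3), hκ, by positivity,
    by positivity, by linarith, ?_⟩
  intro α _ _ H hD hN β γ2 τ hβ hγ2 hγ2' hγ A hA r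
  have hγ21 : γ2 ≤ 1 := by linarith
  obtain ⟨d1, d2⟩ := dev_le H hφ hκ hD hN hβ hγ hγ21 A r
  obtain ⟨v0, -, -, -, -, -, -, -, -, v9⟩ := H.VV_lower hφ hκ hD hN hβ hγ A r
  obtain ⟨w, hw, hgen⟩ := genT_VV H hφ hD ![k0, k1, k2, k3] hβ hγ2 τ A r
  have hab := H.genT_Vabs hγ2 τ A r
  have hg := H.gam_pos hD τ
  have hc := H.cc_pos hD hN τ
  have hn := H.nrm_pos hD hN τ
  have hgg := H.gg_pos hD hβ τ
  have hgl := H.gam_le_gg hβ τ
  have hnc : H.nrm τ = H.cc τ * H.gam τ ^ 8 := by rw [H.gam_pow hD, H.cc_mul_aa hD]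
  have hγ1 : H.gam τ ≤ 1 := hγ.trans hγ21
  have hγ8 : H.gam τ ^ 8 ≤ 1 / 512 :=
    (pow_le_pow_left₀ hg.le (show H.gam τ ≤ 1 / 48 by linarith) 8).trans (by norm_num)
  have g1 := G1 H _ _ hg hγ1 hgg A r
  have g2 := G2 H _ hg hγ1 A hA r
  have g3 := G3 H _ hg hγ8 A hA r
  have g4 := G4 H (H.gam τ ^ 8) (by positivity) (by linarith) A r
  have g5 := H.gen_UU (H.aa_nonneg τ) A r
  have x1 := H.Ups_nonneg (H.aa τ) A r
  have x2 := H.om_nonneg (H.aa τ) A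
  have x3 := H.M4_nonneg (H.aa τ) A r
  have x4 := H.M1_nonneg (H.aa_nonneg τ) A r
  have x5 := H.UU_nonneg (H.aa τ) A
  have x6 : 0 ≤ ∑ e ∈ A, φ (r e) := sum_nonneg fun _ _ => hφ.nonneg _
  have g4' : K4 * (H.gam τ ^ 8) ^ 2 = K4 * H.gam τ ^ 16 := by ring
  rw [g4'] at g4
  rw [H.gam_pow hD] at g1 g2 g3 g4
  simp only [Matrix.cons_val_zero, Matrix.cons_val_one, Matrix.cons_val] at hgen
  set V := H.VV φ ![k0, k1, k2, k3] β γ2 τ A r with hV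
  set γ := H.gam τ with hγd
  set g := H.gg β τ with hgd
  set cc := H.cc τ with hcd
  have hq : 0 ≤ γ / γ2 * V := by positivity
  refine ⟨?_, hab.trans ?_⟩
  swap
  · have := mul_nonneg hK' hq
    have := mul_nonneg (by linarith : 0 ≤ C) hq
    linarith
  have b1 : cc ≤ cc / γ := le_div_self hc.le hg hγ1
  have b2 : cc / g ≤ cc / γ := div_le_div_of_nonneg_left hc.le hg hgl
  have b3 : 0 ≤ cc / g := by positivity
  have hS : -(24 * k3 * (2 * γ2 - γ) * (H.nrm τ * ∑ e ∈ A, (H.u (H.aa τ) A e - 1))) ≤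
      H.nrm τ * |∑ e ∈ A, (H.u (H.aa τ) A e - 1)| := by
    refine (neg_le_abs _).trans ?_
    rw [abs_mul, abs_mul (H.nrm τ), abs_of_pos hn]
    refine mul_le_of_le_one_left (by positivity) ?_
    rw [le_div_iff₀ (by positivity)] at hγ2'
    have := mul_nonneg (by linarith : 0 ≤ k3) hg.le
    rw [abs_of_nonneg (mul_nonneg (by positivity) (by linarith))]
    linarith
  have key := comb (P := g * (cc * ∑ e ∈ A, φ (r e))) (U := cc / g * H.Ups (H.aa τ) A r)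
    (O := cc / g * H.om (H.aa τ) A) (Z := cc / g * H.Zq (H.aa τ) A)
    (A4 := cc / γ ^ 7 * H.M4 (H.aa τ) A r) (A1 := cc / γ ^ 7 * H.M1 (H.aa τ) A r)
    (W := γ * H.nrm τ * H.UU (H.aa τ) A) (N := γ * (H.nrm τ * A.card))
    (S := H.nrm τ * |∑ e ∈ A, (H.u (H.aa τ) A e - 1)|)
    (T0 := -cc * ∑ e ∈ A, φ (r e) + cc * H.gen (fun _ A r => ∑ e ∈ A, φ (r e)) (H.aa τ) A r)
    (T1 := w * H.Ups (H.aa τ) A r + cc / g * H.gen H.Ups (H.aa τ) A r)
    (T2 := w * H.om (H.aa τ) A + cc / g * H.gen (fun a A _ => H.om a A) (H.aa τ) A r)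
    (T3 := -(11 / 4) * (cc / γ ^ 7 * H.M4 (H.aa τ) A r) + cc / γ ^ 7 * H.gen H.M4 (H.aa τ) A r)
    (T4 := 5 / 4 * (γ * H.nrm τ * H.UU (H.aa τ) A) +
      γ * H.nrm τ * H.gen (fun a A _ => H.UU a A) (H.aa τ) A r)
    (T5 := -(6 * k3 * (γ * (H.nrm τ * A.card))) - 24 * k3 * (2 * γ2 - γ) *
      (H.nrm τ * ∑ e ∈ A, (H.u (H.aa τ) A e - 1)))
    hK1 e0 e1 e2 e3 (by positivity) (by positivity) (by positivity) (by positivity)
    (by positivity) ?_ ?_ ?_ ?_ ?_ (by linarith)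
  · rw [hgen]
    have y1 := mul_le_mul_of_nonneg_left (mul_le_mul_of_nonneg_left v0 hgg.le) hK'
    have y2 := mul_nonneg hK' hq
    have y3 := mul_nonneg (by linarith : 0 ≤ 24 + 6 * C) (mul_nonneg hgg.le v9)
    linarith
  · have y0 := mul_le_mul_of_nonneg_left g1 hc.le
    have y1 := m1 (K := K) hg hc.le b1 p1.le (by linarith) (add_nonneg x3 x4)
    have y2 := m2 (K := K) hg hc.le b1 p1.le (by linarith) x5
    have y3 : cc * (K1 / g * H.Ups (H.aa τ) A r) ≤ K * (cc / g * H.Ups (H.aa τ) A r) :=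
      calc _ = K1 * (cc / g * H.Ups (H.aa τ) A r) := by ring
        _ ≤ _ := mul_le_mul_of_nonneg_right (by linarith) (by positivity)
    have y4 := mul_le_mul_of_nonneg_right hgl (mul_nonneg hc.le x6)
    rw [← hnc] at y2
    linarith
  · have y0 := mul_le_mul_of_nonneg_left g2 b3
    have y1 := m1 (K := K) hg hc.le b2 p2.le (by linarith) (add_nonneg x3 x4)
    have y2 := m2 (K := K) hg hc.le b2 p2.le (by linarith) x5
    have y3 := m3 (K := K) hg hgl hc.le b2 p2.le (by linarith) x6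
    have y4 := mul_le_mul_of_nonneg_right hw x1
    rw [← hnc] at y2
    linarith
  · have y0 := mul_le_mul_of_nonneg_left g3 b3
    have y1 := m1 (K := K) hg hc.le b2 p3.le (by linarith) x3
    have y2 := m2 (K := K) hg hc.le b2 p3.le (by linarith) x5
    have y3 := m3 (K := K) hg hgl hc.le b2 p3.le (by linarith) x6
    have y4 := mul_le_mul_of_nonneg_right hw x2
    have y5 := (m4 hg hγ1 b3 p3.le x6).1
    have y6 := (m4 hg hγ1 b3 p3.le x3).2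
    rw [← hnc] at y2
    linarith
  · have y0 := mul_le_mul_of_nonneg_left g4 (by positivity : 0 ≤ cc / γ ^ 7)
    have y1 : cc / γ ^ 7 * (K4 * γ ^ 16 * H.UU (H.aa τ) A) ≤
        K * (γ * H.nrm τ * H.UU (H.aa τ) A) :=
      calc _ = K4 * (γ * H.nrm τ * H.UU (H.aa τ) A) := by
            rw [hnc]
            field_simp
        _ ≤ _ := mul_le_mul_of_nonneg_right (by linarith) (by positivity)
    linarith
  · have y0 := mul_le_mul_of_nonneg_left g5 (by positivity : 0 ≤ γ * H.nrm τ)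
    linarith

end Vale.Agent.P046
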