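import Vale.Agent.P046.P3
import Vale.Agent.P046.Phi
import Vale.Agent.P046.Vsuper
import Vale.Agent.P046.Phase1
import Vale.Agent.P046.Bad

open Finset

namespace Vale.Agent.P046

/-- The abstract main estimate: `L¹` closeness of the final count to `N / √(2D)`. -/
theorem main_abs {η : ℝ} (hη : 0 < η) : ∃ D0 : ℕ,
    ∀ {α : Type} [DecidableEq α] [Fintype α] (H : HG α), H.Gap → D0 ≤ H.D → H.D ≤ H.A0.card →
      H.A0.card ≤ H.D ^ 2 →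
      H.Hv (fun k => |(k : ℝ) - H.NN / Real.sqrt (2 * H.D)|) H.A0
        ≤ η * (H.NN / Real.sqrt H.D) := by
  obtain ⟨φ, φ', c, C, hφ⟩ := exists_phi
  obtain ⟨κ, K, γ0, hV⟩ := exists_VOK hφ
  obtain ⟨K3, hK3, M0, hM0, h3⟩ := P3 hφ hV (η := η / 3) (by positivity)
  obtain ⟨K2, hK2, h1⟩ := phase1 hφ hV
  have hγ0 := hV.g0pos
  obtain ⟨γ2, hγ2, hγ20, hγη, hγM⟩ : ∃ γ2 : ℝ, 0 < γ2 ∧ γ2 ≤ γ0 ∧ γ2 ≤ η / (3 * (K3 * K2)) ∧
      γ2 ≤ 1 / M0 :=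
    ⟨min γ0 (min (η / (3 * (K3 * K2))) (1 / M0)), by positivity, min_le_left _ _,
      (min_le_right _ _).trans (min_le_left _ _), (min_le_right _ _).trans (min_le_right _ _)⟩
  have hγ21 : γ2 ≤ 1 := hγ20.trans hV.g0le
  have hM' : M0 ≤ 1 / γ2 ^ 8 := by
    have a1 : γ2 ^ 8 ≤ γ2 := pow_le_of_le_one hγ2.le hγ21 (by norm_num)
    rw [le_div_iff₀ (by positivity)]
    rw [le_div_iff₀ (by positivity)] at hγM
    nlinarith
  obtain ⟨M, hM'M, h3⟩ := h3 (1 / γ2 ^ 8) hM'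
  obtain ⟨Δ, Kd, Kb, D3, hKb, h3⟩ := h3 M le_rfl
  obtain ⟨σ0, hσ0, D1, h1⟩ := h1 γ2 hγ2 hγ20
  have hM1 : 1 ≤ M := hM0.trans (hM'.trans hM'M)
  have hM : 0 < M := by linarith
  obtain ⟨δ, M2, hM2, D2, h2⟩ := bad_exp hφ hV (M := M) (η := η / (3 * (Kb + 1))) hM1
    (by positivity) Δ Kd
  obtain ⟨D4, hD4⟩ := exists_nat_ge (M * Real.exp (2 * σ0))
  refine ⟨max (max D1 D2) (max D3 (max D4 1)), ?_⟩
  intro α _ _ H hgap hD0 hN hN2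
  have hD1 : D1 ≤ H.D := ((le_max_left _ _).trans (le_max_left _ _)).trans hD0
  have hD2 : D2 ≤ H.D := ((le_max_right _ _).trans (le_max_left _ _)).trans hD0
  have hD3 : D3 ≤ H.D := ((le_max_left _ _).trans (le_max_right _ _)).trans hD0
  have hD4' : D4 ≤ H.D :=
    (((le_max_left _ _).trans (le_max_right _ _)).trans (le_max_right _ _)).trans hD0
  have hD : 1 ≤ H.D :=
    (((le_max_right _ _).trans (le_max_right _ _)).trans (le_max_right _ _)).trans hD0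
  have hDr : (0 : ℝ) < H.D := by exact_mod_cast hD
  obtain ⟨τ1, hτ1⟩ : ∃ τ1 : ℝ, τ1 = Real.log (H.D / M) / 2 := ⟨_, rfl⟩
  have ha1 : H.aa τ1 = 1 / M := by
    unfold HG.aa
    rw [hτ1, mul_div_cancel₀ _ (two_ne_zero), Real.exp_log (by positivity)]
    field_simp
  have hστ : σ0 ≤ τ1 := by
    have a1 : Real.exp (2 * σ0) ≤ H.D / M := by
      rw [le_div_iff₀ hM]
      have : (D4 : ℝ) ≤ H.D := by exact_mod_cast hD4'
      linarith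
    have a2 := (Real.le_log_iff_exp_le (by positivity)).2 a1
    linarith
  have hτ0 : 0 ≤ τ1 := hσ0.trans hστ
  have hg1 : H.gam τ1 ≤ γ2 := by
    have a1 : H.gam τ1 ^ 8 ≤ γ2 ^ 8 := by
      rw [H.gam_pow hD, ha1, div_le_iff₀ hM]
      rw [div_le_iff₀ (by positivity)] at hM'M
      linarith
    exact (pow_le_pow_iff_left₀ (H.gam_pos hD τ1).le hγ2.le (by norm_num)).1 a1
  obtain ⟨X⟩ := exists_ex (H.sys ∅ δ M2) (HG.InvS H.A0) 0 τ1 hτ0 (H.A0, H.A0)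
    ((0, 0) : (α → ℝ) × (α → ℝ)) H.contDiff_aa.continuous H.aa_nonneg (H.sys_drift_cts _ δ hM2)
    ⟨subset_rfl, subset_rfl⟩ (H.sys_inv _ δ M2 H.A0)
  have hτ : τ1 ∈ Set.Icc 0 τ1 := ⟨hτ0, le_rfl⟩
  have hβ : 0 ≤ Real.exp (σ0 / 4) := (Real.exp_pos _).le
  have hβ1 : Real.exp (σ0 / 4) * Real.exp (-τ1 / 4) ≤ 1 := by
    rw [← Real.exp_add]
    exact Real.exp_le_one_iff.2 (by linarith)
  have e1 := h1 H hgap hD1 hN hN2 ∅ δ M2 τ1 hστ hg1 X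
  have e2 := h2 H ∅ τ1 γ2 hD2 hN hτ0 ha1 hγ2 hγ20 hg1 X
  have e3 := h3 H hD3 hN τ1 γ2 (Real.exp (σ0 / 4)) ha1 hγ2 (by rw [one_div_one_div]) hβ hβ1
  have hcV := (H.smF_VV hφ hD κ hβ hγ2).cts τ1
  obtain ⟨S, hS⟩ : ∃ S : ℝ, S = H.NN / Real.sqrt H.D := ⟨_, rfl⟩
  have hS0 : 0 ≤ S := by rw [hS]; have := H.NN_pos hD hN; positivity
  rw [← hS] at e2 e3 ⊢
  have h0 := X.harmonic (fun σ => H.Hv (fun k => |(k : ℝ) - H.NN / Real.sqrt (2 * H.D)|) σ.1)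
    (fun σ hσ => by
      rw [H.sys_sum_fst ∅ δ M2 (H.Hv fun k => |(k : ℝ) - H.NN / Real.sqrt (2 * H.D)|) σ]
      exact H.Hv_harm _ σ.1 hσ.1) hτ
  have c1 : Cts (fun (σ : Finset α × Finset α) (r : (α → ℝ) × (α → ℝ)) =>
      S * (η / 3) + (S * K3) * H.VV φ κ (Real.exp (σ0 / 4)) γ2 τ1 σ.1 r.1) :=
    (Cts.const _).add (hcV.cmul _)
  have c2 : Cts (fun (σ : Finset α × Finset α) (_ : (α → ℝ) × (α → ℝ)) =>
      Kb * (H.nbad σ.1 Δ Kd : ℝ)) := Cts.of_state _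
  have h4 := X.mono τ1 hτ _ _ (Cts.of_state
    (fun σ => H.Hv (fun k => |(k : ℝ) - H.NN / Real.sqrt (2 * H.D)|) σ.1)) (c1.add c2)
    (fun σ r hσ => by have := e3 σ.1 hσ.1 r.1; linarith)
  rw [h0, X.add τ1 hτ _ _ c1 c2, X.add τ1 hτ _ _ (Cts.const _) (hcV.cmul _), X.const τ1 hτ,
    X.smul τ1 hτ _ _ hcV, X.smul τ1 hτ _ _ (Cts.of_state _)] at h4
  have b1 : K3 * EV X φ κ (Real.exp (σ0 / 4)) γ2 τ1 ≤ η / 3 := by
    rw [le_div_iff₀ (by positivity)] at hγη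
    have := mul_le_mul_of_nonneg_left e1 hK3.le
    linarith
  have b2 := mul_le_mul_of_nonneg_left b1 hS0
  have b3 := mul_le_mul_of_nonneg_left e2 hKb
  have b4 : Kb * (η / (3 * (Kb + 1)) * S) ≤ η / 3 * S := by
    rw [← mul_assoc]
    apply mul_le_mul_of_nonneg_right _ hS0
    rw [← mul_div_assoc, div_le_div_iff₀ (by positivity) (by norm_num)]
    nlinarith
  unfold EV at b2
  linarith

end Vale.Agent.P046
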