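import Vale.Agent.P046.Defs2

open Finset

namespace Vale.Agent.P046

/-! Pointwise real inequalities used in `NHat`. -/

theorem nh_abs_pow4 (m : ℝ) : |m| ^ 4 = m ^ 4 := by
  rw [show (4 : ℕ) = 2 * 2 from rfl, pow_mul, pow_mul, sq_abs]

theorem nh_abs_le {g : ℝ} (hg : 0 < g) (m : ℝ) : |m| ≤ g + m ^ 4 / g ^ 3 := by
  have h0 : 0 ≤ m ^ 4 / g ^ 3 := by positivity
  by_cases h : |m| ≤ g
  · linarith
  · push Not at h
    have h1 : g ^ 3 ≤ |m| ^ 3 := pow_le_pow_left₀ hg.le h.le 3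
    have h2 : |m| ≤ m ^ 4 / g ^ 3 := by
      rw [le_div_iff₀ (by positivity), ← nh_abs_pow4]
      nlinarith [abs_nonneg m]
    linarith

theorem nh_min_le {t w k : ℝ} (hk : 1 ≤ k) (h : |t| ≤ k * |w|) :
    min (t ^ 2) |t| ≤ k ^ 2 * min (w ^ 2) |w| := by
  have hw := abs_nonneg w
  have ht := abs_nonneg t
  rcases le_total (w ^ 2) |w| with h1 | h1
  · rw [min_eq_left h1]
    refine (min_le_left _ _).trans ?_
    have := pow_le_pow_left₀ ht h 2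
    rwa [mul_pow, sq_abs, sq_abs] at this
  · rw [min_eq_right h1]
    refine (min_le_right _ _).trans (h.trans ?_)
    have : k ≤ k ^ 2 := by nlinarith
    exact mul_le_mul_of_nonneg_right this hw

theorem nh_min_nonneg (t : ℝ) : 0 ≤ min (t ^ 2) |t| := le_min (sq_nonneg t) (abs_nonneg t)

theorem nh_min_three (x y z : ℝ) : min ((x + y + z) ^ 2) |x + y + z| ≤
    9 * (min (x ^ 2) |x| + min (y ^ 2) |y| + min (z ^ 2) |z|) := by
  have hx := nh_min_nonneg x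
  have hy := nh_min_nonneg y
  have hz := nh_min_nonneg z
  have h3 : |x + y + z| ≤ |x| + |y| + |z| := abs_add_three x y z
  have k : (1 : ℝ) ≤ 3 := by norm_num
  rcases le_total |x| |y| with h1 | h1
  · rcases le_total |y| |z| with h2 | h2
    · have := nh_min_le (t := x + y + z) (w := z) k (by linarith)
      linarith
    · have := nh_min_le (t := x + y + z) (w := y) k (by linarith)
      linarith
  · rcases le_total |x| |z| with h2 | h2
    · have := nh_min_le (t := x + y + z) (w := z) k (by linarith)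
      linarith
    · have := nh_min_le (t := x + y + z) (w := x) k (by linarith)
      linarith

theorem nh_phi_le_min {φ φ' c : ℝ → ℝ} {C : ℝ} (hφ : PhiOK φ φ' c C) (x : ℝ) :
    φ x ≤ C * min (x ^ 2) |x| := by
  rcases le_total (x ^ 2) |x| with h | h
  · rw [min_eq_left h]; exact hφ.le_sq x
  · rw [min_eq_right h]; exact hφ.le_abs x

theorem nh_mul_psi {b : ℝ} (hb : 0 < b) (v : ℝ) :
    b * psi (v / b) = Real.sqrt (b ^ 2 + v ^ 2) - b := by
  unfold psi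
  have : Real.sqrt (b ^ 2 + v ^ 2) = b * Real.sqrt (1 + (v / b) ^ 2) := by
    rw [show b ^ 2 + v ^ 2 = b ^ 2 * (1 + (v / b) ^ 2) by field_simp,
      Real.sqrt_mul (sq_nonneg b), Real.sqrt_sq hb.le]
  rw [this]; ring

/-- Tangent line bound. -/
theorem nh_tangent {φ φ' c : ℝ → ℝ} {C : ℝ} (hφ : PhiOK φ φ' c C) {b : ℝ} (hb : 0 < b)
    (v r : ℝ) : v / Real.sqrt (b ^ 2 + v ^ 2) * r + (b / Real.sqrt (b ^ 2 + v ^ 2) - 1)
      ≤ C * φ r := by
  set s := Real.sqrt (b ^ 2 + v ^ 2) with hs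
  have hs0 : 0 < s := Real.sqrt_pos.2 (by positivity)
  have hs2 : s ^ 2 = b ^ 2 + v ^ 2 := Real.sq_sqrt (by positivity)
  have h1 : (v * r + b) / s ≤ Real.sqrt (1 + r ^ 2) := by
    refine (le_abs_self _).trans (Real.abs_le_sqrt ?_)
    rw [div_pow, div_le_iff₀ (by positivity), hs2]
    nlinarith [sq_nonneg (b * r - v)]
  have h2 : psi r ≤ min (r ^ 2) |r| :=
    le_min ((psi_le_sq r).trans (by nlinarith [sq_nonneg r])) (psi_le_abs r)
  have h3 := hφ.ge_min r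
  unfold psi at h2
  have e : v / s * r + (b / s - 1) = (v * r + b) / s - 1 := by field_simp; ring
  rw [e]; linarith

/-- The fourth power of the deviation. -/
theorem nh_d4 {φ φ' c : ℝ → ℝ} {C : ℝ} (hφ : PhiOK φ φ' c C) {γ u r : ℝ} (hγ : 0 < γ)
    (hγ1 : γ ≤ 1) (hu : 0 ≤ u) :
    γ ^ 6 * (u - 1) ^ 4 ≤ 16 * (u - 1 - r) ^ 4 + 4 * C * φ r
      + 2949120 * (γ ^ 9 * Real.exp (u / 4)) := by
  set d := u - 1 with hd
  have hC := hφ.C1
  have h0 := hφ.nonneg r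
  have a1 : 0 ≤ 16 * (d - r) ^ 4 := by positivity
  have a2 : 0 ≤ 4 * C * φ r := by positivity
  have a3 : 0 ≤ 2949120 * (γ ^ 9 * Real.exp (u / 4)) := by positivity
  have g6 : γ ^ 6 ≤ 1 := pow_le_one₀ hγ.le hγ1
  have hda := abs_nonneg d
  by_cases h1 : |d| ≤ 2 * |d - r|
  · have := pow_le_pow_left₀ hda h1 4
    rw [mul_pow, nh_abs_pow4, nh_abs_pow4] at this
    have h4 : 0 ≤ d ^ 4 := by positivity
    nlinarith
  · push Not at h1
    have h2 : |d| ≤ 2 * |r| := by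
      have := abs_add_le (d - r) r
      rw [sub_add_cancel] at this
      linarith
    by_cases h3 : γ ^ 2 * |d| ≤ 1
    · have h4 := nh_min_le (t := d) (w := r) (k := 2) (by norm_num) h2
      have h5 := hφ.ge_min r
      have h6 : γ ^ 6 * d ^ 4 ≤ min (d ^ 2) |d| := by
        have p0 : 0 ≤ γ ^ 2 * |d| := by positivity
        have p2 : (γ ^ 2 * |d|) ^ 2 ≤ 1 := pow_le_one₀ p0 h3
        have p3 : (γ ^ 2 * |d|) ^ 3 ≤ 1 := pow_le_one₀ p0 h3
        have g2 : γ ^ 2 ≤ 1 := pow_le_one₀ hγ.le hγ1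
        refine le_min ?_ ?_
        · have e : γ ^ 6 * d ^ 4 = (γ ^ 2 * (γ ^ 2 * |d|) ^ 2) * d ^ 2 := by
            rw [mul_pow, sq_abs]; ring
          rw [e]
          have : γ ^ 2 * (γ ^ 2 * |d|) ^ 2 ≤ 1 := mul_le_one₀ g2 (by positivity) p2
          nlinarith [sq_nonneg d]
        · have e : γ ^ 6 * d ^ 4 = (γ ^ 2 * |d|) ^ 3 * |d| := by
            rw [← nh_abs_pow4]; ring
          rw [e]
          nlinarith
      nlinarith
    · push Not at h3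
      have g2 : γ ^ 2 ≤ 1 := pow_le_one₀ hγ.le hγ1
      have h4 : 1 < |d| := by nlinarith
      have h5 : 0 ≤ d := by
        by_contra hneg
        push Not at hneg
        rw [abs_of_neg hneg] at h4
        linarith
      rw [abs_of_nonneg h5] at h3
      have h6 : 1 ≤ (γ ^ 2 * d) ^ 2 := one_le_pow₀ h3.le
      have h7 : d ^ 6 ≤ u ^ 6 := pow_le_pow_left₀ h5 (by linarith) 6
      have h8 := pow_le_exp4 6 hu
      have e : (4 : ℝ) ^ 6 * ((Nat.factorial 6 : ℕ) : ℝ) = 2949120 := by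
        norm_num [Nat.factorial]
      rw [e] at h8
      have h9 : γ ^ 6 * d ^ 4 ≤ γ ^ 10 * d ^ 6 := by
        have : γ ^ 10 * d ^ 6 = γ ^ 6 * d ^ 4 * (γ ^ 2 * d) ^ 2 := by ring
        rw [this]
        exact le_mul_of_one_le_right (by positivity) h6
      have h10 : γ ^ 10 ≤ γ ^ 9 := pow_le_pow_of_le_one hγ.le hγ1 (by norm_num)
      have h11 : γ ^ 10 * d ^ 6 ≤ γ ^ 9 * (2949120 * Real.exp (u / 4)) :=
        mul_le_mul h10 (h7.trans h8) (by positivity) (by positivity)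
      nlinarith

/-- The budget of one vertex. -/
noncomputable def nhP (φ : ℝ → ℝ) (γ u r : ℝ) : ℝ :=
  (u - 1 - r) ^ 4 / γ ^ 7 + φ r + γ ^ 9 * Real.exp (u / 4)

theorem nh_amgm {g : ℝ} (hg : 0 < g) (x y : ℝ) : x * y ≤ g * x ^ 2 + y ^ 2 / g := by
  have : g * x ^ 2 + y ^ 2 / g - x * y = ((g * x - y / 2) ^ 2 + 3 / 4 * y ^ 2) / g := by
    field_simp; ring
  have h2 : 0 ≤ ((g * x - y / 2) ^ 2 + 3 / 4 * y ^ 2) / g := by positivity
  linarith

theorem nh_point {φ φ' c : ℝ → ℝ} {C : ℝ} (hφ : PhiOK φ φ' c C) {γ u r sg bt : ℝ} (m1 : ℝ)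
    (hγ : 0 < γ) (hγ1 : γ ≤ 1) (hu : 0 ≤ u) (hb0 : 0 ≤ bt) (hb1 : bt ≤ 1) :
    sg * (2 * γ ^ 8 * u - (u - 1) * (u - 1 - r - m1)) + bt * (u - 1)
      ≤ sg ^ 2 / 8 + bt / 4 + (50000000 * C * nhP φ γ u r + 8 * (m1 ^ 4 / γ ^ 7)) := by
  have hd4 := nh_d4 (r := r) hφ hγ hγ1 hu
  unfold nhP
  set d := u - 1 with hd
  set m := d - r with hm
  set z := 2 * γ ^ 8 * u - d * (m - m1) with hz
  set E := γ ^ 9 * Real.exp (u / 4) with hE
  have hC := hφ.C1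
  have h0 := hφ.nonneg r
  have hE0 : 0 ≤ E := by positivity
  clear_value d m z E
  have g7 : γ ^ 7 ≤ 1 := pow_le_one₀ hγ.le hγ1
  have g76 : γ ^ 7 ≤ γ ^ 6 := pow_le_pow_of_le_one hγ.le hγ1 (by norm_num)
  have hm4 : m ^ 4 ≤ m ^ 4 / γ ^ 7 := le_div_self (by positivity) (by positivity) g7
  have hm0 : 0 ≤ m ^ 4 := by positivity
  have s1 : sg * z ≤ sg ^ 2 / 8 + 2 * z ^ 2 := by nlinarith [sq_nonneg (sg - 4 * z)]
  have s2 : bt * d ≤ bt / 4 + (512 * m ^ 4 + 9 * C * φ r) := by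
    have t1 := nh_abs_le (g := 1 / 8) (by norm_num) m
    have t2 := hφ.abs_le (g := 1 / 8) (by norm_num) r
    have t3 : d ≤ 1 / 4 + (512 * m ^ 4 + 9 * C * φ r) := by
      have : d = m + r := by rw [hm]; ring
      have t4 := le_abs_self m
      have t5 := le_abs_self r
      have e1 : m ^ 4 / (1 / 8 : ℝ) ^ 3 = 512 * m ^ 4 := by field_simp; norm_num
      have e2 : C * (1 / (1 / 8 : ℝ) + 1) * φ r = 9 * C * φ r := by ring
      rw [e1] at t1; rw [e2] at t2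
      linarith
    have t6 : 0 ≤ 512 * m ^ 4 + 9 * C * φ r := by positivity
    have t7 := mul_le_mul_of_nonneg_left t3 hb0
    have t8 := mul_le_mul_of_nonneg_right hb1 t6
    linarith
  have s3 : z ^ 2 ≤ 8 * (γ ^ 16 * u ^ 2) + 4 * (d ^ 2 * m ^ 2) + 4 * (d ^ 2 * m1 ^ 2) := by
    have : z ^ 2 ≤ 2 * (2 * γ ^ 8 * u) ^ 2 + 2 * (d * (m - m1)) ^ 2 := by
      rw [hz]
      linarith [sq_nonneg (2 * γ ^ 8 * u + d * (m - m1))]
    linarith [sq_nonneg (d * (m + m1))]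
  have s4 : γ ^ 16 * u ^ 2 ≤ 32 * E := by
    have t1 := pow_le_exp4 2 hu
    have e : (4 : ℝ) ^ 2 * ((Nat.factorial 2 : ℕ) : ℝ) = 32 := by norm_num [Nat.factorial]
    rw [e] at t1
    have t2 : γ ^ 16 ≤ γ ^ 9 := pow_le_pow_of_le_one hγ.le hγ1 (by norm_num)
    have := mul_le_mul t2 t1 (by positivity) (by positivity)
    rw [hE]; linarith
  have s5 : ∀ w : ℝ, d ^ 2 * w ^ 2 ≤ γ ^ 6 * d ^ 4 + w ^ 4 / γ ^ 7 := by
    intro w
    have t1 := nh_amgm (g := γ ^ 7) (by positivity) (d ^ 2) (w ^ 2)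
    have t2 : γ ^ 7 * d ^ 4 ≤ γ ^ 6 * d ^ 4 := mul_le_mul_of_nonneg_right g76 (by positivity)
    have e1 : (d ^ 2) ^ 2 = d ^ 4 := by ring
    have e2 : (w ^ 2) ^ 2 = w ^ 4 := by ring
    rw [e1, e2] at t1
    linarith
  have s6 := s5 m
  have s7 := s5 m1
  have c1 : m ^ 4 / γ ^ 7 ≤ C * (m ^ 4 / γ ^ 7) := le_mul_of_one_le_left (by positivity) hC
  have c2 : E ≤ C * E := le_mul_of_one_le_left hE0 hC
  have c3 : 0 ≤ C * φ r := by positivity
  have c4 : 0 ≤ m ^ 4 / γ ^ 7 := by positivity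
  have e : 50000000 * C * (m ^ 4 / γ ^ 7 + φ r + E)
      = 50000000 * (C * (m ^ 4 / γ ^ 7)) + 50000000 * (C * φ r) + 50000000 * (C * E) := by ring
  rw [e]
  linarith

/-- The algebra of `n = sqrt (b² + ν²) - b`. -/
theorem nh_sqrt_alg {b : ℝ} (hb : 0 < b) (v : ℝ) :
    0 ≤ 1 - b / Real.sqrt (b ^ 2 + v ^ 2) ∧ 1 - b / Real.sqrt (b ^ 2 + v ^ 2) ≤ 1 ∧
    -(v / Real.sqrt (b ^ 2 + v ^ 2)) * v + ((1 - b / Real.sqrt (b ^ 2 + v ^ 2))
      + ((v / Real.sqrt (b ^ 2 + v ^ 2)) ^ 2 / 8 + (1 - b / Real.sqrt (b ^ 2 + v ^ 2)) / 4)) * b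
      ≤ 0 := by
  set s := Real.sqrt (b ^ 2 + v ^ 2) with hs
  have hs0 : 0 < s := Real.sqrt_pos.2 (by positivity)
  have hs2 : s ^ 2 = b ^ 2 + v ^ 2 := Real.sq_sqrt (by positivity)
  have hbs : b ≤ s := Real.le_sqrt_of_sq_le (by nlinarith [sq_nonneg v])
  have h1 : b / s ≤ 1 := (div_le_one hs0).2 hbs
  have h0 : 0 < b / s := by positivity
  refine ⟨by linarith, by linarith, ?_⟩
  set x := b / s with hx
  have hbx : b = x * s := by rw [hx]; field_simp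
  have hv : (v / s) ^ 2 = 1 - x ^ 2 := by
    rw [hx, div_pow, div_pow, hs2]; field_simp; ring
  have hv2 : v / s * v = (1 - x ^ 2) * s := by
    rw [← hv]; field_simp
  rw [neg_mul, hv2, hv, hbx]
  have : -(1 - x ^ 2) + ((1 - x) + ((1 - x ^ 2) / 8 + (1 - x) / 4)) * x ≤ 0 := by
    have h2 : 0 ≤ 1 - x := by linarith
    have e : -(1 - x ^ 2) + ((1 - x) + ((1 - x ^ 2) / 8 + (1 - x) / 4)) * x
        = -((1 - x) * (1 - ((1 + x) / 8 + 1 / 4) * x)) := by ring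
    rw [e]
    have h3 : 0 ≤ 1 - ((1 + x) / 8 + 1 / 4) * x := by nlinarith
    have := mul_nonneg h2 h3
    linarith
  nlinarith

section
variable {S R M : Type} [NormedAddCommGroup R] [NormedSpace ℝ R]
  {P : Sys S R M} {Inv : S → Prop} {t0 t1 : ℝ} {s0 : S} {r0 : R}

theorem nh_lin (X : Ex P Inv t0 t1 s0 r0) {τ : ℝ} (hτ : τ ∈ Set.Icc t0 t1)
    {f1 f2 f3 f4 g : S → R → ℝ} (h1 : Cts f1) (h2 : Cts f2) (h3 : Cts f3) (h4 : Cts f4)
    (hg : Cts g) (c1 c2 c3 c4 : ℝ)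
    (h : ∀ s r, Inv s → c1 * f1 s r + c2 * f2 s r ≤ c3 * f3 s r + c4 * f4 s r + g s r) :
    c1 * X.E τ f1 + c2 * X.E τ f2 ≤ c3 * X.E τ f3 + c4 * X.E τ f4 + X.E τ g := by
  have := X.mono τ hτ _ _ ((h1.cmul c1).add (h2.cmul c2)) (((h3.cmul c3).add (h4.cmul c4)).add hg) h
  rwa [X.add τ hτ _ _ (h1.cmul c1) (h2.cmul c2), X.add τ hτ _ _ ((h3.cmul c3).add (h4.cmul c4)) hg,
    X.add τ hτ _ _ (h3.cmul c3) (h4.cmul c4), X.smul τ hτ _ _ h1, X.smul τ hτ _ _ h2,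
    X.smul τ hτ _ _ h3, X.smul τ hτ _ _ h4] at this

theorem nh_aff (X : Ex P Inv t0 t1 s0 r0) {τ : ℝ} (hτ : τ ∈ Set.Icc t0 t1)
    {f g : S → R → ℝ} (hf : Cts f) (hg : Cts g) (c1 c2 c3 : ℝ)
    (h : ∀ s r, Inv s → c1 * f s r ≤ c2 * g s r + c3) :
    c1 * X.E τ f ≤ c2 * X.E τ g + c3 := by
  have := X.mono τ hτ _ _ (hf.cmul c1) ((hg.cmul c2).add (Cts.const c3)) h
  rwa [X.add τ hτ _ _ (hg.cmul c2) (Cts.const c3), X.smul τ hτ _ _ hf, X.smul τ hτ _ _ hg,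
    X.const τ hτ] at this

end

theorem nh_sum_ind {α : Type} [DecidableEq α] {A A1 : Finset α} (h : A ⊆ A1) (g : α → ℝ) :
    ∑ e ∈ A1, ind {e} A * g e = ∑ e ∈ A, g e := by
  rw [← Finset.sum_subset h (f := fun e => ind {e} A * g e)]
  · exact Finset.sum_congr rfl fun e he => by simp [ind, he]
  · intro e _ he; simp [ind, he]

theorem nh_ind_nonneg {α : Type} [DecidableEq α] (S A : Finset α) : 0 ≤ ind S A := by
  unfold ind; split_ifs <;> norm_num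

theorem nh_ind_le_one {α : Type} [DecidableEq α] (S A : Finset α) : ind S A ≤ 1 := by
  unfold ind; split_ifs <;> norm_num

end Vale.Agent.P046
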