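import Vale.Agent.P046.FwdEx
import Vale.Agent.P046.GenA
import Vale.Agent.P046.GenY2
import Vale.Agent.P046.NHatAux

open Finset

namespace Vale.Agent.P046

section nh
variable {α : Type} [DecidableEq α] [Fintype α] {H : HG α} {H' : Finset (Finset α)}
  {δ M2 : ℝ} {A1 : Finset α} {t0 t1 : ℝ} {r1 : (α → ℝ) × (α → ℝ)}

noncomputable def nhNu (X : H.XE H' δ M2 A1 t0 t1 r1) (w : ℝ) (e : α) (τ : ℝ) : ℝ :=
  X.E τ (fun σ ρ => ind {e} σ.1 * (H.mm (H.aa τ) σ.1 ρ.1 e - w))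

theorem nh_smF (H : HG α) (w : ℝ) (e : α) :
    SmF (fun a A r => ind {e} A * (H.mm a A r e - w)) := fun A =>
  contDiff_const.mul ((H.contDiff_mm A e).sub contDiff_const)

theorem nh_nu_cont (X : H.XE H' δ M2 A1 t0 t1 r1) (w : ℝ) (e : α) :
    ContinuousOn (nhNu X w e) (Set.Icc t0 t1) :=
  X.cont _ ((nh_smF H w e).comp H.contDiff_aa).lift

theorem nh_nu_der (X : H.XE H' δ M2 A1 t0 t1 r1) (w : ℝ) (e : α) {τ : ℝ}
    (hτ : τ ∈ Set.Ico t0 t1) : HasDerivWithinAt (nhNu X w e)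
      (X.E τ (fun σ ρ => ind {e} σ.1 * (2 * H.aa τ * H.u (H.aa τ) σ.1 e
        - H.u (H.aa τ) σ.1 e * (H.mm (H.aa τ) σ.1 ρ.1 e - w)))) (Set.Ici τ) τ := by
  have h := X.dyn _ ((nh_smF H w e).comp H.contDiff_aa).lift τ hτ
  have e1 : (H.sys H' δ M2).gen (fun τ (s : Finset α × Finset α) (r : (α → ℝ) × (α → ℝ)) =>
      ind {e} s.1 * (H.mm (H.aa τ) s.1 r.1 e - w)) τ
      = fun σ ρ => ind {e} σ.1 * (2 * H.aa τ * H.u (H.aa τ) σ.1 e
        - H.u (H.aa τ) σ.1 e * (H.mm (H.aa τ) σ.1 ρ.1 e - w)) := by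
    funext σ ρ
    rw [H.sys_gen_lift H' δ M2 (fun τ A r => ind {e} A * (H.mm (H.aa τ) A r e - w)),
      H.genT_comp (fun a A r => ind {e} A * (H.mm a A r e - w)), H.gen_ind_mm]
  rw [e1] at h
  exact h

theorem nh_b_cont (X : H.XE H' δ M2 A1 t0 t1 r1) (e : α) :
    ContinuousOn (pE X {e}) (Set.Icc t0 t1) :=
  X.cont _ (Sm.of_state (fun σ : Finset α × Finset α => ind {e} σ.1))

theorem nh_b_der (X : H.XE H' δ M2 A1 t0 t1 r1) (e : α) {τ : ℝ}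
    (hτ : τ ∈ Set.Ico t0 t1) : HasDerivWithinAt (pE X {e})
      (X.E τ (fun σ _ => -(ind {e} σ.1 * H.u (H.aa τ) σ.1 e))) (Set.Ici τ) τ := by
  have h := X.dyn _ (Sm.of_state (fun σ : Finset α × Finset α => ind {e} σ.1)) τ hτ
  have e1 : (H.sys H' δ M2).gen (fun (_ : ℝ) (s : Finset α × Finset α)
      (_ : (α → ℝ) × (α → ℝ)) => ind {e} s.1) τ
      = fun σ _ => -(ind {e} σ.1 * H.u (H.aa τ) σ.1 e) := by
    funext σ ρ
    rw [Sys.gen_state, H.sys_sum_fst H' δ M2 (fun A => ind {e} A) σ]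
    have hr : (H.sys H' δ M2).rate τ = H.aa τ := rfl
    rw [hr]
    by_cases he : e ∈ σ.1
    · have h1 : ∀ T ∈ H.tri σ.1, ind {e} (σ.1 \ T) - ind {e} σ.1
          = if e ∈ T then -1 else 0 := by
        intro T _
        by_cases hT : e ∈ T <;> simp [ind, he, hT]
      rw [Finset.sum_congr rfl h1, ← Finset.sum_filter]
      simp [ind, he, HG.u, HG.deg, thru]
    · have h1 : ∀ T ∈ H.tri σ.1, ind {e} (σ.1 \ T) - ind {e} σ.1 = 0 := by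
        intro T _
        simp [ind, he]
      rw [Finset.sum_congr rfl h1]
      simp [ind, he]
  rw [e1] at h
  exact h

theorem nh_E_u (X : H.XE H' δ M2 A1 t0 t1 r1) {τ : ℝ} (hτ : τ ∈ Set.Icc t0 t1) (a : ℝ) (e : α) :
    X.E τ (fun σ _ => ind {e} σ.1 * (H.u a σ.1 e - 1))
      = a * WW (H.tri A1) (pE X) e τ - pE X {e} τ := by
  rw [← E_deg X hτ e, ← X.smul τ hτ a _ (Cts.of_state _)]
  unfold pE
  rw [← X.sub hτ (Cts.of_state _) (Cts.of_state _)]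
  congr 1
  funext σ ρ
  by_cases he : e ∈ σ.1
  · simp [ind, he, HG.u]
  · simp [ind, he, HG.u, H.deg_of_notMem he]

theorem nh_sumP {φ φ' c : ℝ → ℝ} {C : ℝ} (hφ : PhiOK φ φ' c C) {κ : Fin 4 → ℝ}
    (hκ : ∀ i, 1 ≤ κ i) (hD : 1 ≤ H.D) (hN : H.D ≤ H.A0.card) {β γ2 τ : ℝ} (hβ : 0 ≤ β)
    (hγ : H.gam τ ≤ γ2) (A : Finset α) (r : α → ℝ) :
    H.cc τ * ∑ e ∈ A, nhP φ (H.gam τ) (H.u (H.aa τ) A e) (r e) ≤ 3 * H.VV φ κ β γ2 τ A r := by
  obtain ⟨v1, -, -, v4, v5, -⟩ := H.VV_lower hφ hκ hD hN hβ hγ A r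
  have e1 : ∑ e ∈ A, nhP φ (H.gam τ) (H.u (H.aa τ) A e) (r e)
      = H.M4 (H.aa τ) A r / H.gam τ ^ 7 + ∑ e ∈ A, φ (r e) + H.gam τ ^ 9 * H.UU (H.aa τ) A := by
    unfold nhP HG.M4 HG.UU HG.mm
    rw [Finset.sum_add_distrib, Finset.sum_add_distrib, Finset.sum_div, Finset.mul_sum]
  have e2 : H.gam τ * H.nrm τ = H.cc τ * H.gam τ ^ 9 := by
    rw [← H.cc_mul_aa hD, ← H.gam_pow hD]; ring
  rw [e2] at v5
  have e3 : H.cc τ / H.gam τ ^ 7 * H.M4 (H.aa τ) A r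
      = H.cc τ * (H.M4 (H.aa τ) A r / H.gam τ ^ 7) := by ring
  rw [e3] at v4
  rw [e1]
  linarith

theorem nh_cc_anti (H : HG α) {σ τ : ℝ} (h : σ ≤ τ) : H.cc τ ≤ H.cc σ := by
  unfold HG.cc HG.NN
  have : Real.exp (-τ) ≤ Real.exp (-σ) := Real.exp_le_exp.2 (by linarith)
  gcongr

theorem nh_cc_gam (H : HG α) (σ τ : ℝ) : H.cc τ * H.gam τ ^ 4 = H.cc σ * H.gam σ ^ 4 := by
  have key : ∀ t : ℝ, H.cc t * H.gam t ^ 4
      = H.D / H.NN * ((H.D : ℝ) ^ (-(1 / 8 : ℝ))) ^ 4 := by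
    intro t
    unfold HG.cc HG.gam
    have : Real.exp (-t) * Real.exp (t / 4) ^ 4 = 1 := by
      rw [← Real.exp_nat_mul, ← Real.exp_add]
      simp only [Real.exp_eq_one_iff]
      push_cast; ring
    rw [mul_pow]
    linear_combination (H.D / H.NN * ((H.D : ℝ) ^ (-(1 / 8 : ℝ))) ^ 4) * this
  rw [key, key]

theorem nh_n_der {φ φ' c : ℝ → ℝ} {C : ℝ} (hφ : PhiOK φ φ' c C) (hD : 1 ≤ H.D)
    (X : H.XE H' δ M2 A1 t0 t1 r1) (w : ℝ) (e : α) {τ : ℝ} (hτ : τ ∈ Set.Ico t0 t1)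
    (hγ1 : H.gam τ ≤ 1) (hb : 0 < pE X {e} τ) :
    ∃ n' : ℝ, HasDerivWithinAt
      (fun τ => Real.sqrt (pE X {e} τ ^ 2 + nhNu X w e τ ^ 2) - pE X {e} τ) n' (Set.Ici τ) τ ∧
      n' ≤ X.E τ (fun σ ρ => ind {e} σ.1 * (50000000 * C * nhP φ (H.gam τ) (H.u (H.aa τ) σ.1 e)
        (ρ.1 e) + 8 * (w ^ 4 / H.gam τ ^ 7))) := by
  have hb' := nh_b_der X e hτ
  have hv' := nh_nu_der X w e hτ
  have hτ' := Set.Ico_subset_Icc_self hτ
  have hs := (((hb'.fun_pow 2).fun_add (hv'.fun_pow 2)).sqrt (by positivity)).fun_sub hb'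
  refine ⟨_, hs, ?_⟩
  obtain ⟨k0, k1, k2⟩ := nh_sqrt_alg hb (nhNu X w e τ)
  have hs0 : 0 < Real.sqrt (pE X {e} τ ^ 2 + nhNu X w e τ ^ 2) :=
    Real.sqrt_pos.2 (by positivity)
  set s := Real.sqrt (pE X {e} τ ^ 2 + nhNu X w e τ ^ 2) with hsd
  set sg := nhNu X w e τ / s with hsg
  set bt := 1 - pE X {e} τ / s with hbt
  have hφc := hφ.continuous
  have hγ := H.gam_pos hD τ
  have L := nh_lin X hτ'
    (f1 := fun σ ρ => ind {e} σ.1 * (2 * H.aa τ * H.u (H.aa τ) σ.1 e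
        - H.u (H.aa τ) σ.1 e * (H.mm (H.aa τ) σ.1 ρ.1 e - w)))
    (f2 := fun σ _ => -(ind {e} σ.1 * H.u (H.aa τ) σ.1 e))
    (f3 := fun σ ρ => ind {e} σ.1 * (H.mm (H.aa τ) σ.1 ρ.1 e - w))
    (f4 := fun σ _ => ind {e} σ.1)
    (g := fun σ ρ => ind {e} σ.1 * (50000000 * C * nhP φ (H.gam τ) (H.u (H.aa τ) σ.1 e)
        (ρ.1 e) + 8 * (w ^ 4 / H.gam τ ^ 7)))
    (fun σ => by unfold HG.mm; fun_prop) (Cts.of_state _) (fun σ => by unfold HG.mm; fun_prop)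
    (Cts.of_state _) (fun σ => by unfold nhP; fun_prop)
    sg (-bt) (-sg) (bt + (sg ^ 2 / 8 + bt / 4))
    (fun σ ρ _ => by
      have hp := nh_point (r := ρ.1 e) (sg := sg) hφ w hγ hγ1
        (H.u_nonneg (H.aa_nonneg τ) σ.1 e) k0 k1
      rw [H.gam_pow hD] at hp
      have := mul_le_mul_of_nonneg_left hp (nh_ind_nonneg {e} σ.1)
      unfold HG.mm
      linarith)
  have eb : X.E τ (fun σ _ => ind {e} σ.1) = pE X {e} τ := rfl
  have ev : X.E τ (fun σ ρ => ind {e} σ.1 * (H.mm (H.aa τ) σ.1 ρ.1 e - w)) = nhNu X w e τ := rfl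
  rw [eb, ev] at L
  refine le_trans (le_of_eq ?_) (L.trans (by linarith))
  rw [hsg, hbt]
  field_simp
  push_cast
  ring

theorem nh_abs_sum {φ φ' c : ℝ → ℝ} {C : ℝ} (hφ : PhiOK φ φ' c C) {κ : Fin 4 → ℝ}
    (hκ : ∀ i, 1 ≤ κ i) (hD : 1 ≤ H.D) (hN : H.D ≤ H.A0.card) {β γ2 τ : ℝ} (hβ : 0 ≤ β)
    (hγ21 : γ2 ≤ 1) (hγ : H.gam τ ≤ γ2) (A : Finset α) (r : α → ℝ) :
    H.nrm τ * ∑ e ∈ A, |H.u (H.aa τ) A e - 1|
      ≤ (3 + 2 * C) * γ2 * H.VV φ κ β γ2 τ A r + (3 + 2 * C) * γ2 := by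
  obtain ⟨v1, -, -, v4, -, -, -, v8, -, v0⟩ := H.VV_lower hφ hκ hD hN hβ hγ A r
  have hg := H.gam_pos hD τ
  have hc := H.cc_pos hD hN τ
  have hn := H.nrm_pos hD hN τ
  have hC := hφ.C1
  have hg1 : H.gam τ ≤ 1 := hγ.trans hγ21
  have e0 : H.nrm τ = H.cc τ * H.gam τ ^ 8 := by rw [H.gam_pow hD, H.cc_mul_aa hD]
  have h1 : ∑ e ∈ A, |H.u (H.aa τ) A e - 1| ≤ 2 * H.gam τ * A.card
      + H.M4 (H.aa τ) A r / H.gam τ ^ 3 + 2 * C / H.gam τ * ∑ e ∈ A, φ (r e) := by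
    have : ∀ e ∈ A, |H.u (H.aa τ) A e - 1| ≤ 2 * H.gam τ
        + H.mm (H.aa τ) A r e ^ 4 / H.gam τ ^ 3 + 2 * C / H.gam τ * φ (r e) := by
      intro e _
      have t1 := nh_abs_le hg (H.mm (H.aa τ) A r e)
      have t2 := hφ.abs_le hg (r e)
      have t3 := abs_add_le (H.mm (H.aa τ) A r e) (r e)
      have t4 : H.mm (H.aa τ) A r e + r e = H.u (H.aa τ) A e - 1 := by unfold HG.mm; ring
      rw [t4] at t3
      have t5 : C * (1 / H.gam τ + 1) ≤ 2 * C / H.gam τ := by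
        have : 1 ≤ 1 / H.gam τ := one_le_one_div hg hg1
        have e : 2 * C / H.gam τ = C * (1 / H.gam τ + 1 / H.gam τ) := by ring
        rw [e]
        exact mul_le_mul_of_nonneg_left (by linarith) (by linarith)
      have t6 := mul_le_mul_of_nonneg_right t5 (hφ.nonneg (r e))
      linarith
    refine (Finset.sum_le_sum this).trans (le_of_eq ?_)
    unfold HG.M4
    rw [Finset.sum_add_distrib, Finset.sum_add_distrib, Finset.sum_div, Finset.mul_sum,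
      Finset.sum_const, nsmul_eq_mul]
    ring
  have h2 := mul_le_mul_of_nonneg_left h1 hn.le
  set V := H.VV φ κ β γ2 τ A r
  set g := H.gam τ
  have e1 : H.nrm τ * (2 * g * A.card + H.M4 (H.aa τ) A r / g ^ 3 + 2 * C / g * ∑ e ∈ A, φ (r e))
      = 2 * g * (H.nrm τ * A.card) + g ^ 12 * (H.cc τ / g ^ 7 * H.M4 (H.aa τ) A r)
        + 2 * C * (g ^ 7 * (H.cc τ * ∑ e ∈ A, φ (r e))) := by
    rw [e0]; field_simp
  rw [e1] at h2
  have p12 : g ^ 12 ≤ γ2 := (pow_le_of_le_one hg.le hg1 (by norm_num)).trans hγ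
  have p7 : g ^ 7 ≤ γ2 := (pow_le_of_le_one hg.le hg1 (by norm_num)).trans hγ
  have hγ2 : 0 < γ2 := hg.trans_le hγ
  have q1 : 2 * g * (H.nrm τ * A.card) ≤ 2 * γ2 * (1 + V) :=
    mul_le_mul (by linarith) v8 (by positivity) (by positivity)
  have q2 : g ^ 12 * (H.cc τ / g ^ 7 * H.M4 (H.aa τ) A r) ≤ γ2 * V :=
    mul_le_mul p12 v4 (mul_nonneg (by positivity) (H.M4_nonneg _ _ _)) hγ2.le
  have q3 : g ^ 7 * (H.cc τ * ∑ e ∈ A, φ (r e)) ≤ γ2 * V :=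
    mul_le_mul p7 v1 (mul_nonneg hc.le (Finset.sum_nonneg fun _ _ => hφ.nonneg _)) hγ2.le
  have q4 := mul_le_mul_of_nonneg_left q3 (by linarith : (0 : ℝ) ≤ 2 * C)
  have q5 : 0 ≤ C * γ2 := by positivity
  linarith

theorem nh_final {φ φ' c : ℝ → ℝ} {C : ℝ} (hφ : PhiOK φ φ' c C) (hD : 1 ≤ H.D)
    (X : H.XE H' δ M2 A1 t0 t1 r1) (w : ℝ) (e : α) {τ g : ℝ} (hτ : τ ∈ Set.Icc t0 t1)
    (hg : 0 < g) (hb : 0 < pE X {e} τ) :
    pE X {e} τ * φ (WW (H.tri A1) (pE X) e τ / (1 / H.aa τ * pE X {e} τ) - 1)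
      ≤ 9 * C * (3 * C * X.E τ (fun σ ρ => ind {e} σ.1 * φ (ρ.1 e)) + (g + w ^ 4 / g)
        + 3 * (Real.sqrt (pE X {e} τ ^ 2 + nhNu X w e τ ^ 2) - pE X {e} τ)) := by
  have hφc := hφ.continuous
  have hC := hφ.C1
  have ha := H.aa_pos hD τ
  have hb1 : pE X {e} τ ≤ 1 := X.le_const hτ (Cts.of_state _) fun σ _ _ => nh_ind_le_one _ _
  set ρ0 := X.E τ (fun σ ρ => ind {e} σ.1 * ρ.1 e) with hρ0
  have c1 : Cts (fun (σ : Finset α × Finset α) (ρ : (α → ℝ) × (α → ℝ)) =>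
    ind {e} σ.1 * ρ.1 e) := fun σ => by fun_prop
  have c2 : Cts (fun (σ : Finset α × Finset α) (ρ : (α → ℝ) × (α → ℝ)) =>
    ind {e} σ.1 * (H.mm (H.aa τ) σ.1 ρ.1 e - w)) := fun σ => by unfold HG.mm; fun_prop
  have c3 : Cts (fun (σ : Finset α × Finset α) (_ : (α → ℝ) × (α → ℝ)) => ind {e} σ.1) :=
    Cts.of_state _
  have c4 : Cts (fun (σ : Finset α × Finset α) (ρ : (α → ℝ) × (α → ℝ)) =>
    ind {e} σ.1 * φ (ρ.1 e)) := fun σ => by fun_prop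
  have h1 : H.aa τ * WW (H.tri A1) (pE X) e τ - pE X {e} τ
      = ρ0 + w * pE X {e} τ + nhNu X w e τ := by
    rw [← nh_E_u X hτ, hρ0]
    unfold pE nhNu
    rw [← X.smul τ hτ w _ c3, ← X.add τ hτ _ _ c1 (c3.cmul w),
      ← X.add τ hτ _ _ (c1.add (c3.cmul w)) c2]
    congr 1
    funext σ ρ
    unfold HG.mm
    ring
  have h2 : Real.sqrt (pE X {e} τ ^ 2 + ρ0 ^ 2) - pE X {e} τ
      ≤ C * X.E τ (fun σ ρ => ind {e} σ.1 * φ (ρ.1 e)) := by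
    have L := nh_lin X hτ c1 c3 c4 c4 (Cts.const 0)
      (ρ0 / Real.sqrt (pE X {e} τ ^ 2 + ρ0 ^ 2))
      (pE X {e} τ / Real.sqrt (pE X {e} τ ^ 2 + ρ0 ^ 2) - 1) C 0 (fun σ ρ _ => by
        have := mul_le_mul_of_nonneg_left (nh_tangent hφ hb ρ0 (ρ.1 e)) (nh_ind_nonneg {e} σ.1)
        linarith)
    have eb : X.E τ (fun σ _ => ind {e} σ.1) = pE X {e} τ := rfl
    rw [X.const τ hτ, eb, ← hρ0] at L
    refine le_trans (le_of_eq ?_) (L.trans (by linarith))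
    have hs0 : 0 < Real.sqrt (pE X {e} τ ^ 2 + ρ0 ^ 2) := Real.sqrt_pos.2 (by positivity)
    have hs2 : Real.sqrt (pE X {e} τ ^ 2 + ρ0 ^ 2) ^ 2 = pE X {e} τ ^ 2 + ρ0 ^ 2 :=
      Real.sq_sqrt (by positivity)
    field_simp
    linarith
  set b := pE X {e} τ with hbd
  set v := nhNu X w e τ with hvd
  have h3 : WW (H.tri A1) (pE X) e τ / (1 / H.aa τ * b) - 1 = ρ0 / b + w + v / b := by
    field_simp
    linarith
  rw [h3]
  have h4 := (nh_phi_le_min hφ (ρ0 / b + w + v / b)).trans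
    (mul_le_mul_of_nonneg_left (nh_min_three (ρ0 / b) w (v / b)) (by linarith))
  have h5 := mul_le_mul_of_nonneg_left (min_le_psi (ρ0 / b)) hb.le
  have h6 := mul_le_mul_of_nonneg_left (min_le_psi (v / b)) hb.le
  have h7 := nh_mul_psi hb ρ0
  have h8 := nh_mul_psi hb v
  have h9 : b * min (w ^ 2) |w| ≤ g + w ^ 4 / g := by
    have t1 := nh_amgm hg 1 (w ^ 2)
    have t2 := mul_le_mul_of_nonneg_right hb1 (nh_min_nonneg w)
    have t3 := min_le_left (w ^ 2) |w|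
    have e2 : (w ^ 2) ^ 2 = w ^ 4 := by ring
    rw [e2] at t1
    linarith
  have h10 : b * (min ((ρ0 / b) ^ 2) |ρ0 / b| + min (w ^ 2) |w| + min ((v / b) ^ 2) |v / b|)
      ≤ 3 * C * X.E τ (fun σ ρ => ind {e} σ.1 * φ (ρ.1 e)) + (g + w ^ 4 / g)
        + 3 * (Real.sqrt (b ^ 2 + v ^ 2) - b) := by linarith
  have h11 := mul_le_mul_of_nonneg_left h4 hb.le
  have h12 := mul_le_mul_of_nonneg_left h10 (by linarith : (0 : ℝ) ≤ 9 * C)
  linarith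

end nh

theorem mass_low {φ φ' c : ℝ → ℝ} {C : ℝ} (hφ : PhiOK φ φ' c C) :
    ∃ K : ℝ, 0 < K ∧ ∀ {α : Type} [DecidableEq α] [Fintype α] (H : HG α) (H' : Finset (Finset α))
      (δ M2 : ℝ) (A1 : Finset α) (t0 t1 : ℝ) (r1 : (α → ℝ) × (α → ℝ))
      (X : H.XE H' δ M2 A1 t0 t1 r1) (κ : Fin 4 → ℝ) (β γ2 τ Vb : ℝ),
      (∀ i, 1 ≤ κ i) → 1 ≤ H.D → H.D ≤ H.A0.card → 0 ≤ β → γ2 ≤ 1 → H.gam τ ≤ γ2 →
      τ ∈ Set.Icc t0 t1 → EV X φ κ β γ2 τ ≤ Vb →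
      |H.nrm τ * massB A1 (pE X) τ - 1| ≤ Vb ∧
      lowF (H.tri A1) A1 (pE X) (1 / H.aa τ) τ ≤ K * γ2 * (1 + Vb) / H.nrm τ := by
  have hC := hφ.C1
  refine ⟨5 * (3 + 2 * C), by positivity, ?_⟩
  intro α _ _ H H' δ M2 A1 t0 t1 r1 X κ β γ2 τ Vb hκ hD hN hβ hγ21 hγ hτ hV
  classical
  have hg := H.gam_pos hD τ
  have hγ2 : 0 < γ2 := hg.trans_le hγ
  have hn := H.nrm_pos hD hN τ
  have ha := H.aa_pos hD τ
  have cV := (H.smF_VV hφ hD κ hβ hγ2).cts τ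
  unfold EV at hV
  constructor
  · rw [← E_card X hτ, abs_le]
    constructor
    · have := nh_aff X hτ (Cts.of_state (fun σ : Finset α × Finset α => (σ.1.card : ℝ))) cV
        (-H.nrm τ) 1 (-1) (fun σ ρ _ => by
          have h1 := (H.VV_lower hφ hκ hD hN hβ hγ σ.1 ρ.1).2.2.2.2.2.2.1
          have h2 := (neg_le_abs _).trans (H.abs_le_Vabs γ2 τ σ.1)
          linarith)
      linarith
    · have := nh_aff X hτ (Cts.of_state (fun σ : Finset α × Finset α => (σ.1.card : ℝ))) cV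
        (H.nrm τ) 1 1 (fun σ ρ _ => by
          have h1 := (H.VV_lower hφ hκ hD hN hβ hγ σ.1 ρ.1).2.2.2.2.2.2.1
          have h2 := (le_abs_self _).trans (H.abs_le_Vabs γ2 τ σ.1)
          linarith)
      linarith
  · rw [le_div_iff₀ hn]
    have h0 : ∀ e, 0 ≤ X.E τ (fun σ _ => ind {e} σ.1 * |H.u (H.aa τ) σ.1 e - 1|) := fun e =>
      X.nonneg hτ (Cts.of_state _) fun σ _ _ => mul_nonneg (nh_ind_nonneg _ _) (abs_nonneg _)
    have h1 : lowF (H.tri A1) A1 (pE X) (1 / H.aa τ) τ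
        ≤ ∑ e ∈ A1, 5 * X.E τ (fun σ _ => ind {e} σ.1 * |H.u (H.aa τ) σ.1 e - 1|) := by
      unfold lowF
      refine le_trans (Finset.sum_le_sum fun e he => ?_)
        (Finset.sum_le_sum_of_subset_of_nonneg (filter_subset _ A1) fun e _ _ => by
          have := h0 e
          positivity)
      have hl := (mem_filter.1 he).2
      have hl2 : H.aa τ * WW (H.tri A1) (pE X) e τ < 4 / 5 * pE X {e} τ := by
        have := mul_lt_mul_of_pos_left hl ha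
        have e1 : H.aa τ * (4 / 5 * (1 / H.aa τ) * pE X {e} τ) = 4 / 5 * pE X {e} τ := by
          field_simp
        rwa [e1] at this
      have h3 := nh_aff X hτ
        (Cts.of_state (fun σ : Finset α × Finset α => ind {e} σ.1 * (H.u (H.aa τ) σ.1 e - 1)))
        (Cts.of_state (fun σ : Finset α × Finset α => ind {e} σ.1 * |H.u (H.aa τ) σ.1 e - 1|))
        (-1) 1 0 (fun σ ρ _ => by
          have := mul_le_mul_of_nonneg_left (neg_le_abs (H.u (H.aa τ) σ.1 e - 1))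
            (nh_ind_nonneg {e} σ.1)
          linarith)
      rw [nh_E_u X hτ] at h3
      linarith
    rw [← Finset.mul_sum, ← X.sum hτ A1 (fun e _ => Cts.of_state _)] at h1
    have h2 := nh_aff X hτ (Cts.of_state (fun σ : Finset α × Finset α =>
        ∑ e ∈ A1, ind {e} σ.1 * |H.u (H.aa τ) σ.1 e - 1|)) cV (H.nrm τ) ((3 + 2 * C) * γ2)
        ((3 + 2 * C) * γ2) (fun σ ρ hσ => by
          rw [nh_sum_ind hσ.1]
          exact nh_abs_sum hφ hκ hD hN hβ hγ21 hγ σ.1 ρ.1)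
    have h3 := mul_le_mul_of_nonneg_left hV (by positivity : 0 ≤ (3 + 2 * C) * γ2)
    have h4 := mul_le_mul_of_nonneg_left h1 hn.le
    linarith

theorem phiHat_le {φ φ' c : ℝ → ℝ} {C : ℝ} (hφ : PhiOK φ φ' c C) :
    ∃ K : ℝ, 0 < K ∧ ∀ {α : Type} [DecidableEq α] [Fintype α] (H : HG α) (H' : Finset (Finset α))
      (δ M2 : ℝ) (A1 : Finset α) (t0 t1 : ℝ) (r1 : (α → ℝ) × (α → ℝ))
      (X : H.XE H' δ M2 A1 t0 t1 r1) (κ : Fin 4 → ℝ) (β γ2 τ2 Vb : ℝ),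
      (∀ i, 1 ≤ κ i) → 1 ≤ H.D → H.D ≤ H.A0.card → 0 ≤ β → γ2 ≤ 1 → H.gam τ2 = γ2 →
      H.gam t0 ≤ γ2 ^ 3 → τ2 ∈ Set.Icc t0 t1 →
      (∀ τ ∈ Set.Icc t0 τ2, EV X φ κ β γ2 τ ≤ Vb) →
      (∀ τ ∈ Set.Icc t0 τ2, ∀ e ∈ A1, 0 < pE X {e} τ) →
      H.cc τ2 * phiHat φ (H.tri A1) A1 (pE X) (1 / H.aa τ2) τ2 ≤ K * Vb := by
  have hC := hφ.C1
  refine ⟨9 * C * (3 * C + 2 + 3 * (150000000 * C + 8)), by positivity, ?_⟩
  intro α _ _ H H' δ M2 A1 t0 t1 r1 X κ β γ2 τ2 Vb hκ hD hN hβ hγ21 hγ hγ0 hτ2 hV hb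
  have hγ2 : 0 < γ2 := hγ ▸ H.gam_pos hD τ2
  have hg1 := H.gam_pos hD t0
  have hsub : Set.Icc t0 τ2 ⊆ Set.Icc t0 t1 := Set.Icc_subset_Icc le_rfl hτ2.2
  have hgle : ∀ τ ∈ Set.Icc t0 τ2, H.gam τ ≤ γ2 := fun τ hτ => hγ ▸ H.gam_mono hτ.2
  have ht0 : t0 ∈ Set.Icc t0 τ2 := ⟨le_rfl, hτ2.1⟩
  have hτ2' : τ2 ∈ Set.Icc t0 τ2 := ⟨hτ2.1, le_rfl⟩
  have cV := fun τ => (H.smF_VV hφ hD κ hβ hγ2).cts τ
  have hφc := hφ.continuous
  have hV0 : H.VV φ κ β γ2 t0 A1 r1.1 ≤ Vb := by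
    have := hV t0 ht0
    unfold EV at this
    rwa [X.init _ (cV t0)] at this
  obtain ⟨-, -, -, w4, -, w6, -, -, -, w0⟩ := H.VV_lower hφ hκ hD hN hβ (hgle t0 ht0) A1 r1.1
  have hVb : 0 ≤ Vb := w0.trans hV0
  set m1 : α → ℝ := fun e => H.mm (H.aa t0) A1 r1.1 e with hm1
  have hM : ∀ τ, t0 ≤ τ → ∀ g, H.gam t0 ≤ g → ∀ A ⊆ A1,
      H.cc τ * ∑ e ∈ A, m1 e ^ 4 / g ^ 7 ≤ Vb := by
    intro τ hτ g hg A hA
    have s1 : ∑ e ∈ A, m1 e ^ 4 / g ^ 7 ≤ ∑ e ∈ A1, m1 e ^ 4 / H.gam t0 ^ 7 := by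
      refine le_trans (Finset.sum_le_sum fun e _ => ?_)
        (Finset.sum_le_sum_of_subset_of_nonneg hA fun e _ _ => by positivity)
      exact div_le_div_of_nonneg_left (by positivity) (by positivity)
        (pow_le_pow_left₀ hg1.le hg 7)
    have hgp : 0 < g := hg1.trans_le hg
    have s2 := mul_le_mul (nh_cc_anti H hτ) s1 (Finset.sum_nonneg fun e _ => by positivity)
      (H.cc_pos hD hN t0).le
    have s3 : H.cc t0 * ∑ e ∈ A1, m1 e ^ 4 / H.gam t0 ^ 7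
        = H.cc t0 / H.gam t0 ^ 7 * H.M4 (H.aa t0) A1 r1.1 := by
      unfold HG.M4
      rw [← Finset.sum_div]; ring
    linarith
  set L := (150000000 * C + 8) * Vb with hL
  have hL0 : 0 ≤ L := by positivity
  have cQ : ∀ τ e, Cts (fun (σ : Finset α × Finset α) (ρ : (α → ℝ) × (α → ℝ)) =>
      ind {e} σ.1 * (50000000 * C * nhP φ (H.gam τ) (H.u (H.aa τ) σ.1 e)
        (ρ.1 e) + 8 * (m1 e ^ 4 / H.gam τ ^ 7))) := fun τ e σ => by unfold nhP; fun_prop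
  have hder : ∀ τ ∈ Set.Ico t0 τ2, ∃ f' : ℝ, HasDerivWithinAt (fun τ => ∑ e ∈ A1,
      (Real.sqrt (pE X {e} τ ^ 2 + nhNu X (m1 e) e τ ^ 2) - pE X {e} τ)) f' (Set.Ici τ) τ ∧
      f' ≤ L / H.cc τ := by
    intro τ hτ
    have hτ' := Set.Ico_subset_Icc_self hτ
    have := fun e (he : e ∈ A1) => nh_n_der hφ hD X (m1 e) e
      (⟨hτ.1, lt_of_lt_of_le hτ.2 hτ2.2⟩ : τ ∈ Set.Ico t0 t1) ((hgle τ hτ').trans hγ21)
      (hb τ hτ' e he)
    choose! n' hn1 hn2 using this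
    refine ⟨∑ e ∈ A1, n' e, HasDerivWithinAt.fun_sum hn1, (Finset.sum_le_sum hn2).trans ?_⟩
    rw [← X.sum (hsub hτ') A1 (fun e _ => cQ τ e), le_div_iff₀ (H.cc_pos hD hN τ)]
    have h2 := nh_aff X (hsub hτ') (Cts.sum A1 (fun e _ => cQ τ e)) (cV τ) (H.cc τ)
      (150000000 * C) (8 * Vb) (fun σ ρ hσ => by
        rw [nh_sum_ind hσ.1, Finset.sum_add_distrib, ← Finset.mul_sum, ← Finset.mul_sum]
        have t1 := nh_sumP hφ hκ hD hN hβ (hgle τ hτ') σ.1 ρ.1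
        have t2 := hM τ hτ.1 _ (H.gam_mono hτ.1) σ.1 hσ.1
        have t3 := mul_le_mul_of_nonneg_left t1 (by positivity : 0 ≤ 50000000 * C)
        linarith)
    have h3 := hV τ hτ'
    unfold EV at h3
    have h4 := mul_le_mul_of_nonneg_left h3 (by positivity : 0 ≤ 150000000 * C)
    linarith
  choose! f' hf1 hf2 using hder
  have hB : ∀ τ, HasDerivAt (fun τ => L / H.cc τ) (L / H.cc τ) τ := by
    intro τ
    have hc := H.cc_pos hD hN τ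
    have := (hasDerivAt_const τ L).fun_div (H.hasDerivAt_cc τ) hc.ne'
    refine HasDerivAt.congr_deriv this ?_
    field_simp
    ring
  have hcont : ContinuousOn (fun τ => ∑ e ∈ A1,
      (Real.sqrt (pE X {e} τ ^ 2 + nhNu X (m1 e) e τ ^ 2) - pE X {e} τ)) (Set.Icc t0 τ2) := by
    refine continuousOn_finsetSum _ fun e _ => ?_
    have b1 := (nh_b_cont X e).mono hsub
    have b2 := (nh_nu_cont X (m1 e) e).mono hsub
    exact ((b1.pow 2).add (b2.pow 2)).sqrt.sub b1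
  have hinit : ∑ e ∈ A1, (Real.sqrt (pE X {e} t0 ^ 2 + nhNu X (m1 e) e t0 ^ 2) - pE X {e} t0)
      ≤ L / H.cc t0 := by
    have : ∀ e ∈ A1, Real.sqrt (pE X {e} t0 ^ 2 + nhNu X (m1 e) e t0 ^ 2) - pE X {e} t0 = 0 := by
      intro e he
      have z : nhNu X (m1 e) e t0 = 0 := by
        unfold nhNu
        rw [X.init _ (fun σ => by unfold HG.mm; fun_prop)]
        simp [hm1]
      rw [z]
      simp [Real.sqrt_sq (hb t0 ht0 e he).le]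
    rw [Finset.sum_congr rfl this, Finset.sum_const_zero]
    have := H.cc_pos hD hN t0
    positivity
  have key := image_le_of_deriv_right_le_deriv_boundary hcont hf1 (B := fun τ => L / H.cc τ)
    (B' := fun τ => L / H.cc τ) hinit (fun τ _ => (hB τ).continuousAt.continuousWithinAt)
    (fun τ _ => (hB τ).hasDerivWithinAt) hf2 hτ2'
  have hc2 := H.cc_pos hD hN τ2
  beta_reduce at key
  rw [le_div_iff₀ hc2] at key
  have f1 := Finset.sum_le_sum fun e (he : e ∈ A1) =>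
    nh_final hφ hD X (m1 e) e (g := H.gam t0 ^ 7) hτ2 (by positivity) (hb τ2 hτ2' e he)
  have cφ : ∀ e, Cts (fun (σ : Finset α × Finset α) (ρ : (α → ℝ) × (α → ℝ)) =>
    ind {e} σ.1 * φ (ρ.1 e)) := fun e σ => by fun_prop
  rw [← Finset.mul_sum, Finset.sum_add_distrib, Finset.sum_add_distrib, Finset.sum_add_distrib,
    ← Finset.mul_sum, ← Finset.mul_sum, ← X.sum hτ2 A1 (fun e _ => cφ e), Finset.sum_const,
    nsmul_eq_mul] at f1
  have f2 := nh_aff X hτ2 (Cts.sum A1 (fun e _ => cφ e)) (cV τ2) (H.cc τ2) 1 0 (fun σ ρ hσ => by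
    rw [nh_sum_ind hσ.1]
    have := (H.VV_lower hφ hκ hD hN hβ hγ.le σ.1 ρ.1).1
    linarith)
  have f3 := hV τ2 hτ2'
  unfold EV at f3
  have f4 := hM τ2 hτ2.1 _ le_rfl A1 (Finset.Subset.refl _)
  have f5 : H.cc τ2 * (A1.card * H.gam t0 ^ 7) ≤ Vb := by
    have e0 : H.nrm t0 = H.cc t0 * H.gam t0 ^ 8 := by rw [H.gam_pow hD, H.cc_mul_aa hD]
    have e1 := nh_cc_gam H t0 τ2
    rw [hγ] at e1
    have e2 : H.cc τ2 * (A1.card * H.gam t0 ^ 7)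
        = H.gam t0 ^ 3 / γ2 ^ 5 * (γ2 * (H.nrm t0 * A1.card)) := by
      have : H.cc τ2 = H.cc t0 * H.gam t0 ^ 4 / γ2 ^ 4 := by rw [← e1]; field_simp
      rw [e0, this]; field_simp
    have e3 : H.gam t0 ^ 3 / γ2 ^ 5 ≤ 1 := by
      rw [div_le_one (by positivity)]
      refine (pow_le_pow_left₀ hg1.le hγ0 3).trans ?_
      rw [← pow_mul]
      exact pow_le_pow_of_le_one hγ2.le hγ21 (by norm_num)
    have hn := H.nrm_pos hD hN t0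
    have e4 := mul_le_mul_of_nonneg_right e3
      (by positivity : 0 ≤ γ2 * (H.nrm t0 * (A1.card : ℝ)))
    rw [e2]
    linarith
  unfold phiHat
  have f6 := mul_le_mul_of_nonneg_left f1 hc2.le
  refine f6.trans ?_
  rw [mul_left_comm, mul_assoc (9 * C)]
  refine mul_le_mul_of_nonneg_left ?_ (by positivity)
  have f7 := mul_le_mul_of_nonneg_left (f2.trans (by linarith : _ ≤ Vb))
    (by positivity : 0 ≤ 3 * C)
  linarith

end Vale.Agent.P046
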