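import Vale.Agent.P046.Defs2

open Finset

namespace Vale.Agent.P046

theorem exists_exp_le (a : ℝ) {b θ : ℝ} (hb : 0 < b) (hθ : 0 < θ) :
    ∃ n : ℕ, ∀ x : ℝ, (n : ℝ) ≤ x → a * Real.exp (-(x * b)) ≤ θ := by
  obtain ⟨n, hn⟩ := exists_nat_ge (|a| / (θ * b))
  refine ⟨n, fun x hx => ?_⟩
  have h1 : |a| ≤ θ * (x * b) := by
    have := hn.trans hx
    rw [div_le_iff₀ (by positivity)] at this
    nlinarith
  have h2 := Real.add_one_le_exp (x * b)
  have h3 := Real.exp_pos (x * b)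
  rw [Real.exp_neg, ← div_eq_mul_inv, div_le_iff₀ h3]
  nlinarith [le_abs_self a]

theorem ref_close {M' E : ℝ} (hM : 1 ≤ M') (hE0 : 0 ≤ E) (hE : E ≤ 1 / 2) :
    |Real.sqrt M' / Real.sqrt (1 + 2 * M' * (1 - E)) - 1 / Real.sqrt 2| ≤ 2 * E + 1 / M' ∧
      Real.sqrt M' / Real.sqrt (1 + 2 * M' * (1 - E)) ≤ 1 := by
  have hd : M' ≤ 1 + 2 * M' * (1 - E) := by nlinarith
  have hd0 : 0 < 1 + 2 * M' * (1 - E) := by linarith
  set x := M' / (1 + 2 * M' * (1 - E)) with hx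
  have e1 : Real.sqrt M' / Real.sqrt (1 + 2 * M' * (1 - E)) = Real.sqrt x := by
    rw [hx, Real.sqrt_div (by linarith)]
  have e2 : 1 / Real.sqrt 2 = Real.sqrt (1 / 2) := by
    rw [Real.sqrt_div (by norm_num), Real.sqrt_one]
  have hx0 : 0 ≤ x := by positivity
  have hx1 : x ≤ 1 := by rw [hx, div_le_one hd0]; exact hd
  rw [e1, e2]
  refine ⟨?_, Real.sqrt_le_one.2 hx1⟩
  have h1 : |x - 1 / 2| ≤ E + 1 / (2 * M') := by
    have : x - 1 / 2 = (2 * M' * E - 1) / (2 * (1 + 2 * M' * (1 - E))) := by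
      have hne : 1 + 2 * M' * (1 - E) ≠ 0 := hd0.ne'
      rw [hx, eq_div_iff (by positivity), sub_mul, mul_comm 2 (1 + 2 * M' * (1 - E)), ← mul_assoc,
        div_mul_cancel₀ _ hne]
      ring
    rw [this, abs_div, abs_of_pos (by linarith : 0 < 2 * (1 + 2 * M' * (1 - E))),
      div_le_iff₀ (by linarith)]
    have h2 : |2 * M' * E - 1| ≤ 2 * M' * E + 1 := by
      rw [abs_le]; constructor <;> nlinarith
    have h3 : (E + 1 / (2 * M')) * (2 * M') = 2 * M' * E + 1 := by field_simp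
    have h4 : 0 ≤ E + 1 / (2 * M') := by positivity
    nlinarith
  have hs : 1 / 2 ≤ Real.sqrt (1 / 2) := Real.le_sqrt_of_sq_le (by norm_num)
  have h5 : (Real.sqrt x - Real.sqrt (1 / 2)) * (Real.sqrt x + Real.sqrt (1 / 2)) = x - 1 / 2 := by
    have a1 := Real.mul_self_sqrt hx0
    have a2 := Real.mul_self_sqrt (by norm_num : (0 : ℝ) ≤ 1 / 2)
    nlinarith
  have h6 : |Real.sqrt x - Real.sqrt (1 / 2)| * (Real.sqrt x + Real.sqrt (1 / 2)) = |x - 1 / 2| := by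
    rw [← h5, abs_mul, abs_of_nonneg (by positivity : 0 ≤ Real.sqrt x + Real.sqrt (1 / 2))]
  have h7 : 1 / (2 * M') * 2 = 1 / M' := by field_simp
  nlinarith [abs_nonneg (Real.sqrt x - Real.sqrt (1 / 2)), Real.sqrt_nonneg x]

theorem sqrt_var_le {ε c a s : ℝ} (hε : 0 ≤ ε) (hc : 0 ≤ c) (ha : 0 ≤ a) (hs : 0 < s) :
    Real.sqrt (ε ^ 2 * a ^ 2 + c * a) ≤ ε * a + s * a + c / s := by
  apply Real.sqrt_le_iff.2 ⟨by positivity, ?_⟩
  have h1 : s * a * (c / s) = c * a := by field_simp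
  have h2 : 0 ≤ ε * a := by positivity
  have h3 : 0 ≤ s * a := by positivity
  have h4 : 0 ≤ c / s := by positivity
  nlinarith [mul_nonneg h2 h3, mul_nonneg h2 h4]

section scal
variable {α : Type} [DecidableEq α] [Fintype α] (H : HG α)

theorem inv_nrm_eq (hD : 1 ≤ H.D) (hN : H.D ≤ H.A0.card) {M τ : ℝ} (hM : 0 < M)
    (h : H.aa τ = 1 / M) : H.nrm τ * (H.NN / Real.sqrt H.D * Real.sqrt M) = 1 := by
  have hD' : (0 : ℝ) < H.D := by exact_mod_cast hD
  have hN' := H.NN_pos hD hN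
  have h1 : Real.exp τ * Real.sqrt M = Real.sqrt H.D := by
    symm
    rw [Real.sqrt_eq_iff_mul_self_eq hD'.le (by positivity)]
    unfold HG.aa at h
    have e : Real.exp (2 * τ) = Real.exp τ * Real.exp τ := by rw [← Real.exp_add]; ring_nf
    rw [e, div_eq_div_iff hD'.ne' hM.ne'] at h
    have := Real.mul_self_sqrt hM.le
    nlinarith
  have hs : 0 < Real.sqrt H.D := Real.sqrt_pos.2 hD'
  unfold HG.nrm
  field_simp
  linarith

theorem gam_eq_of (hD : 1 ≤ H.D) {γ τ : ℝ} (hγ : 0 < γ) (h : H.aa τ = γ ^ 8) : H.gam τ = γ := by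
  have := H.gam_pow hD τ
  rw [h] at this
  exact (pow_left_inj₀ (H.gam_pos hD τ).le hγ.le (by norm_num)).1 this

end scal

end Vale.Agent.P046
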