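import Vale.Agent.P046.GenW

open Finset

namespace Vale.Agent.P046

variable {φ φ' c : ℝ → ℝ} {C : ℝ} {κ : Fin 4 → ℝ} {K γ0 : ℝ}
  {α : Type} [DecidableEq α] [Fintype α] {H : HG α} {H' : Finset (Finset α)} {δ M2 : ℝ}

/-- Gronwall inequality for functionals of the first component. -/
theorem runAux_gron {A1 : Finset α} {t0 t1 : ℝ} {r1 : (α → ℝ) × (α → ℝ)}
    (X : H.XE H' δ M2 A1 t0 t1 r1) {V : ℝ → Finset α → (α → ℝ) → ℝ} (hV : SmF V) {G G' : ℝ → ℝ}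
    (hG : ContDiff ℝ 1 G) (hG' : ∀ τ, HasDerivAt G (G' τ) τ) {a b : ℝ} (ha : t0 ≤ a) (hab : a ≤ b)
    (hb : b ≤ t1) (h : ∀ τ ∈ Set.Ico a b, ∀ A ⊆ A1, ∀ r, H.genT V τ A r ≤ G' τ * V τ A r) :
    X.E b (fun σ r => V b σ.1 r.1) ≤ Real.exp (G b - G a) * X.E a (fun σ r => V a σ.1 r.1) := by
  have h1 := X.le_of_super (SmF.tmul hG.neg.exp hV).lift ha hab hb fun τ hτ s r hs => by
    rw [H.sys_gen_lift H' δ M2 (fun τ A r => Real.exp (-G τ) * V τ A r),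
      H.genT_tmul (hG' τ).fun_neg.exp hV]
    have := mul_le_mul_of_nonneg_left (h τ hτ s.1 hs.1 r.1) (Real.exp_pos (-G τ)).le
    linarith
  rw [X.smul b ⟨ha.trans hab, hb⟩ _ _ (hV.cts b), X.smul a ⟨ha, hab.trans hb⟩ _ _ (hV.cts a)] at h1
  have h2 := mul_le_mul_of_nonneg_left h1 (Real.exp_pos (G b)).le
  rw [← mul_assoc, ← mul_assoc, ← Real.exp_add, ← Real.exp_add, add_neg_cancel, Real.exp_zero,
    one_mul] at h2
  exact h2

/-- Propagation of the master functional. -/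
theorem run_V (hφ : PhiOK φ φ' c C) (hV : VOK φ κ K γ0) (hD : 1 ≤ H.D) (hN : H.D ≤ H.A0.card)
    {A1 : Finset α} (hA : A1 ⊆ H.A0) {t0 t1 : ℝ} {r1 : (α → ℝ) × (α → ℝ)}
    (X : H.XE H' δ M2 A1 t0 t1 r1) {β γ2 a b : ℝ} (hβ : 0 ≤ β) (hγ : 0 < γ2) (hγ0 : γ2 ≤ γ0)
    (ha : t0 ≤ a) (hab : a ≤ b) (hb : b ≤ t1) (hβa : β * Real.exp (-a / 4) ≤ 1)
    (hgb : H.gam b ≤ γ2) :
    EV X φ κ β γ2 b ≤ Real.exp (12 * K) * EV X φ κ β γ2 a := by
  have hS := H.smF_VV hφ hD κ hβ hγ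
  have h1 := runAux_gron X hS
    (G := fun τ => K * (-4 * (β * Real.exp (-τ / 4)) + 4 * H.gam τ + 4 * H.gam τ / γ2))
    (G' := fun τ => K * (H.gg β τ + H.gam τ / γ2))
    (contDiff_const.mul (((contDiff_const.mul (contDiff_const.mul
      (contDiff_id.neg.div_const 4).exp)).add (contDiff_const.mul H.contDiff_gam)).add
      ((contDiff_const.mul H.contDiff_gam).div_const γ2)))
    (fun τ => by
      have := ((((((hasDerivAt_id τ).neg.div_const 4).exp.const_mul β).const_mul (-4)).add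
        ((H.hasDerivAt_gam τ).const_mul 4)).add
        (((H.hasDerivAt_gam τ).const_mul 4).div_const γ2)).const_mul K
      refine HasDerivAt.congr_deriv this ?_
      simp only [HG.gg, Pi.neg_apply, id]
      ring) ha hab hb fun τ hτ A hA' r =>
    (hV.super H hD hN β γ2 τ hβ hγ hγ0 ((H.gam_mono hτ.2.le).trans hgb) A (hA'.trans hA) r).1
  refine h1.trans (mul_le_mul_of_nonneg_right (Real.exp_le_exp.2 ?_) ?_)
  · have h2 : 0 ≤ β * Real.exp (-b / 4) := by positivity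
    have h3 := H.gam_pos hD a
    have h4 : 0 ≤ 4 * H.gam a / γ2 := by positivity
    have h5 : 4 * H.gam b / γ2 ≤ 4 := by rw [div_le_iff₀ hγ]; linarith
    have h6 := hγ0.trans hV.g0le
    rw [← mul_sub, mul_comm 12]
    exact mul_le_mul_of_nonneg_left (by linarith) hV.Kpos.le
  · exact X.nonneg ⟨ha, hab.trans hb⟩ (hS.cts a) fun s r _ =>
      (H.VV_lower hφ hV.kap hD hN hβ ((H.gam_mono hab).trans hgb) s.1 r.1).2.2.2.2.2.2.2.2.2

omit [Fintype α] in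
theorem runAux_mm0 (hD : 1 ≤ H.D) {e : α} (he : e ∈ H.A0) : H.u (H.aa 0) H.A0 e = 1 := by
  have : (H.D : ℝ) ≠ 0 := by exact_mod_cast (by omega : H.D ≠ 0)
  unfold HG.u HG.aa
  rw [H.deg_A0 he]
  simp [this]

omit [Fintype α] in
theorem runAux_M40 (hD : 1 ≤ H.D) : H.M4 (H.aa 0) H.A0 0 = 0 :=
  sum_eq_zero fun e he => by simp [HG.mm, runAux_mm0 hD he]

theorem runAux_Vabs0 (hD : 1 ≤ H.D) (hN : H.D ≤ H.A0.card) {γ2 : ℝ} (hγ : 0 < γ2) :
    H.Vabs γ2 0 H.A0 = γ2 := by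
  have h1 : H.nrm 0 * (H.A0.card : ℝ) = 1 := by
    have := H.NN_pos hD hN
    unfold HG.nrm
    rw [Real.exp_zero]
    exact one_div_mul_cancel this.ne'
  unfold HG.Vabs
  rw [h1]
  simp [hγ.le]

theorem VV_init (hφ : PhiOK φ φ' c C) (hκ : ∀ i, 1 ≤ κ i) (hD : 1 ≤ H.D) (hN : H.D ≤ H.A0.card)
    {γ2 : ℝ} (hγ : 0 < γ2) (hγ1 : γ2 ≤ 1) (hg : H.gam 0 ≤ γ2) :
    H.VV φ κ 1 γ2 0 H.A0 0 ≤ 8 * κ 1 + 50 * κ 3 + 1 := by
  have hNN := H.NN_pos hD hN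
  have hD' : (0 : ℝ) < H.D := by exact_mod_cast hD
  have hg0 := H.gam_pos hD 0
  have h1 : ∑ e ∈ H.A0, φ ((0 : α → ℝ) e) = 0 := sum_eq_zero fun e _ => hφ.zero
  have h2 : H.Ups (H.aa 0) H.A0 0 = 0 := by
    refine sum_eq_zero fun e _ => ?_
    have : H.yy (H.aa 0) H.A0 0 e = 0 := by
      unfold HG.yy HG.nb
      rw [sum_eq_zero, mul_zero]
      intro T hT
      refine sum_eq_zero fun f hf => ?_
      simp [HG.mm, runAux_mm0 hD (H.tri_sub _ T (mem_thru.1 hT).1 (mem_of_mem_erase hf))]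
    rw [this]
    simp
  have h3 : H.cc 0 / H.gg 1 0 * H.om (H.aa 0) H.A0 ≤ 8 := by
    have k1 : H.om (H.aa 0) H.A0 ≤ H.aa 0 ^ 4 * (H.NN * (2 * H.D) ^ 3) := by
      refine mul_le_mul_of_nonneg_left (le_trans ?_ H.card_quad_le) (by positivity)
      exact_mod_cast card_filter_le _ _
    have k2 : H.cc 0 / H.gg 1 0 ≤ H.cc 0 :=
      div_le_self (H.cc_pos hD hN 0).le (by unfold HG.gg; simp [hg0.le])
    refine (mul_le_mul k2 k1 (H.om_nonneg _ _) (H.cc_pos hD hN 0).le).trans (le_of_eq ?_)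
    unfold HG.cc HG.aa
    simp only [neg_zero, mul_zero, Real.exp_zero]
    field_simp
    norm_num
  have h4 : H.nrm 0 * (H.A0.card : ℝ) = 1 := by
    unfold HG.nrm
    rw [Real.exp_zero]
    exact one_div_mul_cancel hNN.ne'
  have h5 : H.gam 0 * H.nrm 0 * H.UU (H.aa 0) H.A0 ≤ 2 := by
    have k1 : H.UU (H.aa 0) H.A0 = H.A0.card * Real.exp (1 / 4) := by
      unfold HG.UU
      rw [sum_congr rfl fun e he => by rw [runAux_mm0 hD he], sum_const, nsmul_eq_mul]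
    have k2 : Real.exp (1 / 4) ≤ 2 := by
      have := Real.exp_bound_div_one_sub_of_interval (x := 1 / 4) (by norm_num) (by norm_num)
      linarith
    rw [k1, mul_assoc, ← mul_assoc (H.nrm 0), h4, one_mul]
    nlinarith [Real.exp_pos (1 / 4)]
  unfold HG.VV
  rw [h1, h2, runAux_M40 hD, runAux_Vabs0 hD hN hγ, h4, mul_assoc (κ 1), mul_assoc (κ 3)]
  have k1 := mul_le_mul_of_nonneg_left h3 (zero_le_one.trans (hκ 1))
  have k3 := mul_le_mul_of_nonneg_left h5 (zero_le_one.trans (hκ 3))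
  have k4 : κ 3 * (2 * γ2 - H.gam 0) ≤ κ 3 * 2 :=
    mul_le_mul_of_nonneg_left (by linarith) (zero_le_one.trans (hκ 3))
  linarith

/-- The first run, from the full vertex set. -/
theorem run_one (hφ : PhiOK φ φ' c C) (hV : VOK φ κ K γ0) (hD : 1 ≤ H.D) (hN : H.D ≤ H.A0.card)
    {t1 : ℝ} (X : H.XE H' δ M2 H.A0 0 t1 (0, 0)) {γ2 τ : ℝ} (hγ : 0 < γ2) (hγ0 : γ2 ≤ γ0)
    (hτ : τ ∈ Set.Icc 0 t1) (hg : H.gam τ ≤ γ2) :
    EV X φ κ 1 γ2 τ ≤ Real.exp (12 * K) * (8 * κ 1 + 50 * κ 3 + 1) := by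
  refine (run_V hφ hV hD hN subset_rfl X zero_le_one hγ hγ0 le_rfl hτ.1 hτ.2 (by simp) hg).trans
    (mul_le_mul_of_nonneg_left ?_ (Real.exp_pos _).le)
  unfold EV
  rw [X.init _ ((H.smF_VV hφ hD κ zero_le_one hγ).cts 0)]
  exact VV_init hφ hV.kap hD hN hγ (hγ0.trans hV.g0le) ((H.gam_mono hτ.1).trans hg)

end Vale.Agent.P046
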