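import Vale.Agent.P046.Dyn
import Vale.Agent.P046.Val
import Vale.Agent.P046.Run
import Vale.Agent.P046.Factor
import Vale.Agent.P046.IIIb
import Vale.Agent.P046.Couple
import Vale.Agent.P046.NHat
import Vale.Agent.P046.P3Aux

open Finset

namespace Vale.Agent.P046

section core
variable {α : Type} [DecidableEq α] [Fintype α] {H : HG α} {δ M2 : ℝ} {A1 : Finset α}
  {r1 : (α → ℝ) × (α → ℝ)} {Δ : ℕ} {M τ1 t : ℝ}

/-- Uniform bound for the factorisation error. -/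
theorem err_unif (hM : 0 < M) (h1 : H.aa τ1 = 1 / M) (ht : 0 ≤ t)
    (X : H.XE (H.clean A1 Δ) δ M2 A1 τ1 (tau M τ1 t) r1) (Kd : ℕ) {L : ℝ} (hL : 0 ≤ L)
    (hLΔ : L ≤ Δ) {s : ℝ} (hs : s ∈ Set.Icc 0 t) :
    errF (H.tri A1) A1 (fun S s => pE X S (tau M τ1 s)) s ≤
      (Δ : ℝ) ^ 2 * (Real.exp (2 - Kd * Real.exp (-(24 * Δ * t))) * Real.exp (Δ * t))
          * (A1.card : ℝ) + (Δ : ℝ) ^ 2 * (H.nbad A1 Δ Kd : ℝ)
        + (18 * L ^ 2 * (768 * M ^ 2 * t *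
            Real.exp (-(Δ * Real.exp (-(48 * M * t))) / (16 * M)))
          + 42 * (128 * M ^ 2 * Real.exp (-L / (8 * M)))) * H.UU (1 / M) A1 := by
  have hF := fwd_pE hM h1 ht X
  have hF' := fwd_pE' hM h1 ht (H.clean_subset A1 Δ) X
  have hτ := tau_mem hM τ1 hs
  have hl' : LinHG (H.clean A1 Δ) := (H.tri_lin A1).mono (H.clean_subset A1 Δ)
  have hA' : ∀ T ∈ H.clean A1 Δ, T ⊆ A1 := fun T hT => H.tri_sub A1 T (H.clean_subset A1 Δ hT)
  have e1 := errF_transfer H A1 Δ hF hF' hs (fun v => X.E (tau M τ1 s) (fun σ _ => dis v σ))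
    (fun v => (E_dis_mem X hτ v).1) (fun v => (E_dis_mem X hτ v).2)
    (fun S => pE_sub_le X hτ S) hL
  have e2 := hF'.errF_le hl' hA' Kd (H.clean_deg_le A1 Δ) hs
  have e3 := couple_le hM h1 ht X hs
  have e4 := H.tail2_le A1 hM L
  have e5 := H.tail2_anti A1 hLΔ
  have e6 := mul_le_mul_of_nonneg_left e3 (by positivity : 0 ≤ 18 * L ^ 2)
  unfold HG.nbad
  linarith

/-- Concentration of the number of uncovered vertices. -/
theorem conc_unif (hM : 0 < M) (h1 : H.aa τ1 = 1 / M) (ht : 0 ≤ t)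
    (X : H.XE (H.clean A1 Δ) δ M2 A1 τ1 (tau M τ1 t) r1) (Kd : ℕ) {s0 : ℝ} (hs0 : 0 < s0) :
    X.E (tau M τ1 t) (fun σ _ => |(σ.1.card : ℝ) - massB A1 (pE X) (tau M τ1 t)|) ≤
      2 * (768 * M ^ 2 * t * Real.exp (-(Δ * Real.exp (-(48 * M * t))) / (16 * M)))
          * H.UU (1 / M) A1
        + (Real.exp ((1 - Kd * Real.exp (-(24 * Δ * t))) / 2) + s0) * (A1.card : ℝ)
        + (1 + 2 * (Δ : ℝ)) ^ (2 * Kd) / s0 := by
  have hs : t ∈ Set.Icc 0 t := ⟨ht, le_rfl⟩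
  have hF' := fwd_pE' hM h1 ht (H.clean_subset A1 Δ) X
  have hτ := tau_mem hM τ1 hs
  have hl' : LinHG (H.clean A1 Δ) := (H.tri_lin A1).mono (H.clean_subset A1 Δ)
  have hA' : ∀ T ∈ H.clean A1 Δ, T ⊆ A1 := fun T hT => H.tri_sub A1 T (H.clean_subset A1 Δ hT)
  have e1 := E_abs_le X hτ
  have e2 := hF'.var_le hl' hA' Kd (H.clean_deg_le A1 Δ) hs
  have e3 := couple_le hM h1 ht X hs
  have e4 := sqrt_var_le (ε := Real.exp ((1 - Kd * Real.exp (-(24 * Δ * t))) / 2))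
    (c := (1 + 2 * (Δ : ℝ)) ^ (2 * Kd)) (a := (A1.card : ℝ)) (Real.exp_pos _).le (by positivity)
    (by positivity) hs0
  have e5 : Real.exp ((1 - Kd * Real.exp (-(24 * Δ * t))) / 2) ^ 2
      = Real.exp (1 - Kd * Real.exp (-(24 * Δ * t))) := by
    rw [← Real.exp_nat_mul]; congr 1; push_cast; ring
  rw [e5] at e4
  have e6 := (Real.sqrt_le_sqrt e2).trans e4
  have e7 : Real.sqrt (∑ e ∈ A1, ∑ e' ∈ A1, pE' X {e, e'} (tau M τ1 t)
      - massB A1 (pE' X) (tau M τ1 t) ^ 2) ≤ _ := e6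
  linarith

/-- The value function is bounded through the expectation at a later time. -/
theorem Hv_le (hA : A1 ⊆ H.A0) {H' : Finset (Finset α)} {t0 t1 τ : ℝ}
    (X : H.XE H' δ M2 A1 t0 t1 r1) (hτ : τ ∈ Set.Icc t0 t1) (c : ℝ) :
    H.Hv (fun k => |(k : ℝ) - c|) A1 ≤
      X.E τ (fun σ _ => |(σ.1.card : ℝ) - massB A1 (pE X) τ|) + |massB A1 (pE X) τ - c|
        + ∑ e ∈ A1, WW (H.tri A1) (pE X) e τ := by
  have h1 := X.harmonic (fun σ => H.Hv (fun k => |(k : ℝ) - c|) σ.1) (fun σ hσ => by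
    rw [H.sys_sum_fst H' δ M2 (H.Hv fun k => |(k : ℝ) - c|) σ]
    exact H.Hv_harm _ σ.1 (hσ.1.trans hA)) hτ
  rw [← h1, ← E_tri X hτ, ← X.const τ hτ |massB A1 (pE X) τ - c|,
    ← X.add τ hτ _ _ (Cts.of_state _) (Cts.const _),
    ← X.add τ hτ _ _ ((Cts.of_state _).add (Cts.const _)) (Cts.of_state _)]
  refine X.mono τ hτ _ _ (Cts.of_state _)
    (((Cts.of_state _).add (Cts.const _)).add (Cts.of_state _)) fun σ r _ => ?_
  have h2 := H.Hv_range c σ.1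
  have h3 := abs_sub_le (σ.1.card : ℝ) (massB A1 (pE X) τ) c
  linarith

end core

set_option maxHeartbeats 1000000 in
theorem P3 {φ φ' c : ℝ → ℝ} {C : ℝ} (hφ : PhiOK φ φ' c C) {κ : Fin 4 → ℝ} {K γ0 : ℝ}
    (hV : VOK φ κ K γ0) {η : ℝ} (hη : 0 < η) :
    ∃ K3 : ℝ, 0 < K3 ∧ ∃ M0 : ℝ, 1 ≤ M0 ∧ ∀ M', M0 ≤ M' → ∃ M1, M' ≤ M1 ∧ ∀ M, M1 ≤ M →
      ∃ (Δ Kd : ℕ) (Kb : ℝ) (D0 : ℕ), 0 ≤ Kb ∧
      ∀ {α : Type} [DecidableEq α] [Fintype α] (H : HG α), D0 ≤ H.D → H.D ≤ H.A0.card →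
        ∀ τ1 γ2 β : ℝ, H.aa τ1 = 1 / M → 0 < γ2 → γ2 ^ 8 = 1 / M' → 0 ≤ β →
        β * Real.exp (-τ1 / 4) ≤ 1 → ∀ A1 ⊆ H.A0, ∀ r1 : α → ℝ,
          H.Hv (fun k => |(k : ℝ) - H.NN / Real.sqrt (2 * H.D)|) A1 ≤
            H.NN / Real.sqrt H.D * (η + K3 * H.VV φ κ β γ2 τ1 A1 r1)
              + Kb * (H.nbad A1 Δ Kd : ℝ) := by
  obtain ⟨η0, hη0, hη01, hη0η⟩ : ∃ η0 : ℝ, 0 < η0 ∧ η0 ≤ 1 ∧ 8 * η0 ≤ η :=
    ⟨min η 1 / 8, by positivity, by have := min_le_right η 1; linarith,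
      by have := min_le_left η 1; linarith⟩
  obtain ⟨n1, hn1⟩ := exists_exp_le 4 one_pos (by positivity : 0 < min η0 1)
  obtain ⟨t1, ht1def⟩ : ∃ x : ℝ, x = (n1 : ℝ) + 1 := ⟨_, rfl⟩
  have ht1 : 1 ≤ t1 := by have : (0 : ℝ) ≤ n1 := Nat.cast_nonneg _; linarith
  have hE4 : 4 * Real.exp (-t1) ≤ η0 := by
    have := hn1 t1 (by linarith)
    rw [mul_one] at this
    exact this.trans (min_le_left _ _)
  obtain ⟨KI, hKI, hIII⟩ := IIIb hφ hη0 hη01 ht1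
  obtain ⟨Kml, hKml, hml⟩ := mass_low hφ
  obtain ⟨Kph, hKph, hph⟩ := phiHat_le hφ
  obtain ⟨e12, he12⟩ : ∃ x, x = Real.exp (12 * K) := ⟨_, rfl⟩
  have he12p : 0 < e12 := he12 ▸ Real.exp_pos _
  have hγ0 := hV.g0pos
  refine ⟨4 + KI * (Kph * e12 + 4 + 24 * (Kml * (1 + e12)) + e12), by positivity,
    max 8 (max (1 / γ0 ^ 8) (1 / η0)), le_trans (by norm_num) (le_max_left _ _), ?_⟩
  intro M' hM'
  have hM8 : 8 ≤ M' := (le_max_left _ _).trans hM'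
  have hMγ : 1 / γ0 ^ 8 ≤ M' := ((le_max_left _ _).trans (le_max_right _ _)).trans hM'
  have hMη : 1 / η0 ≤ M' := ((le_max_right _ _).trans (le_max_right _ _)).trans hM'
  have hM'0 : 0 < M' := by linarith
  have hM'2 : M' ≤ M' ^ 2 := by nlinarith
  have hM'3 : M' ^ 2 ≤ M' ^ 3 := by nlinarith
  refine ⟨M' ^ 3, hM'2.trans hM'3, ?_⟩
  intro M hM
  have hM'M : M' ≤ M := (hM'2.trans hM'3).trans hM
  have hM0 : 0 < M := by linarith
  have hM1 : 1 ≤ M := by linarith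
  obtain ⟨s2, hs2def⟩ : ∃ x : ℝ, x = (M / M' - 1) / (2 * M) := ⟨_, rfl⟩
  have hs2e : 1 + 2 * M * s2 = M / M' := by rw [hs2def]; field_simp; ring
  have hs20 : 0 ≤ s2 := by
    rw [hs2def]
    have : 1 ≤ M / M' := by rw [le_div_iff₀ hM'0]; linarith
    exact div_nonneg (by linarith) (by positivity)
  obtain ⟨t, htdef⟩ : ∃ x : ℝ, x = s2 + t1 := ⟨_, rfl⟩
  have ht0 : 0 ≤ t := by linarith
  obtain ⟨P, hPdef⟩ : ∃ x : ℝ, x = KI * (Real.sqrt (1 + 2 * M') + 12) := ⟨_, rfl⟩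
  have hP : 0 < P := by rw [hPdef]; positivity
  obtain ⟨θ, hθdef⟩ : ∃ x : ℝ, x = η0 / P := ⟨_, rfl⟩
  have hθ : 0 < θ := by rw [hθdef]; positivity
  obtain ⟨nL, hnL⟩ := exists_exp_le (42 * (128 * M ^ 2) * M ^ 2) (b := 1 / (8 * M))
    (by positivity) (by positivity : 0 < θ / 3)
  obtain ⟨nΔ, hnΔ⟩ := exists_exp_le ((18 * (nL : ℝ) ^ 2 + 2) * (768 * M ^ 2 * t) * M ^ 2)
    (b := Real.exp (-(48 * M * t)) / (16 * M)) (by positivity)
    (by positivity : 0 < min (θ / 3) 1)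
  obtain ⟨Δ, hΔdef⟩ : ∃ x : ℕ, x = max nL nΔ := ⟨_, rfl⟩
  obtain ⟨nK1, hnK1⟩ := exists_exp_le ((Δ : ℝ) ^ 2 * Real.exp (Δ * t) * M * Real.exp 2)
    (b := Real.exp (-(24 * Δ * t))) (by positivity) (by positivity : 0 < θ / 3)
  obtain ⟨nK2, hnK2⟩ := exists_exp_le (M * Real.exp (1 / 2))
    (b := Real.exp (-(24 * Δ * t)) / 2) (by positivity) hη0
  obtain ⟨Kd, hKddef⟩ : ∃ x : ℕ, x = max nK1 nK2 := ⟨_, rfl⟩
  obtain ⟨D1, hD1⟩ := exists_nat_ge (((1 + 2 * (Δ : ℝ)) ^ (2 * Kd) / (η0 / M) / η0) ^ 2)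
  refine ⟨Δ, Kd, P * (Δ : ℝ) ^ 2, max D1 1, by positivity, ?_⟩
  intro α _ _ H hD0 hN τ1 γ2 β h1 hγ2 hγ8 hβ hβ1 A1 hA r1
  have hD : 1 ≤ H.D := (le_max_right _ _).trans hD0
  have hDr : (0 : ℝ) < H.D := by exact_mod_cast hD
  have hNN := H.NN_pos hD hN
  obtain ⟨S, hSdef⟩ : ∃ x : ℝ, x = H.NN / Real.sqrt H.D := ⟨_, rfl⟩
  have hsD : 0 < Real.sqrt H.D := Real.sqrt_pos.2 hDr
  have hS : 0 < S := by rw [hSdef]; positivity
  rw [← hSdef]
  -- the small parameters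
  have hγ20 : γ2 ≤ γ0 := by
    have : γ2 ^ 8 ≤ γ0 ^ 8 := by
      rw [hγ8, div_le_iff₀ hM'0]
      rw [div_le_iff₀ (by positivity)] at hMγ
      linarith
    exact (pow_le_pow_iff_left₀ hγ2.le hγ0.le (by norm_num)).1 this
  have hγ21 : γ2 ≤ 1 := hγ20.trans hV.g0le
  obtain ⟨γ1, hγ1def⟩ : ∃ x, x = H.gam τ1 := ⟨_, rfl⟩
  have hγ1 : 0 < γ1 := hγ1def ▸ H.gam_pos hD τ1
  have hγ18 : γ1 ^ 8 = 1 / M := by rw [hγ1def, H.gam_pow hD, h1]
  have hγ13 : γ1 ≤ γ2 ^ 3 := by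
    have : γ1 ^ 8 ≤ (γ2 ^ 3) ^ 8 := by
      rw [← pow_mul, mul_comm, pow_mul, hγ8, hγ18, div_pow, one_pow]
      exact one_div_le_one_div_of_le (by positivity) hM
    exact (pow_le_pow_iff_left₀ hγ1.le (by positivity) (by norm_num)).1 this
  have hγ12 : γ1 ≤ γ2 := hγ13.trans (pow_le_of_le_one hγ2.le hγ21 (by norm_num))
  have hγ11 : γ1 ≤ 1 := hγ12.trans hγ21
  obtain ⟨X⟩ := exists_ex (H.sys (H.clean A1 Δ) 0 0) (HG.InvS A1) τ1 (tau M τ1 t)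
    (tau_mem hM0 τ1 ⟨ht0, le_rfl⟩).1 (A1, A1) ((r1, 0) : (α → ℝ) × (α → ℝ))
    H.contDiff_aa.continuous H.aa_nonneg (H.sys_drift_cts _ 0 le_rfl) ⟨subset_rfl, subset_rfl⟩
    (H.sys_inv _ 0 0 A1)
  obtain ⟨V1, hV1def⟩ : ∃ x, x = H.VV φ κ β γ2 τ1 A1 r1 := ⟨_, rfl⟩
  obtain ⟨-, -, -, -, hU, -, -, hcard, hγV, hV0⟩ :=
    H.VV_lower hφ hV.kap hD hN hβ (τ := τ1) (hγ1def ▸ hγ12) A1 r1
  rw [← hV1def] at hU hcard hγV hV0 ⊢
  rw [← hγ1def] at hU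
  have hs2t : s2 ∈ Set.Icc 0 t := ⟨hs20, by linarith⟩
  obtain ⟨τ2, hτ2def⟩ : ∃ x, x = tau M τ1 s2 := ⟨_, rfl⟩
  have hτ2 : τ2 ∈ Set.Icc τ1 (tau M τ1 t) := hτ2def ▸ tau_mem hM0 τ1 hs2t
  have ha2 : H.aa τ2 = 1 / M' := by
    rw [hτ2def, aa_tau hM0 h1 hs20, hs2e]; field_simp
  have hg2 : H.gam τ2 = γ2 := gam_eq_of H hD hγ2 (by rw [ha2, hγ8])
  have hEV : ∀ τ ∈ Set.Icc τ1 τ2, EV X φ κ β γ2 τ ≤ e12 * V1 := by
    intro τ hτ
    have := run_V hφ hV hD hN hA X hβ hγ2 hγ20 le_rfl hτ.1 (hτ.2.trans hτ2.2) hβ1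
      ((H.gam_mono hτ.2).trans hg2.le)
    have e : EV X φ κ β γ2 τ1 = V1 := hV1def ▸ X.init _ ((H.smF_VV hφ hD κ hβ hγ2).cts τ1)
    rwa [e, ← he12] at this
  -- normalisations
  have hn1 := inv_nrm_eq H hD hN hM0 h1
  have hn2 := inv_nrm_eq H hD hN hM'0 ha2
  rw [← hSdef] at hn1 hn2
  have hsM : 0 < Real.sqrt M := Real.sqrt_pos.2 hM0
  have hsM' : 0 < Real.sqrt M' := Real.sqrt_pos.2 hM'0
  have hsMM : Real.sqrt M ≤ M := Real.sqrt_le_iff.2 ⟨hM0.le, by nlinarith⟩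
  have hnp1 := H.nrm_pos hD hN τ1
  have hnp2 := H.nrm_pos hD hN τ2
  obtain ⟨B1, hB1def⟩ : ∃ x, x = S * Real.sqrt M := ⟨_, rfl⟩
  obtain ⟨B0, hB0def⟩ : ∃ x, x = S * Real.sqrt M' := ⟨_, rfl⟩
  rw [← hB1def] at hn1
  rw [← hB0def] at hn2
  have hB1 : 0 < B1 := by rw [hB1def]; positivity
  have hB0 : 0 < B0 := by rw [hB0def]; positivity
  have hB10 : B1 * Real.sqrt (M' / M) = B0 := by
    rw [hB1def, hB0def, Real.sqrt_div hM'0.le]; field_simp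
  have hnB1 : H.nrm τ1 = 1 / B1 := by rw [eq_div_iff hB1.ne']; exact hn1
  have hnB0 : H.nrm τ2 = 1 / B0 := by rw [eq_div_iff hB0.ne']; exact hn2
  obtain ⟨U1, hU1def⟩ : ∃ x, x = H.UU (1 / M) A1 := ⟨_, rfl⟩
  have hU10 : 0 ≤ U1 := hU1def ▸ H.UU_nonneg _ _
  have hB1S : B1 ≤ S * M := hB1def ▸ mul_le_mul_of_nonneg_left hsMM hS.le
  have hU1 : γ1 * U1 ≤ V1 * B1 := by
    rw [h1, hnB1, ← hU1def] at hU
    have : γ1 * (1 / B1) * U1 = γ1 * U1 / B1 := by ring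
    rwa [this, div_le_iff₀ hB1] at hU
  have hγM : 1 ≤ γ1 * M := by
    have : γ1 ^ 8 ≤ γ1 := pow_le_of_le_one hγ1.le hγ11 (by norm_num)
    rw [hγ18, div_le_iff₀ hM0] at this
    exact this
  have hU2 : U1 ≤ M ^ 2 * (S * V1) := by
    have a1 : U1 ≤ γ1 * U1 * M := by nlinarith only [hγM, hU10]
    have a2 : γ1 * U1 * M ≤ V1 * B1 * M := mul_le_mul_of_nonneg_right hU1 hM0.le
    have a3 : V1 * B1 * M ≤ M ^ 2 * (S * V1) := by
      have := mul_le_mul_of_nonneg_left hB1S (mul_nonneg hV0 hM0.le)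
      linarith only [this]
    linarith
  have hA1c : (A1.card : ℝ) ≤ M * (S * (1 + V1)) := by
    rw [hnB1] at hcard
    have a1 : (A1.card : ℝ) ≤ (1 + V1) * B1 := by
      have : 1 / B1 * (A1.card : ℝ) = (A1.card : ℝ) / B1 := by ring
      rwa [this, div_le_iff₀ hB1] at hcard
    have := mul_le_mul_of_nonneg_left hB1S (by linarith only [hV0] : 0 ≤ 1 + V1)
    linarith only [this, a1]
  have hSV : 0 ≤ S * V1 := by positivity
  -- the chosen depths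
  have hLΔ : (nL : ℝ) ≤ Δ := by rw [hΔdef]; exact_mod_cast le_max_left _ _
  have hΔΔ : (nΔ : ℝ) ≤ Δ := by rw [hΔdef]; exact_mod_cast le_max_right _ _
  have hK1 : (nK1 : ℝ) ≤ Kd := by rw [hKddef]; exact_mod_cast le_max_left _ _
  have hK2 : (nK2 : ℝ) ≤ Kd := by rw [hKddef]; exact_mod_cast le_max_right _ _
  obtain ⟨εΔ, hεΔ⟩ : ∃ x, x = Real.exp (-(Δ * Real.exp (-(48 * M * t))) / (16 * M)) := ⟨_, rfl⟩
  have hεΔ0 : 0 < εΔ := hεΔ ▸ Real.exp_pos _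
  have bL : 42 * (128 * M ^ 2 * Real.exp (-(nL : ℝ) / (8 * M))) * M ^ 2 ≤ θ / 3 := by
    have := hnL nL le_rfl
    rw [show -((nL : ℝ) * (1 / (8 * M))) = -(nL : ℝ) / (8 * M) by ring] at this
    linarith
  have bΔ : (18 * (nL : ℝ) ^ 2 + 2) * (768 * M ^ 2 * t * εΔ * M ^ 2) ≤ min (θ / 3) 1 := by
    have := hnΔ Δ hΔΔ
    rw [show -((Δ : ℝ) * (Real.exp (-(48 * M * t)) / (16 * M)))
      = -(Δ * Real.exp (-(48 * M * t))) / (16 * M) by ring, ← hεΔ] at this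
    linarith
  have hw0 : 0 ≤ 768 * M ^ 2 * t * εΔ * M ^ 2 := by positivity
  have bΔ1 : 18 * (nL : ℝ) ^ 2 * (768 * M ^ 2 * t * εΔ) * M ^ 2 ≤ θ / 3 := by
    have := bΔ.trans (min_le_left _ _)
    linarith only [this, hw0]
  have bΔ2 : 2 * (768 * M ^ 2 * t * εΔ) * M ^ 2 ≤ 1 := by
    have := bΔ.trans (min_le_right _ _)
    linarith only [this, mul_nonneg (sq_nonneg (nL : ℝ)) hw0]
  have bK1 : (Δ : ℝ) ^ 2 * (Real.exp (2 - Kd * Real.exp (-(24 * Δ * t))) * Real.exp (Δ * t)) * M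
      ≤ θ / 3 := by
    have := hnK1 Kd hK1
    rw [sub_eq_add_neg, Real.exp_add]
    linarith
  have bK2 : Real.exp ((1 - Kd * Real.exp (-(24 * Δ * t))) / 2) * M ≤ η0 := by
    have := hnK2 Kd hK2
    rw [show (1 - Kd * Real.exp (-(24 * Δ * t))) / 2
      = 1 / 2 + -(Kd * (Real.exp (-(24 * Δ * t)) / 2)) by ring, Real.exp_add]
    linarith
  have bD : (1 + 2 * (Δ : ℝ)) ^ (2 * Kd) / (η0 / M) ≤ η0 * S := by
    have a1 : (D1 : ℝ) ≤ H.D := by exact_mod_cast (le_max_left _ _).trans hD0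
    have a2 : (1 + 2 * (Δ : ℝ)) ^ (2 * Kd) / (η0 / M) / η0 ≤ Real.sqrt H.D :=
      Real.le_sqrt_of_sq_le (hD1.trans a1)
    have a3 : Real.sqrt H.D ≤ S := by
      rw [hSdef, le_div_iff₀ hsD, Real.mul_self_sqrt hDr.le]
      unfold HG.NN; exact_mod_cast hN
    rw [div_le_iff₀ hη0] at a2
    linarith only [a2, mul_le_mul_of_nonneg_left a3 hη0.le]
  obtain ⟨nb, hnbdef⟩ : ∃ x : ℝ, x = (H.nbad A1 Δ Kd : ℝ) := ⟨_, rfl⟩
  have hnb0 : 0 ≤ nb := by rw [hnbdef]; positivity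
  rw [← hnbdef]
  obtain ⟨Er, hErdef⟩ : ∃ x : ℝ, x = θ * (S * (1 + V1)) + (Δ : ℝ) ^ 2 * nb := ⟨_, rfl⟩
  have hEr : ∀ s ∈ Set.Icc 0 t,
      errF (H.tri A1) A1 (fun S s => pE X S (tau M τ1 s)) s ≤ Er := by
    intro s hs
    have a0 := err_unif hM0 h1 ht0 X Kd (Nat.cast_nonneg nL) hLΔ hs
    rw [← hεΔ, ← hU1def, ← hnbdef] at a0
    have a1 := mul_le_mul_of_nonneg_left hA1c (by positivity : 0 ≤ (Δ : ℝ) ^ 2 *
      (Real.exp (2 - Kd * Real.exp (-(24 * Δ * t))) * Real.exp (Δ * t)))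
    have a2 := mul_le_mul_of_nonneg_left hU2 (by positivity : 0 ≤ 18 * (nL : ℝ) ^ 2 *
      (768 * M ^ 2 * t * εΔ) + 42 * (128 * M ^ 2 * Real.exp (-(nL : ℝ) / (8 * M))))
    have a3 := mul_le_mul_of_nonneg_right bK1 (by positivity : 0 ≤ S * (1 + V1))
    have a4 := mul_le_mul_of_nonneg_right (add_le_add bΔ1 bL) hSV
    have a5 : θ * (S * V1) ≤ θ * (S * (1 + V1)) := by
      apply mul_le_mul_of_nonneg_left _ hθ.le
      linarith only [hS]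
    rw [hErdef]
    linarith only [a0, a1, a2, a3, a4, a5]
  have hF := fwd_pE hM0 h1 ht0 X
  -- the functional xi at the start of the last phase
  obtain ⟨l, hldef⟩ : ∃ x : ℝ, x = Kml * γ2 * (1 + e12 * V1) := ⟨_, rfl⟩
  have hxi := hF.xi_IIIa (H.tri_lin A1) (H.tri_sub A1) hM8 hM'M hs2t hs2e hB1
    (by rw [hldef]; positivity : 0 ≤ l) (Er := Er) (fun s hs => by
      have hτ : tau M τ1 s ∈ Set.Icc τ1 τ2 := hτ2def ▸ tau_mem hM0 τ1 hs
      have a1 := (hml H _ 0 0 A1 _ _ _ X κ β γ2 (tau M τ1 s) (e12 * V1) hV.kap hD hN hβ hγ21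
        ((H.gam_mono hτ.2).trans hg2.le) ⟨hτ.1, hτ.2.trans hτ2.2⟩ (hEV _ hτ)).2
      rw [aa_tau hM0 h1 hs.1, nrm_tau hM0 τ1 hs.1, hnB1, one_div_div] at a1
      have e : Kml * γ2 * (1 + e12 * V1) / (1 / B1 * Real.sqrt (1 + 2 * M * s))
          = l * B1 / Real.sqrt (1 + 2 * M * s) := by
        rw [hldef]; field_simp
      rw [e] at a1
      exact a1)
    (fun s hs => hEr s ⟨hs.1, hs.2.trans hs2t.2⟩)
  rw [hB10] at hxi
  have hq : Real.sqrt (Real.sqrt (M' / M)) ≤ γ1 := by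
    have a1 : Real.sqrt (Real.sqrt (M' / M)) ^ 8 = (M' / M) ^ 2 := by
      rw [show (8 : ℕ) = 2 * (2 * 2) from rfl, pow_mul, Real.sq_sqrt (Real.sqrt_nonneg _), pow_mul,
        Real.sq_sqrt (by positivity)]
    have a2 : (M' / M) ^ 2 ≤ γ1 ^ 8 := by
      rw [hγ18, div_pow, div_le_div_iff₀ (by positivity) hM0]
      linarith only [mul_le_mul_of_nonneg_right (hM'3.trans hM) hM0.le]
    exact (pow_le_pow_iff_left₀ (Real.sqrt_nonneg _) hγ1.le (by norm_num : (8 : ℕ) ≠ 0)).1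
      (a1 ▸ a2)
  have hQ : 3 * ((H.tri A1).card : ℝ) / (M * B1) ≤ 4 * U1 / B1 := by
    have a1 := H.sum_u_pow_le (a := 1 / M) (by positivity) A1 1
    have a2 : ∑ e ∈ A1, H.u (1 / M) A1 e ^ 1 = 3 * ((H.tri A1).card : ℝ) / M := by
      rw [← H.sum_card_tri, Finset.sum_div]
      exact Finset.sum_congr rfl fun e _ => by unfold HG.u; ring
    rw [a2, ← hU1def] at a1
    rw [← div_div]
    apply div_le_div_of_nonneg_right _ hB1.le
    simpa using a1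
  have hxi1 : Real.sqrt (Real.sqrt (M' / M)) * (3 * ((H.tri A1).card : ℝ) / (M * B1))
      ≤ 4 * V1 := by
    have a1 := mul_le_mul hq hQ (by positivity) hγ1.le
    have a2 : γ1 * (4 * U1 / B1) ≤ 4 * V1 := by
      rw [← mul_div_assoc, div_le_iff₀ hB1]; linarith
    linarith
  have hl1 : l ≤ Kml * (1 + e12) * V1 := by
    rw [hldef, mul_assoc, mul_assoc]
    apply mul_le_mul_of_nonneg_left _ hKml.le
    have : γ2 * (e12 * V1) ≤ e12 * V1 := mul_le_of_le_one_left (by positivity) hγ21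
    linarith only [this, hγV]
  have hphi : M' * phiHat φ (H.tri A1) A1 (fun S s => pE X S (tau M τ1 s)) M' s2 / B0
      ≤ Kph * (e12 * V1) := by
    have a1 := hph H _ 0 0 A1 _ _ _ X κ β γ2 τ2 (e12 * V1) hV.kap hD hN hβ hγ21 hg2 (hγ1def ▸ hγ13) hτ2 hEV
      (fun τ hτ e he => by
        have hm : (M * H.aa τ - 1) / (2 * M) ∈ Set.Icc 0 t ∧
            tau M τ1 ((M * H.aa τ - 1) / (2 * M)) = τ := by
          have b1 := H.aa_mono hτ.1
          have b2 := H.aa_mono hτ.2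
          rw [h1] at b1
          rw [ha2] at b2
          have b3 : 1 ≤ M * H.aa τ := by rw [div_le_iff₀ hM0] at b1; linarith
          have b4 : M * H.aa τ ≤ M / M' := by
            have := mul_le_mul_of_nonneg_left b2 hM0.le
            rwa [mul_one_div] at this
          refine ⟨⟨div_nonneg (by linarith) (by positivity), le_trans ?_ hs2t.2⟩, ?_⟩
          · rw [hs2def]; exact div_le_div_of_nonneg_right (by linarith) (by positivity)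
          · unfold tau
            have b5 : 1 + 2 * M * ((M * H.aa τ - 1) / (2 * M)) = Real.exp (2 * (τ - τ1)) := by
              have b6 := H.aa_add τ1 (τ - τ1)
              rw [add_sub_cancel, h1] at b6
              rw [b6]; field_simp; ring
            rw [b5, Real.log_exp]; ring
        have := hF.single_pos he hm.1
        simp only [hm.2] at this
        exact this)
    have a2 : H.cc τ2 = M' / B0 := by
      have := H.cc_mul_aa hD τ2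
      rw [ha2, hnB0] at this
      field_simp at this ⊢
      linarith
    rw [a2, ha2, one_div_one_div] at a1
    have a3 : phiHat φ (H.tri A1) A1 (fun S s => pE X S (tau M τ1 s)) M' s2
        = phiHat φ (H.tri A1) A1 (pE X) M' τ2 := by rw [hτ2def]; rfl
    rw [a3]
    calc _ = M' / B0 * phiHat φ (H.tri A1) A1 (pE X) M' τ2 := by ring
      _ ≤ _ := a1
  have hmass : |massB A1 (fun S s => pE X S (tau M τ1 s)) s2 / B0 - 1| ≤ e12 * V1 := by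
    have a1 := (hml H _ 0 0 A1 _ _ _ X κ β γ2 τ2 (e12 * V1) hV.kap hD hN hβ hγ21 hg2.le hτ2
      (hEV _ ⟨hτ2.1, le_rfl⟩)).1
    rw [hnB0, one_div, inv_mul_eq_div, hτ2def] at a1
    exact a1
  have hfin := hIII (H.tri A1) A1 t _ hF (H.tri_lin A1) (H.tri_sub A1) M' s2 B0 Er
    (by linarith) hs20 htdef hB0 (fun s hs => hEr s ⟨hs20.trans hs.1, hs.2⟩)
  have hE0 : 0 ≤ Real.exp (-t1) := (Real.exp_pos _).le
  obtain ⟨hr1, hr2⟩ := ref_close (M' := M') (by linarith) hE0 (by linarith)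
  obtain ⟨ϱ, hϱ⟩ : ∃ x, x = Real.sqrt M' / Real.sqrt (1 + 2 * M' * (1 - Real.exp (-t1))) := ⟨_, rfl⟩
  rw [← hϱ] at hr1 hr2
  have hR : B0 / Real.sqrt (1 + 2 * M' * (1 - Real.exp (-t1))) = S * ϱ := by
    rw [hϱ, hB0def]; ring
  have hϱ0 : 0 ≤ ϱ := by rw [hϱ]; positivity
  rw [hR] at hfin
  have hc : H.NN / Real.sqrt (2 * H.D) = S * (1 / Real.sqrt 2) := by
    rw [hSdef, Real.sqrt_mul (by norm_num)]; ring
  have hτ3 : tau M τ1 t ∈ Set.Icc τ1 (tau M τ1 t) := tau_mem hM0 τ1 ⟨ht0, le_rfl⟩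
  have hHv := Hv_le hA X hτ3 (H.NN / Real.sqrt (2 * H.D))
  have hconc := conc_unif hM0 h1 ht0 X Kd (s0 := η0 / M) (by positivity)
  rw [← hεΔ, ← hU1def] at hconc
  obtain ⟨B, hBdef⟩ : ∃ x, x = massB A1 (pE X) (tau M τ1 t) := ⟨_, rfl⟩
  obtain ⟨Wt, hWdef⟩ : ∃ x, x = ∑ e ∈ A1, WW (H.tri A1) (pE X) e (tau M τ1 t) := ⟨_, rfl⟩
  have hfin' : |B - S * ϱ| + Wt ≤ S * ϱ * (η0 + 4 * Real.exp (-t1) + KI *
      (M' * phiHat φ (H.tri A1) A1 (fun S s => pE X S (tau M τ1 s)) M' s2 / B0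
        + xiF (H.tri A1) (fun S s => pE X S (tau M τ1 s)) s2 / (M' * B0)
        + Real.sqrt (1 + 2 * M') * Er / B0
        + |massB A1 (fun S s => pE X S (tau M τ1 s)) s2 / B0 - 1|)) := by
    rw [hBdef, hWdef]; exact hfin
  rw [← hBdef] at hconc
  rw [← hBdef, ← hWdef] at hHv
  have hEr0 : 0 ≤ Er := by rw [hErdef]; positivity
  -- collect
  have c1 : |B - H.NN / Real.sqrt (2 * H.D)| ≤ |B - S * ϱ| + 2 * η0 * S := by
    have a1 := abs_sub_le B (S * ϱ) (H.NN / Real.sqrt (2 * H.D))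
    have a2 : |S * ϱ - H.NN / Real.sqrt (2 * H.D)| ≤ 2 * η0 * S := by
      rw [hc, ← mul_sub, abs_mul, abs_of_pos hS]
      have : 1 / M' ≤ η0 := by
        rw [div_le_iff₀ hM'0]; rw [div_le_iff₀ hη0] at hMη; linarith only [hMη]
      have b1 : |ϱ - 1 / Real.sqrt 2| ≤ 2 * η0 := by linarith only [this, hr1, hE4, hη0]
      linarith only [mul_le_mul_of_nonneg_left b1 hS.le]
    linarith
  obtain ⟨Q, hQdef⟩ : ∃ x : ℝ, x = Kph * e12 + 4 + 24 * (Kml * (1 + e12)) + e12 := ⟨_, rfl⟩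
  have hQ0 : 0 < Q := by rw [hQdef]; positivity
  rw [← hQdef]
  have c2 : |B - S * ϱ| + Wt ≤ S * (2 * η0 + KI * Q * V1) + P * Er := by
    have a1 : M' * phiHat φ (H.tri A1) A1 (fun S s => pE X S (tau M τ1 s)) M' s2 / B0
        + xiF (H.tri A1) (fun S s => pE X S (tau M τ1 s)) s2 / (M' * B0)
        + Real.sqrt (1 + 2 * M') * Er / B0
        + |massB A1 (fun S s => pE X S (tau M τ1 s)) s2 / B0 - 1|
        ≤ Q * V1 + (Real.sqrt (1 + 2 * M') + 12) * (Er / B0) := by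
      rw [hQdef]
      have e1 : 12 * Er / B0 = 12 * (Er / B0) := by ring
      have e2 : Real.sqrt (1 + 2 * M') * Er / B0 = Real.sqrt (1 + 2 * M') * (Er / B0) := by ring
      rw [e1] at hxi
      rw [e2]
      linarith only [hphi, hxi, hxi1, hl1, hmass]
    have a2 := mul_le_mul_of_nonneg_left a1 hKI.le
    have a3 : S * ϱ * (η0 + 4 * Real.exp (-t1) + KI * (Q * V1
        + (Real.sqrt (1 + 2 * M') + 12) * (Er / B0)))
        ≤ S * (2 * η0 + KI * Q * V1) + P * Er := by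
      have b1 : S * ϱ * (η0 + 4 * Real.exp (-t1) + KI * (Q * V1)) ≤ S * (2 * η0 + KI * Q * V1) := by
        have b2 : 0 ≤ η0 + 4 * Real.exp (-t1) + KI * (Q * V1) := by positivity
        have b3 : S * ϱ ≤ S := mul_le_of_le_one_right hS.le hr2
        have b4 := mul_le_mul_of_nonneg_right b3 b2
        have b5 : η0 + 4 * Real.exp (-t1) + KI * (Q * V1) ≤ 2 * η0 + KI * Q * V1 := by linarith
        exact b4.trans (mul_le_mul_of_nonneg_left b5 hS.le)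
      have b6 : S * ϱ ≤ B0 := by
        rw [hB0def]
        apply mul_le_mul_of_nonneg_left _ hS.le
        exact hr2.trans (Real.one_le_sqrt.2 (by linarith))
      have b7 : S * ϱ * (Er / B0) ≤ Er := by
        have := mul_le_mul_of_nonneg_right b6 (div_nonneg hEr0 hB0.le)
        rwa [mul_div_cancel₀ _ hB0.ne'] at this
      have b8 := mul_le_mul_of_nonneg_left b7 hP.le
      have b9 : S * ϱ * (KI * ((Real.sqrt (1 + 2 * M') + 12) * (Er / B0)))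
          = P * (S * ϱ * (Er / B0)) := by rw [hPdef]; ring
      linarith only [b1, b8, b9]
    have a4 := mul_le_mul_of_nonneg_left (add_le_add_left a2 (η0 + 4 * Real.exp (-t1)))
      (mul_nonneg hS.le hϱ0)
    linarith only [hfin', a4, a3]
  have c3 : P * Er = η0 * (S * (1 + V1)) + P * (Δ : ℝ) ^ 2 * nb := by
    rw [hErdef, hθdef]; field_simp
  have c4 : 2 * (768 * M ^ 2 * t * εΔ) * U1 ≤ S * V1 := by
    have a1 := mul_le_mul_of_nonneg_left hU2 (by positivity : 0 ≤ 2 * (768 * M ^ 2 * t * εΔ))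
    have a2 := mul_le_mul_of_nonneg_right bΔ2 hSV
    linarith only [a1, a2]
  have c5 : (Real.exp ((1 - Kd * Real.exp (-(24 * Δ * t))) / 2) + η0 / M) * (A1.card : ℝ)
      ≤ 2 * η0 * (S * (1 + V1)) := by
    have a1 := mul_le_mul_of_nonneg_left hA1c
      (by positivity : 0 ≤ Real.exp ((1 - Kd * Real.exp (-(24 * Δ * t))) / 2) + η0 / M)
    have a2 : (Real.exp ((1 - Kd * Real.exp (-(24 * Δ * t))) / 2) + η0 / M) * M ≤ 2 * η0 := by
      rw [add_mul, div_mul_cancel₀ _ hM0.ne']; linarith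
    have a3 := mul_le_mul_of_nonneg_right a2 (by positivity : 0 ≤ S * (1 + V1))
    linarith only [a1, a3]
  have c6 : η0 * (S * V1) ≤ S * V1 := mul_le_of_le_one_left hSV hη01
  have c7 : 8 * η0 * S ≤ η * S := mul_le_mul_of_nonneg_right hη0η hS.le
  linarith only [hHv, hconc, c1, c2, c3, c4, c5, c6, c7, bD]

end Vale.Agent.P046
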