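import Mathlib

/-! The random triangle removal process. -/

namespace Vale.Agent.P046

open Classical in
/-- Delete the three edges of the triangle with vertex set `t`. -/
noncomputable def removeTri {n : ℕ} (G : SimpleGraph (Fin n)) (t : Finset (Fin n)) :
    SimpleGraph (Fin n) :=
  G.deleteEdges {e | ∀ v ∈ e, v ∈ t}

open Classical in
/-- One step: remove a uniformly random triangle; a triangle-free graph stays unchanged. -/
noncomputable def step {n : ℕ} (G : SimpleGraph (Fin n)) : PMF (SimpleGraph (Fin n)) :=
  if h : (G.cliqueFinset 3).Nonempty then
    (PMF.uniformOfFinset (G.cliqueFinset 3) h).map (removeTri G)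
  else PMF.pure G

/-- The law of the graph after `k` steps, started from the complete graph. -/
noncomputable def run (n : ℕ) : ℕ → PMF (SimpleGraph (Fin n))
  | 0 => PMF.pure ⊤
  | k + 1 => (run n k).bind step

open Classical in
/-- The law of the number of edges after `n ^ 2` steps (by then the process has stopped). -/
noncomputable def finalLaw (n : ℕ) : PMF ℕ :=
  (run n (n ^ 2)).map (fun G => G.edgeFinset.card)

end Vale.Agent.P046
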