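import Vale.Agent.P046.Basic

open Finset

set_option linter.unusedSectionVars false

namespace Vale.Agent.P046

/-- Jointly `C¹` in the first argument and in `r`. -/
def SmF {α : Type} [Fintype α] (F : ℝ → Finset α → (α → ℝ) → ℝ) : Prop :=
  ∀ A, ContDiff ℝ 1 (fun p : ℝ × (α → ℝ) => F p.1 A p.2)

section smf
variable {α : Type} [Fintype α]

theorem SmF.sm {F : ℝ → Finset α → (α → ℝ) → ℝ} (h : SmF F) : Sm F := h

theorem SmF.add {F G : ℝ → Finset α → (α → ℝ) → ℝ} (hF : SmF F) (hG : SmF G) :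
    SmF (fun a A r => F a A r + G a A r) := fun A => (hF A).add (hG A)

theorem SmF.tmul {c : ℝ → ℝ} (hc : ContDiff ℝ 1 c) {F : ℝ → Finset α → (α → ℝ) → ℝ}
    (hF : SmF F) : SmF (fun a A r => c a * F a A r) :=
  fun A => (hc.comp contDiff_fst).mul (hF A)

theorem SmF.comp {c : ℝ → ℝ} (hc : ContDiff ℝ 1 c) {F : ℝ → Finset α → (α → ℝ) → ℝ}
    (hF : SmF F) : SmF (fun τ A r => F (c τ) A r) :=
  fun A => (hF A).comp ((hc.comp contDiff_fst).prodMk contDiff_snd)

theorem SmF.of_state (f : Finset α → ℝ) : SmF (fun _ A (_ : α → ℝ) => f A) :=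
  fun _ => contDiff_const

/-- Lift to the state space of `HG.sys`. -/
theorem SmF.lift {F : ℝ → Finset α → (α → ℝ) → ℝ} (hF : SmF F) :
    Sm (fun τ (s : Finset α × Finset α) (r : (α → ℝ) × (α → ℝ)) => F τ s.1 r.1) :=
  fun s => (hF s.1).comp (contDiff_fst.prodMk (contDiff_fst.comp contDiff_snd))

theorem SmF.cts {F : ℝ → Finset α → (α → ℝ) → ℝ} (hF : SmF F) (τ : ℝ) :
    Cts (fun (s : Finset α × Finset α) (r : (α → ℝ) × (α → ℝ)) => F τ s.1 r.1) :=
  hF.lift.cts τ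

theorem smF_phi {φ φ' c : ℝ → ℝ} {C : ℝ} (h : PhiOK φ φ' c C) :
    SmF (fun _ (A : Finset α) r => ∑ e ∈ A, φ (r e)) := fun _ =>
  ContDiff.sum fun e _ => h.contDiff.comp ((contDiff_apply ℝ ℝ e).comp contDiff_snd)

theorem smF_sq : SmF (fun _ (A : Finset α) (r : α → ℝ) => ∑ e ∈ A, r e ^ 2) := fun _ =>
  ContDiff.sum fun e _ => ((contDiff_apply ℝ ℝ e).comp contDiff_snd).pow 2

end smf

namespace HG
variable {α : Type} [DecidableEq α] [Fintype α] (H : HG α)

theorem contDiff_u (A : Finset α) (e : α) :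
    ContDiff ℝ 1 (fun p : ℝ × (α → ℝ) => H.u p.1 A e) := contDiff_fst.mul contDiff_const

theorem contDiff_mm (A : Finset α) (e : α) :
    ContDiff ℝ 1 (fun p : ℝ × (α → ℝ) => H.mm p.1 A p.2 e) :=
  ((H.contDiff_u A e).sub contDiff_const).sub ((contDiff_apply ℝ ℝ e).comp contDiff_snd)

theorem contDiff_yy (A : Finset α) (e : α) :
    ContDiff ℝ 1 (fun p : ℝ × (α → ℝ) => H.yy p.1 A p.2 e) :=
  contDiff_fst.mul (ContDiff.sum fun _ _ => ContDiff.sum fun f _ => H.contDiff_mm A f)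

theorem smF_UU : SmF (fun a A (_ : α → ℝ) => H.UU a A) := fun A =>
  ContDiff.sum fun e _ => ((H.contDiff_u A e).div_const 4).exp

theorem smF_M4 : SmF H.M4 := fun A => ContDiff.sum fun e _ => (H.contDiff_mm A e).pow 4

theorem smF_M1 : SmF H.M1 := fun A =>
  ContDiff.sum fun e _ => (H.contDiff_u A e).mul ((H.contDiff_mm A e).pow 4)

theorem smF_Ups : SmF H.Ups := fun A => ContDiff.sum fun e _ => (H.contDiff_yy A e).pow 2

theorem smF_om : SmF (fun a A (_ : α → ℝ) => H.om a A) := fun _ =>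
  (contDiff_fst.pow 4).mul contDiff_const

theorem smF_X4 : SmF (fun a A (_ : α → ℝ) => H.X4 a A) := fun _ =>
  ContDiff.sum fun _ _ => ((contDiff_fst.mul contDiff_const).sub contDiff_const).pow 4

/-! Derivatives along the flow. -/

theorem hasDerivAt_flow (a : ℝ) : HasDerivAt (fun h : ℝ => a * Real.exp (2 * h)) (2 * a) 0 := by
  have h1 : HasDerivAt (fun h : ℝ => 2 * h) 2 0 := by simpa using (hasDerivAt_id (0:ℝ)).const_mul 2
  have := (h1.exp).const_mul a
  refine HasDerivAt.congr_deriv this ?_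
  simp; ring

theorem hasDerivAt_u (a : ℝ) (A : Finset α) (e : α) :
    HasDerivAt (fun h : ℝ => H.u (a * Real.exp (2 * h)) A e) (2 * H.u a A e) 0 := by
  have := (hasDerivAt_flow a).mul_const (H.deg A e : ℝ)
  unfold u
  refine HasDerivAt.congr_deriv this ?_
  ring

theorem hasDerivAt_r (r v : α → ℝ) (e : α) :
    HasDerivAt (fun h : ℝ => (r + h • v) e) (v e) 0 := by
  simpa using ((hasDerivAt_id (0:ℝ)).mul_const (v e)).const_add (r e)

/-- Along the flow `m' = nb u`. -/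
theorem hasDerivAt_mm (a : ℝ) (A : Finset α) (r : α → ℝ) (e : α) :
    HasDerivAt (fun h : ℝ => H.mm (a * Real.exp (2 * h)) A (r + h • H.vel a A) e)
      (H.nb a A (H.u a A) e) 0 := by
  have := ((H.hasDerivAt_u a A e).sub_const 1).sub (hasDerivAt_r r (H.vel a A) e)
  unfold mm
  refine HasDerivAt.congr_deriv this ?_
  unfold vel
  rw [H.nb_sub a A (H.u a A) (fun _ => 1), nb_const]; ring

/-- Along the flow `y' = 2 y + nb (nb u)`. -/
theorem hasDerivAt_yy (a : ℝ) (A : Finset α) (r : α → ℝ) (e : α) :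
    HasDerivAt (fun h : ℝ => H.yy (a * Real.exp (2 * h)) A (r + h • H.vel a A) e)
      (2 * H.yy a A r e + H.nb a A (H.nb a A (H.u a A)) e) 0 := by
  have h2 : HasDerivAt (fun h : ℝ => ∑ T ∈ thru (H.tri A) e, ∑ f ∈ T.erase e,
      H.mm (a * Real.exp (2 * h)) A (r + h • H.vel a A) f)
      (∑ T ∈ thru (H.tri A) e, ∑ f ∈ T.erase e, H.nb a A (H.u a A) f) 0 :=
    HasDerivAt.fun_sum fun T _ => HasDerivAt.fun_sum fun f _ => H.hasDerivAt_mm a A r f
  have := (hasDerivAt_flow a).mul h2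
  unfold yy
  refine HasDerivAt.congr_deriv this ?_
  simp only [mul_zero, Real.exp_zero, mul_one, zero_smul, add_zero]
  unfold nb
  ring

theorem mm_sdiff (a : ℝ) (A T' : Finset α) (r : α → ℝ) (e : α) :
    H.mm a (A \ T') r e = H.mm a A r e - a * H.kk A T' e := by
  unfold mm u; rw [deg_sdiff]; ring

/-! Reference functions. -/

theorem aa_add (τ h : ℝ) : H.aa (τ + h) = H.aa τ * Real.exp (2 * h) := by
  unfold aa; rw [mul_add, Real.exp_add]; ring

theorem aa_nonneg (τ : ℝ) : 0 ≤ H.aa τ := by unfold aa; positivity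

theorem aa_pos (hD : 1 ≤ H.D) (τ : ℝ) : 0 < H.aa τ := by
  unfold aa
  have : (0 : ℝ) < H.D := by exact_mod_cast hD
  positivity

theorem gam_pos (hD : 1 ≤ H.D) (τ : ℝ) : 0 < H.gam τ := by
  unfold gam
  have : (0 : ℝ) < H.D := by exact_mod_cast hD
  positivity

theorem gam_pow (hD : 1 ≤ H.D) (τ : ℝ) : H.gam τ ^ 8 = H.aa τ := by
  unfold gam aa
  have hD' : (0 : ℝ) < H.D := by exact_mod_cast hD
  rw [mul_pow, ← Real.rpow_natCast, ← Real.rpow_mul hD'.le, ← Real.exp_nat_mul]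
  norm_num
  rw [Real.rpow_neg_one, show (8 : ℝ) * (τ / 4) = 2 * τ by ring]
  field_simp

theorem gam_mono {σ τ : ℝ} (h : σ ≤ τ) : H.gam σ ≤ H.gam τ := by
  unfold gam
  have : Real.exp (σ / 4) ≤ Real.exp (τ / 4) := Real.exp_le_exp.2 (by linarith)
  have h0 : 0 ≤ (H.D : ℝ) ^ (-(1 / 8 : ℝ)) := by positivity
  exact mul_le_mul_of_nonneg_left this h0

theorem aa_mono {σ τ : ℝ} (h : σ ≤ τ) : H.aa σ ≤ H.aa τ := by
  unfold aa
  have : Real.exp (2 * σ) ≤ Real.exp (2 * τ) := Real.exp_le_exp.2 (by linarith)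
  gcongr

theorem NN_pos (hD : 1 ≤ H.D) (hN : H.D ≤ H.A0.card) : 0 < H.NN := by
  unfold NN; exact_mod_cast lt_of_lt_of_le hD hN

theorem nrm_pos (hD : 1 ≤ H.D) (hN : H.D ≤ H.A0.card) (τ : ℝ) : 0 < H.nrm τ := by
  unfold nrm; have := H.NN_pos hD hN; positivity

theorem cc_pos (hD : 1 ≤ H.D) (hN : H.D ≤ H.A0.card) (τ : ℝ) : 0 < H.cc τ := by
  unfold cc; have := H.NN_pos hD hN
  have : (0 : ℝ) < H.D := by exact_mod_cast hD
  positivity

theorem cc_mul_aa (hD : 1 ≤ H.D) (τ : ℝ) : H.cc τ * H.aa τ = H.nrm τ := by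
  unfold cc aa nrm
  have : (H.D : ℝ) ≠ 0 := by exact_mod_cast (by omega : H.D ≠ 0)
  have e : Real.exp τ = Real.exp (-τ) * Real.exp (2 * τ) := by rw [← Real.exp_add]; ring_nf
  rw [e]; field_simp

theorem gg_pos (hD : 1 ≤ H.D) {β : ℝ} (hβ : 0 ≤ β) (τ : ℝ) : 0 < H.gg β τ := by
  unfold gg; have := H.gam_pos hD τ; positivity

theorem gam_le_gg {β : ℝ} (hβ : 0 ≤ β) (τ : ℝ) : H.gam τ ≤ H.gg β τ := by
  unfold gg; have : 0 ≤ β * Real.exp (-τ / 4) := by positivity
  linarith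

theorem hasDerivAt_aa (τ : ℝ) : HasDerivAt H.aa (2 * H.aa τ) τ := by
  have h1 : HasDerivAt (fun h : ℝ => 2 * h) 2 τ := by simpa using (hasDerivAt_id τ).const_mul 2
  have := (h1.exp).div_const (H.D : ℝ)
  unfold aa
  refine HasDerivAt.congr_deriv this ?_
  ring

theorem hasDerivAt_gam (τ : ℝ) : HasDerivAt H.gam (H.gam τ / 4) τ := by
  have := (((hasDerivAt_id τ).div_const 4).exp).const_mul ((H.D : ℝ) ^ (-(1 / 8 : ℝ)))
  unfold gam
  refine HasDerivAt.congr_deriv this ?_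
  simp; ring

theorem hasDerivAt_cc (τ : ℝ) : HasDerivAt H.cc (-H.cc τ) τ := by
  have := ((((hasDerivAt_id τ).neg).exp).mul_const (H.D : ℝ)).div_const H.NN
  unfold cc
  refine HasDerivAt.congr_deriv this ?_
  simp; ring

theorem hasDerivAt_nrm (τ : ℝ) : HasDerivAt H.nrm (H.nrm τ) τ := by
  have := (Real.hasDerivAt_exp τ).div_const H.NN
  unfold nrm
  exact this

theorem hasDerivAt_gg (β τ : ℝ) :
    HasDerivAt (H.gg β) (-(β * Real.exp (-τ / 4)) / 4 + H.gam τ / 4) τ := by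
  have := (((((hasDerivAt_id τ).neg).div_const 4).exp).const_mul β).add (H.hasDerivAt_gam τ)
  unfold gg
  refine HasDerivAt.congr_deriv this ?_
  simp; ring

theorem contDiff_aa : ContDiff ℝ 1 H.aa :=
  ((contDiff_const.mul contDiff_id).exp).div_const _

theorem contDiff_gam : ContDiff ℝ 1 H.gam := contDiff_const.mul ((contDiff_id.div_const 4).exp)

theorem contDiff_cc : ContDiff ℝ 1 H.cc := ((contDiff_id.neg.exp).mul contDiff_const).div_const _

theorem contDiff_nrm : ContDiff ℝ 1 H.nrm := Real.contDiff_exp.div_const _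

theorem contDiff_gg (β : ℝ) : ContDiff ℝ 1 (H.gg β) :=
  (contDiff_const.mul ((contDiff_id.neg.div_const 4).exp)).add H.contDiff_gam

theorem chi_pos {M2 : ℝ} (h : 0 ≤ M2) (τ : ℝ) : 0 < H.chi M2 τ := by
  unfold chi; have := H.aa_nonneg τ; positivity

theorem chi_le_one {M2 : ℝ} (h : 0 ≤ M2) (τ : ℝ) : H.chi M2 τ ≤ 1 := by
  unfold chi; have := H.aa_nonneg τ
  rw [div_le_one (by positivity)]; nlinarith

theorem smF_Vabs {γ2 : ℝ} (h : 0 < γ2) : SmF (fun τ A (_ : α → ℝ) => H.Vabs γ2 τ A) := fun _ =>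
  (((((H.contDiff_nrm.comp contDiff_fst).mul contDiff_const).sub contDiff_const).pow 2).add
    contDiff_const).sqrt (fun _ => by positivity)

theorem smF_VV {φ φ' c : ℝ → ℝ} {C : ℝ} (h : PhiOK φ φ' c C) (hD : 1 ≤ H.D) (κ : Fin 4 → ℝ)
    {β γ2 : ℝ} (hβ : 0 ≤ β) (hγ : 0 < γ2) : SmF (H.VV φ κ β γ2) := by
  have h1 : ContDiff ℝ 1 (fun τ => H.cc τ / H.gg β τ) :=
    H.contDiff_cc.div (H.contDiff_gg β) fun τ => (H.gg_pos hD hβ τ).ne'
  have h2 : ContDiff ℝ 1 (fun τ => H.cc τ / H.gam τ ^ 7) :=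
    H.contDiff_cc.div (H.contDiff_gam.pow 7) fun τ => (pow_pos (H.gam_pos hD τ) 7).ne'
  have t0 := SmF.tmul H.contDiff_cc (smF_phi (α := α) h)
  have t1 := SmF.tmul (contDiff_const (c := κ 0).mul h1) (H.smF_Ups.comp H.contDiff_aa)
  have t2 := SmF.tmul (contDiff_const (c := κ 1).mul h1) (H.smF_om.comp H.contDiff_aa)
  have t3 := SmF.tmul (contDiff_const (c := κ 2).mul h2) (H.smF_M4.comp H.contDiff_aa)
  have t4 := SmF.tmul (contDiff_const (c := κ 3).mul (H.contDiff_gam.mul H.contDiff_nrm))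
    (H.smF_UU.comp H.contDiff_aa)
  have t5 := SmF.tmul (contDiff_const (c := 24 * κ 3).mul
    ((contDiff_const (c := 2 * γ2)).sub H.contDiff_gam))
    (SmF.tmul H.contDiff_nrm (SmF.of_state (fun A : Finset α => (A.card : ℝ))))
  exact (((((t0.add t1).add t2).add t3).add t4).add t5).add (H.smF_Vabs hγ)

/-! The generators. -/

theorem genT_eq (V : ℝ → Finset α → (α → ℝ) → ℝ) (τ : ℝ) (A : Finset α) (r : α → ℝ) :
    H.genT V τ A r = Sys.gen ⟨H.tri A, fun T B => B \ T, H.aa, fun τ B => H.vel (H.aa τ) B⟩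
      V τ A r := rfl

theorem genT_comp (F : ℝ → Finset α → (α → ℝ) → ℝ) (τ : ℝ) (A : Finset α) (r : α → ℝ) :
    H.genT (fun τ A r => F (H.aa τ) A r) τ A r = H.gen F (H.aa τ) A r := by
  unfold genT gen
  simp only [aa_add]

theorem genT_add {V W : ℝ → Finset α → (α → ℝ) → ℝ} (hV : SmF V) (hW : SmF W) (τ : ℝ)
    (A : Finset α) (r : α → ℝ) :
    H.genT (fun τ A r => V τ A r + W τ A r) τ A r = H.genT V τ A r + H.genT W τ A r :=
  by rw [genT_eq, genT_eq, genT_eq]; exact Sys.gen_add _ hV.sm hW.sm τ A r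

theorem genT_tmul {c : ℝ → ℝ} {c' τ : ℝ} (hc : HasDerivAt c c' τ)
    {V : ℝ → Finset α → (α → ℝ) → ℝ} (hV : SmF V) (A : Finset α) (r : α → ℝ) :
    H.genT (fun τ A r => c τ * V τ A r) τ A r = c' * V τ A r + c τ * H.genT V τ A r :=
  by rw [genT_eq, genT_eq]; exact Sys.gen_tmul _ hc hV.sm A r

/-- A sum over all moves of a function of the first component. -/
theorem sys_sum_fst (H' : Finset (Finset α)) (δ M2 : ℝ) (f : Finset α → ℝ)
    (s : Finset α × Finset α) :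
    ∑ T ∈ (H.sys H' δ M2).moves, (f ((H.sys H' δ M2).mv T s).1 - f s.1)
      = ∑ T ∈ H.tri s.1, (f (s.1 \ T) - f s.1) := by
  unfold tri
  rw [Finset.sum_filter]
  refine Finset.sum_congr rfl fun T _ => ?_
  simp only [sys]
  split_ifs <;> simp

/-- The generator of the joint system on functionals of `(τ, A, r)`. -/
theorem sys_gen_lift (H' : Finset (Finset α)) (δ M2 : ℝ) (V : ℝ → Finset α → (α → ℝ) → ℝ)
    (τ : ℝ) (s : Finset α × Finset α) (r : (α → ℝ) × (α → ℝ)) :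
    (H.sys H' δ M2).gen (fun τ s r => V τ s.1 r.1) τ s r = H.genT V τ s.1 r.1 := by
  unfold Sys.gen genT
  rw [H.sys_sum_fst H' δ M2 (fun B => V τ B r.1) s]
  rfl

theorem sys_inv (H' : Finset (Finset α)) (δ M2 : ℝ) (A1 : Finset α) :
    ∀ T ∈ (H.sys H' δ M2).moves, ∀ s, InvS A1 s → InvS A1 ((H.sys H' δ M2).mv T s) := by
  intro T _ s hs
  simp only [sys, InvS]
  constructor
  · split_ifs
    · exact sdiff_subset.trans hs.1
    · exact hs.1
  · split_ifs
    · exact sdiff_subset.trans hs.2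
    · exact hs.2

theorem sys_drift_cts (H' : Finset (Finset α)) (δ : ℝ) {M2 : ℝ} (hM : 0 ≤ M2)
    (s : Finset α × Finset α) : Continuous (fun τ => (H.sys H' δ M2).drift τ s) := by
  have ha : Continuous H.aa := H.contDiff_aa.continuous
  have hu : ∀ e, Continuous (fun τ => H.u (H.aa τ) s.1 e) := fun e => ha.mul continuous_const
  simp only [sys]
  refine Continuous.prodMk (continuous_pi fun e => ?_) (continuous_pi fun e => ?_)
  · unfold vel nb
    exact (ha.mul (continuous_finsetSum _ fun _ _ => continuous_finsetSum _ fun f _ =>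
      (hu f).sub continuous_const)).neg
  · refine Continuous.mul ?_ ((continuous_const.sub (hu e)).max continuous_const)
    unfold chi
    refine continuous_const.div (continuous_const.add (continuous_const.mul ha)) fun τ => ?_
    have := H.aa_nonneg τ
    positivity

end HG

end Vale.Agent.P046
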