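import Vale.Agent.P046.FwdBasic

open Finset

namespace Vale.Agent.P046

variable {α : Type} [DecidableEq α] {TT : Finset (Finset α)} {A1 : Finset α} {t : ℝ}
  {p : Finset α → ℝ → ℝ}

theorem Fwd.xi_cont (h : Fwd TT A1 t p) (hA : ∀ T ∈ TT, T ⊆ A1) :
    ContinuousOn (xiF TT p) (Set.Icc 0 t) := by
  unfold xiF
  refine continuousOn_finsetSum _ fun T hT => continuousOn_finsetSum _ fun x hx => ?_
  exact ((h.cont T).pow 2).div (h.cont {x}) fun s hs => (h.single_pos (hA T hT hx) hs).ne'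

theorem Fwd.xi_nonneg (h : Fwd TT A1 t p) {s : ℝ} (hs : s ∈ Set.Icc 0 t) : 0 ≤ xiF TT p s :=
  Finset.sum_nonneg fun _ _ => Finset.sum_nonneg fun x _ =>
    div_nonneg (sq_nonneg _) (h.nonneg {x} s hs)

theorem xi_aux_real {w b W E S μ L : ℝ} (hb : 0 < b) (hw : 0 ≤ w) (hwb : w ≤ b) (hμ : 0 ≤ μ)
    (hL : 0 ≤ L) (hS : W / b - 2 * S ≤ 6 - 4 * μ + 8 / 5 * μ * L) :
    (2 * w * (-(w * (1 + S)) + E) * b - w ^ 2 * (-W)) / b ^ 2 ≤
      (4 - 4 * μ) * (w ^ 2 / b) + 8 / 5 * μ * (w * L) + 2 * |E| := by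
  have e1 : (2 * w * (-(w * (1 + S)) + E) * b - w ^ 2 * (-W)) / b ^ 2
      = (w ^ 2 / b) * (-2 + (W / b - 2 * S)) + 2 * (w / b) * E := by
    field_simp; ring
  rw [e1]
  have h1 : 0 ≤ w / b := div_nonneg hw hb.le
  have h2 : w / b ≤ 1 := (div_le_one hb).2 hwb
  have h3 : 0 ≤ w ^ 2 / b := by positivity
  have h4 : w ^ 2 / b ≤ w := by
    rw [div_le_iff₀ hb]; nlinarith
  have h5 : (w / b) * E ≤ |E| := by
    have := le_abs_self E
    have := abs_nonneg E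
    nlinarith
  have h6 : (w ^ 2 / b) * (-2 + (W / b - 2 * S))
      ≤ (w ^ 2 / b) * (4 - 4 * μ + 8 / 5 * μ * L) :=
    mul_le_mul_of_nonneg_left (by linarith) h3
  have h7 : (w ^ 2 / b) * (μ * L) ≤ w * (μ * L) :=
    mul_le_mul_of_nonneg_right h4 (mul_nonneg hμ hL)
  nlinarith

/-- The indicator of a low point. -/
noncomputable def xiLo (TT : Finset (Finset α)) (p : Finset α → ℝ → ℝ) (μ s : ℝ) (y : α) : ℝ :=
  if WW TT p y s < 4 / 5 * μ * p {y} s then 1 else 0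

theorem xiLo_nonneg (TT : Finset (Finset α)) (p : Finset α → ℝ → ℝ) (μ s : ℝ) (y : α) :
    0 ≤ xiLo TT p μ s y := by
  unfold xiLo; split_ifs <;> norm_num

theorem Fwd.xi_hazard (h : Fwd TT A1 t p) (hl : LinHG TT) (hA : ∀ T ∈ TT, T ⊆ A1) {μ : ℝ}
    (hμ : 0 ≤ μ) {s : ℝ} (hs : s ∈ Set.Icc 0 t) {T : Finset α} (hT : T ∈ TT) {x : α}
    (hx : x ∈ T) :
    WW TT p x s / p {x} s - 2 * ∑ y ∈ T, (WW TT p y s - p T s) / p {y} s ≤
      6 - 4 * μ + 8 / 5 * μ * ∑ y ∈ T, xiLo TT p μ s y := by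
  have hpos : ∀ y ∈ T, 0 < p {y} s := fun y hy => h.single_pos (hA T hT hy) hs
  have hk : ∀ y ∈ T, 0 ≤ WW TT p y s / p {y} s + 4 / 5 * μ * xiLo TT p μ s y - 4 / 5 * μ := by
    intro y hy
    have h0 : 0 ≤ WW TT p y s / p {y} s := div_nonneg (h.WW_nonneg y hs) (hpos y hy).le
    unfold xiLo
    split_ifs with hc
    · linarith
    · have : 4 / 5 * μ ≤ WW TT p y s / p {y} s := by
        rw [le_div_iff₀ (hpos y hy)]; exact not_lt.1 hc
      linarith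
  have h1 := Finset.single_le_sum hk hx
  have h2 := Finset.sum_nonneg hk
  have h3 : ∑ y ∈ T, (WW TT p y s / p {y} s + 4 / 5 * μ * xiLo TT p μ s y - 4 / 5 * μ)
      = ∑ y ∈ T, WW TT p y s / p {y} s + 4 / 5 * μ * ∑ y ∈ T, xiLo TT p μ s y
        - 3 * (4 / 5 * μ) := by
    rw [Finset.sum_sub_distrib, Finset.sum_add_distrib, ← Finset.mul_sum, Finset.sum_const,
      hl.card3 T hT]
    simp
  have h4 : ∑ y ∈ T, WW TT p y s / p {y} s - 3 ≤ ∑ y ∈ T, (WW TT p y s - p T s) / p {y} s := by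
    have : ∑ y ∈ T, (WW TT p y s / p {y} s - 1) ≤ ∑ y ∈ T, (WW TT p y s - p T s) / p {y} s := by
      refine Finset.sum_le_sum fun y hy => ?_
      rw [sub_div]
      have : p T s / p {y} s ≤ 1 := (div_le_one (hpos y hy)).2 (h.le_single hy hs)
      linarith
    rw [Finset.sum_sub_distrib, Finset.sum_const, hl.card3 T hT] at this
    simpa using this
  have h5 : 0 ≤ μ * xiLo TT p μ s x := mul_nonneg hμ (xiLo_nonneg TT p μ s x)
  rw [h3] at h1 h2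
  linarith

theorem xi_low_sum (hA : ∀ T ∈ TT, T ⊆ A1) (p : Finset α → ℝ → ℝ) (μ s : ℝ) :
    ∑ T ∈ TT, p T s * ∑ y ∈ T, xiLo TT p μ s y ≤ 4 / 5 * μ * lowF TT A1 p μ s := by
  have e1 : ∑ T ∈ TT, p T s * ∑ y ∈ T, xiLo TT p μ s y
      = ∑ y ∈ A1, WW TT p y s * xiLo TT p μ s y := by
    simp only [Finset.mul_sum]
    rw [sum_inc_swap TT A1 hA (fun T y => p T s * xiLo TT p μ s y)]
    refine Finset.sum_congr rfl fun y _ => ?_
    unfold WW
    rw [Finset.sum_mul]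
  rw [e1]
  unfold lowF
  rw [Finset.mul_sum, Finset.sum_filter]
  refine Finset.sum_le_sum fun y _ => ?_
  unfold xiLo
  split_ifs with hc
  · linarith
  · simp

theorem Fwd.xi_der (h : Fwd TT A1 t p) (hl : LinHG TT) (hA : ∀ T ∈ TT, T ⊆ A1) {μ : ℝ}
    (hμ : 0 ≤ μ) {s : ℝ} (hs : s ∈ Set.Ico 0 t) :
    ∃ d, HasDerivWithinAt (xiF TT p) d (Set.Ici s) s ∧
      d ≤ (4 - 4 * μ) * xiF TT p s + 12 * μ ^ 2 * lowF TT A1 p μ s + 6 * errF TT A1 p s := by
  have hs' := Set.Ico_subset_Icc_self hs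
  refine ⟨∑ T ∈ TT, ∑ x ∈ T,
    (2 * p T s * (-(p T s * (1 + ∑ y ∈ T, (WW TT p y s - p T s) / p {y} s)) + errT TT p T s)
      * p {x} s - p T s ^ 2 * (-WW TT p x s)) / p {x} s ^ 2, ?_, ?_⟩
  · unfold xiF
    refine HasDerivWithinAt.fun_sum fun T hT => HasDerivWithinAt.fun_sum fun x hx => ?_
    have h1 := ((h.der_tri hl hT hs).fun_pow 2).fun_div (h.der_single x hs)
      (h.single_pos (hA T hT hx) hs').ne'
    refine h1.congr_deriv ?_
    norm_num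
  · have h1 : ∀ T ∈ TT, ∑ x ∈ T,
        (2 * p T s * (-(p T s * (1 + ∑ y ∈ T, (WW TT p y s - p T s) / p {y} s)) + errT TT p T s)
          * p {x} s - p T s ^ 2 * (-WW TT p x s)) / p {x} s ^ 2 ≤
        (4 - 4 * μ) * ∑ x ∈ T, p T s ^ 2 / p {x} s
          + 24 / 5 * μ * (p T s * ∑ y ∈ T, xiLo TT p μ s y) + 6 * |errT TT p T s| := by
      intro T hT
      refine (Finset.sum_le_sum fun x hx => xi_aux_real (h.single_pos (hA T hT hx) hs')
        (h.nonneg T s hs') (h.le_single hx hs') hμ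
        (Finset.sum_nonneg fun y _ => xiLo_nonneg TT p μ s y)
        (h.xi_hazard hl hA hμ hs' hT hx)).trans (le_of_eq ?_)
      rw [Finset.sum_add_distrib, Finset.sum_add_distrib, ← Finset.mul_sum, Finset.sum_const,
        Finset.sum_const, hl.card3 T hT]
      simp only [nsmul_eq_mul, Nat.cast_ofNat]
      ring
    refine (Finset.sum_le_sum h1).trans ?_
    rw [Finset.sum_add_distrib, Finset.sum_add_distrib, ← Finset.mul_sum, ← Finset.mul_sum,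
      ← Finset.mul_sum]
    have h2 := xi_low_sum hA p μ s
    have h3 := sum_abs_errT_le hA p s
    have h4 : 0 ≤ lowF TT A1 p μ s := Finset.sum_nonneg fun y _ => h.nonneg {y} s hs'
    have h5 := mul_le_mul_of_nonneg_left h2 hμ
    have h6 : 0 ≤ μ ^ 2 * lowF TT A1 p μ s := by positivity
    unfold xiF
    nlinarith

theorem xi_root_der {M s : ℝ} (hu : 0 < 1 + 2 * M * s) :
    HasDerivAt (fun s => Real.sqrt (Real.sqrt (1 + 2 * M * s)))
      (M / (2 * Real.sqrt (Real.sqrt (1 + 2 * M * s)) ^ 3)) s := by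
  have h1 : HasDerivAt (fun s => 1 + 2 * M * s) (2 * M) s := by
    simpa using ((hasDerivAt_id s).const_mul (2 * M)).const_add 1
  have hq : 0 < Real.sqrt (1 + 2 * M * s) := Real.sqrt_pos.2 hu
  have hr : 0 < Real.sqrt (Real.sqrt (1 + 2 * M * s)) := Real.sqrt_pos.2 hq
  have h2 := (h1.sqrt hu.ne').sqrt hq.ne'
  refine h2.congr_deriv ?_
  have e := Real.sq_sqrt hq.le
  generalize Real.sqrt (Real.sqrt (1 + 2 * M * s)) = r at *
  rw [← e]
  field_simp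

theorem xi_step_real {M M' R r x d lw er l B1 Er : ℝ} (hM' : 8 ≤ M') (hM : M' ≤ M)
    (hr : 0 < r) (hrR : r ≤ R) (hR : R ^ 4 = M / M') (hx : 0 ≤ x)
    (hlw : lw ≤ l * B1 / r ^ 2) (her : er ≤ Er) (hEr : 0 ≤ Er)
    (hd : d ≤ (4 - 4 * (M / r ^ 4)) * x + 12 * (M / r ^ 4) ^ 2 * lw + 6 * er) :
    d * r ^ 7 + x * (7 * r ^ 6 * (M / (2 * r ^ 3))) ≤
      (24 * M * l * B1 + 12 * Er * M * R ^ 2) * (M / (2 * r ^ 3)) := by
  have hM'0 : 0 < M' := by linarith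
  have hM0 : 0 < M := by linarith
  have hR0 : 0 < R := lt_of_lt_of_le hr hrR
  have hr4 : r ^ 4 ≤ M / M' := hR ▸ pow_le_pow_left₀ hr.le hrR 4
  have hμ : 8 ≤ M / r ^ 4 := by
    rw [le_div_iff₀ (by positivity)]
    rw [le_div_iff₀ hM'0] at hr4
    have : 0 < r ^ 4 := by positivity
    nlinarith
  have h1 : d ≤ (4 - 4 * (M / r ^ 4)) * x + 12 * (M / r ^ 4) ^ 2 * (l * B1 / r ^ 2) + 6 * Er := by
    have := mul_le_mul_of_nonneg_left hlw (by positivity : 0 ≤ 12 * (M / r ^ 4) ^ 2)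
    linarith
  have h2 := mul_le_mul_of_nonneg_right h1 (by positivity : 0 ≤ r ^ 7)
  have e1 : x * (7 * r ^ 6 * (M / (2 * r ^ 3))) = 7 / 2 * (M / r ^ 4) * x * r ^ 7 := by
    field_simp
  have e2 : 12 * (M / r ^ 4) ^ 2 * (l * B1 / r ^ 2) * r ^ 7
      = 24 * M * l * B1 * (M / (2 * r ^ 3)) := by
    field_simp; ring
  have h3 : r ^ 7 ≤ 2 * M * R ^ 2 * (M / (2 * r ^ 3)) := by
    have e3 : 2 * M * R ^ 2 * (M / (2 * r ^ 3)) = M ^ 2 * R ^ 2 / r ^ 3 := by field_simp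
    rw [e3, le_div_iff₀ (by positivity)]
    have h4 : r ^ 10 ≤ R ^ 10 := pow_le_pow_left₀ hr.le hrR 10
    have h5 : R ^ 4 ≤ M := by
      rw [hR, div_le_iff₀ hM'0]; nlinarith
    have h6 : (R ^ 4) ^ 2 ≤ M ^ 2 := pow_le_pow_left₀ (by positivity) h5 2
    have h7 := mul_le_mul_of_nonneg_right h6 (by positivity : 0 ≤ R ^ 2)
    nlinarith
  have h4 := mul_le_mul_of_nonneg_left h3 hEr
  have h5 : 0 ≤ (M / r ^ 4 - 8) * (x * r ^ 7) := mul_nonneg (by linarith) (by positivity)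
  rw [e1]
  nlinarith

theorem Fwd.xi_IIIa (h : Fwd TT A1 t p) (hl : LinHG TT) (hA : ∀ T ∈ TT, T ⊆ A1)
    {M M' s2 B1 l Er : ℝ} (hM' : 8 ≤ M') (hM : M' ≤ M) (hs2 : s2 ∈ Set.Icc 0 t)
    (he : 1 + 2 * M * s2 = M / M') (hB : 0 < B1) (hl0 : 0 ≤ l)
    (hlow : ∀ s ∈ Set.Icc 0 s2,
      lowF TT A1 p (M / (1 + 2 * M * s)) s ≤ l * B1 / Real.sqrt (1 + 2 * M * s))
    (hEr : ∀ s ∈ Set.Icc 0 s2, errF TT A1 p s ≤ Er) :
    xiF TT p s2 / (M' * (B1 * Real.sqrt (M' / M))) ≤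
      Real.sqrt (Real.sqrt (M' / M)) * (3 * (TT.card : ℝ) / (M * B1)) + 24 * l
        + 12 * Er / (B1 * Real.sqrt (M' / M)) := by
  have hM'0 : 0 < M' := by linarith
  have hM0 : 0 < M := by linarith
  have hu : ∀ s, 0 ≤ s → 0 < 1 + 2 * M * s := fun s hs => by positivity
  set r : ℝ → ℝ := fun s => Real.sqrt (Real.sqrt (1 + 2 * M * s)) with hr
  have hrpos : ∀ s, 0 ≤ s → 0 < r s := fun s hs => Real.sqrt_pos.2 (Real.sqrt_pos.2 (hu s hs))
  have hr2 : ∀ s, r s ^ 2 = Real.sqrt (1 + 2 * M * s) := fun s => Real.sq_sqrt (Real.sqrt_nonneg _)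
  have hr4 : ∀ s, 0 ≤ s → r s ^ 4 = 1 + 2 * M * s := fun s hs => by
    rw [show (4 : ℕ) = 2 * 2 from rfl, pow_mul, hr2, Real.sq_sqrt (hu s hs).le]
  have hrle : ∀ s, s ≤ s2 → r s ≤ r s2 := fun s hs =>
    Real.sqrt_le_sqrt (Real.sqrt_le_sqrt (by nlinarith))
  have hr0 : r 0 = 1 := by simp [hr]
  have hrc : Continuous r := by rw [hr]; fun_prop
  have hEr0 : 0 ≤ Er := (errF_nonneg TT A1 p 0).trans (hEr 0 ⟨le_rfl, hs2.1⟩)
  have hsub : Set.Ico 0 s2 ⊆ Set.Ico 0 t := Set.Ico_subset_Ico_right hs2.2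
  have hex : ∀ s, ∃ d, s ∈ Set.Ico 0 s2 → HasDerivWithinAt (xiF TT p) d (Set.Ici s) s ∧
      d ≤ (4 - 4 * (M / r s ^ 4)) * xiF TT p s
        + 12 * (M / r s ^ 4) ^ 2 * lowF TT A1 p (M / r s ^ 4) s + 6 * errF TT A1 p s := by
    intro s
    by_cases hs : s ∈ Set.Ico 0 s2
    · obtain ⟨d, hd⟩ := h.xi_der hl hA (μ := M / r s ^ 4) (by positivity) (hsub hs)
      exact ⟨d, fun _ => hd⟩
    · exact ⟨0, fun h' => absurd h' hs⟩
  choose d hd using hex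
  set C : ℝ := 24 * M * l * B1 + 12 * Er * M * r s2 ^ 2 with hC
  have hx0 : xiF TT p 0 = 3 * (TT.card : ℝ) := by
    unfold xiF
    rw [Finset.sum_congr rfl (g := fun _ => (3 : ℝ)) fun T hT => ?_]
    · simp [mul_comm]
    · rw [Finset.sum_congr rfl (g := fun _ => (1 : ℝ)) fun x hx => ?_]
      · simp [hl.card3 T hT]
      · rw [h.init T (hA T hT), h.init {x} (singleton_subset_iff.2 (hA T hT hx))]; norm_num
  have key := image_le_of_deriv_right_le_deriv_boundary (a := 0) (b := s2)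
    (f := fun s => xiF TT p s * r s ^ 7)
    (f' := fun s => d s * r s ^ 7 + xiF TT p s * (7 * r s ^ 6 * (M / (2 * r s ^ 3))))
    (B := fun s => 3 * (TT.card : ℝ) + C * r s) (B' := fun s => C * (M / (2 * r s ^ 3)))
    (((h.xi_cont hA).mono (Set.Icc_subset_Icc_right hs2.2)).mul (hrc.pow 7).continuousOn)
    (fun s hs => by
      have h1 := ((xi_root_der (hu s hs.1)).fun_pow 7).hasDerivWithinAt (s := Set.Ici s)
      refine ((hd s hs).1.fun_mul h1).congr_deriv ?_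
      norm_num [hr])
    (by
      have : 0 ≤ C := by rw [hC]; positivity
      simp only [hx0, hr0]
      linarith)
    (continuous_const.add (continuous_const.mul hrc)).continuousOn
    (fun s hs => (((xi_root_der (hu s hs.1)).const_mul C).const_add _).hasDerivWithinAt)
    (fun s hs => by
      have hs' : s ∈ Set.Icc 0 s2 := Set.Ico_subset_Icc_self hs
      refine xi_step_real hM' hM (hrpos s hs.1) (hrle s hs.2.le) (by rw [hr4 s2 hs2.1, he])
        (h.xi_nonneg (Set.Ico_subset_Icc_self (hsub hs))) ?_ (hEr s hs') hEr0 (hd s hs).2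
      rw [hr2, hr4 s hs.1]
      exact hlow s hs')
  have h1 := key (x := s2) ⟨hs2.1, le_rfl⟩
  have hR := hrpos s2 hs2.1
  have hR4 : r s2 ^ 4 = M / M' := by rw [hr4 s2 hs2.1, he]
  have e1 : M' / M = ((r s2 ^ 2)⁻¹) ^ 2 := by
    rw [inv_pow, ← pow_mul, hR4, inv_div]
  have e2 : Real.sqrt (M' / M) = (r s2)⁻¹ ^ 2 := by
    rw [e1, Real.sqrt_sq (by positivity), inv_pow]
  have e3 : Real.sqrt (Real.sqrt (M' / M)) = (r s2)⁻¹ := by
    rw [e2, Real.sqrt_sq (by positivity)]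
  have e4 : M' = M / r s2 ^ 4 := by rw [hR4]; field_simp
  rw [e3, e2, e4]
  rw [hC] at h1
  generalize r s2 = R at *
  generalize xiF TT p s2 = x at *
  have e5 : x / (M / R ^ 4 * (B1 * R⁻¹ ^ 2)) = x * R ^ 7 / (M * B1 * R) := by field_simp
  have e6 : R⁻¹ * (3 * (TT.card : ℝ) / (M * B1)) + 24 * l + 12 * Er / (B1 * R⁻¹ ^ 2)
      = (3 * (TT.card : ℝ) + (24 * M * l * B1 + 12 * Er * M * R ^ 2) * R) / (M * B1 * R) := by
    field_simp; ring
  rw [e5, e6]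
  exact div_le_div_of_nonneg_right h1 (by positivity)

end Vale.Agent.P046
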